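import Vale.Agent.P028G.Mom

/-! Pairs whose reduced ratio has many prime factors. -/

namespace Vale.Agent.P028G

open Finset Real MeasureTheory Filter Vale.Agent.P028

theorem Anat_nb : ∃ C : ℝ, 0 < C ∧ ∀ t L Y : ℝ, 2 ≤ t → ∀ N : ℕ, 0 < N →
    ∀ Γ : Finset (ℕ × ℕ), (∀ s ∈ Γ, 0 < s.1 ∧ (s.1 : ℝ) ≤ Y ∧ s.2 ∣ N ∧
      (L ≤ Lt t s.1 ∨ L ≤ Lt t s.2)) → nb N Γ ≤ C * exp (-(360 * t * L)) * √Y := by
  obtain ⟨C1, hC1, h1⟩ := tail_sqrt 360 (by norm_num)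
  obtain ⟨C2, hC2, h2⟩ := tail_pw 360 (by norm_num)
  refine ⟨C1 + 2 * C2, by positivity, fun t L Y ht N hN Γ hΓ => ?_⟩
  have k := nbr_or (N := N) (Γ := Γ) (p := fun s => L ≤ Lt t s.1) (q := fun s => L ≤ Lt t s.2)
    (c := C1 * exp (-(360 * t * L)) * √Y) (c' := C2 * exp (-(360 * t * L)) * (2 * √Y))
    (fun s hs => (hΓ s hs).2.2.2)
    (fun Δ hΔ hp => nbr_div N hN Δ (fun s hs => (hΓ s (hΔ hs)).2.2.1) _ fun d' S hS =>
      h1 t L Y ht S fun n hn => ⟨(hΓ _ (hΔ (hS n hn))).1, (hΓ _ (hΔ (hS n hn))).2.1,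
        hp _ (hS n hn)⟩)
    (fun Δ hΔ hq => nbr_fib2 N Δ Y (fun s hs => ⟨(hΓ s (hΔ hs)).1, (hΓ s (hΔ hs)).2.1⟩) _
      fun m' S hS => h2 t L ht N hN S fun n hn => ⟨(hΓ _ (hΔ (hS n hn))).2.2.1, hq _ (hS n hn)⟩)
  refine k.trans (le_of_eq ?_)
  ring

theorem Anat_base : ∃ c : ℝ, 0 < c ∧ ∀ {V W : Finset ℕ} {E : Finset (ℕ × ℕ)} {a b N : ℕ}
    {m d : ℕ → ℕ}, Clu V W E a b N m d → ∀ ψ : ℕ → ℝ, (∀ v ∈ V, 0 < ψ v) → (∀ w ∈ W, 0 < ψ w) →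
    ∀ y t L : ℝ, 0 < y → 2 ≤ t → Lt t a < L / 6 → Lt t b < L / 6 →
    (∀ e ∈ E, DD ψ e.1 e.2 ≤ y ∧ L ≤ Lt t (uu e.1 e.2 * uu e.2 e.1)) →
    ms (wt ψ) E ≤ c * exp (-(30 * t * L)) * y / √((a : ℝ) * b) *
      √((∑ v ∈ V, wt ψ v) * ∑ w ∈ W, wt ψ w) := by
  obtain ⟨C, hC0, hnb⟩ := Anat_nb
  refine ⟨24 * √C, by positivity, ?_⟩
  intro V W E a b N m d hC ψ hV hW y t L hy ht ha hb hE
  have e0 : exp (-(360 * t * (L / 6))) = exp (-(30 * t * L)) ^ 2 := by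
    rw [← exp_nat_mul]; congr 1; push_cast; ring
  have k := base_two hC ψ hV hW y hy (fun e he => (hE e he).1)
    (fun _ w => L / 6 ≤ Lt t (m w) ∨ L / 6 ≤ Lt t (d w))
    (C * exp (-(360 * t * (L / 6)))) (√C * exp (-(30 * t * L))) (by positivity) (by positivity)
    ?_ ?_ ?_
  · refine k.trans (le_of_eq ?_)
    ring
  · rw [e0, mul_pow, sq_sqrt hC0.le]
    have : 0 ≤ C * exp (-(30 * t * L)) ^ 2 := by positivity
    linarith
  · intro v _ Γ hΓ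
    refine hnb t (L / 6) _ ht N hC.Npos Γ fun s hs => ?_
    obtain ⟨w, he, hp, rfl⟩ := hΓ s hs
    obtain ⟨p1, p2, p3⟩ := base_factW hC ψ hV he (hE _ he).1
    exact ⟨p1, p2, p3, hp⟩
  · intro w _ Γ hΓ
    refine hnb t (L / 6) _ ht N hC.Npos Γ fun s hs => ?_
    obtain ⟨v, he, hp, rfl⟩ := hΓ s hs
    obtain ⟨p1, p2, p3⟩ := base_factV hC ψ hW he (hE _ he).1
    refine ⟨p1, p2, p3, ?_⟩
    by_contra hn
    simp only [not_or, not_le] at hp hn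
    obtain ⟨-, -, e1, e2, -⟩ := hC.edge _ he
    have hL := (hE _ he).2
    dsimp only at e1 e2 hL
    unfold uu at hL
    rw [Nat.gcd_comm w v, e1, e2] at hL
    have q1 := Lt_mul t (a * m v * d w) (b * m w * d v)
    have q2 := Lt_mul t (a * m v) (d w)
    have q3 := Lt_mul t a (m v)
    have q4 := Lt_mul t (b * m w) (d v)
    have q5 := Lt_mul t b (m w)
    linarith [hp.1, hp.2, hn.1, hn.2]

theorem Anat_bad (ε : ℝ) (h0 : 0 < ε) : ∃ C : ℝ, 0 < C ∧ ∀ t L : ℝ, 2 ≤ t →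
    ∀ T : Finset (ℕ × ℕ), (∀ s ∈ T, 0 < s.1 ∧ 0 < s.2 ∧ (L ≤ Lt t s.1 ∨ L ≤ Lt t s.2)) →
    ∑ s ∈ T, ((s.1 : ℝ) * s.2) ^ (-(1 + ε)) ≤ C * exp (-(360 * t * L)) := by
  classical
  obtain ⟨ζ, hζ0, hζ⟩ := zeta_bound ε h0
  obtain ⟨C, hC, h⟩ := tail_rpow ε 360 h0 (by norm_num)
  refine ⟨2 * (C * ζ), by positivity, fun t L ht T hT => ?_⟩
  have key : ∀ T : Finset (ℕ × ℕ), (∀ s ∈ T, 0 < s.1 ∧ 0 < s.2 ∧ L ≤ Lt t s.1) →
      ∑ s ∈ T, ((s.1 : ℝ) * s.2) ^ (-(1 + ε)) ≤ C * exp (-(360 * t * L)) * ζ := by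
    intro T hT
    have k := bad_fib T (fun n => (n : ℝ) ^ (-(1 + ε))) (C * exp (-(360 * t * L))) ζ
      (fun a => by positivity) (by positivity) hζ (fun s hs => (hT s hs).2.1)
      fun b S hS => h t L ht S fun a ha => ⟨(hT _ (hS a ha)).1, (hT _ (hS a ha)).2.2⟩
    refine le_trans (le_of_eq ?_) k
    exact sum_congr rfl fun s _ => mul_rpow (Nat.cast_nonneg _) (Nat.cast_nonneg _)
  rw [← sum_filter_add_sum_filter_not T fun s => L ≤ Lt t s.1]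
  have k1 := key (T.filter fun s => L ≤ Lt t s.1) fun s hs =>
    ⟨(hT s (mem_filter.1 hs).1).1, (hT s (mem_filter.1 hs).1).2.1, (mem_filter.1 hs).2⟩
  have k2 := key ((T.filter fun s => ¬ L ≤ Lt t s.1).image Prod.swap) fun s hs => by
    obtain ⟨s', hs', rfl⟩ := mem_image.1 hs
    obtain ⟨p1, p2, p3⟩ := hT s' (mem_filter.1 hs').1
    exact ⟨p2, p1, p3.resolve_left (mem_filter.1 hs').2⟩
  rw [sum_image fun _ _ _ _ e => Prod.swap_injective e] at k2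
  have e : ∑ s ∈ T.filter fun s => ¬ L ≤ Lt t s.1, ((s.1 : ℝ) * s.2) ^ (-(1 + ε)) =
      ∑ s ∈ T.filter fun s => ¬ L ≤ Lt t s.1,
        ((s.swap.1 : ℝ) * s.swap.2) ^ (-(1 + ε)) :=
    sum_congr rfl fun s _ => by rw [Prod.fst_swap, Prod.snd_swap, mul_comm]
  rw [e]
  linarith

theorem level_L (ε : ℝ) (h0 : 0 < ε) (h1 : ε ≤ 1 / 10) : ∃ C : ℝ, 0 < C ∧
    ∀ (ψ : ℕ → ℝ) (B : Finset ℕ), (∀ q, 0 ≤ ψ q) → (∀ q ∈ B, 0 < q ∧ 0 < ψ q) →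
    ∀ y t L : ℝ, 0 < y → 2 ≤ t → 0 ≤ L → ∀ E : Finset (ℕ × ℕ),
    (∀ e ∈ E, e.1 ∈ B ∧ e.2 ∈ B ∧ DD ψ e.1 e.2 ≤ y ∧ L ≤ Lt t (uu e.1 e.2 * uu e.2 e.1)) →
    ms (wt ψ) E ≤ C * y ^ (1 - 2 * ε) * exp (-(20 * t * L)) *
      (∑ q ∈ B, wt ψ q) ^ (1 + 2 * ε) := by
  classical
  obtain ⟨K, hK, hgen⟩ := level_gen ε h0 h1
  obtain ⟨ζ, hζ0, hζ⟩ := zeta_bound ε h0
  obtain ⟨Cb, hCb, hbad⟩ := Anat_bad ε h0
  obtain ⟨c, hc, hbase⟩ := Anat_base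
  have ht2 := th_ge h0 h1
  have ht3 := th_le h1
  set a1 : ℝ := (c ^ (1 - 2 * ε)) ^ th ε with ha1
  set a2 : ℝ := ((2 : ℝ) ^ (1 - 2 * ε)) ^ th ε with ha2
  have ha1p : 0 < a1 := by positivity
  have ha2p : 0 < a2 := by positivity
  refine ⟨(K * (ζ ^ 2 * a1 + Cb * a2)) ^ (1 / th ε), by positivity, ?_⟩
  intro ψ B hψ hB y t L hy ht hL E hE
  have htL : 0 ≤ t * L := by positivity
  have key := hgen ψ B hψ (fun q hq => (hB q hq).1) E (fun e he => ⟨(hE e he).1, (hE e he).2.1⟩)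
    (fun a b => if L / 6 ≤ Lt t a ∨ L / 6 ≤ Lt t b then 2 * y else c * exp (-(30 * t * L)) * y)
    (fun a b => by split_ifs <;> positivity) (ζ ^ 2 * a1 + Cb * a2)
    (y ^ (1 - 2 * ε) * exp (-(20 * t * L))) (by positivity) (by positivity) ?_ ?_
  · simpa only [mul_assoc] using key
  · intro T hT
    have g1 : ((c * exp (-(30 * t * L)) * y) ^ (1 - 2 * ε)) ^ th ε ≤
        a1 * (y ^ (1 - 2 * ε) * exp (-(20 * t * L))) ^ th ε := by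
      rw [ha1, ← mul_rpow (by positivity) (by positivity)]
      refine rpow_le_rpow (by positivity) ?_ (by linarith)
      rw [mul_assoc, mul_rpow hc.le (by positivity), mul_rpow (by positivity) hy.le, ← exp_mul,
        mul_comm (exp _)]
      refine mul_le_mul_of_nonneg_left (mul_le_mul_of_nonneg_left (exp_le_exp.2 ?_)
        (by positivity)) (by positivity)
      nlinarith
    have g2 : ((2 * y) ^ (1 - 2 * ε)) ^ th ε * exp (-(360 * t * (L / 6))) ≤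
        a2 * (y ^ (1 - 2 * ε) * exp (-(20 * t * L))) ^ th ε := by
      rw [ha2, mul_rpow (by norm_num) hy.le, mul_rpow (by positivity) (by positivity),
        mul_rpow (by positivity) (by positivity), ← exp_mul, mul_assoc]
      refine mul_le_mul_of_nonneg_left (mul_le_mul_of_nonneg_left (exp_le_exp.2 ?_)
        (by positivity)) (by positivity)
      nlinarith
    have g4 := hbad t (L / 6) ht (T.filter fun s => L / 6 ≤ Lt t s.1 ∨ L / 6 ≤ Lt t s.2)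
      fun s hs => ⟨(hT s (mem_filter.1 hs).1).1, (hT s (mem_filter.1 hs).1).2, (mem_filter.1 hs).2⟩
    have g5 := level_zeta hζ0 hζ (T.filter fun s => ¬ (L / 6 ≤ Lt t s.1 ∨ L / 6 ≤ Lt t s.2))
      fun s hs => hT s (mem_filter.1 hs).1
    rw [← sum_filter_add_sum_filter_not T fun s => L / 6 ≤ Lt t s.1 ∨ L / 6 ≤ Lt t s.2,
      sum_congr rfl fun s hs => by rw [if_pos (mem_filter.1 hs).2],
      sum_congr (s₁ := T.filter fun s => ¬ (L / 6 ≤ Lt t s.1 ∨ L / 6 ≤ Lt t s.2)) rfl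
        fun s hs => by rw [if_neg (mem_filter.1 hs).2], ← sum_mul, ← sum_mul]
    have g7 := mul_le_mul g5 g1 (by positivity) (by positivity)
    have g8 := mul_le_mul_of_nonneg_right g4
      (show 0 ≤ ((2 * y) ^ (1 - 2 * ε)) ^ th ε by positivity)
    have g9 := mul_le_mul_of_nonneg_left g2 hCb.le
    nlinarith
  · intro V hV W hW E' hE' a b N m d hC
    by_cases hg : L / 6 ≤ Lt t a ∨ L / 6 ≤ Lt t b
    · rw [if_pos hg]
      exact base_triv hC ψ (fun v hv => (hB v (hV hv)).2) (fun v hv => (hB v (hW hv)).2) y hy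
        fun e he => (hE e (hE' he)).2.2.1
    · rw [if_neg hg]
      rw [not_or, not_le, not_le] at hg
      exact hbase hC ψ (fun v hv => (hB v (hV hv)).2) (fun v hv => (hB v (hW hv)).2) y t L hy ht
        hg.1 hg.2 fun e he => (hE e (hE' he)).2.2

theorem level_anat (ε : ℝ) (h0 : 0 < ε) (h1 : ε ≤ 1 / 10) : ∃ C : ℝ, 0 < C ∧
    ∀ (ψ : ℕ → ℝ) (B : Finset ℕ), (∀ q, 0 ≤ ψ q) → (∀ q ∈ B, 0 < q ∧ 0 < ψ q) →
    ∀ y t : ℝ, 0 < y → 2 ≤ t → ∀ E : Finset (ℕ × ℕ),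
    (∀ e ∈ E, e.1 ∈ B ∧ e.2 ∈ B ∧ DD ψ e.1 e.2 ≤ y ∧ 1 < Lt t (uu e.1 e.2 * uu e.2 e.1)) →
    ∑ e ∈ E, wt ψ e.1 * wt ψ e.2 * exp (4 * Lt t (uu e.1 e.2 * uu e.2 e.1)) ≤
      C * y ^ (1 - 2 * ε) * exp (-(16 * t)) * (∑ q ∈ B, wt ψ q) ^ (1 + 2 * ε) := by
  classical
  obtain ⟨C, hC, hL⟩ := level_L ε h0 h1
  have hS0 : 0 ≤ ∑' j : ℕ, exp (-(j : ℝ)) := tsum_nonneg fun _ => (exp_pos _).le
  refine ⟨C * exp 1 * (∑' j : ℕ, exp (-(j : ℝ)) + 1), by positivity, ?_⟩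
  intro ψ B hψ hB y t hy ht E hE
  have hw : ∀ v, 0 ≤ wt ψ v := fun v => wt_nonneg (hψ v)
  have hW : 0 ≤ (∑ q ∈ B, wt ψ q) ^ (1 + 2 * ε) := rpow_nonneg (sum_nonneg fun q _ => hw q) _
  set A := C * y ^ (1 - 2 * ε) * (∑ q ∈ B, wt ψ q) ^ (1 + 2 * ε) with hA
  have hA0 : 0 ≤ A := by positivity
  set f : ℕ × ℕ → ℕ := fun e => ⌊Lt t (uu e.1 e.2 * uu e.2 e.1)⌋₊ with hf
  rw [← sum_fiberwise_of_maps_to (s := E) (t := E.image f) (g := f)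
    fun e he => mem_image_of_mem _ he]
  have k : ∀ j ∈ E.image f, ∑ e ∈ E with f e = j,
      wt ψ e.1 * wt ψ e.2 * exp (4 * Lt t (uu e.1 e.2 * uu e.2 e.1)) ≤
        A * exp (-(16 * t)) * exp 1 * exp (-(j : ℝ)) := by
    intro j hj
    obtain ⟨e0, he0, hj0⟩ := mem_image.1 hj
    have hj1 : (1 : ℝ) ≤ j := by
      have : 1 ≤ j := by
        rw [← hj0]
        exact Nat.le_floor (by simpa using (hE e0 he0).2.2.2.le)
      exact_mod_cast this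
    have k1 := hL ψ B hψ hB y t j hy ht (Nat.cast_nonneg _) (E.filter fun e => f e = j)
      fun e he => by
        obtain ⟨p1, p2⟩ := mem_filter.1 he
        refine ⟨(hE e p1).1, (hE e p1).2.1, (hE e p1).2.2.1, ?_⟩
        rw [← p2]
        exact Nat.floor_le (Lt_nonneg _ _)
    have k2 : ∑ e ∈ E with f e = j,
        wt ψ e.1 * wt ψ e.2 * exp (4 * Lt t (uu e.1 e.2 * uu e.2 e.1)) ≤
          ms (wt ψ) (E.filter fun e => f e = j) * exp (4 * (j + 1)) := by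
      unfold ms
      rw [sum_mul]
      refine sum_le_sum fun e he => mul_le_mul_of_nonneg_left (exp_le_exp.2 ?_)
        (mul_nonneg (hw _) (hw _))
      have := Nat.lt_floor_add_one (Lt t (uu e.1 e.2 * uu e.2 e.1))
      rw [← (mem_filter.1 he).2]
      linarith
    have k3 : exp (-(20 * t * j)) * exp (4 * (j + 1)) ≤
        exp (-(16 * t)) * exp 1 * exp (-(j : ℝ)) := by
      rw [← exp_add, ← exp_add, ← exp_add]
      refine exp_le_exp.2 ?_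
      nlinarith
    calc _ ≤ _ := k2
      _ ≤ C * y ^ (1 - 2 * ε) * exp (-(20 * t * j)) * (∑ q ∈ B, wt ψ q) ^ (1 + 2 * ε) *
          exp (4 * (j + 1)) := mul_le_mul_of_nonneg_right k1 (exp_pos _).le
      _ = A * (exp (-(20 * t * j)) * exp (4 * (j + 1))) := by rw [hA]; ring
      _ ≤ A * (exp (-(16 * t)) * exp 1 * exp (-(j : ℝ))) := mul_le_mul_of_nonneg_left k3 hA0
      _ = _ := by ring
  refine (sum_le_sum k).trans ?_
  rw [← mul_sum]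
  have k4 : ∑ j ∈ E.image f, exp (-(j : ℝ)) ≤ ∑' j : ℕ, exp (-(j : ℝ)) + 1 :=
    (Real.summable_exp_neg_nat.sum_le_tsum _ fun _ _ => (exp_pos _).le).trans (by linarith)
  refine (mul_le_mul_of_nonneg_left k4 (by positivity)).trans (le_of_eq ?_)
  rw [hA]
  ring

end Vale.Agent.P028G
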