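import Vale.Agent.P028G.Thin

/-! Bad multipliers are rare. -/

namespace Vale.Agent.P028G

open Finset Real MeasureTheory Filter Vale.Agent.P028

theorem bad2_G (ε : ℝ) (h0 : 0 < ε) : ∃ C : ℝ, 0 < C ∧ ∀ (θ y X : ℝ) (M : ℕ), 2 ≤ M → 1 ≤ X →
    0 < y → (∀ n : ℕ, 0 < n → Near (θ * n) (4 * (M : ℝ) ^ 5 * y) → M ^ 9 ≤ n) →
    ∀ T : Finset (ℕ × ℕ), (∀ t ∈ T, 0 < t.1 ∧ 0 < t.2 ∧ ¬ Good2 θ y M X t.1 t.2) →
    ∑ t ∈ T, ((t.1 : ℝ) * t.2) ^ (-(1 + ε)) ≤ C * (1 / M + X ^ (-(ε / 2))) := by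
  obtain ⟨C, hC, h⟩ := bad_sum ε h0
  refine ⟨C, hC, fun θ y X M hM hX hy hn T hT => ?_⟩
  have hM' : (2 : ℝ) ≤ M := by exact_mod_cast hM
  have h5 : (2 : ℝ) ^ 5 ≤ (M : ℝ) ^ 5 := pow_le_pow_left₀ (by norm_num) hM' 5
  refine h θ ((M : ℝ) ^ 5 * y / 4) X M (by omega) hX (by positivity) (fun n h1 h2 => hn n h1 ?_) T
    fun t ht => ⟨(hT t ht).1, (hT t ht).2.1, fun hG => (hT t ht).2.2 ?_⟩
  · exact h2.mono (le_of_eq (by ring))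
  · obtain ⟨g1, g2, g3, g4, g5⟩ := hG
    refine ⟨Or.inr fun s a1 a2 hN => g1 s a1 a2 (hN.mono (le_of_eq (by ring))),
      Or.inr fun s a1 a2 hN => g2 s a1 a2 (hN.mono (le_of_eq (by ring))),
      fun s s' a1 a2 a3 a4 hne _ _ hN => g3 s s' a1 a2 a3 a4 hne (hN.mono ?_), g4, g5⟩
    nlinarith

/-- The first multiplier is responsible. -/
def Bad2_L (θ y : ℝ) (M : ℕ) (X : ℝ) (a b : ℕ) : Prop :=
  (∃ t ∈ Icc 1 (M ^ 4), 1 < |θ| * a * (M : ℝ) ^ 4 ∧ Near (θ * (t * a)) (2 * (M : ℝ) ^ 5 * y)) ∨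
  (∃ p ∈ Icc 1 (M ^ 2) ×ˢ Icc 1 (M ^ 2), (M : ℝ) ^ 5 * y ≤ |θ| * (p.1 * a) ∧
    Near (θ * ((p.1 : ℝ) * a - p.2 * b)) (2 * y)) ∨ X < a

theorem Bad2_cases {θ y X : ℝ} {M a b : ℕ} (hG : ¬ Good2 θ y M X a b) :
    Bad2_L θ y M X a b ∨ Bad2_L θ y M X b a := by
  by_contra hc
  rw [not_or, Bad2_L, Bad2_L, not_or, not_or, not_or, not_or] at hc
  obtain ⟨⟨a1, a2, a3⟩, b1, -, b3⟩ := hc
  refine hG ⟨?_, ?_, fun t t' h1 h2 h3 h4 _ h5 _ hN => a2 ⟨(t, t'),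
    mem_product.2 ⟨mem_Icc.2 ⟨h1, h2⟩, mem_Icc.2 ⟨h3, h4⟩⟩, h5, hN⟩, not_lt.1 a3, not_lt.1 b3⟩
  · rcases le_or_gt (|θ| * a * (M : ℝ) ^ 4) 1 with h | h
    · exact Or.inl h
    · exact Or.inr fun t h1 h2 hN => a1 ⟨t, mem_Icc.2 ⟨h1, h2⟩, h, hN⟩
  · rcases le_or_gt (|θ| * b * (M : ℝ) ^ 4) 1 with h | h
    · exact Or.inl h
    · exact Or.inr fun t h1 h2 hN => b1 ⟨t, mem_Icc.2 ⟨h1, h2⟩, h, hN⟩

theorem Bad2_one {θ y : ℝ} {M t : ℕ} (hM : 2 ≤ M) (hy : 0 < y) (h1 : 2 * (M : ℝ) ^ 14 * y ≤ 1)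
    (h2 : |θ| * (M : ℝ) ^ 4 ≤ 4 * y) (ht : t ∈ Icc 1 (M ^ 4)) (S : Finset ℕ)
    (hS : ∀ a ∈ S, 1 < |θ| * a * (M : ℝ) ^ 4 ∧ Near (θ * (t * a)) (2 * (M : ℝ) ^ 5 * y)) :
    Thin S (21 / (M : ℝ) ^ 5) := by
  have hM' : (2 : ℝ) ≤ M := by exact_mod_cast hM
  have hM1 : (1 : ℝ) ≤ M := by linarith
  have hM0 : (0 : ℝ) < M := by linarith
  have t1 : (1 : ℝ) ≤ t := by exact_mod_cast (mem_Icc.1 ht).1
  have t2 : (t : ℝ) ≤ (M : ℝ) ^ 4 := by exact_mod_cast (mem_Icc.1 ht).2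
  have p5 : (2 : ℝ) ≤ (M : ℝ) ^ 5 := hM'.trans (le_self_pow₀ hM1 (by norm_num))
  have p9 : (2 : ℝ) ≤ (M : ℝ) ^ 9 := hM'.trans (le_self_pow₀ hM1 (by norm_num))
  have p4 : (1 : ℝ) ≤ (M : ℝ) ^ 4 := one_le_pow₀ hM1
  have hθ := abs_nonneg θ
  have q1 : 4 * y * (M : ℝ) ^ 5 ≤ 1 := by
    have : 2 * (2 * (M : ℝ) ^ 5 * y) ≤ (M : ℝ) ^ 9 * (2 * (M : ℝ) ^ 5 * y) :=
      mul_le_mul_of_nonneg_right p9 (by positivity)
    nlinarith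
  have q2 : (M : ℝ) ^ 5 * (2 * (M : ℝ) ^ 5 * y) * (M : ℝ) ^ 4 ≤ 1 := by nlinarith
  have ea : |θ * t| = |θ| * t := by rw [abs_mul, Nat.abs_cast]
  refine slow_thin (α := θ * t) (β := 0) (w := 2 * (M : ℝ) ^ 5 * y) p5 (by positivity) ?_ ?_
    fun a ha => ⟨?_, ?_, ?_⟩
  · rw [ea, le_div_iff₀ (by positivity)]
    have : |θ| * t ≤ 4 * y := (mul_le_mul_of_nonneg_left t2 hθ).trans h2
    exact (mul_le_mul_of_nonneg_right this (by positivity)).trans q1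
  · rw [le_div_iff₀ (by positivity)]
    have : (M : ℝ) ^ 5 * (2 * (M : ℝ) ^ 5 * y) * 1 ≤
        (M : ℝ) ^ 5 * (2 * (M : ℝ) ^ 5 * y) * (M : ℝ) ^ 4 :=
      mul_le_mul_of_nonneg_left p4 (by positivity)
    linarith
  · have a0 : (0 : ℝ) ≤ a := Nat.cast_nonneg a
    have h3 : |θ| * (M : ℝ) ^ 4 * a ≤ 4 * y * a := mul_le_mul_of_nonneg_right h2 a0
    have h4 := (hS a ha).1
    have h5 : 4 * y * (M : ℝ) ^ 5 ≤ 4 * y * a := by linarith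
    exact le_of_mul_le_mul_left h5 (by positivity)
  · have a0 : (0 : ℝ) ≤ a := Nat.cast_nonneg a
    have h4 := (hS a ha).1
    have h5 : (M : ℝ) ^ 5 * (2 * (M : ℝ) ^ 5 * y) ≤ |θ| * a :=
      le_of_mul_le_mul_right (q2.trans h4.le) (by positivity)
    have h6 : |θ| * a * 1 ≤ |θ| * a * t := mul_le_mul_of_nonneg_left t1 (by positivity)
    rw [ea]
    linarith
  · rw [sub_zero, mul_assoc]
    exact (hS a ha).2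

theorem Bad2_two {θ y β : ℝ} {M t : ℕ} (hM : 2 ≤ M) (hy : 0 < y)
    (h1 : 2 * (M : ℝ) ^ 14 * y ≤ 1) (h2 : |θ| * (M : ℝ) ^ 4 ≤ 4 * y) (ht : t ∈ Icc 1 (M ^ 2))
    (S : Finset ℕ) (hS : ∀ a ∈ S, (M : ℝ) ^ 5 * y ≤ |θ| * (t * a) ∧
      Near (θ * ((t : ℝ) * a - β)) (2 * y)) : Thin S (21 / ((M : ℝ) ^ 5 / 2)) := by
  have hM' : (2 : ℝ) ≤ M := by exact_mod_cast hM
  have hM1 : (1 : ℝ) ≤ M := by linarith
  have hM0 : (0 : ℝ) < M := by linarith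
  have t2 : (t : ℝ) ≤ (M : ℝ) ^ 2 := by exact_mod_cast (mem_Icc.1 ht).2
  have p5 : (2 : ℝ) ^ 5 ≤ (M : ℝ) ^ 5 := pow_le_pow_left₀ (by norm_num) hM' 5
  have p2 : (2 : ℝ) ^ 2 ≤ (M : ℝ) ^ 2 := pow_le_pow_left₀ (by norm_num) hM' 2
  have p9 : (1 : ℝ) ≤ (M : ℝ) ^ 9 := one_le_pow₀ hM1
  have p24 : (M : ℝ) ^ 2 ≤ (M : ℝ) ^ 4 := pow_le_pow_right₀ hM1 (by norm_num)
  have hθ := abs_nonneg θ
  have q1 : 2 * (M : ℝ) ^ 5 * y ≤ 1 := by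
    have : 1 * (2 * (M : ℝ) ^ 5 * y) ≤ (M : ℝ) ^ 9 * (2 * (M : ℝ) ^ 5 * y) :=
      mul_le_mul_of_nonneg_right p9 (by positivity)
    nlinarith
  have ea : |θ * t| = |θ| * t := by rw [abs_mul, Nat.abs_cast]
  have q0 : 0 < (M : ℝ) ^ 5 * y := by positivity
  refine slow_thin (α := θ * t) (β := θ * β) (w := 2 * y) (by linarith) (by positivity) ?_ ?_
    fun a ha => ⟨?_, ?_, ?_⟩
  · rw [ea, le_div_iff₀ (by positivity)]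
    have : |θ| * t ≤ 4 * y := (mul_le_mul_of_nonneg_left (t2.trans p24) hθ).trans h2
    have h3 := mul_le_mul_of_nonneg_right this (show 0 ≤ (M : ℝ) ^ 5 / 2 by positivity)
    linarith
  · rw [le_div_iff₀ (by positivity)]
    linarith
  · have a0 : (0 : ℝ) ≤ a := Nat.cast_nonneg a
    have h3 : |θ| * (M : ℝ) ^ 4 * a ≤ 4 * y * a := mul_le_mul_of_nonneg_right h2 a0
    have h4 : |θ| * (t * a) ≤ |θ| * ((M : ℝ) ^ 2 * a) :=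
      mul_le_mul_of_nonneg_left (mul_le_mul_of_nonneg_right t2 a0) hθ
    have h5 := mul_le_mul_of_nonneg_right ((hS a ha).1.trans h4) (show 0 ≤ (M : ℝ) ^ 2 by positivity)
    have h6 := mul_le_mul_of_nonneg_left p2 q0.le
    have h7 : 4 * y * ((M : ℝ) ^ 5 / 2) ≤ 4 * y * a := by nlinarith
    exact le_of_mul_le_mul_left h7 (by positivity)
  · rw [ea, mul_assoc]
    linarith [(hS a ha).1]
  · rw [mul_assoc, ← mul_sub]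
    exact (hS a ha).2

theorem Bad2_left {ε ζ ζ' θ y X : ℝ} {M : ℕ} (h0 : 0 < ε)
    (hζ : ∀ (S : Finset ℕ) (σ : ℝ), 0 ≤ σ → Thin S σ → (∀ n ∈ S, 0 < n) →
      ∑ n ∈ S, (n : ℝ) ^ (-(1 + ε)) ≤ ζ * σ)
    (hζ' : ∀ S : Finset ℕ, (∀ n ∈ S, 0 < n) → ∑ n ∈ S, (n : ℝ) ^ (-(1 + ε / 2)) ≤ ζ')
    (hM : 2 ≤ M) (hX : 1 ≤ X) (hy : 0 < y) (h1 : 2 * (M : ℝ) ^ 14 * y ≤ 1)
    (h2 : |θ| * (M : ℝ) ^ 4 ≤ 4 * y) (b : ℕ) (S : Finset ℕ)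
    (hS : ∀ a ∈ S, 0 < a ∧ Bad2_L θ y M X a b) :
    ∑ a ∈ S, (a : ℝ) ^ (-(1 + ε)) ≤ 21 * ζ / M + 42 * ζ / M + X ^ (-(ε / 2)) * ζ' := by
  have hM' : (0 : ℝ) < M := by exact_mod_cast (show 0 < M by omega)
  have hf : ∀ a : ℕ, 0 ≤ (a : ℝ) ^ (-(1 + ε)) := fun a => by positivity
  have e1 : ∀ S' : Finset ℕ, (∀ a ∈ S', 0 < a ∧ ∃ t ∈ Icc 1 (M ^ 4), 1 < |θ| * a * (M : ℝ) ^ 4 ∧
      Near (θ * (t * a)) (2 * (M : ℝ) ^ 5 * y)) →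
      ∑ a ∈ S', (a : ℝ) ^ (-(1 + ε)) ≤ 21 * ζ / M := fun S' hS' => by
    refine (bad_union S' (Icc 1 (M ^ 4)) (fun t a => 1 < |θ| * a * (M : ℝ) ^ 4 ∧
      Near (θ * (t * a)) (2 * (M : ℝ) ^ 5 * y)) _
      (fun _ => ζ * (21 / (M : ℝ) ^ 5)) (fun a _ => hf a) (fun a ha => (hS' a ha).2)
      fun t ht U hU => ?_).trans (le_of_eq ?_)
    · exact hζ U _ (by positivity) (Bad2_one hM hy h1 h2 ht U fun a ha => (hU a ha).2)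
        fun a ha => (hS' a (hU a ha).1).1
    · rw [sum_const, Nat.card_Icc, Nat.add_sub_cancel, nsmul_eq_mul]
      push_cast
      field_simp
  have e2 : ∀ S' : Finset ℕ, (∀ a ∈ S', 0 < a ∧ ∃ p ∈ Icc 1 (M ^ 2) ×ˢ Icc 1 (M ^ 2),
      (M : ℝ) ^ 5 * y ≤ |θ| * (p.1 * a) ∧ Near (θ * ((p.1 : ℝ) * a - p.2 * b)) (2 * y)) →
      ∑ a ∈ S', (a : ℝ) ^ (-(1 + ε)) ≤ 42 * ζ / M := fun S' hS' => by
    refine (bad_union S' (Icc 1 (M ^ 2) ×ˢ Icc 1 (M ^ 2))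
      (fun p a => (M : ℝ) ^ 5 * y ≤ |θ| * (p.1 * a) ∧
        Near (θ * ((p.1 : ℝ) * a - p.2 * b)) (2 * y)) _
      (fun _ => ζ * (21 / ((M : ℝ) ^ 5 / 2))) (fun a _ => hf a) (fun a ha => (hS' a ha).2)
      fun p hp U hU => ?_).trans (le_of_eq ?_)
    · exact hζ U _ (by positivity)
        (Bad2_two hM hy h1 h2 (mem_product.1 hp).1 U fun a ha => (hU a ha).2)
        fun a ha => (hS' a (hU a ha).1).1
    · rw [sum_const, card_product, Nat.card_Icc, Nat.add_sub_cancel, nsmul_eq_mul]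
      push_cast
      field_simp
      ring
  have e3 : ∀ S' : Finset ℕ, (∀ a ∈ S', 0 < a ∧ X < a) →
      ∑ a ∈ S', (a : ℝ) ^ (-(1 + ε)) ≤ X ^ (-(ε / 2)) * ζ' := fun S' hS' => by
    refine le_trans ?_ (mul_le_mul_of_nonneg_left (hζ' S' fun a ha => (hS' a ha).1)
      (by positivity))
    rw [mul_sum]
    refine sum_le_sum fun a ha => ?_
    have ha0 : (0 : ℝ) < a := by exact_mod_cast (hS' a ha).1
    rw [show -(1 + ε) = -(ε / 2) + -(1 + ε / 2) by ring, Real.rpow_add ha0]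
    exact mul_le_mul_of_nonneg_right
      (Real.rpow_le_rpow_of_nonpos (by linarith) (hS' a ha).2.le (by linarith)) (by positivity)
  have := bad_union S (univ : Finset (Fin 3)) (fun i a => ![∃ t ∈ Icc 1 (M ^ 4),
      1 < |θ| * a * (M : ℝ) ^ 4 ∧ Near (θ * (t * a)) (2 * (M : ℝ) ^ 5 * y),
      ∃ p ∈ Icc 1 (M ^ 2) ×ˢ Icc 1 (M ^ 2), (M : ℝ) ^ 5 * y ≤ |θ| * (p.1 * a) ∧
      Near (θ * ((p.1 : ℝ) * a - p.2 * b)) (2 * y), X < a] i) (fun a => (a : ℝ) ^ (-(1 + ε)))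
    ![21 * ζ / M, 42 * ζ / M, X ^ (-(ε / 2)) * ζ'] (fun a _ => hf a) (fun a ha => by
      rcases (hS a ha).2 with h1 | h1 | h1
      · exact ⟨0, mem_univ _, h1⟩
      · exact ⟨1, mem_univ _, h1⟩
      · exact ⟨2, mem_univ _, h1⟩) (fun i _ U hU => by
      fin_cases i
      · exact e1 U fun a ha => ⟨(hS a (hU a ha).1).1, (hU a ha).2⟩
      · exact e2 U fun a ha => ⟨(hS a (hU a ha).1).1, (hU a ha).2⟩
      · exact e3 U fun a ha => ⟨(hS a (hU a ha).1).1, (hU a ha).2⟩)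
  rw [Fin.sum_univ_three] at this
  exact this

theorem bad2_S (ε : ℝ) (h0 : 0 < ε) : ∃ C : ℝ, 0 < C ∧ ∀ (θ y X : ℝ) (M : ℕ), 2 ≤ M → 1 ≤ X →
    0 < y → 2 * (M : ℝ) ^ 14 * y ≤ 1 → |θ| * (M : ℝ) ^ 4 ≤ 4 * y →
    ∀ T : Finset (ℕ × ℕ), (∀ t ∈ T, 0 < t.1 ∧ 0 < t.2 ∧ ¬ Good2 θ y M X t.1 t.2) →
    ∑ t ∈ T, ((t.1 : ℝ) * t.2) ^ (-(1 + ε)) ≤ C * (1 / M + X ^ (-(ε / 2))) := by
  obtain ⟨ζ, hζ0, hζ⟩ := zeta_bound ε h0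
  obtain ⟨ζ', hζ0', hζ'⟩ := zeta_bound (ε / 2) (by positivity)
  obtain ⟨ξ, hξ0, hξ⟩ := thin_rpow ε h0
  refine ⟨2 * ((63 * ξ + ζ') * ζ), by positivity, fun θ y X M hM hX hy h1 h2 T hT => ?_⟩
  have hM' : (0 : ℝ) < M := by exact_mod_cast (show 0 < M by omega)
  have hf : ∀ a : ℕ, 0 ≤ (a : ℝ) ^ (-(1 + ε)) := fun a => by positivity
  obtain ⟨K, hK⟩ : ∃ K, K = 21 * ξ / M + 42 * ξ / M + X ^ (-(ε / 2)) * ζ' := ⟨_, rfl⟩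
  have hX0 : 0 ≤ X ^ (-(ε / 2)) := by positivity
  have hK0 : 0 ≤ K := by
    rw [hK]
    positivity
  have e1 : ∀ U : Finset (ℕ × ℕ), (∀ t ∈ U, 0 < t.1 ∧ 0 < t.2 ∧ Bad2_L θ y M X t.1 t.2) →
      ∑ t ∈ U, ((t.1 : ℝ) * t.2) ^ (-(1 + ε)) ≤ K * ζ := fun U hU => by
    refine le_trans (le_of_eq (sum_congr rfl fun t _ => ?_))
      (bad_fib U (fun a => (a : ℝ) ^ (-(1 + ε))) K ζ hf hK0 hζ (fun t ht => (hU t ht).2.1)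
        fun b S hS => ?_)
    · exact Real.mul_rpow (by positivity) (by positivity)
    · rw [hK]
      exact Bad2_left h0 hξ hζ' hM hX hy h1 h2 b S fun a ha =>
        ⟨(hU _ (hS a ha)).1, (hU _ (hS a ha)).2.2⟩
  have := bad_union T (univ : Finset (Fin 2))
    (fun i t => ![Bad2_L θ y M X t.1 t.2, Bad2_L θ y M X t.2 t.1] i)
    (fun t => ((t.1 : ℝ) * t.2) ^ (-(1 + ε))) (fun _ => K * ζ) (fun t _ => by positivity)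
    (fun t ht => by
      rcases Bad2_cases (hT t ht).2.2 with h1 | h1
      · exact ⟨0, mem_univ _, h1⟩
      · exact ⟨1, mem_univ _, h1⟩) (fun i _ U hU => by
      fin_cases i
      · exact e1 U fun t ht => ⟨(hT t (hU t ht).1).1, (hT t (hU t ht).1).2.1, (hU t ht).2⟩
      · have h2 := e1 (U.map (Equiv.prodComm ℕ ℕ).toEmbedding) fun t ht => by
          obtain ⟨s, hs, rfl⟩ := mem_map.1 ht
          exact ⟨(hT s (hU s hs).1).2.1, (hT s (hU s hs).1).1, (hU s hs).2⟩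
        rw [sum_map] at h2
        refine le_trans (le_of_eq (sum_congr rfl fun t _ => ?_)) h2
        rw [mul_comm]
        rfl)
  rw [Fin.sum_univ_two] at this
  refine this.trans ?_
  have h1 : K ≤ (63 * ξ + ζ') * (1 / M + X ^ (-(ε / 2))) := by
    have h2 : 0 ≤ 1 / (M : ℝ) := by positivity
    rw [hK, div_eq_mul_one_div (21 * ξ), div_eq_mul_one_div (42 * ξ)]
    nlinarith [mul_nonneg hξ0.le hX0, mul_nonneg hζ0'.le h2]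
  nlinarith [mul_le_mul_of_nonneg_right h1 hζ0.le]

end Vale.Agent.P028G
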