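import Vale.Agent.P028G.Thin

/-! Neighbour sums when the numerators are large. -/

namespace Vale.Agent.P028G

open Finset Real MeasureTheory Filter Vale.Agent.P028

theorem Nbr3_lac (D : Finset ℕ) : ∀ H : ℝ, 0 < H → (∀ d ∈ D, H ≤ d) →
    (∀ d ∈ D, ∀ d' ∈ D, d < d' → 2 * d ≤ d') → ∑ d ∈ D, 1 / (d : ℝ) ≤ 2 / H := by
  induction D using Finset.induction_on_min with
  | empty =>
    intro H hH _ _
    rw [sum_empty]
    positivity
  | insert a s ha ih =>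
    intro H hH h1 h2
    have has : a ∉ s := fun h => lt_irrefl _ (ha a h)
    have ha0 : H ≤ a := h1 a (mem_insert_self _ _)
    have ha1 : (0 : ℝ) < a := hH.trans_le ha0
    rw [sum_insert has]
    have h3 := ih (2 * a) (by positivity) (fun d hd => by
      exact_mod_cast h2 a (mem_insert_self _ _) d (mem_insert_of_mem hd) (ha d hd))
      fun d hd d' hd' => h2 d (mem_insert_of_mem hd) d' (mem_insert_of_mem hd')
    have h4 : 1 / (a : ℝ) + 2 / (2 * a) = 2 / a := by field_simp; ring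
    have h5 : 2 / (a : ℝ) ≤ 2 / H := by gcongr
    linarith

/-- Reduced approximants. -/
def Nbr3_Red (α y : ℝ) (e : ℕ) : Prop :=
  0 < e ∧ ∃ z : ℤ, z ≠ 0 ∧ IsCoprime z (e : ℤ) ∧ |α * e - z| < y / (e : ℝ) ^ 2

theorem Nbr3_reduce {α y : ℝ} {n : ℕ} (hn : 0 < n) (hy : 0 < y) {z : ℤ} (hz : z ≠ 0)
    (h : |α * n - z| < y / (n : ℝ) ^ 2) : ∃ e, e ∣ n ∧ Nbr3_Red α y e := by
  have hg : 0 < Int.gcd z n := Int.gcd_pos_of_ne_zero_left _ hz
  obtain ⟨z1, e1, hc, h1, h2⟩ := Int.exists_gcd_one hg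
  generalize Int.gcd z n = g at hg h1 h2
  have he : 0 < e1 := by
    have h3 : (0 : ℤ) < e1 * g := by rw [← h2]; exact_mod_cast hn
    have h4 : (0 : ℤ) < g := by exact_mod_cast hg
    exact (pos_iff_pos_of_mul_pos h3).2 h4
  obtain ⟨e, rfl⟩ := Int.eq_ofNat_of_zero_le he.le
  have h3 : n = e * g := by exact_mod_cast h2
  have he0 : 0 < e := by exact_mod_cast he
  refine ⟨e, ⟨g, h3⟩, he0, z1, ?_, Int.isCoprime_iff_gcd_eq_one.2 hc, ?_⟩
  · rintro rfl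
    exact hz (by rw [h1, zero_mul])
  · have hg1 : (1 : ℝ) ≤ g := by exact_mod_cast hg
    have he1 : (0 : ℝ) < e := by exact_mod_cast he0
    have e3 : α * n - z = (α * e - z1) * g := by
      rw [h3, h1]; push_cast; ring
    rw [e3, abs_mul, abs_of_nonneg (by linarith : (0 : ℝ) ≤ g)] at h
    have h5 : y / (n : ℝ) ^ 2 ≤ y / (e : ℝ) ^ 2 := by
      have : (e : ℝ) ≤ n := by rw [h3]; push_cast; nlinarith
      gcongr
    have h6 : |α * e - z1| * 1 ≤ |α * e - z1| * g := by gcongr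
    linarith

theorem Nbr3_gap {α y : ℝ} (hy : 0 < y) (hy4 : y ≤ 1 / 4) {e e' : ℕ} (h : Nbr3_Red α y e)
    (h' : Nbr3_Red α y e') (hlt : e < e') : 2 * e ≤ e' := by
  obtain ⟨he, z, -, hc, hz⟩ := h
  obtain ⟨he', z', -, hc', hz'⟩ := h'
  have hne : z * e' - z' * e ≠ 0 := by
    intro h0
    have h1 : (e' : ℤ) ∣ z' * e := ⟨z, by linarith⟩
    have h2 : (e' : ℤ) ∣ e := hc'.symm.dvd_of_dvd_mul_left h1
    have h3 : e' ∣ e := by exact_mod_cast h2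
    exact absurd (Nat.le_of_dvd he h3) (not_le.2 hlt)
  have h1 : (1 : ℝ) ≤ |(z : ℝ) * e' - z' * e| := by
    have := Int.one_le_abs hne
    exact_mod_cast this
  have e1 : (1 : ℝ) ≤ e := by exact_mod_cast he
  have e2 : (e : ℝ) ≤ e' := by exact_mod_cast hlt.le
  have e0 : (0 : ℝ) < e := by linarith
  have e0' : (0 : ℝ) < e' := by linarith
  have h2 : (z : ℝ) * e' - z' * e = (α * e' - z') * e - (α * e - z) * e' := by ring
  rw [h2] at h1
  have h3 := h1.trans (abs_sub _ _)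
  rw [abs_mul, abs_mul, abs_of_pos e0, abs_of_pos e0'] at h3
  have b1 : y / (e : ℝ) ^ 2 ≤ y / e := by
    apply div_le_div_of_nonneg_left hy.le e0
    nlinarith
  have b2 : y / (e' : ℝ) ^ 2 ≤ y / e := by
    apply div_le_div_of_nonneg_left hy.le e0
    nlinarith
  have b3 : |α * e' - z'| * e ≤ y / e * e' := by
    apply mul_le_mul (hz'.le.trans b2) e2 e0.le (by positivity)
  have b4 : |α * e - z| * e' ≤ y / e * e' := by
    apply mul_le_mul_of_nonneg_right (hz.le.trans b1) e0'.le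
  have b5 : 1 ≤ 2 * y * e' / e := by
    have : 2 * y * e' / e = y / e * e' + y / e * e' := by ring
    linarith
  rw [le_div_iff₀ e0] at b5
  have : (2 : ℝ) * e ≤ e' := by nlinarith
  exact_mod_cast this

theorem Nbr3_big {θ y : ℝ} {M a t e : ℕ} (hM : 2 ≤ M) (hy : 0 < y) (hy4 : y ≤ 1 / 4)
    (hg : G1 θ y M a) (t1 : 1 ≤ t) (t2 : t ≤ M) (h : Nbr3_Red (θ * a * t) y e) :
    (M : ℝ) ^ 3 / 2 ≤ e := by
  obtain ⟨he, z, hz0, -, hz⟩ := h
  have hM2 : (2 : ℝ) ≤ M := by exact_mod_cast hM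
  have hM0 : (0 : ℝ) < M := by linarith
  have e1 : (1 : ℝ) ≤ e := by exact_mod_cast he
  have b1 : y / (e : ℝ) ^ 2 ≤ y := div_le_self hy.le (by nlinarith)
  rcases hg with hg | hg
  · have t2' : (t : ℝ) ≤ M := by exact_mod_cast t2
    have h1 : (1 : ℝ) ≤ |(z : ℝ)| := by exact_mod_cast Int.one_le_abs hz0
    have h2 : |(z : ℝ)| ≤ |θ * a * t * e| + |θ * a * t * e - z| := by
      have := abs_sub (θ * a * t * e) (θ * a * t * e - z)
      simpa using this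
    have hab : |θ * a * t * e| = |θ| * a * t * e := by
      rw [abs_mul, abs_mul, abs_mul, Nat.abs_cast, Nat.abs_cast, Nat.abs_cast]
    have h3 : 1 / 2 ≤ |θ| * a * t * e := by linarith
    have h4 : |θ| * a * t * e * (M : ℝ) ^ 3 ≤ |θ| * a * M * e * (M : ℝ) ^ 3 := by gcongr
    have h5 : |θ| * a * M * e * (M : ℝ) ^ 3 = |θ| * a * (M : ℝ) ^ 4 * e := by ring
    have h6 : |θ| * a * (M : ℝ) ^ 4 * e ≤ 1 * e := by gcongr
    have h7 : 1 / 2 * (M : ℝ) ^ 3 ≤ |θ| * a * t * e * (M : ℝ) ^ 3 := by gcongr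
    linarith
  · by_contra hcon
    have h1 : (e : ℝ) ≤ (M : ℝ) ^ 3 := by
      have := not_le.1 hcon
      have : 0 < (M : ℝ) ^ 3 := by positivity
      linarith
    have h2 : e ≤ M ^ 3 := by exact_mod_cast h1
    refine hg (t * e) (Nat.mul_pos t1 he) ?_ ⟨z, ?_⟩
    · calc t * e ≤ M * M ^ 3 := Nat.mul_le_mul t2 h2
        _ = M ^ 4 := by ring
    · have e3 : θ * (((t * e : ℕ) : ℝ) * a) = θ * a * t * e := by push_cast; ring
      rw [e3]
      have h5 : (1 : ℝ) ≤ (M : ℝ) ^ 5 := one_le_pow₀ (by linarith)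
      nlinarith

theorem rst_pw {θ y : ℝ} {M a N : ℕ} (hM : 2 ≤ M) (hy : 0 < y) (hy4 : y ≤ 1 / 4)
    (hg : G1 θ y M a) (hN : 0 < N) (S : Finset ℕ) (hS : ∀ n ∈ S, n ∣ N ∧ Rst θ y M a n) :
    ∑ n ∈ S, pw N n ≤ 4 / (M : ℝ) ^ 2 := by
  classical
  have hM2 : (2 : ℝ) ≤ M := by exact_mod_cast hM
  have hM0 : (0 : ℝ) < M := by linarith
  have h0 : ∀ n ∈ S, ∃ p : ℕ × ℕ, 1 ≤ p.1 ∧ p.1 ≤ M ∧ p.2 ∣ n ∧ Nbr3_Red (θ * a * p.1) y p.2 := by
    intro n hn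
    obtain ⟨h1, t, t1, t2, z, hz0, hz⟩ := hS n hn
    have e1 : θ * (a * n) * t = θ * a * t * n := by ring
    rw [e1] at hz
    obtain ⟨e, he, hr⟩ := Nbr3_reduce (Nat.pos_of_dvd_of_pos h1 hN) hy hz0 hz
    exact ⟨(t, e), t1, t2, he, hr⟩
  choose! τ h1 h2 h3 h4 using h0
  rw [← sum_fiberwise_of_maps_to (t := Icc 1 M) (g := fun n => (τ n).1)
    fun n hn => mem_Icc.2 ⟨h1 n hn, h2 n hn⟩]
  refine (sum_le_card_nsmul _ _ (4 / (M : ℝ) ^ 3) fun t ht => ?_).trans (le_of_eq ?_)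
  · obtain ⟨t1, t2⟩ := mem_Icc.1 ht
    set St := S.filter fun n => (τ n).1 = t with hSt
    have hD : ∀ e ∈ St.image fun n => (τ n).2, Nbr3_Red (θ * a * t) y e := by
      intro e he
      obtain ⟨n, hn, rfl⟩ := mem_image.1 he
      obtain ⟨hn1, hn2⟩ := mem_filter.1 hn
      rw [← hn2]
      exact h4 n hn1
    have h5 := Nbr3_lac (St.image fun n => (τ n).2) ((M : ℝ) ^ 3 / 2) (by positivity)
      (fun e he => Nbr3_big hM hy hy4 hg t1 t2 (hD e he))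
      fun e he e' he' hlt => Nbr3_gap hy hy4 (hD e he) (hD e' he') hlt
    rw [← sum_fiberwise_of_maps_to (t := St.image fun n => (τ n).2) (g := fun n => (τ n).2)
      fun n hn => mem_image_of_mem _ hn]
    refine le_trans (sum_le_sum fun e _ => ?_) (h5.trans (le_of_eq ?_))
    · refine le_trans ?_ (Pi_mult N e hN)
      rw [← sum_filter]
      refine sum_le_sum_of_subset_of_nonneg (fun n hn => ?_) fun n _ _ => pw_nonneg N n
      obtain ⟨hn1, hn2⟩ := mem_filter.1 hn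
      have hn3 := (mem_filter.1 hn1).1
      refine mem_filter.2 ⟨Nat.mem_divisors.2 ⟨(hS n hn3).1, hN.ne'⟩, ?_⟩
      rw [← hn2]
      exact h3 n hn3
    · field_simp
      norm_num
  · rw [Nat.card_Icc, nsmul_eq_mul]
    simp only [add_tsub_cancel_right]
    field_simp

theorem nb_SH2 (θ y X δ Y Z : ℝ) (M a b m d N : ℕ) (hM : 2 ≤ M) (hN : 0 < N) (hy : 0 < y)
    (hyM : 8 * (M : ℝ) ^ 2 * y ≤ 1) (hd : 0 < d) (hg : Good2 θ y M X a b)
    (hδ : ∑ d' ∈ N.divisors.filter (fun d' : ℕ => Z < d'), pw N d' ≤ δ)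
    (Γ : Finset (ℕ × ℕ))
    (hΓ : ∀ t ∈ Γ, 0 < t.1 ∧ (t.1 : ℝ) ≤ Y ∧ t.2 ∣ N ∧
      Near (θ * ((a : ℝ) * m * t.2 - b * t.1 * d)) (2 * y) ∧ SH2 θ y Y Z M a b d t.1 t.2) :
    nb N Γ ≤ (2 * δ + 150 / M) * √Y := by
  have hM2 : (2 : ℝ) ≤ M := by exact_mod_cast hM
  have hM0 : (0 : ℝ) < M := by linarith
  have hd0 : (1 : ℝ) ≤ d := Nat.one_le_cast.2 hd
  have hMy : 16 * M * y ≤ 1 := by
    have : (M : ℝ) * y * 2 ≤ M * y * M := by gcongr
    nlinarith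
  have hy4 : y ≤ 1 / 4 := by nlinarith
  have hnear : ∀ t ∈ Γ, Near (θ * ((b : ℝ) * d) * t.1 - θ * (a * m * t.2)) (2 * y) := by
    intro t ht
    have h2 := (hΓ t ht).2.2.2.1.neg
    have e : θ * ((b : ℝ) * d) * t.1 - θ * (a * m * t.2) =
        -(θ * ((a : ℝ) * m * t.2 - b * t.1 * d)) := by ring
    rwa [e]
  have c1 : ∀ Δ ⊆ Γ, (∀ t ∈ Δ, Z < t.2) → nb N Δ ≤ δ * (2 * √Y) := by
    intro Δ hs hc
    refine (nbr_fib1 N _ (N.divisors.filter fun d' : ℕ => Z < d') (fun t ht => ?_) (2 * √Y)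
      fun d' S hS => nbr_all Y S fun n hn => ?_).trans
      (mul_le_mul_of_nonneg_right hδ (by positivity))
    · exact mem_filter.2 ⟨Nat.mem_divisors.2 ⟨(hΓ t (hs ht)).2.2.1, hN.ne'⟩, hc t ht⟩
    · have := hΓ _ (hs (hS n hn))
      exact ⟨this.1, this.2.1⟩
  have c2 : ∀ Δ ⊆ Γ, (∀ t ∈ Δ,
      (∀ s : ℕ, 1 ≤ s → s ≤ M → ∀ z : ℤ, y / (d : ℝ) ^ 2 ≤ |θ * (b * d) * s - z|) ∧
      Y / 2 < t.1 ∧ (M : ℝ) ≤ y / (d : ℝ) ^ 2 * Y) → nb N Δ ≤ (48 * y + 4 / M) * √Y := by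
    intro Δ hs hc
    refine nbr_div N hN _ (fun t ht => (hΓ t (hs ht)).2.2.1) _ fun d' S hS => ?_
    rcases S.eq_empty_or_nonempty with rfl | ⟨n0, hn0⟩
    · rw [sum_empty]
      positivity
    have hS1 := fun n hn => hΓ _ (hs (hS n hn))
    have hS2 := fun n hn => hc _ (hS n hn)
    have hY : 0 < Y := (Nat.cast_pos.2 (hS1 n0 hn0).1).trans_le (hS1 n0 hn0).2.1
    have h1 := rot_count (θ * (b * d)) (θ * (a * m * d')) y Y (y / (d : ℝ) ^ 2) M (by omega) hy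
      hy4 (by positivity) ((div_le_one (by positivity)).2 (by nlinarith)) (hS2 n0 hn0).1
      (hS2 n0 hn0).2.2 S fun n hn => ⟨(hS1 n hn).1, (hS1 n hn).2.1, hnear _ (hs (hS n hn))⟩
    have h2 : ∀ n ∈ S, 1 / √(n : ℝ) ≤ 2 / √Y := by
      intro n hn
      have h3 : Y / 2 < n := (hS2 n hn).2.1
      rw [div_le_div_iff₀ (sqrt_pos.2 (by linarith)) (sqrt_pos.2 hY), one_mul,
        sqrt_le_left (by positivity), mul_pow, sq_sqrt (by positivity)]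
      linarith
    refine (sum_le_card_nsmul _ _ _ h2).trans ?_
    rw [nsmul_eq_mul]
    refine (mul_le_mul_of_nonneg_right h1 (by positivity)).trans (le_of_eq ?_)
    have h4 : Y = √Y * √Y := (mul_self_sqrt hY.le).symm
    have h5 : 0 < √Y := sqrt_pos.2 hY
    calc (24 * y + 2 / M) * Y * (2 / √Y) = (24 * y + 2 / M) * (√Y * √Y) * (2 / √Y) := by
          rw [← h4]
      _ = _ := by field_simp; ring
  have c3 : ∀ Δ ⊆ Γ, (∀ t ∈ Δ, |θ| * (b * d) ≤ 1 / (2 * M) ∧ M ≤ t.1 ∧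
      (M : ℝ) ^ 5 * y ≤ |θ| * (b * t.1 * d)) → nb N Δ ≤ 4 * (21 / M) * √Y := by
    intro Δ hs hc
    refine nbr_div N hN Δ (fun t ht => (hΓ t (hs ht)).2.2.1) _ fun d' S hS => ?_
    rcases S.eq_empty_or_nonempty with rfl | ⟨n0, hn0⟩
    · rw [sum_empty]
      positivity
    have hal : |θ * ((b : ℝ) * d)| = |θ| * (b * d) := by
      rw [abs_mul, abs_of_nonneg (by positivity : (0 : ℝ) ≤ (b : ℝ) * d)]
    refine thin_sqrt (by positivity) (slow_thin (α := θ * (b * d)) (β := θ * (a * m * d'))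
      (w := 2 * y) hM2 (by linarith) ?_ ?_ fun n hn => ⟨?_, ?_, hnear _ (hs (hS n hn))⟩)
      fun n hn => ⟨(hΓ _ (hs (hS n hn))).1, (hΓ _ (hs (hS n hn))).2.1⟩
    · rw [hal]
      refine (hc _ (hS n0 hn0)).1.trans ?_
      gcongr
      linarith
    · rw [le_div_iff₀ hM0]; nlinarith
    · exact_mod_cast (hc _ (hS n hn)).2.1
    · rw [hal]
      have h1 : (M : ℝ) ^ 5 * y ≤ |θ| * (b * n * d) := (hc _ (hS n hn)).2.2
      have h4 : (2 : ℝ) ≤ (M : ℝ) ^ 4 := by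
        have : (2 : ℝ) ^ 4 ≤ (M : ℝ) ^ 4 := by gcongr
        linarith
      have h5 : (M : ℝ) * y * 2 ≤ M * y * (M : ℝ) ^ 4 := by gcongr
      nlinarith
  have c4 : ∀ Δ ⊆ Γ, (∀ t ∈ Δ, Rst θ y M a t.2) → nb N Δ ≤ 4 / (M : ℝ) ^ 2 * (2 * √Y) := by
    intro Δ hs hc
    refine nbr_fib2 N Δ Y (fun t ht => ⟨(hΓ t (hs ht)).1, (hΓ t (hs ht)).2.1⟩) _ fun m' S hS => ?_
    exact rst_pw hM hy hy4 hg.1 hN S fun n hn =>
      ⟨(hΓ (m', n) (hs (hS n hn))).2.2.1, hc (m', n) (hS n hn)⟩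
  refine (nbr_four N Γ (fun t ht => (hΓ t ht).2.2.2.2) c1 c2 c3 c4).trans ?_
  have h1 : 48 * y ≤ 3 * (1 / M) := by
    rw [mul_one_div, le_div_iff₀ hM0]; linarith
  have h2 : 4 / (M : ℝ) ^ 2 ≤ 2 * (1 / M) := by
    rw [mul_one_div, div_le_div_iff₀ (by positivity) hM0]; nlinarith
  have h3 := mul_le_mul_of_nonneg_right h1 (sqrt_nonneg Y)
  have h4 := mul_le_mul_of_nonneg_right h2 (sqrt_nonneg Y)
  have h5 : 0 ≤ 1 / (M : ℝ) * √Y := by positivity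
  generalize (M : ℝ) ^ 2 = P at h4 ⊢
  simp only [div_eq_mul_inv] at h3 h4 h5 ⊢
  nlinarith

end Vale.Agent.P028G
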