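import Vale.Agent.P028G.Nbr2
import Vale.Agent.P028G.Nbr3

/-! The saving inside a cluster with good multipliers. -/

namespace Vale.Agent.P028G

open Finset Real MeasureTheory Filter Vale.Agent.P028

theorem MM_facts {y : ℝ} (hy : 0 < y) (hy0 : y ≤ 1 / 2 ^ 80) :
    4 ≤ MM y ∧ (MM y : ℝ) ^ 40 * y ≤ 1 ∧ 1 / (MM y : ℝ) ≤ 2 * y ^ (1 / 40 : ℝ) := by
  have hx : 0 < y ^ (-(1 / 40 : ℝ)) := rpow_pos_of_pos hy _
  have h40 : (y ^ (-(1 / 40 : ℝ))) ^ 40 * y = 1 := by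
    rw [← rpow_natCast, ← rpow_mul hy.le]
    norm_num
    rw [rpow_neg_one, inv_mul_cancel₀ hy.ne']
  have h4 : 4 ≤ y ^ (-(1 / 40 : ℝ)) := by
    refine (pow_le_pow_iff_left₀ (by norm_num) hx.le (by norm_num : 40 ≠ 0)).1 ?_
    refine le_of_mul_le_mul_right ?_ hy
    rw [h40]
    linarith
  have hM : 4 ≤ MM y := Nat.le_floor (by exact_mod_cast h4)
  have hM' : (4 : ℝ) ≤ MM y := by exact_mod_cast hM
  refine ⟨hM, ?_, ?_⟩
  · rw [← h40]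
    have : (MM y : ℝ) ≤ y ^ (-(1 / 40 : ℝ)) := Nat.floor_le hx.le
    gcongr
  · have h1 : y ^ (-(1 / 40 : ℝ)) < MM y + 1 := Nat.lt_floor_add_one _
    have e : y ^ (-(1 / 40 : ℝ)) * y ^ (1 / 40 : ℝ) = 1 := by rw [← rpow_add hy]; simp
    have h2 : 0 < y ^ (1 / 40 : ℝ) := rpow_pos_of_pos hy _
    rw [div_le_iff₀ (by linarith)]
    nlinarith

theorem Base2_small {M y y' : ℝ} (hM : 4 ≤ M) (hy : 0 < y) (h40 : M ^ 40 * y ≤ 1)
    (hy2 : y' ≤ M ^ 9 * y) : 4 * M ^ 6 * y' ≤ 1 := by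
  have h1 : M ^ 16 ≤ M ^ 40 := pow_le_pow_right₀ (by linarith) (by norm_num)
  calc 4 * M ^ 6 * y' ≤ M * M ^ 6 * (M ^ 9 * y) := by
        rw [mul_assoc, mul_assoc M]
        exact (mul_le_mul_of_nonneg_left (mul_le_mul_of_nonneg_left hy2 (by positivity))
          (by norm_num)).trans (mul_le_mul_of_nonneg_right hM (by positivity))
    _ = M ^ 16 * y := by ring
    _ ≤ 1 := (mul_le_mul_of_nonneg_right h1 hy.le).trans h40

theorem Base2_key {M y s c n Z : ℝ} (hM : 4 ≤ M) (hy : 0 < y) (h40 : M ^ 40 * y ≤ 1) (hs : 0 < s)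
    (hZ : 1 < Z) (hc : c ≤ y ^ (-(20 : ℝ))) (hn0 : 0 ≤ n) (hn : n ≤ Z)
    (h : s * (Z * y ^ (-(22 : ℝ))) ^ (4 + 1) ≤ 1) : 4 * M ^ 15 * (s * c * n ^ 3) ≤ y ^ 2 := by
  have e1 : y ^ (-(20 : ℝ)) = (y ^ 20)⁻¹ := by rw [rpow_neg hy.le]; norm_cast
  have e2 : y ^ (-(22 : ℝ)) = (y ^ 22)⁻¹ := by rw [rpow_neg hy.le]; norm_cast
  rw [e1] at hc
  rw [e2, mul_pow, inv_pow, ← pow_mul, ← mul_assoc, mul_inv_le_iff₀ (by positivity), one_mul] at h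
  have h1 : n ^ 3 ≤ Z ^ (4 + 1) :=
    (pow_le_pow_left₀ hn0 hn 3).trans (pow_le_pow_right₀ hZ.le (by norm_num))
  have h2 : s * c * n ^ 3 ≤ y ^ 90 := by
    calc s * c * n ^ 3 ≤ s * (y ^ 20)⁻¹ * Z ^ (4 + 1) := by gcongr
      _ = s * Z ^ (4 + 1) * (y ^ 20)⁻¹ := by ring
      _ ≤ y ^ (22 * (4 + 1)) * (y ^ 20)⁻¹ := by gcongr
      _ = y ^ 90 := by field_simp
  have h3 : (1 : ℝ) ≤ M ^ 40 := one_le_pow₀ (by linarith)
  have hy1 : y ≤ 1 := by nlinarith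
  have h4 : 4 * M ^ 15 * y ≤ 1 := by
    refine le_trans ?_ h40
    have : M * M ^ 15 ≤ M ^ 40 := by
      rw [← pow_succ']
      exact pow_le_pow_right₀ (by linarith) (by norm_num)
    have : 4 * M ^ 15 ≤ M * M ^ 15 := by gcongr
    gcongr
    linarith
  calc 4 * M ^ 15 * (s * c * n ^ 3) ≤ 4 * M ^ 15 * y ^ 90 := by gcongr
    _ = 4 * M ^ 15 * y * y ^ 89 := by ring
    _ ≤ 1 * y ^ 2 := mul_le_mul h4 (pow_le_pow_of_le_one hy.le hy1 (by norm_num)) (by positivity)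
        zero_le_one
    _ = y ^ 2 := one_mul _

theorem Base2_half {θ P Q y' T : ℝ} (hP : 0 ≤ P) (hQ : 0 ≤ Q) (hn : Near (θ * (P - Q)) (2 * y'))
    (y0 : 0 < y') (a5 : 4 * y' ≤ T) (hT : 4 * T ≤ 1) (c3 : |θ| * Q < T) (q2 : 4 * T ≤ |θ| * P) :
    1 / 2 ≤ |θ| * P := by
  obtain ⟨z, hz⟩ := hn
  rw [← abs_of_nonneg hP, ← abs_mul] at q2 ⊢
  rw [← abs_of_nonneg hQ, ← abs_mul] at c3
  rw [mul_sub] at hz
  have a1 := abs_le.1 hz
  have a2 := abs_lt.1 c3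
  have a3 := le_abs_self (θ * P)
  have a4 := neg_abs_le (θ * P)
  rcases lt_trichotomy z 0 with h | rfl | h
  · have : (z : ℝ) ≤ -1 := by exact_mod_cast Int.le_sub_one_of_lt h
    linarith
  · rw [Int.cast_zero] at a1
    have : |θ * P| ≤ 2 * y' + T := abs_le.2 ⟨by linarith, by linarith⟩
    linarith
  · have : (1 : ℝ) ≤ z := by exact_mod_cast h
    linarith

theorem Base2_ph {τ y y' s M Q a d : ℝ} (hτ : 0 ≤ τ) (hM : 0 ≤ M) (hy : 0 < y) (y1 : y ≤ 1)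
    (hy2 : y' ≤ M ^ 9 * y) (hs : 0 < s) (ha : 0 ≤ a) (hd : 1 ≤ d)
    (k2 : 4 * M ^ 15 * (s * a * d ^ 3) ≤ y ^ 2) (hbig : y / 2 < s * Q) (c3 : τ * Q < M ^ 5 * y') :
    τ * (a * d) * (2 * M) ≤ 1 := by
  have q4 : τ ≤ 2 * s * M ^ 14 := by
    refine le_of_mul_le_mul_right ?_ (half_pos hy)
    calc τ * (y / 2) ≤ τ * (s * Q) := by gcongr
      _ = s * (τ * Q) := by ring
      _ ≤ s * (M ^ 5 * (M ^ 9 * y)) :=
        mul_le_mul_of_nonneg_left (c3.le.trans (by gcongr)) hs.le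
      _ = _ := by ring
  have h2 : d ≤ d ^ 3 := le_self_pow₀ hd (by norm_num)
  calc τ * (a * d) * (2 * M) ≤ 2 * s * M ^ 14 * (a * d ^ 3) * (2 * M) := by gcongr
    _ = 4 * M ^ 15 * (s * a * d ^ 3) := by ring
    _ ≤ 1 := k2.trans (pow_le_one₀ hy.le y1)

theorem Base2_cover {θ y y' s Y' Z : ℝ} {M a b m d m' d' : ℕ} (hM : (4 : ℝ) ≤ M) (hy : 0 < y)
    (y1 : y ≤ 1) (h40 : (M : ℝ) ^ 40 * y ≤ 1) (hy1 : y ≤ y') (hy2 : y' ≤ (M : ℝ) ^ 9 * y)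
    (hs : 0 < s) (hb : 0 < b) (hd : 0 < d) (hd' : 0 < d')
    (k1 : 4 * (M : ℝ) ^ 15 * (s * b * (d : ℝ) ^ 3) ≤ y ^ 2)
    (k2 : 4 * (M : ℝ) ^ 15 * (s * a * (d' : ℝ) ^ 3) ≤ y ^ 2)
    (hbig : y / 2 < s * ((b : ℝ) * m' * d))
    (hn : Near (θ * ((a : ℝ) * m * d' - b * m' * d)) (2 * y'))
    (hph : (M : ℝ) ^ 6 * y' ≤ |θ| * max ((a : ℝ) * m * d') (b * m' * d)) :
    SH2 θ y' (y / (s * b * d)) Z M a b d m' d' ∨ SH2 θ y' Y' Z M b a d' m d := by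
  have d1 : (1 : ℝ) ≤ d := by exact_mod_cast hd
  have d1' : (1 : ℝ) ≤ d' := by exact_mod_cast hd'
  have hs6 := Base2_small hM hy h40 hy2
  have M1 : (1 : ℝ) ≤ M := by linarith
  have y0 : 0 < y' := hy.trans_le hy1
  have M15 : (M : ℝ) ≤ (M : ℝ) ^ 15 := le_self_pow₀ M1 (by norm_num)
  have M5 : (4 : ℝ) ≤ (M : ℝ) ^ 5 := hM.trans (le_self_pow₀ M1 (by norm_num))
  have a5 : 4 * y' ≤ (M : ℝ) ^ 5 * y' := by gcongr
  have M6 : 4 * ((M : ℝ) ^ 5 * y') ≤ (M : ℝ) ^ 6 * y' := by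
    rw [pow_succ' (M : ℝ) 5, mul_assoc]; gcongr
  have p1 : 0 < s * b * d := by positivity
  have k3 : 4 * M * (s * b * (d : ℝ) ^ 3) ≤ y * y := le_trans (by gcongr) (k1.trans_eq (sq y))
  have k4 : 0 ≤ M * (s * b * (d : ℝ) ^ 3) := by positivity
  by_cases c2 : ∀ t : ℕ, 1 ≤ t → t ≤ M → ∀ z : ℤ, y' / (d : ℝ) ^ 2 ≤ |θ * (b * d) * t - z|
  · refine Or.inl (Or.inr (Or.inl ⟨c2, ?_, ?_⟩))
    · rw [div_lt_iff₀ (by norm_num), div_lt_iff₀ p1]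
      linarith only [hbig]
    · rw [div_mul_div_comm, le_div_iff₀ (by positivity)]
      linarith only [k3, k4, mul_le_mul_of_nonneg_right hy1 hy.le]
  push Not at c2
  obtain ⟨t, t1, t2, z, hz⟩ := c2
  by_cases z0 : z ≠ 0
  · exact Or.inr (Or.inr (Or.inr (Or.inr ⟨t, t1, t2, z, z0, hz⟩)))
  obtain rfl : z = 0 := not_not.1 z0
  have t1' : (1 : ℝ) ≤ t := by exact_mod_cast t1
  have θ0 := abs_nonneg θ
  have q1 : |θ| * (b * d) ≤ y' := by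
    rw [Int.cast_zero, sub_zero, abs_mul, abs_mul, abs_of_nonneg (by positivity : (0 : ℝ) ≤ b * d),
      Nat.abs_cast] at hz
    exact (le_mul_of_one_le_right (by positivity) t1').trans
      (hz.le.trans (div_le_self y0.le (one_le_pow₀ d1)))
  by_cases c3 : (M : ℝ) ^ 5 * y' ≤ |θ| * (b * m' * d)
  · refine Or.inl (Or.inr (Or.inr (Or.inl ⟨q1.trans ?_, ?_, c3⟩)))
    · rw [le_div_iff₀ (by positivity)]
      have h1 : (M : ℝ) ≤ (M : ℝ) ^ 6 := le_self_pow₀ M1 (by norm_num)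
      have h2 : 0 ≤ M * y' := by positivity
      linarith only [hs6, h2, mul_le_mul_of_nonneg_right h1 y0.le]
    · by_contra h
      have h1 : (m' : ℝ) ≤ M := by exact_mod_cast (not_le.1 h).le
      have h2 : (d : ℝ) ≤ (d : ℝ) ^ 3 := le_self_pow₀ d1 (by norm_num)
      have h4 : s * ((b : ℝ) * m' * d) ≤ s * (b * M * (d : ℝ) ^ 3) := by gcongr
      linarith only [h4, hbig, k3, hy, mul_le_mul_of_nonneg_right y1 hy.le]
  have c3 := not_le.1 c3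
  have q2 : (M : ℝ) ^ 6 * y' ≤ |θ| * (a * m * d') := by
    rw [mul_max_of_nonneg _ _ θ0, le_max_iff] at hph
    exact hph.resolve_right fun h => by linarith only [h, c3, M6, a5, y0]
  have q3 := Base2_half (by positivity) (by positivity) hn y0 a5
    (by linarith only [M6, hs6, a5, y0]) c3 (M6.trans q2)
  have q5 := Base2_ph θ0 (Nat.cast_nonneg M) hy y1 hy2 hs (Nat.cast_nonneg a) d1' k2 hbig c3
  refine Or.inr (Or.inr (Or.inr (Or.inl ⟨by rwa [le_div_iff₀ (by positivity)], ?_,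
    by linarith only [q2, M6, a5, y0]⟩)))
  by_contra h
  have h1 : (m : ℝ) + 1 ≤ M := by exact_mod_cast not_le.1 h
  have h2 : |θ| * (a * d') * (2 * (m + 1)) ≤ |θ| * (a * d') * (2 * M) := by gcongr
  have h4 : 0 < |θ| * (a * d') := by
    refine lt_of_le_of_ne (by positivity) fun h0 => ?_
    rw [show |θ| * (a * m * d') = |θ| * (a * d') * m by ring, ← h0] at q3
    norm_num at q3
  linarith only [h2, h4, q3, q5]

theorem Base2_edge {V W : Finset ℕ} {E : Finset (ℕ × ℕ)} {a b N : ℕ} {m d : ℕ → ℕ}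
    (hC : Clu V W E a b N m d) {v w : ℕ} (he : (v, w) ∈ E) (hne : v ≠ w) :
    a * m v * d w ≠ b * m w * d v ∧ (uu v w : ℝ) = a * m v * d w ∧
      (uu w v : ℝ) = b * m w * d v := by
  obtain ⟨-, -, e1, e2, -⟩ := hC.edge _ he
  dsimp only at e1 e2
  refine ⟨fun c => hne ?_, by rw [uu, e1]; push_cast; rfl,
    by rw [uu, Nat.gcd_comm, e2]; push_cast; rfl⟩
  calc v = Nat.gcd v w * (v / Nat.gcd v w) := (Nat.mul_div_cancel' (Nat.gcd_dvd_left v w)).symm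
    _ = Nat.gcd v w * (w / Nat.gcd v w) := by rw [e1, e2, c]
    _ = w := Nat.mul_div_cancel' (Nat.gcd_dvd_right v w)

theorem base2 {V W B : Finset ℕ} {E : Finset (ℕ × ℕ)} {a b N : ℕ} {m d : ℕ → ℕ}
    (hC : Clu V W E a b N m d) (hVB : V ⊆ B) (hWB : W ⊆ B) (ψ : ℕ → ℝ) (hB : ∀ v ∈ B, 0 < ψ v)
    (θ ε y y' : ℝ) (hε : 0 < ε) (hε1 : ε ≤ 1 / 1280) (hy : 0 < y) (hy0 : y ≤ 1 / 2 ^ 80)
    (hy1 : y ≤ y') (hy2 : y' ≤ (MM y : ℝ) ^ 9 * y) (hH : Hyp ψ B 1 4 ε y)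
    (hg : Good2 θ y' (MM y) (y ^ (-(20 : ℝ))) a b)
    (hD : ∀ e ∈ E, e.1 ≠ e.2 ∧ y / 2 < DD ψ e.1 e.2 ∧ DD ψ e.1 e.2 ≤ y ∧
      Bohr θ e.1 e.2 (2 * y') ∧
      (MM y : ℝ) ^ 6 * y' ≤ |θ| * max (uu e.1 e.2 : ℝ) (uu e.2 e.1)) :
    ms (wt ψ) E ≤ 96 * y ^ (4 * ε) * y / √((a : ℝ) * b) *
      √((∑ v ∈ V, wt ψ v) * ∑ w ∈ W, wt ψ w) := by
  have hV : ∀ v ∈ V, 0 < ψ v := fun v hv => hB v (hVB hv)
  have hW : ∀ w ∈ W, 0 < ψ w := fun w hw => hB w (hWB hw)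
  have hu : 0 < y ^ (4 * ε) := rpow_pos_of_pos hy _
  rcases E.eq_empty_or_nonempty with rfl | ⟨e0, he0⟩
  · unfold ms
    rw [sum_empty]
    positivity
  obtain ⟨hM4, h40, hMi⟩ := MM_facts hy hy0
  generalize MM y = M at *
  have hM : (4 : ℝ) ≤ M := by exact_mod_cast hM4
  have hM2 : 2 ≤ M := by omega
  have y1 : y ≤ 1 := hy0.trans (by norm_num)
  have y0 : 0 < y' := hy.trans_le hy1
  have hyM : 8 * (M : ℝ) ^ 2 * y' ≤ 1 := by
    refine le_trans ?_ (Base2_small hM hy h40 hy2)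
    have h1 : (4 : ℝ) ≤ (M : ℝ) ^ 4 := hM.trans (le_self_pow₀ (by linarith) (by norm_num))
    have h2 : 0 ≤ (M : ℝ) ^ 2 * y' := by positivity
    nlinarith
  have hu2 : (4 * y ^ (4 * ε)) ^ 2 = 16 * y ^ (8 * ε) := by
    rw [mul_pow, sq (y ^ _), ← rpow_add hy]; ring_nf
  have hu8 : 0 < y ^ (8 * ε) := rpow_pos_of_pos hy _
  have hD' : ∀ e ∈ E, DD ψ e.1 e.2 ≤ y := fun e he => (hD e he).2.2.1
  have hL0 := Lam_nonneg N
  have hdp : ∀ {n}, n ∣ N → 0 < n := fun h => Nat.pos_of_dvd_of_pos h hC.Npos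
  have hph : ∀ v w, (v, w) ∈ E →
      (M : ℝ) ^ 6 * y' ≤ |θ| * max ((a : ℝ) * m v * d w) (b * m w * d v) := fun v w he => by
    obtain ⟨-, e1, e2⟩ := Base2_edge hC he (hD _ he).1
    rw [← e1, ← e2]
    exact (hD _ he).2.2.2.2
  rw [show 96 * y ^ (4 * ε) = 24 * (4 * y ^ (4 * ε)) by ring]
  obtain ⟨hv0, hw0, -, -, hN0⟩ := hC.edge e0 he0
  rcases hH N ⟨_, hVB hv0, _, hWB hw0, hN0⟩ with H | ⟨Z, hZ, hL, hψ⟩
  · have hsM : 1 ≤ √(M : ℝ) := one_le_sqrt.2 (by linarith)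
    have hδ := pw_tail N hC.Npos (exp (√(M : ℝ))) (one_lt_exp_iff.2 (by linarith))
    rw [log_exp] at hδ
    have hq : 0 < y ^ (1 / 80 : ℝ) := rpow_pos_of_pos hy _
    have hi : 1 / √(M : ℝ) ≤ 2 * y ^ (1 / 80 : ℝ) := by
      refine (pow_le_pow_iff_left₀ (by positivity) (by positivity) two_ne_zero).1 ?_
      rw [div_pow, sq_sqrt (by linarith), mul_pow, sq (y ^ _), ← rpow_add hy]
      norm_num at hMi ⊢
      linarith [rpow_pos_of_pos hy (1 / 40 : ℝ), show y ^ (1 / 40 : ℝ) = y ^ (40 : ℝ)⁻¹ by norm_num]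
    have g1 : y ^ (1 / 80 : ℝ) ≤ y ^ (8 * ε) := rpow_le_rpow_of_exponent_ge hy y1 (by linarith)
    have g2 : Lam N / √(M : ℝ) ≤ 2 * y ^ (8 * ε) := by
      have e : y ^ (-(1 / (40 * ((4 : ℕ) : ℝ)))) * y ^ (1 / 80 : ℝ) = y ^ (1 / 160 : ℝ) := by
        rw [← rpow_add hy]; norm_num
      have g3 : y ^ (1 / 160 : ℝ) ≤ y ^ (8 * ε) := rpow_le_rpow_of_exponent_ge hy y1 (by linarith)
      calc Lam N / √(M : ℝ) = Lam N * (1 / √(M : ℝ)) := by ring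
        _ ≤ y ^ (-(1 / (40 * ((4 : ℕ) : ℝ)))) * (2 * y ^ (1 / 80 : ℝ)) := by gcongr
        _ = 2 * (y ^ (-(1 / (40 * ((4 : ℕ) : ℝ)))) * y ^ (1 / 80 : ℝ)) := by ring
        _ ≤ 2 * y ^ (8 * ε) := by rw [e]; linarith
    refine base_two hC ψ hV hW y hy hD' (fun v w => SW2 θ y' M a b (m v) (d v) (m w) (d w))
      (420 / √(M : ℝ) + 4 * (Lam N / √(M : ℝ))) _ (by positivity) (by positivity) ?_ ?_ ?_
    · rw [hu2, show 420 / √(M : ℝ) = 420 * (1 / √(M : ℝ)) by ring]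
      linarith
    · intro v _ Γ hΓ
      refine nb_SW2 θ y' _ _ _ M a b (m v) (d v) N hM2 hC.Npos y0 hyM hg hδ Γ fun t ht => ?_
      obtain ⟨w, he, hp, rfl⟩ := hΓ t ht
      obtain ⟨k1, k2, k3⟩ := base_factW hC ψ hV he (hD' _ he)
      exact ⟨k1, k2, k3, base_bohr hC he (hD _ he).2.2.2.1, hp⟩
    · intro w _ Γ hΓ
      refine nb_SW2 θ y' _ _ _ M b a (m w) (d w) N hM2 hC.Npos y0 hyM hg.symm hδ Γ fun t ht => ?_
      obtain ⟨v, he, hp, rfl⟩ := hΓ t ht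
      obtain ⟨k1, k2, k3⟩ := base_factV hC ψ hW he (hD' _ he)
      obtain ⟨k4, -, k5⟩ := base_factW hC ψ hV he (hD' _ he)
      exact ⟨k1, k2, k3, base_bohr' hC he (hD _ he).2.2.2.1,
        (cover_SW2 hM2 y0 hyM hg k1 (hdp k3) k4 (hdp k5) (Base2_edge hC he (hD _ he).1).1
          (base_bohr hC he (hD _ he).2.2.2.1) (hph v w he)).resolve_left hp⟩
  · have hlZ : 0 < log Z := log_pos hZ
    have hδ : ∑ d' ∈ N.divisors.filter (fun d' : ℕ => Z < d'), pw N d' ≤ y ^ (8 * ε) :=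
      (pw_tail N hC.Npos Z hZ).trans (by rw [div_le_iff₀ hlZ]; exact hL)
    have g1 : y ^ (1 / 40 : ℝ) ≤ y ^ (8 * ε) := rpow_le_rpow_of_exponent_ge hy y1 (by linarith)
    refine base_two hC ψ hV hW y hy hD'
      (fun v w => SH2 θ y' (y / (ψ v * b * d v)) Z M a b (d v) (m w) (d w))
      (2 * y ^ (8 * ε) + 150 / M) _ (by positivity) (by positivity) ?_ ?_ ?_
    · rw [hu2, show 150 / (M : ℝ) = 150 * (1 / (M : ℝ)) by ring]
      linarith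
    · intro v hv Γ hΓ
      refine nb_SH2 θ y' _ _ _ Z M a b (m v) (d v) N hM2 hC.Npos y0 hyM (hdp (hC.vV v hv).2.2.1)
        hg hδ Γ fun t ht => ?_
      obtain ⟨w, he, hp, rfl⟩ := hΓ t ht
      obtain ⟨k1, k2, k3⟩ := base_factW hC ψ hV he (hD' _ he)
      exact ⟨k1, k2, k3, base_bohr hC he (hD _ he).2.2.2.1, hp⟩
    · intro w hw Γ hΓ
      obtain ⟨a0, -, a2, a3⟩ := hC.vW w hw
      refine nb_SH2 θ y' _ _ _ Z M b a (m w) (d w) N hM2 hC.Npos y0 hyM (hdp a2) hg.symm hδ Γ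
        fun t ht => ?_
      obtain ⟨v, he, hp, rfl⟩ := hΓ t ht
      obtain ⟨k1, k2, k3⟩ := base_factV hC ψ hW he (hD' _ he)
      refine ⟨k1, k2, k3, base_bohr' hC he (hD _ he).2.2.2.1, ?_⟩
      by_cases hz : Z < d v
      · exact Or.inl hz
      have hv : v ∈ V := (hC.edge _ he).1
      obtain ⟨b0, -, -, b3⟩ := hC.vV v hv
      have p0 := not_lt.1 hz
      have p1 : (d w : ℝ) ≤ Z := not_lt.1 fun h => hp (Or.inl h)
      have := (hD _ he).2.1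
      dsimp only at this
      rw [base_DD hC ψ he, lt_max_iff] at this
      rcases this with p2 | p2
      · have hk := hψ v (hVB hv) (base_NZ b0 k3 b3 p0)
        exact (Base2_cover hM hy y1 h40 hy1 hy2 (hV v hv) hC.bpos (hdp k3) (hdp a2)
          (Base2_key hM hy h40 (hV v hv) hZ hg.2.2.2.2 (Nat.cast_nonneg _) p0 hk)
          (Base2_key hM hy h40 (hV v hv) hZ hg.2.2.2.1 (Nat.cast_nonneg _) p1 hk) p2
          (base_bohr hC he (hD _ he).2.2.2.1) (hph v w he)).resolve_left hp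
      · have hk := hψ w (hWB hw) (base_NZ a0 a2 a3 p1)
        exact (Base2_cover hM hy y1 h40 hy1 hy2 (hW w hw) hC.apos (hdp a2) (hdp k3)
          (Base2_key hM hy h40 (hW w hw) hZ hg.2.2.2.1 (Nat.cast_nonneg _) p1 hk)
          (Base2_key hM hy h40 (hW w hw) hZ hg.2.2.2.2 (Nat.cast_nonneg _) p0 hk) p2
          (base_bohr' hC he (hD _ he).2.2.2.1) (max_comm (α := ℝ) _ _ ▸ hph v w he)).resolve_right hp

end Vale.Agent.P028G
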