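import Vale.Agent.P028G.Exact

/-! Exact pairs for small approximating functions. -/

namespace Vale.Agent.P028G

open Finset Real MeasureTheory Filter Vale.Agent.P028

theorem ExactA_gcd {γ z : ℝ} {ψ : ℕ → ℝ} {q r : ℕ} {x : ℤ × ℕ} {a : ℤ} (hq : 0 < q)
    (hE : Ex2 γ ψ q r) (hx : ap γ (ψ r) = x) (ha : |(q : ℝ) * z - a - γ| < ψ q)
    (hz : z ∈ FS γ (ψ r) x r) : Int.gcd (a * x.2 + x.1) q = uu q r := by
  obtain ⟨-, hd, -, hD, -, hJ⟩ := hE
  obtain ⟨b, hb1, hb⟩ := hz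
  have hr : 0 < r := Nat.pos_of_dvd_of_pos hd hq
  have h1 := uu_mul q r
  have h2 := uu_mul' q r
  rw [Nat.gcd_eq_right hd] at h1 h2
  have hv : uu r q = 1 := Nat.eq_of_mul_eq_mul_left hr (h2.trans (mul_one r).symm)
  have h3 : (q : ℝ) = r * uu q r := by exact_mod_cast h1.symm
  have h4 : ψ q ≤ DD ψ q r := by
    rw [DD_eq, hv, Nat.cast_one, mul_one]
    exact le_max_left _ _
  have h5 : a - b * uu q r ∈ JJ γ (DD ψ q r) q r := by
    rw [mem_JJ, hv]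
    have e : ((a - b * uu q r : ℤ) : ℝ) + γ * (((1 : ℕ) : ℝ) - uu q r) =
        ((r : ℝ) * z - b - γ) * uu q r - ((q : ℝ) * z - a - γ) := by
      rw [h3]
      push_cast
      ring
    rw [e]
    refine (abs_sub _ _).trans ?_
    rw [abs_mul, Nat.abs_cast]
    have := mul_le_mul_of_nonneg_right hb.le (Nat.cast_nonneg (α := ℝ) (uu q r))
    linarith
  have h6 := hJ _ h5
  rw [hx] at h6
  have h7 : a * x.2 + x.1 = uu q r * (b * x.2 + x.1) := by linarith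
  have h8 : (q : ℤ) = uu q r * r := by
    rw [mul_comm]
    exact_mod_cast h1.symm
  rw [h7, h8, Int.gcd_mul_left, Int.isCoprime_iff_gcd_eq_one.1 hb1, mul_one, Int.natAbs_natCast]

/-- With a common approximant the surviving exact partners have multiplicity one. -/
theorem ex2_common (γ s : ℝ) (ψ : ℕ → ℝ) (q : ℕ) (R : Finset ℕ) (x : ℤ × ℕ) (hq : 0 < q)
    (h0 : 0 < ψ q) (h1 : ψ q ≤ 1 / 2)
    (hR : ∀ r ∈ R, 0 < ψ r ∧ ψ r ≤ 1 / 2 ∧ Ex2 γ ψ q r ∧ ap γ (ψ r) = x) :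
    ∑ r ∈ R, ov γ s ψ q r ≤ 20 * wt ψ q := by
  set F : Set ℝ := FS γ (ψ q) (ap γ (ψ q)) q with hF
  set S : ℕ → Set ℝ := fun r => F ∩ FS γ (ψ r) x r ∩ Set.Ico s (s + 3) with hS
  have hfin : volume (F ∩ Set.Ico s (s + 3)) ≠ ⊤ :=
    measure_ne_top_of_subset Set.inter_subset_right measure_Ico_lt_top.ne
  have hsub : ∀ r, S r ⊆ F ∩ Set.Ico s (s + 3) := fun r z hz => ⟨hz.1.1, hz.2⟩
  have hd : Set.PairwiseDisjoint (R : Set ℕ) S := by
    intro r hr r' hr' hne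
    refine Set.disjoint_left.2 fun z hz hz' => hne ?_
    obtain ⟨a, -, ha⟩ := hz.1.1
    obtain ⟨b1, -, b3, b4⟩ := hR r hr
    obtain ⟨c1, -, c3, c4⟩ := hR r' hr'
    have e1 := ExactA_gcd hq b3 b4 ha hz.1.2
    have e2 := ExactA_gcd hq c3 c4 ha hz'.1.2
    have h1 := uu_mul q r
    have h2 := uu_mul q r'
    rw [Nat.gcd_eq_right b3.2.1] at h1
    rw [Nat.gcd_eq_right c3.2.1, ← e2, e1] at h2
    exact Nat.eq_of_mul_eq_mul_right (uu_pos hq r) (h1.trans h2.symm)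
  have h2 : ∑ r ∈ R, volume.real (S r) ≤ volume.real (F ∩ Set.Ico s (s + 3)) := by
    rw [← measureReal_biUnion_finset hd (fun r _ => ((measurableSet_FS _ _ _ _).inter
      (measurableSet_FS _ _ _ _)).inter measurableSet_Ico)
      (fun r _ => measure_ne_top_of_subset (hsub r) hfin)]
    exact measureReal_mono (Set.iUnion₂_subset fun r _ => hsub r) hfin
  have hc := cf_nonneg (ap γ (ψ q)).2 q
  have h3 : ∑ r ∈ R, ov γ s ψ q r ≤ ∑ r ∈ R, cf (ap γ (ψ q)).2 q * volume.real (S r) := by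
    refine sum_le_sum fun r hr => ?_
    rw [ov, (hR r hr).2.2.2]
    exact mul_le_mul_of_nonneg_right (mul_le_of_le_one_right hc (cf_le_one _ _)) measureReal_nonneg
  rw [← mul_sum] at h3
  have h4 := vol_FS_le γ s (ψ q) (ap_coprime γ (ψ q)) hq h0 h1
  have h5 := mul_le_mul_of_nonneg_left h2 hc
  have h6 := wt_nonneg h0.le
  unfold wt at *
  linarith

theorem ExactA_small {γ : ℝ} {ψ : ℕ → ℝ} {q r : ℕ} (hq : 0 < q) (hl : 12 ≤ ll q)
    (hψ : ψ r ≤ exp (-ll r ^ 40)) (hE : Ex2 γ ψ q r) (hu : (uu q r : ℝ) ≤ exp (ll q ^ 2))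
    (hJ : (JJ γ (DD ψ q r) q r).Nonempty) : ((ap γ (ψ r)).2 : ℝ) ≤ exp (ll q ^ 2) ∧
      exp (ll q ^ 2) * |((ap γ (ψ r)).2 : ℝ) * γ - (ap γ (ψ r)).1| < 1 / 2 := by
  obtain ⟨hne, hd, -, -, hB, hH⟩ := hE
  obtain ⟨h, hh⟩ := hJ
  have hr : 0 < r := Nat.pos_of_dvd_of_pos hd hq
  have h1 := uu_mul q r
  rw [Nat.gcd_eq_right hd] at h1
  have hu0 := uu_pos hq r
  have hu1 : uu q r ≠ 1 := fun e => hne (by rw [← h1, e, mul_one])
  have h2 : ((ap γ (ψ r)).2 : ℤ) ∣ (uu q r : ℤ) - 1 :=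
    (ap_coprime γ (ψ r)).symm.dvd_of_dvd_mul_left ⟨h, by linarith [hH h hh]⟩
  have h3 : (ap γ (ψ r)).2 ≤ uu q r := by
    have := Int.le_of_dvd (by omega) h2
    omega
  refine ⟨le_trans (by exact_mod_cast h3) hu, ?_⟩
  have hq' : (1 : ℝ) ≤ q := by exact_mod_cast hq
  have hlq : 0 < log (q : ℝ) := by
    refine lt_of_le_of_ne (log_nonneg hq') fun e => ?_
    rw [ll, ← e, log_zero] at hl
    linarith
  have h4 : exp (ll q) = log q := exp_log hlq
  have h5 : log (q : ℝ) = log r + log (uu q r) := by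
    rw [← log_mul (by positivity) (by positivity)]
    congr 1
    exact_mod_cast h1.symm
  have h6 : log (uu q r : ℝ) ≤ ll q ^ 2 := by
    rw [log_le_iff_le_exp (by exact_mod_cast hu0)]
    exact hu
  have h7 : 2 * ll q ^ 2 ≤ exp (ll q) := by
    have h8 := pow_div_factorial_le_exp (ll q) (by linarith) 3
    have e : ((Nat.factorial 3 : ℕ) : ℝ) = 6 := by norm_num [Nat.factorial]
    rw [e] at h8
    nlinarith [sq_nonneg (ll q)]
  have h9 : ll q - 1 ≤ ll r := by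
    have h10 : log (log (q : ℝ) / 2) ≤ log (log (r : ℝ)) := log_le_log (by linarith) (by linarith)
    rw [log_div hlq.ne' two_ne_zero] at h10
    have := log_two_lt_d9
    unfold ll
    linarith
  have h11 : 2 * ll q ^ 2 + 2 ≤ ll r ^ 40 := by
    have h12 : ll r ^ 3 ≤ ll r ^ 40 := pow_le_pow_right₀ (by linarith) (by norm_num)
    have h13 : (ll q - 1) ^ 3 ≤ ll r ^ 3 := pow_le_pow_left₀ (by linarith) h9 3
    nlinarith [sq_nonneg (ll q - 1)]
  refine lt_of_pow_lt_pow_left₀ 2 (by norm_num) ?_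
  have h14 := ((ap_maj hB).2.2.2.trans hψ).trans
    (exp_le_exp.2 (show -ll r ^ 40 ≤ -(2 * ll q ^ 2 + 2) by linarith))
  have h15 : exp (ll q ^ 2) ^ 2 * exp (-(2 * ll q ^ 2 + 2)) = (exp 2)⁻¹ := by
    rw [← exp_neg, sq, ← exp_add, ← exp_add]
    congr 1
    ring
  have h16 : (exp 2)⁻¹ < (1 / 2) ^ 2 := by
    have := quadratic_le_exp_of_nonneg (x := 2) zero_le_two
    rw [inv_lt_comm₀ (exp_pos 2) (by norm_num)]
    norm_num at this ⊢
    linarith
  rw [mul_pow, sq_abs]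
  exact (mul_le_mul_of_nonneg_left h14 (sq_nonneg _)).trans_lt (h15 ▸ h16)

theorem ex2_sumA : ∃ (C : ℝ) (q₀ : ℕ), 0 < C ∧ ∀ (γ s : ℝ) (ψ : ℕ → ℝ) (q : ℕ) (R : Finset ℕ),
    q₀ ≤ q → 0 < ψ q → ψ q ≤ 1 / 2 →
    (∀ r ∈ R, 0 < ψ r ∧ ψ r ≤ 1 / 2 ∧ ψ r ≤ exp (-ll r ^ 40) ∧ Ex2 γ ψ q r) →
    ∑ r ∈ R, ov γ s ψ q r ≤ C * wt ψ q := by
  obtain ⟨C, hC, hb⟩ := ex2_SS
  obtain ⟨C', hC', hb'⟩ := Lam_le
  have hev : ∀ᶠ q : ℕ in atTop, 12 ≤ ll q ∧ 16 ≤ q :=
    ((tendsto_log_atTop.comp (tendsto_log_atTop.comp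
      tendsto_natCast_atTop_atTop)).eventually_ge_atTop 12).and (eventually_ge_atTop 16)
  obtain ⟨q₀, hq₀⟩ := eventually_atTop.1 hev
  refine ⟨28 * C * C' + 20, q₀, by positivity, fun γ s ψ q R hq1 h0 h1 hR => ?_⟩
  obtain ⟨hl, hq16⟩ := hq₀ q hq1
  have hq : 0 < q := by omega
  have hq' : (16 : ℝ) ≤ q := by exact_mod_cast hq16
  have hw := wt_nonneg h0.le
  have hov : ∀ r ∈ R, ov γ s ψ q r ≤ 14 * SS γ ψ q r := fun r hr =>
    ov_le γ s ψ hq (Nat.pos_of_dvd_of_pos (hR r hr).2.2.2.2.1 hq) h0 h1 (hR r hr).1 (hR r hr).2.1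
  set Z : ℝ := exp (ll q ^ 2) with hZ
  have hZ1 : 1 < Z := one_lt_exp_iff.2 (by positivity)
  rw [← sum_filter_add_sum_filter_not R (fun r => Z < uu q r), add_mul]
  refine add_le_add ?_ ?_
  · have hX : (16 : ℝ) ≤ (q : ℝ) ^ 2 := by nlinarith
    have hL : log (log ((q : ℝ) ^ 2)) ≤ 2 * ll q := by
      have h2 := (Pi_loglog q hq').1
      rw [log_pow, Nat.cast_ofNat, log_mul two_ne_zero (by linarith)]
      have := log_two_lt_d9
      unfold ll at *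
      linarith
    have h2 : ∑ r ∈ R.filter (fun r => Z < uu q r), ov γ s ψ q r ≤
        ∑ r ∈ R.filter (fun r => Z < uu q r), 28 * C * ll q * wt ψ q * pw q (uu q r) := by
      refine sum_le_sum fun r hr => ?_
      have hr' := (mem_filter.1 hr).1
      have h3 := hb γ _ ψ q r hX le_rfl hq h0.le (hR r hr').1 (hR r hr').2.2.2
      have h4 := mul_le_mul_of_nonneg_right hL
        (mul_nonneg hC.le (mul_nonneg hw (pw_nonneg q (uu q r))))
      linarith [hov r hr']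
    rw [← mul_sum] at h2
    have h5 := (Exact_sum hq (R.filter fun r => Z < uu q r)
      (q.divisors.filter fun d : ℕ => Z < d) fun r hr =>
        ⟨(hR r (mem_filter.1 hr).1).2.2.2.2.1, mem_filter.2 ⟨Nat.mem_divisors.2
          ⟨Dvd.intro_left _ (uu_mul q r), hq.ne'⟩, (mem_filter.1 hr).2⟩⟩).trans
      (pw_tail q hq Z hZ1)
    have h6 : Lam q / log Z ≤ C' / ll q := by
      rw [hZ, log_exp, div_le_div_iff₀ (by positivity) (by positivity), sq, ← mul_assoc]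
      exact mul_le_mul_of_nonneg_right (hb' q hq' q hq le_rfl) (by positivity)
    refine h2.trans ((mul_le_mul_of_nonneg_left (h5.trans h6) (by positivity)).trans_eq ?_)
    field_simp
  · set R' := R.filter (fun r => ¬ Z < uu q r) with hR'
    rw [← sum_filter_add_sum_filter_not R' (fun r => (JJ γ (DD ψ q r) q r).Nonempty)]
    have h2 : ∑ r ∈ R'.filter (fun r => ¬ (JJ γ (DD ψ q r) q r).Nonempty), ov γ s ψ q r ≤ 0 := by
      refine sum_nonpos fun r hr => ?_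
      have h3 := hov r (mem_filter.1 (mem_filter.1 hr).1).1
      rw [SS, SC, not_nonempty_iff_eq_empty.1 (mem_filter.1 hr).2, sum_empty] at h3
      linarith
    rcases (R'.filter fun r => (JJ γ (DD ψ q r) q r).Nonempty).eq_empty_or_nonempty with h | ⟨r₀, h⟩
    · rw [h, sum_empty]
      linarith
    · have k : ∀ r ∈ R'.filter fun r => (JJ γ (DD ψ q r) q r).Nonempty, r ∈ R ∧
          ((ap γ (ψ r)).2 : ℝ) ≤ Z ∧ Z * |((ap γ (ψ r)).2 : ℝ) * γ - (ap γ (ψ r)).1| < 1 / 2 := by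
        intro r hr
        obtain ⟨hr1, hr2⟩ := mem_filter.1 hr
        obtain ⟨hr3, hr4⟩ := mem_filter.1 hr1
        exact ⟨hr3, ExactA_small hq hl (hR r hr3).2.2.1 (hR r hr3).2.2.2 (not_lt.1 hr4) hr2⟩
      have h3 := ex2_common γ s ψ q _ (ap γ (ψ r₀)) hq h0 h1 fun r hr => by
        obtain ⟨a1, a2, a3⟩ := k r hr
        obtain ⟨b1, b2, b3⟩ := k r₀ h
        refine ⟨(hR r a1).1, (hR r a1).2.1, (hR r a1).2.2.2, maj_close (γ := γ)
          (hR r a1).2.2.2.2.2.2.2.1 (ap_coprime _ _) (hR r₀ b1).2.2.2.2.2.2.2.1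
          (ap_coprime _ _) ?_⟩
        have c1 := mul_le_mul_of_nonneg_right a2
          (abs_nonneg (((ap γ (ψ r₀)).2 : ℝ) * γ - (ap γ (ψ r₀)).1))
        have c2 := mul_le_mul_of_nonneg_right b2
          (abs_nonneg (((ap γ (ψ r)).2 : ℝ) * γ - (ap γ (ψ r)).1))
        linarith
      linarith

end Vale.Agent.P028G
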