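import Vale.Agent.P028G.Base2
import Vale.Agent.P028G.Bad2

/-! The saving at one level for pairs that are not exact. -/

namespace Vale.Agent.P028G

open Finset Real MeasureTheory Filter Vale.Agent.P028

theorem level2_gen (ε Cb : ℝ) (hε : 0 < ε) (hε1 : ε ≤ 1 / 1280) (hCb : 0 < Cb) :
    ∃ C : ℝ, 0 < C ∧ ∀ (ψ : ℕ → ℝ) (B : Finset ℕ), (∀ q, 0 ≤ ψ q) →
    (∀ q ∈ B, 0 < q ∧ 0 < ψ q) → ∀ y : ℝ, 0 < y → y ≤ 1 / 2 ^ 80 → Hyp ψ B 1 4 ε y →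
    ∀ θ y' : ℝ, y ≤ y' → y' ≤ (MM y : ℝ) ^ 9 * y →
    (∀ T : Finset (ℕ × ℕ),
      (∀ t ∈ T, 0 < t.1 ∧ 0 < t.2 ∧ ¬ Good2 θ y' (MM y) (y ^ (-(20 : ℝ))) t.1 t.2) →
      ∑ t ∈ T, ((t.1 : ℝ) * t.2) ^ (-(1 + ε)) ≤
        Cb * (1 / (MM y : ℝ) + (y ^ (-(20 : ℝ))) ^ (-(ε / 2)))) →
    ∀ E : Finset (ℕ × ℕ), (∀ e ∈ E, e.1 ∈ B ∧ e.2 ∈ B ∧ e.1 ≠ e.2 ∧ y / 2 < DD ψ e.1 e.2 ∧
      DD ψ e.1 e.2 ≤ y ∧ Bohr θ e.1 e.2 (2 * y') ∧
      (MM y : ℝ) ^ 6 * y' ≤ |θ| * max (uu e.1 e.2 : ℝ) (uu e.2 e.1)) →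
    ms (wt ψ) E ≤ C * y ^ (1 + ε) * (∑ q ∈ B, wt ψ q) ^ (1 + 2 * ε) := by
  classical
  have h1 : ε ≤ 1 / 10 := by linarith
  obtain ⟨K, hK, hgen⟩ := level_gen ε hε h1
  obtain ⟨ζ, hζ0, hζ⟩ := zeta_bound ε hε
  have ht2 := th_ge hε h1
  have ht3 := th_le h1
  set a1 : ℝ := ((96 : ℝ) ^ (1 - 2 * ε)) ^ th ε with ha1
  set a2 : ℝ := ((2 : ℝ) ^ (1 - 2 * ε)) ^ th ε with ha2
  have ha1p : 0 < a1 := by positivity
  have ha2p : 0 < a2 := by positivity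
  refine ⟨(K * (ζ ^ 2 * a1 + 3 * Cb * a2)) ^ (1 / th ε), by positivity, ?_⟩
  intro ψ B hψ hB y hy hy0 hH θ y' hy1' hy2' hbad E hE
  have hy1 : y ≤ 1 := hy0.trans (by norm_num)
  obtain ⟨hM4, hM40, hMi⟩ := MM_facts hy hy0
  set M : ℕ := MM y with hM
  set X : ℝ := y ^ (-(20 : ℝ)) with hX
  refine hgen ψ B hψ (fun q hq => (hB q hq).1) E (fun e he => ⟨(hE e he).1, (hE e he).2.1⟩)
    (fun a b => if Good2 θ y' M X a b then 96 * y ^ (4 * ε) * y else 2 * y)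
    (fun a b => by split_ifs <;> positivity) _ (y ^ (1 + ε)) (by positivity) (by positivity) ?_ ?_
  · intro T hT
    have g1 : ((96 * y ^ (4 * ε) * y) ^ (1 - 2 * ε)) ^ th ε ≤ a1 * (y ^ (1 + ε)) ^ th ε := by
      rw [ha1, ← mul_rpow (by positivity) (by positivity)]
      refine rpow_le_rpow (by positivity) ?_ (by linarith)
      rw [mul_assoc, mul_rpow (by norm_num) (by positivity), ← rpow_add_one hy.ne',
        ← rpow_mul hy.le]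
      refine mul_le_mul_of_nonneg_left (rpow_le_rpow_of_exponent_ge hy hy1 ?_) (by positivity)
      nlinarith
    have g2 : ((2 * y) ^ (1 - 2 * ε)) ^ th ε * y ^ (9 * ε) ≤ a2 * (y ^ (1 + ε)) ^ th ε := by
      rw [ha2, mul_rpow (by norm_num) hy.le, mul_rpow (by positivity) (by positivity), mul_assoc,
        ← rpow_mul hy.le, ← rpow_mul hy.le, ← rpow_add hy]
      refine mul_le_mul_of_nonneg_left (rpow_le_rpow_of_exponent_ge hy hy1 ?_) (by positivity)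
      nlinarith
    have g3 : 1 / (M : ℝ) + X ^ (-(ε / 2)) ≤ 3 * y ^ (9 * ε) := by
      have k1 : y ^ (1 / 40 : ℝ) ≤ y ^ (9 * ε) :=
        rpow_le_rpow_of_exponent_ge hy hy1 (by linarith)
      have k2 : X ^ (-(ε / 2)) ≤ y ^ (9 * ε) := by
        rw [hX, ← rpow_mul hy.le]
        exact rpow_le_rpow_of_exponent_ge hy hy1 (by linarith)
      linarith
    have g4 := hbad (T.filter fun t => ¬ Good2 θ y' M X t.1 t.2)
      fun t ht => ⟨(hT t (mem_filter.1 ht).1).1, (hT t (mem_filter.1 ht).1).2, (mem_filter.1 ht).2⟩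
    have g5 := level_zeta hζ0 hζ (T.filter fun t => Good2 θ y' M X t.1 t.2)
      fun t ht => hT t (mem_filter.1 ht).1
    rw [← sum_filter_add_sum_filter_not T fun t => Good2 θ y' M X t.1 t.2,
      sum_congr rfl fun t ht => by rw [if_pos (mem_filter.1 ht).2],
      sum_congr (s₁ := T.filter fun t => ¬ Good2 θ y' M X t.1 t.2) rfl
        fun t ht => by rw [if_neg (mem_filter.1 ht).2], ← sum_mul, ← sum_mul]
    have g6 := g4.trans (mul_le_mul_of_nonneg_left g3 hCb.le)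
    have g7 := mul_le_mul g5 g1 (by positivity) (by positivity)
    have g8 := mul_le_mul_of_nonneg_right g6
      (show 0 ≤ ((2 * y) ^ (1 - 2 * ε)) ^ th ε by positivity)
    have g9 := mul_le_mul_of_nonneg_left g2 (show 0 ≤ 3 * Cb by positivity)
    nlinarith
  · intro V hV W hW E' hE' a b N m d hC
    by_cases hg : Good2 θ y' M X a b
    · rw [if_pos hg]
      exact base2 hC hV hW ψ (fun v hv => (hB v hv).2) θ ε y y' hε hε1 hy hy0 hy1' hy2'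
        hH hg fun e he => (hE e (hE' he)).2.2
    · rw [if_neg hg]
      exact base_triv hC ψ (fun v hv => (hB v (hV hv)).2) (fun v hv => (hB v (hW hv)).2) y hy
        fun e he => (hE e (hE' he)).2.2.2.2.1

theorem level2_reduce {γ η : ℝ} {n : ℕ} (hn : 0 < n) (h : Near (γ * n) η) :
    ∃ x : ℤ × ℕ, 1 ≤ x.2 ∧ IsCoprime x.1 (x.2 : ℤ) ∧ x.2 ≤ n ∧ |(x.2 : ℝ) * γ - x.1| ≤ η := by
  obtain ⟨z, hz⟩ := h
  have hg : 0 < Int.gcd z n := Int.gcd_pos_of_ne_zero_right z (by exact_mod_cast hn.ne')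
  obtain ⟨A, B0, hco, hA, hB⟩ := Int.exists_gcd_one hg
  set g : ℕ := Int.gcd z n with hgdef
  have hg1 : (1 : ℤ) ≤ g := by exact_mod_cast hg
  have hn1 : (0 : ℤ) < n := by exact_mod_cast hn
  have hB0 : 0 < B0 := by
    by_contra hc
    have : B0 * (g : ℤ) ≤ 0 := mul_nonpos_of_nonpos_of_nonneg (not_lt.1 hc) (by linarith)
    linarith
  obtain ⟨b, rfl⟩ := Int.eq_ofNat_of_zero_le hB0.le
  have hb1 : 1 ≤ b := by exact_mod_cast hB0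
  refine ⟨(A, b), hb1, Int.isCoprime_iff_gcd_eq_one.2 hco, ?_, ?_⟩
  · have : (b : ℤ) ≤ n := by rw [hB]; nlinarith
    exact_mod_cast this
  · have e1 : (n : ℝ) = b * g := by exact_mod_cast hB
    have e2 : (z : ℝ) = A * g := by exact_mod_cast hA
    have e3 : γ * n - z = ((b : ℝ) * γ - A) * g := by rw [e1, e2]; ring
    have hg2 : (1 : ℝ) ≤ g := by exact_mod_cast hg
    rw [e3, abs_mul, abs_of_nonneg (show (0 : ℝ) ≤ g by positivity)] at hz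
    have := abs_nonneg ((b : ℝ) * γ - A)
    show |(b : ℝ) * γ - A| ≤ η
    nlinarith

theorem level2_bohr {γ η η' : ℝ} {q r b : ℕ} (A : ℤ) (h : Bohr γ q r η) (hb : b * η ≤ η') :
    Bohr ((b : ℝ) * γ - A) q r η' := by
  obtain ⟨z, hz⟩ := h
  refine ⟨b * z - A * (((q / Nat.gcd q r : ℕ) : ℤ) - ((r / Nat.gcd q r : ℕ) : ℤ)), ?_⟩
  generalize q / Nat.gcd q r = u at hz ⊢
  generalize r / Nat.gcd q r = v at hz ⊢
  have e : ((b : ℝ) * γ - A) * ((u : ℝ) - v) - ((b * z - A * ((u : ℤ) - v) : ℤ) : ℝ) =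
      b * (γ * ((u : ℝ) - v) - z) := by push_cast; ring
  rw [e, abs_mul, abs_of_nonneg (show (0 : ℝ) ≤ b by positivity)]
  exact (mul_le_mul_of_nonneg_left hz (by positivity)).trans hb

theorem level2 (ε : ℝ) (hε : 0 < ε) (hε1 : ε ≤ 1 / 1280) : ∃ C : ℝ, 0 < C ∧
    ∀ γ : ℝ, 1 ≤ γ → ∀ (ψ : ℕ → ℝ) (B : Finset ℕ), (∀ q, 0 ≤ ψ q) →
    (∀ q ∈ B, 0 < q ∧ 0 < ψ q) → ∀ y : ℝ, 0 < y → y ≤ 1 / 2 ^ 80 → Hyp ψ B 1 4 ε y →
    ∀ E : Finset (ℕ × ℕ), (∀ e ∈ E, e.1 ∈ B ∧ e.2 ∈ B ∧ e.1 ≠ e.2 ∧ y / 2 < DD ψ e.1 e.2 ∧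
      DD ψ e.1 e.2 ≤ y ∧ Bohr γ e.1 e.2 (2 * y) ∧ ¬ Exact γ y e.1 e.2) →
    ms (wt ψ) E ≤ C * y ^ (1 + ε) * (∑ q ∈ B, wt ψ q) ^ (1 + 2 * ε) := by
  obtain ⟨CG, hCG, hG⟩ := bad2_G ε hε
  obtain ⟨CS, hCS, hS⟩ := bad2_S ε hε
  obtain ⟨C, hC, hgen⟩ := level2_gen ε (CG + CS) hε hε1 (by positivity)
  refine ⟨C, hC, ?_⟩
  intro γ hγ ψ B hψ hB y hy hy0 hH E hE
  have hy1 : y ≤ 1 := hy0.trans (by norm_num)
  obtain ⟨hM4, hM40, hMi⟩ := MM_facts hy hy0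
  have hX1 : 1 ≤ y ^ (-(20 : ℝ)) := one_le_rpow_of_pos_of_le_one_of_nonpos hy hy1 (by norm_num)
  have hM4' : (4 : ℝ) ≤ MM y := by exact_mod_cast hM4
  have hM1 : (1 : ℝ) ≤ MM y := by linarith
  have hpos : 0 ≤ 1 / (MM y : ℝ) + (y ^ (-(20 : ℝ))) ^ (-(ε / 2)) := by positivity
  have hM9 : y ≤ (MM y : ℝ) ^ 9 * y := le_mul_of_one_le_left hy.le (one_le_pow₀ hM1)
  by_cases hc : ∀ n : ℕ, 0 < n → Near (γ * n) (4 * (MM y : ℝ) ^ 5 * y) → MM y ^ 9 ≤ n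
  · refine hgen ψ B hψ hB y hy hy0 hH γ y le_rfl hM9 (fun T hT => ?_) E fun e he => ?_
    · refine (hG γ y _ (MM y) (by omega) hX1 hy hc T hT).trans ?_
      exact mul_le_mul_of_nonneg_right (by linarith) hpos
    · obtain ⟨a1, a2, a3, a4, a5, a6, -⟩ := hE e he
      refine ⟨a1, a2, a3, a4, a5, a6, ?_⟩
      have hu : 1 ≤ uu e.1 e.2 :=
        Nat.div_pos (Nat.gcd_le_left _ (hB _ a1).1) (Nat.gcd_pos_of_pos_left _ (hB _ a1).1)
      have hu' : (1 : ℝ) ≤ max (uu e.1 e.2 : ℝ) (uu e.2 e.1) :=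
        le_max_of_le_left (by exact_mod_cast hu)
      have k1 : (MM y : ℝ) ^ 6 * y ≤ (MM y : ℝ) ^ 40 * y :=
        mul_le_mul_of_nonneg_right (pow_le_pow_right₀ hM1 (by norm_num)) hy.le
      rw [abs_of_nonneg (by linarith : (0 : ℝ) ≤ γ)]
      exact (k1.trans hM40).trans (one_le_mul_of_one_le_of_one_le hγ hu')
  · push Not at hc
    obtain ⟨n, hn, hnear, hlt⟩ := hc
    obtain ⟨x, hx1, hx2, hx3, hx4⟩ := level2_reduce hn hnear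
    have hx5 : x.2 < MM y ^ 9 := lt_of_le_of_lt hx3 hlt
    have hx6 : (x.2 : ℝ) ≤ (MM y : ℝ) ^ 9 := by exact_mod_cast hx5.le
    refine hgen ψ B hψ hB y hy hy0 hH ((x.2 : ℝ) * γ - x.1) ((MM y : ℝ) ^ 9 * y) hM9 le_rfl
      (fun T hT => ?_) E fun e he => ?_
    · refine (hS _ _ _ (MM y) (by omega) hX1 (by positivity) ?_ ?_ T hT).trans ?_
      · have k1 : 2 * (MM y : ℝ) ^ 23 ≤ (MM y : ℝ) ^ 24 := by
          rw [pow_succ (MM y : ℝ) 23]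
          have : 0 ≤ (MM y : ℝ) ^ 23 := by positivity
          nlinarith
        have k2 : (MM y : ℝ) ^ 24 ≤ (MM y : ℝ) ^ 40 := pow_le_pow_right₀ hM1 (by norm_num)
        have k3 := mul_le_mul_of_nonneg_right (k1.trans k2) hy.le
        have e : 2 * (MM y : ℝ) ^ 14 * ((MM y : ℝ) ^ 9 * y) = 2 * (MM y : ℝ) ^ 23 * y := by ring
        rw [e]
        exact k3.trans hM40
      · have k1 := mul_le_mul_of_nonneg_right hx4 (show 0 ≤ (MM y : ℝ) ^ 4 by positivity)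
        have e : 4 * ((MM y : ℝ) ^ 9 * y) = 4 * (MM y : ℝ) ^ 5 * y * (MM y : ℝ) ^ 4 := by ring
        rw [e]
        exact k1
      · exact mul_le_mul_of_nonneg_right (by linarith) hpos
    · obtain ⟨a1, a2, a3, a4, a5, a6, a7⟩ := hE e he
      refine ⟨a1, a2, a3, a4, a5, level2_bohr x.1 a6 ?_, ?_⟩
      · have := mul_le_mul_of_nonneg_right hx6 (show 0 ≤ 2 * y by positivity)
        linarith
      · by_contra hlt'
        refine a7 ⟨x, hx1, hx2, hx5, ?_⟩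
        have e : (MM y : ℝ) ^ 15 * y = (MM y : ℝ) ^ 6 * ((MM y : ℝ) ^ 9 * y) := by ring
        rw [e]
        exact not_le.1 hlt'

end Vale.Agent.P028G
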