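import Vale.Agent.P028G.LevelA
import Vale.Agent.P028G.ExactA
import Vale.Agent.P028G.Level2

/-! The second moment for small approximating functions. -/

namespace Vale.Agent.P028G

open Finset Real MeasureTheory Filter Vale.Agent.P028

theorem nonfar_ll : ∃ q₀ : ℕ, ∀ (ψ : ℕ → ℝ) (q r : ℕ), q₀ ≤ q → q₀ ≤ r → 1 / (q : ℝ) ^ 2 ≤ ψ q →
    DD ψ q r < ll (q * r) ^ 3 → 1 / (r : ℝ) ^ 2 ≤ ψ r → ll (q * r) ≤ 2 * ll q := by
  have ht : Tendsto (fun q : ℕ => log (q : ℝ)) atTop atTop :=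
    tendsto_log_atTop.comp tendsto_natCast_atTop_atTop
  obtain ⟨q₀, hq₀⟩ := eventually_atTop.1 (ht.eventually_ge_atTop 12)
  refine ⟨max q₀ 1, fun ψ q r hq hr h1 hD _ => ?_⟩
  have hq1 : 0 < q := lt_of_lt_of_le one_pos (le_trans (le_max_right _ _) hq)
  have hr1 : 0 < r := lt_of_lt_of_le one_pos (le_trans (le_max_right _ _) hr)
  have lq : 12 ≤ log (q : ℝ) := hq₀ q (le_trans (le_max_left _ _) hq)
  have lr : 12 ≤ log (r : ℝ) := hq₀ r (le_trans (le_max_left _ _) hr)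
  have q0 : (0 : ℝ) < q := Nat.cast_pos.2 hq1
  have r0 : (0 : ℝ) < r := Nat.cast_pos.2 hr1
  have hv : (r : ℝ) ≤ q * uu r q := by
    have e := uu_mul' q r
    have h2 : r ≤ q * uu r q := by
      calc r = Nat.gcd q r * uu r q := e.symm
        _ ≤ q * uu r q := Nat.mul_le_mul_right _ (Nat.gcd_le_left r hq1)
    exact_mod_cast h2
  have hL : log ((q * r : ℕ) : ℝ) = log q + log r := by
    rw [Nat.cast_mul, log_mul q0.ne' r0.ne']
  set L := log ((q * r : ℕ) : ℝ) with hLdef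
  have L0 : 24 ≤ L := by linarith
  have el : ll (q * r) = log L := rfl
  have l0 : 0 < log L := log_pos (by linarith)
  have h3 : (r : ℝ) / q ^ 3 < log L ^ 3 := by
    rw [← el]
    refine lt_of_le_of_lt ?_ hD
    rw [DD_eq]
    refine le_trans ?_ (le_max_left _ _)
    refine le_trans ?_ (mul_le_mul_of_nonneg_right h1 (Nat.cast_nonneg _))
    rw [div_le_iff₀ (by positivity)]
    have : 1 / (q : ℝ) ^ 2 * uu r q * q ^ 3 = q * uu r q := by field_simp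
    rw [this]; exact hv
  have h4 := log_lt_log (by positivity) h3
  rw [log_div r0.ne' (by positivity), log_pow, log_pow] at h4
  push_cast at h4
  have h5 : log (log L) ≤ log L - 1 := log_le_sub_one_of_pos l0
  have h6 : log L ≤ L / 12 + 10 := by
    have a1 : log (L / 12) ≤ L / 12 - 1 := log_le_sub_one_of_pos (by linarith)
    have a2 : log (12 : ℝ) ≤ 12 - 1 := log_le_sub_one_of_pos (by norm_num)
    rw [log_div (by linarith) (by norm_num)] at a1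
    linarith
  have h7 : L ≤ log q ^ 2 := by nlinarith
  have h8 := log_le_log (by linarith) h7
  rw [log_pow] at h8
  rw [el]
  unfold ll
  exact_mod_cast h8

theorem blockA_ss : ∃ C : ℝ, 0 < C ∧ ∀ (γ y c : ℝ) (ψ : ℕ → ℝ) (q r : ℕ), (∀ q, 0 ≤ ψ q) →
    16 ≤ q → 16 ≤ r → 0 < y → y ≤ 1 / 4 → y / 2 < DD ψ q r → DD ψ q r ≤ y → ll (q * r) ≤ c →
    SS γ ψ q r ≤ C * c / y * (wt ψ q * wt ψ r) := by
  obtain ⟨C, hC, hchi⟩ := chi_ll
  refine ⟨4 * C, by positivity, fun γ y c ψ q r hψ hq hr hy hy1 hD1 hD2 hc => ?_⟩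
  have hX : (16 : ℝ) ≤ ((q * r : ℕ) : ℝ) := by
    have : 16 ≤ q * r := by nlinarith
    exact_mod_cast this
  have l1 : 1 ≤ ll (q * r) := hyps_ll hX
  have hD0 : 0 < DD ψ q r := by linarith
  have h1 : SC γ ψ q r ≤ 2 * (C * c) := by
    unfold SC
    refine le_trans (sum_le_card_nsmul _ _ (C * c) fun h _ => ?_) ?_
    · refine le_trans (hchi _ _ q r h ((q * r : ℕ) : ℝ) (by omega) (by omega) hX
        (by push_cast; exact le_rfl)) ?_
      exact mul_le_mul_of_nonneg_left hc hC.le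
    · rw [nsmul_eq_mul]
      refine mul_le_mul_of_nonneg_right ((card_JJ hD0.le q r).trans (by linarith)) ?_
      exact mul_nonneg hC.le (by linarith)
  have hw : 0 ≤ wt ψ q * wt ψ r := mul_nonneg (wt_nonneg (hψ q)) (wt_nonneg (hψ r))
  have h2 : wt ψ q * wt ψ r / DD ψ q r ≤ wt ψ q * wt ψ r / (y / 2) :=
    div_le_div_of_nonneg_left hw (by positivity) hD1.le
  unfold SS
  refine le_trans (mul_le_mul h2 h1 (SC_nonneg _ _ _ _) (by positivity)) (le_of_eq ?_)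
  field_simp
  ring

theorem blockA_pow {y l ε : ℝ} (hy : 0 < y) (hε : 0 < ε) (hl : 4 ≤ l)
    (h : y ^ (-(ε / 2)) ≤ 2 * l) : 1 / y ≤ l ^ (3 / ε) := by
  have l0 : 0 < l := by linarith
  have h1 : (y ^ (-(ε / 2))) ^ (2 / ε) ≤ (l ^ (3 / 2 : ℝ)) ^ (2 / ε) := by
    refine rpow_le_rpow (by positivity) (h.trans ?_) (by positivity)
    have e : l ^ (3 / 2 : ℝ) = l ^ (1 / 2 : ℝ) * l := by
      rw [← rpow_add_one l0.ne']; norm_num
    rw [e]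
    refine mul_le_mul_of_nonneg_right ?_ l0.le
    rw [← sqrt_eq_rpow]
    exact le_sqrt_of_sq_le (by linarith)
  rw [← rpow_mul hy.le, ← rpow_mul l0.le] at h1
  have e1 : -(ε / 2) * (2 / ε) = -1 := by field_simp
  have e2 : 3 / 2 * (2 / ε) = 3 / ε := by field_simp
  rwa [e1, e2, rpow_neg_one, ← one_div] at h1

theorem blockA_level (ε : ℝ) (hε : 0 < ε) (hε1 : ε ≤ 1 / 5120) :
    ∃ (C K : ℝ) (q₀ : ℕ), 0 < C ∧ 0 < K ∧ ∀ γ : ℝ, 1 ≤ γ → ∀ (ψ : ℕ → ℝ) (B : Finset ℕ),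
    (∀ q, 0 ≤ ψ q) → (∀ q ∈ B, q₀ ≤ q ∧ 1 / (q : ℝ) ^ 2 ≤ ψ q ∧ ψ q ≤ exp (-ll q ^ 40)) →
    1 ≤ ∑ q ∈ B, wt ψ q → ∀ y : ℝ, 0 < y → ∀ E : Finset (ℕ × ℕ),
    (∀ e ∈ E, e.1 ∈ B ∧ e.2 ∈ B ∧ e.1 ≠ e.2 ∧ DD ψ e.1 e.2 < ll (e.1 * e.2) ^ 3 ∧
      ¬ Ex2 γ ψ e.1 e.2 ∧ ¬ Ex2 γ ψ e.2 e.1 ∧ y / 2 < DD ψ e.1 e.2 ∧ DD ψ e.1 e.2 ≤ y) →
    ∑ e ∈ E, (SS γ ψ e.1 e.2 - K * (wt ψ e.1 * wt ψ e.2)) ≤
      C * (∑ q ∈ B, wt ψ q) ^ 2 * min (y ^ (ε / 2)) (y ^ (-(ε / 2))) := by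
  classical
  obtain ⟨yA, hyA, hA⟩ := hypA 1 ε 1 4 (by norm_num) one_pos one_pos le_rfl hε
    (hε1.trans (by norm_num))
  obtain ⟨C2, hC2, h2⟩ := level2 ε hε (hε1.trans (by norm_num))
  obtain ⟨CA, l₀, hCA, hlev⟩ := levelA ε hε (hε1.trans (by norm_num))
  obtain ⟨Cs, hCs, hss⟩ := blockA_ss
  obtain ⟨q₁, hq₁⟩ := nonfar_ll
  obtain ⟨y1, hy1⟩ : ∃ y1 : ℝ, y1 = min (1 / 2 ^ 80) yA := ⟨_, rfl⟩
  have y10 : 0 < y1 := by rw [hy1]; positivity
  have y1a : y1 ≤ 1 / 2 ^ 80 := by rw [hy1]; exact min_le_left _ _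
  have y1b : y1 ≤ yA := by rw [hy1]; exact min_le_right _ _
  obtain ⟨q₂, hq₂⟩ := eventually_atTop.1 (main_ll.eventually_ge_atTop (max l₀ (max 16 (1 / y1))))
  refine ⟨CA + CA * C2 + Cs * C2, CA * max 1 (y1 ^ (-(1 + ε / 2))), max 16 (max q₁ q₂),
    by positivity, by positivity, ?_⟩
  intro γ hγ ψ B hψ hB hW y hy E hE
  set W := ∑ q ∈ B, wt ψ q with hWdef
  have hw : ∀ v, 0 ≤ wt ψ v := fun v => wt_nonneg (hψ v)
  have b16 : ∀ q ∈ B, 16 ≤ q := fun q hq => le_trans (le_max_left _ _) (hB q hq).1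
  have bq1 : ∀ q ∈ B, q₁ ≤ q := fun q hq =>
    le_trans (le_trans (le_max_left _ _) (le_max_right _ _)) (hB q hq).1
  have bl : ∀ q ∈ B, max l₀ (max 16 (1 / y1)) ≤ ll q := fun q hq =>
    hq₂ q (le_trans (le_trans (le_max_right _ _) (le_max_right _ _)) (hB q hq).1)
  have bl0 : ∀ q ∈ B, l₀ ≤ ll q := fun q hq => le_trans (le_max_left _ _) (bl q hq)
  have bl16 : ∀ q ∈ B, 16 ≤ ll q := fun q hq =>
    le_trans (le_trans (le_max_left _ _) (le_max_right _ _)) (bl q hq)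
  have bly : ∀ q ∈ B, 1 / y1 ≤ ll q := fun q hq =>
    le_trans (le_trans (le_max_right _ _) (le_max_right _ _)) (bl q hq)
  have bpos : ∀ q ∈ B, 0 < q ∧ 0 < ψ q := by
    intro q hq
    have h0 : 0 < q := by have := b16 q hq; omega
    have : (0 : ℝ) < q := Nat.cast_pos.2 h0
    exact ⟨h0, lt_of_lt_of_le (by positivity) (hB q hq).2.1⟩
  have bA : ∀ q ∈ B, 0 < q ∧ 0 < ψ q ∧ ψ q ≤ exp (-ll q ^ 40) ∧ l₀ ≤ ll q := fun q hq =>
    ⟨(bpos q hq).1, (bpos q hq).2, (hB q hq).2.2, bl0 q hq⟩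
  have nf : ∀ e ∈ E, ll (e.1 * e.2) ≤ 2 * ll e.1 ∧ ll (e.1 * e.2) ≤ 2 * ll e.2 := by
    intro e he
    obtain ⟨a1, a2, -, a4, -⟩ := hE e he
    refine ⟨hq₁ ψ _ _ (bq1 _ a1) (bq1 _ a2) (hB _ a1).2.1 a4 (hB _ a2).2.1, ?_⟩
    rw [mul_comm e.1 e.2] at a4 ⊢
    rw [DD_comm] at a4
    exact hq₁ ψ _ _ (bq1 _ a2) (bq1 _ a1) (hB _ a2).2.1 a4 (hB _ a1).2.1
  have hmin : 0 < min (y ^ (ε / 2)) (y ^ (-(ε / 2))) := by positivity
  have hW2 : 0 ≤ W ^ 2 * min (y ^ (ε / 2)) (y ^ (-(ε / 2))) := by positivity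
  by_cases hc : y ≤ y1
  · have hy80 : y ≤ 1 / 2 ^ 80 := hc.trans y1a
    have hy4 : y ≤ 1 / 4 := hy80.trans (by norm_num)
    have hH : Hyp ψ B 1 4 ε y := by
      refine hA ψ B (fun v hv => ⟨b16 v hv, hψ v, (hB v hv).2.2.trans ?_⟩) y hy (hc.trans y1b)
      rw [exp_le_exp, neg_le_neg_iff]
      have e : (1 + 1 : ℝ) = ((2 : ℕ) : ℝ) := by norm_num
      rw [e, rpow_natCast]
      exact pow_le_pow_right₀ (le_trans (by norm_num) (bl16 v hv)) (by norm_num)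
    have hsave : ∀ E' ⊆ E, (∀ e ∈ E', SS γ ψ e.1 e.2 ≠ 0) →
        ms (wt ψ) E' ≤ C2 * y ^ (1 + ε) * W ^ 2 := by
      intro E' hE' hne
      refine le_trans (h2 γ hγ ψ B hψ bpos y hy hy80 hH E' fun e he => ?_) ?_
      · obtain ⟨a1, a2, a3, -, a5, a6, a7, a8⟩ := hE e (hE' he)
        have hSC : SC γ ψ e.1 e.2 ≠ 0 := fun h => hne e he (by unfold SS; rw [h, mul_zero])
        refine ⟨a1, a2, a3, a7, a8, ?_, fun hx => ?_⟩
        · obtain ⟨h, hh, -⟩ := exists_ne_zero_of_sum_ne_zero hSC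
          exact Near.mono (bohr_of_mem_JJ hh) (by linarith)
        · rcases exact_ex2 (bpos _ a1).1 (bpos _ a2).1 (bpos _ a1).2 (bpos _ a2).2 hy hy80 a3 a7
            a8 hx with h | h | h
          · exact hSC h
          · exact a5 h
          · exact a6 h
      · refine mul_le_mul_of_nonneg_left ?_ (by positivity)
        rw [← rpow_natCast]
        exact rpow_le_rpow_of_exponent_le hW (by push_cast; linarith)
    have emin : min (y ^ (ε / 2)) (y ^ (-(ε / 2))) = y ^ (ε / 2) :=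
      min_eq_left (rpow_le_rpow_of_exponent_ge hy (by linarith) (by linarith))
    have emax : max 1 (y ^ (-(1 + ε / 2))) = y ^ (-(1 + ε / 2)) :=
      max_eq_right (one_le_rpow_of_pos_of_le_one_of_nonpos hy (by linarith) (by linarith))
    have ey : y ^ (-(1 + ε / 2)) * y ^ (1 + ε) = y ^ (ε / 2) := by
      rw [← rpow_add hy]; congr 1; ring
    have ey' : y ^ (-(ε / 2)) / y = y ^ (-(1 + ε / 2)) := by
      rw [← rpow_sub_one hy.ne']; congr 1; ring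
    set E1 := E.filter fun e => SS γ ψ e.1 e.2 ≠ 0 with hE1
    have s1 : ∑ e ∈ E, (SS γ ψ e.1 e.2 - CA * max 1 (y1 ^ (-(1 + ε / 2))) *
        (wt ψ e.1 * wt ψ e.2)) ≤ ∑ e ∈ E1, SS γ ψ e.1 e.2 := by
      rw [hE1, sum_filter_ne_zero]
      refine sum_le_sum fun e _ => sub_le_self _ ?_
      exact mul_nonneg (by positivity) (mul_nonneg (hw _) (hw _))
    have sa : ∑ e ∈ E1.filter (fun e => ll (e.1 * e.2) ≤ y ^ (-(ε / 2))), SS γ ψ e.1 e.2 ≤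
        Cs * C2 * (W ^ 2 * y ^ (ε / 2)) := by
      have t1 := hsave (E1.filter fun e => ll (e.1 * e.2) ≤ y ^ (-(ε / 2)))
        ((filter_subset _ _).trans (filter_subset _ _))
        fun e he => (mem_filter.1 (mem_filter.1 he).1).2
      have t2 : ∑ e ∈ E1.filter (fun e => ll (e.1 * e.2) ≤ y ^ (-(ε / 2))), SS γ ψ e.1 e.2 ≤
          Cs * y ^ (-(1 + ε / 2)) *
            ms (wt ψ) (E1.filter fun e => ll (e.1 * e.2) ≤ y ^ (-(ε / 2))) := by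
        unfold ms
        rw [mul_sum]
        refine sum_le_sum fun e he => ?_
        obtain ⟨he1, he2⟩ := mem_filter.1 he
        obtain ⟨a1, a2, -, -, -, -, a7, a8⟩ := hE e (mem_filter.1 he1).1
        rw [← ey', ← mul_div_assoc]
        exact hss γ y _ ψ _ _ hψ (b16 _ a1) (b16 _ a2) hy hy4 a7 a8 he2
      refine t2.trans ((mul_le_mul_of_nonneg_left t1 (by positivity)).trans (le_of_eq ?_))
      rw [← ey]; ring
    have sb : ∑ e ∈ E1.filter (fun e => ¬ ll (e.1 * e.2) ≤ y ^ (-(ε / 2))), SS γ ψ e.1 e.2 ≤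
        (CA + CA * C2) * (W ^ 2 * y ^ (ε / 2)) := by
      have t1 := hsave (E1.filter fun e => ¬ ll (e.1 * e.2) ≤ y ^ (-(ε / 2)))
        ((filter_subset _ _).trans (filter_subset _ _))
        fun e he => (mem_filter.1 (mem_filter.1 he).1).2
      have t2 := hlev γ ψ B hψ bA hW y hy
        (E1.filter fun e => ¬ ll (e.1 * e.2) ≤ y ^ (-(ε / 2))) fun e he => by
          obtain ⟨he1, he2⟩ := mem_filter.1 he
          have he3 := (mem_filter.1 he1).1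
          obtain ⟨a1, a2, a3, -, -, -, a7, a8⟩ := hE e he3
          have l1 := bl16 _ a1
          have l2 := bl16 _ a2
          refine ⟨a1, a2, a3, a7, a8, ?_, ?_, ?_, ?_⟩
          · exact le_trans (by linarith) (one_le_pow₀ (by linarith : 1 ≤ ll e.1))
          · exact le_trans (by linarith) (one_le_pow₀ (by linarith : 1 ≤ ll e.2))
          · exact blockA_pow hy hε (by linarith) ((not_le.1 he2).le.trans (nf e he3).1)
          · exact blockA_pow hy hε (by linarith) ((not_le.1 he2).le.trans (nf e he3).2)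
      rw [emin, emax] at t2
      have t3 := mul_le_mul_of_nonneg_left t1
        (show 0 ≤ CA * y ^ (-(1 + ε / 2)) by positivity)
      refine t2.trans ((add_le_add le_rfl t3).trans (le_of_eq ?_))
      rw [← ey]; ring
    refine s1.trans ?_
    rw [← sum_filter_add_sum_filter_not E1 (fun e => ll (e.1 * e.2) ≤ y ^ (-(ε / 2))), emin]
    linarith
  · have hc' : y1 < y := not_le.1 hc
    have key : ∀ l L D : ℝ, 16 ≤ l → 1 / y1 ≤ l → L ≤ 2 * l → y / 2 < D → D < L ^ 3 →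
        y ≤ l ^ 4 ∧ 1 / y ≤ l ^ (3 / ε) := by
      intro l L D a1 a2 a3 a4 a5
      constructor
      · have hL : 0 ≤ L := by
          by_contra hn
          have := Odd.pow_neg (by decide : Odd 3) (not_le.1 hn)
          linarith
        have b1 : L ^ 3 ≤ (2 * l) ^ 3 := pow_le_pow_left₀ hL a3 3
        have b2 : 16 * l ^ 3 ≤ l * l ^ 3 := mul_le_mul_of_nonneg_right a1 (by positivity)
        nlinarith
      · refine le_trans (one_div_le_one_div_of_le y10 hc'.le) (a2.trans ?_)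
        have b1 : l ^ (1 : ℝ) ≤ l ^ (3 / ε) := by
          refine rpow_le_rpow_of_exponent_le (by linarith) ?_
          rw [le_div_iff₀ hε]; linarith
        rwa [rpow_one] at b1
    have t2 := hlev γ ψ B hψ bA hW y hy E fun e he => by
      obtain ⟨a1, a2, a3, a4, -, -, a7, a8⟩ := hE e he
      have k1 := key _ _ _ (bl16 _ a1) (bly _ a1) (nf e he).1 a7 a4
      have k2 := key _ _ _ (bl16 _ a2) (bly _ a2) (nf e he).2 a7 a4
      exact ⟨a1, a2, a3, a7, a8, k1.1, k2.1, k1.2, k2.2⟩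
    have hms : 0 ≤ ms (wt ψ) E := sum_nonneg fun e _ => mul_nonneg (hw _) (hw _)
    have t3 : CA * max 1 (y ^ (-(1 + ε / 2))) * ms (wt ψ) E ≤
        CA * max 1 (y1 ^ (-(1 + ε / 2))) * ms (wt ψ) E := by
      refine mul_le_mul_of_nonneg_right (mul_le_mul_of_nonneg_left ?_ hCA.le) hms
      exact max_le_max le_rfl (rpow_le_rpow_of_nonpos y10 hc'.le (by linarith))
    rw [sum_sub_distrib, ← mul_sum]
    have t4 : 0 ≤ (CA * C2 + Cs * C2) * (W ^ 2 * min (y ^ (ε / 2)) (y ^ (-(ε / 2)))) := by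
      positivity
    unfold ms at t2 t3
    linarith

theorem blockA_rest : ∃ (C : ℝ) (q₀ : ℕ), 0 < C ∧ ∀ γ : ℝ, 1 ≤ γ → ∀ (ψ : ℕ → ℝ) (B : Finset ℕ),
    (∀ q, 0 ≤ ψ q) → (∀ q ∈ B, q₀ ≤ q ∧ 1 / (q : ℝ) ^ 2 ≤ ψ q ∧ ψ q ≤ exp (-ll q ^ 40)) →
    1 ≤ ∑ q ∈ B, wt ψ q → ∀ E ⊆ B ×ˢ B,
    (∀ e ∈ E, e.1 ≠ e.2 ∧ DD ψ e.1 e.2 < ll (e.1 * e.2) ^ 3 ∧
      ¬ Ex2 γ ψ e.1 e.2 ∧ ¬ Ex2 γ ψ e.2 e.1) →
    ∑ e ∈ E, SS γ ψ e.1 e.2 ≤ C * (∑ q ∈ B, wt ψ q) ^ 2 := by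
  obtain ⟨C, K, q₀, hC, hK, h⟩ := blockA_level (1 / 5120) (by norm_num) le_rfl
  obtain ⟨G, hG, hg⟩ := geo_min ((1 / 5120 : ℝ) / 2) (by norm_num)
  refine ⟨C * G + K, max q₀ 1, by positivity, fun γ hγ ψ B hψ hB hW E hEB hE => ?_⟩
  set W := ∑ q ∈ B, wt ψ q with hWdef
  have hw : ∀ v, 0 ≤ wt ψ v := fun v => wt_nonneg (hψ v)
  have bpos : ∀ q ∈ B, 0 < q ∧ 0 < ψ q := by
    intro q hq
    have h0 : 0 < q := lt_of_lt_of_le one_pos (le_trans (le_max_right _ _) (hB q hq).1)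
    have : (0 : ℝ) < q := Nat.cast_pos.2 h0
    exact ⟨h0, lt_of_lt_of_le (by positivity) (hB q hq).2.1⟩
  have h1 := sum_levels ψ E
    (fun e he => block_DD_pos (bpos _ (mem_product.1 (hEB he)).2).1
      (bpos _ (mem_product.1 (hEB he)).1).2)
    (fun e => SS γ ψ e.1 e.2 - K * (wt ψ e.1 * wt ψ e.2))
    (fun y => C * W ^ 2 * min (y ^ ((1 / 5120 : ℝ) / 2)) (y ^ (-((1 / 5120 : ℝ) / 2))))
    (C * W ^ 2 * G)
    (fun J => by
      rw [← mul_sum]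
      exact mul_le_mul_of_nonneg_left (hg J) (by positivity))
    (fun j E' hE' hj => h γ hγ ψ B hψ
      (fun q hq => ⟨le_trans (le_max_left _ _) (hB q hq).1, (hB q hq).2⟩) hW _ (by positivity) E'
      fun e he => by
        obtain ⟨a1, a2, a3, a4⟩ := hE e (hE' he)
        exact ⟨(mem_product.1 (hEB (hE' he))).1, (mem_product.1 (hEB (hE' he))).2, a1, a2, a3,
          a4, (hj e he).1, (hj e he).2⟩)
  rw [sum_sub_distrib, ← mul_sum] at h1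
  have e1 : ∑ e ∈ B ×ˢ B, wt ψ e.1 * wt ψ e.2 = W ^ 2 := by
    rw [sq, hWdef, sum_mul_sum, sum_product]
  have h2 : ∑ e ∈ E, wt ψ e.1 * wt ψ e.2 ≤ W ^ 2 := by
    rw [← e1]
    exact sum_le_sum_of_subset_of_nonneg hEB fun e _ _ => mul_nonneg (hw _) (hw _)
  have h3 := mul_le_mul_of_nonneg_left h2 hK.le
  linarith

theorem blockA_ov_nonneg (γ s : ℝ) (ψ : ℕ → ℝ) (q r : ℕ) : 0 ≤ ov γ s ψ q r :=
  mul_nonneg (mul_nonneg (cf_nonneg _ _) (cf_nonneg _ _)) measureReal_nonneg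

theorem blockA : ∃ (C : ℝ) (q₀ : ℕ), 0 < C ∧ ∀ γ s : ℝ, 1 ≤ γ → ∀ (ψ : ℕ → ℝ) (B : Finset ℕ),
    (∀ q, 0 ≤ ψ q) → (∀ q ∈ B, q₀ ≤ q ∧ 1 / (q : ℝ) ^ 2 ≤ ψ q ∧ ψ q ≤ exp (-ll q ^ 40)) →
    1 ≤ ∑ q ∈ B, wt ψ q →
    ∑ q ∈ B, ∑ r ∈ B, ov γ s ψ q r ≤ C * (∑ q ∈ B, wt ψ q) ^ 2 := by
  classical
  obtain ⟨Cr, q₁, hCr, hrest⟩ := blockA_rest
  obtain ⟨Ce, q₂, hCe, hex⟩ := ex2_sumA
  obtain ⟨Cf, hCf, hfar⟩ := far_sum
  refine ⟨10 + 14 * Cf + 2 * Ce + 14 * Cr, max 16 (max q₁ q₂), by positivity, ?_⟩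
  intro γ s hγ ψ B hψ hB hW
  set W := ∑ q ∈ B, wt ψ q with hWdef
  have b16 : ∀ q ∈ B, 16 ≤ q := fun q hq => le_trans (le_max_left _ _) (hB q hq).1
  have bq1 : ∀ q ∈ B, q₁ ≤ q := fun q hq =>
    le_trans (le_trans (le_max_left _ _) (le_max_right _ _)) (hB q hq).1
  have bq2 : ∀ q ∈ B, q₂ ≤ q := fun q hq =>
    le_trans (le_trans (le_max_right _ _) (le_max_right _ _)) (hB q hq).1
  have bp : ∀ q ∈ B, 0 < q ∧ 0 < ψ q ∧ ψ q ≤ 1 / 2 := by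
    intro q hq
    have h16 := b16 q hq
    have h0 : 0 < q := by omega
    have : (0 : ℝ) < q := Nat.cast_pos.2 h0
    refine ⟨h0, lt_of_lt_of_le (by positivity) (hB q hq).2.1, (hB q hq).2.2.trans ?_⟩
    have l1 : 1 ≤ ll q := hyps_ll (by exact_mod_cast h16)
    have l2 : 1 ≤ ll q ^ 40 := one_le_pow₀ l1
    rw [exp_neg, ← one_div]
    exact one_div_le_one_div_of_le (by norm_num) (by linarith [add_one_le_exp (ll q ^ 40)])
  have hWW : W ≤ W ^ 2 := by nlinarith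
  have hpt : ∀ q ∈ B, ∀ r ∈ B, ov γ s ψ q r ≤ (if q = r then ov γ s ψ q r else 0) +
      14 * (if ll (q * r) ^ 3 ≤ DD ψ q r then SS γ ψ q r else 0) +
      (if Ex2 γ ψ q r then ov γ s ψ q r else 0) + (if Ex2 γ ψ r q then ov γ s ψ r q else 0) +
      14 * (if q ≠ r ∧ DD ψ q r < ll (q * r) ^ 3 ∧ ¬ Ex2 γ ψ q r ∧ ¬ Ex2 γ ψ r q then
        SS γ ψ q r else 0) := by
    intro q hq r hr
    have o1 := blockA_ov_nonneg γ s ψ q r
    have o2 := SS_nonneg γ hψ q r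
    have o3 := ov_le γ s ψ (bp q hq).1 (bp r hr).1 (bp q hq).2.1 (bp q hq).2.2 (bp r hr).2.1
      (bp r hr).2.2
    rw [← ov_comm γ s ψ q r]
    have n1 : 0 ≤ (if q = r then ov γ s ψ q r else 0) := by split_ifs <;> linarith
    have n2 : 0 ≤ (if ll (q * r) ^ 3 ≤ DD ψ q r then SS γ ψ q r else 0) := by
      split_ifs <;> linarith
    have n3 : 0 ≤ (if Ex2 γ ψ q r then ov γ s ψ q r else 0) := by split_ifs <;> linarith
    have n4 : 0 ≤ (if Ex2 γ ψ r q then ov γ s ψ q r else 0) := by split_ifs <;> linarith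
    have n5 : 0 ≤ (if q ≠ r ∧ DD ψ q r < ll (q * r) ^ 3 ∧ ¬ Ex2 γ ψ q r ∧ ¬ Ex2 γ ψ r q then
        SS γ ψ q r else 0) := by split_ifs <;> linarith
    by_cases c1 : q = r
    · rw [if_pos c1]; linarith
    by_cases c2 : ll (q * r) ^ 3 ≤ DD ψ q r
    · rw [if_pos c2]; linarith
    by_cases c3 : Ex2 γ ψ q r
    · rw [if_pos c3]; linarith
    by_cases c4 : Ex2 γ ψ r q
    · rw [if_pos c4]; linarith
    rw [if_pos (show q ≠ r ∧ _ from ⟨c1, not_le.1 c2, c3, c4⟩)]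
    linarith
  have s1 : ∑ q ∈ B, ∑ r ∈ B, (if q = r then ov γ s ψ q r else 0) ≤ 10 * W := by
    rw [hWdef, mul_sum]
    refine sum_le_sum fun q hq => ?_
    rw [sum_ite_eq, if_pos hq]
    exact ov_diag γ s ψ (bp q hq).1 (bp q hq).2.1 (bp q hq).2.2
  have s2 : ∑ q ∈ B, ∑ r ∈ B, (if ll (q * r) ^ 3 ≤ DD ψ q r then SS γ ψ q r else 0) ≤
      Cf * W ^ 2 := by
    rw [← sum_product' (f := fun q r => if ll (q * r) ^ 3 ≤ DD ψ q r then SS γ ψ q r else 0),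
      ← sum_filter]
    refine hfar γ ψ B hψ (fun q hq => ⟨le_trans (by norm_num) (b16 q hq), (bp q hq).2.1⟩) hW _
      fun e he => ?_
    obtain ⟨h1, h2⟩ := mem_filter.1 he
    exact ⟨(mem_product.1 h1).1, (mem_product.1 h1).2, h2⟩
  have s3 : ∑ q ∈ B, ∑ r ∈ B, (if Ex2 γ ψ q r then ov γ s ψ q r else 0) ≤ Ce * W := by
    rw [hWdef, mul_sum]
    refine sum_le_sum fun q hq => ?_
    rw [← sum_filter]
    refine hex γ s ψ q _ (bq2 q hq) (bp q hq).2.1 (bp q hq).2.2 fun r hr => ?_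
    obtain ⟨h1, h2⟩ := mem_filter.1 hr
    exact ⟨(bp r h1).2.1, (bp r h1).2.2, (hB r h1).2.2, h2⟩
  have s4 : ∑ q ∈ B, ∑ r ∈ B, (if Ex2 γ ψ r q then ov γ s ψ r q else 0) ≤ Ce * W := by
    rw [sum_comm]; exact s3
  have s5 : ∑ q ∈ B, ∑ r ∈ B, (if q ≠ r ∧ DD ψ q r < ll (q * r) ^ 3 ∧ ¬ Ex2 γ ψ q r ∧
      ¬ Ex2 γ ψ r q then SS γ ψ q r else 0) ≤ Cr * W ^ 2 := by
    rw [← sum_product' (f := fun q r => if q ≠ r ∧ DD ψ q r < ll (q * r) ^ 3 ∧ ¬ Ex2 γ ψ q r ∧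
      ¬ Ex2 γ ψ r q then SS γ ψ q r else 0), ← sum_filter]
    exact hrest γ hγ ψ B hψ (fun q hq => ⟨bq1 q hq, (hB q hq).2⟩) hW _ (filter_subset _ _)
      fun e he => (mem_filter.1 he).2
  refine le_trans (sum_le_sum fun q hq => sum_le_sum fun r hr => hpt q hq r hr) ?_
  simp only [sum_add_distrib, ← mul_sum]
  have t1 := mul_le_mul_of_nonneg_left hWW hCe.le
  linarith

end Vale.Agent.P028G
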