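import Vale.Agent.P028G.Defs
import Vale.Agent.Lib.Mertens

/-! Pointwise bounds for the correlation factor. -/

namespace Vale.Agent.P028G

open Finset Real MeasureTheory Filter Vale.Agent.P028

theorem Chi_sum : ∃ C : ℝ, ∀ t : ℝ, 2 ≤ t → ∀ S : Finset ℕ,
    (∀ p ∈ S, p.Prime ∧ (p : ℝ) ≤ t) → exp (∑ p ∈ S, 1 / (p : ℝ)) ≤ exp C * log t := by
  obtain ⟨C, -, hC⟩ := Vale.Agent.Lib.Mertens.mertens2_crude
  refine ⟨C, fun t ht S hS => ?_⟩
  have h1 : S ⊆ (Icc 1 ⌊t⌋₊).filter Nat.Prime := fun p hp =>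
    mem_filter.2 ⟨mem_Icc.2 ⟨(hS p hp).1.one_le, Nat.le_floor (hS p hp).2⟩, (hS p hp).1⟩
  have h2 := sum_le_sum_of_subset_of_nonneg (f := fun p : ℕ => 1 / (p : ℝ)) h1
    fun _ _ _ => by positivity
  rw [← exp_log (log_pos (by linarith : 1 < t)), ← exp_add]
  exact exp_le_exp.2 (by linarith [(abs_le.1 (hC t ht)).2])

theorem Chi_two (S : Finset ℕ) :
    ∏ p ∈ S, (1 + 2 / (p : ℝ)) ≤ exp (2 * ∑ p ∈ S, 1 / (p : ℝ)) := by
  rw [mul_sum, exp_sum]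
  exact prod_le_prod (fun _ _ => by positivity) fun p _ => by
    rw [mul_one_div, add_comm]
    exact add_one_le_exp _

theorem Chi_inv {p : ℕ} (hp : p.Prime) : (1 - 1 / (p : ℝ))⁻¹ ≤ 1 + 2 / (p : ℝ) := by
  have h : (2 : ℝ) ≤ p := by exact_mod_cast hp.two_le
  have h1 : 1 / (p : ℝ) ≤ 1 / 2 := one_div_le_one_div_of_le two_pos h
  have h2 : 0 ≤ 1 / (p : ℝ) := by positivity
  rw [inv_le_iff_one_le_mul₀ (one_sub_inv_pos' hp), ← mul_one_div 2]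
  nlinarith

theorem Chi_chp (x x' : ℤ × ℕ) (u v : ℕ) (h : ℤ) {p : ℕ} (hp : p.Prime) :
    chp x x' u v h p ≤ (1 - 1 / (p : ℝ))⁻¹ := by
  have h0 := one_sub_inv_pos' hp
  have h1 : 1 ≤ (1 - 1 / (p : ℝ))⁻¹ := (one_le_inv₀ h0).2 (sub_le_self _ (by positivity))
  unfold chp
  split_ifs <;> first | exact h1 | exact le_rfl | exact zero_le_one.trans h1

theorem Chi_card {n : ℕ} (hn : 0 < n) {S : Finset ℕ} (hS : S ⊆ n.primeFactors) {T : ℝ} (hT : 0 < T)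
    (h : ∀ p ∈ S, T ≤ p) : S.card * log T ≤ log n := by
  have h1 : ∏ p ∈ S, p ≤ n := Nat.le_of_dvd hn
    ((prod_dvd_prod_of_subset _ _ _ hS).trans (Nat.prod_primeFactors_dvd n))
  have h2 : T ^ S.card ≤ n := by
    rw [← prod_const]
    refine (prod_le_prod (fun _ _ => hT.le) h).trans ?_
    rw [← Nat.cast_prod]
    exact Nat.cast_le.2 h1
  rw [← log_pow]
  exact log_le_log (by positivity) h2

theorem Chi_log {X : ℝ} (hX : 16 ≤ X) : 2 ≤ log X := by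
  have h := log_le_log (by norm_num) hX
  rw [show (16 : ℝ) = 2 ^ 4 by norm_num, log_pow] at h
  push_cast at h
  linarith [log_two_gt_d9]

theorem Chi_big {X : ℝ} (hX : 16 ≤ X) {n : ℕ} (hn : 0 < n) (hnX : (n : ℝ) ≤ X) {S : Finset ℕ}
    (hS : S ⊆ n.primeFactors) :
    ∏ p ∈ S.filter (fun p : ℕ => ¬ (p : ℝ) ≤ log X), (1 + 2 / (p : ℝ)) ≤ exp 4 := by
  refine (Chi_two _).trans (exp_le_exp.2 ?_)
  have h0 := Chi_log hX
  set S' := S.filter (fun p : ℕ => ¬ (p : ℝ) ≤ log X)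
  have h1 := Chi_card hn ((filter_subset _ S).trans hS : S' ⊆ _) two_pos fun p hp => by
    exact_mod_cast (Nat.prime_of_mem_primeFactors (hS (mem_filter.1 hp).1)).two_le
  have h2 : ∑ p ∈ S', 1 / (p : ℝ) ≤ S'.card • (1 / log X) := sum_le_card_nsmul _ _ _ fun p hp =>
    one_div_le_one_div_of_le (by linarith) (not_le.1 (mem_filter.1 hp).2).le
  have h3 : log n ≤ log X := log_le_log (by exact_mod_cast hn) hnX
  have h4 : (S'.card : ℝ) * (1 / 2) ≤ S'.card * log 2 :=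
    mul_le_mul_of_nonneg_left (by linarith [log_two_gt_d9]) (by positivity)
  rw [nsmul_eq_mul, mul_one_div] at h2
  have h5 : (S'.card : ℝ) / log X ≤ 2 := by
    rw [div_le_iff₀ (by linarith)]
    linarith
  linarith

theorem Chi_tail (S : Finset ℕ) {T₀ : ℝ} (hT : 8 ≤ T₀) (k : ℕ)
    (h : ∀ j, k ≤ j → ∑ p ∈ S.filter (fun p : ℕ => T₀ ^ 2 ^ j < p ∧ (p : ℝ) ≤ (T₀ ^ 2 ^ j) ^ 2),
      1 / (p : ℝ) ≤ 1 / log (T₀ ^ 2 ^ j)) :
    ∑ p ∈ S.filter (fun p : ℕ => T₀ ^ 2 ^ k < p), 1 / (p : ℝ) ≤ 1 := by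
  have h0 : 2 ≤ log T₀ := by
    have h := log_le_log (by norm_num) hT
    rw [show (8 : ℝ) = 2 ^ 3 by norm_num, log_pow] at h
    push_cast at h
    linarith [log_two_gt_d9]
  have h1 : ∀ d j, k ≤ j → (∀ p ∈ S, (p : ℝ) ≤ T₀ ^ 2 ^ (j + d)) →
      ∑ p ∈ S.filter (fun p : ℕ => T₀ ^ 2 ^ j < p), 1 / (p : ℝ) ≤ 2 / (2 ^ j * log T₀) := by
    intro d
    induction d with
    | zero =>
      intro j _ hS
      rw [add_zero] at hS
      rw [filter_false_of_mem fun p hp => not_lt.2 (hS p hp), sum_empty]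
      positivity
    | succ d ih =>
      intro j hj hS
      have h2 := ih (j + 1) (by omega) (by rwa [add_assoc, add_comm 1])
      have h3 := h j hj
      rw [log_pow, ← pow_mul, ← pow_succ] at h3
      rw [← sum_filter_add_sum_filter_not _ (fun p : ℕ => (p : ℝ) ≤ T₀ ^ 2 ^ (j + 1)), filter_filter]
      have h4 := sum_le_sum_of_subset_of_nonneg (f := fun p : ℕ => 1 / (p : ℝ))
        (s := (S.filter fun p : ℕ => T₀ ^ 2 ^ j < p).filter
          fun p : ℕ => ¬ (p : ℝ) ≤ T₀ ^ 2 ^ (j + 1))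
        (t := S.filter fun p : ℕ => T₀ ^ 2 ^ (j + 1) < p)
        (fun p hp => mem_filter.2 ⟨(mem_filter.1 (mem_filter.1 hp).1).1,
          not_le.1 (mem_filter.1 hp).2⟩) fun _ _ _ => by positivity
      refine (add_le_add h3 (h4.trans h2)).trans_eq ?_
      push_cast
      field_simp
      ring
  refine (h1 (S.sup id) k le_rfl fun p hp => ?_).trans ?_
  · have h2 : p ≤ k + S.sup id := (le_sup (f := id) hp).trans (Nat.le_add_left _ _)
    calc (p : ℝ) ≤ (2 ^ 2 ^ (k + S.sup id) : ℕ) := by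
          exact_mod_cast h2.trans (Nat.lt_two_pow_self.trans Nat.lt_two_pow_self).le
      _ ≤ _ := by
          push_cast
          exact pow_le_pow_left₀ zero_le_two (by linarith) _
  · have h2 : (1 : ℝ) ≤ 2 ^ k := one_le_pow₀ one_le_two
    rw [div_le_one (by positivity)]
    nlinarith

theorem prod_inv_le : ∃ C : ℝ, 0 < C ∧ ∀ t : ℝ, 2 ≤ t → ∀ S : Finset ℕ,
    (∀ p ∈ S, p.Prime ∧ (p : ℝ) ≤ t) → ∏ p ∈ S, (1 - 1 / (p : ℝ))⁻¹ ≤ C * log t := by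
  obtain ⟨C, hC⟩ := Chi_sum
  refine ⟨exp 2 * exp C, by positivity, fun t ht S hS => ?_⟩
  have h1 := Vale.Agent.Lib.Mertens.exp_le_prod S fun p hp => (hS p hp).1.two_le
  rw [prod_inv_distrib, mul_assoc]
  refine (inv_anti₀ (exp_pos _) h1).trans ?_
  rw [← exp_neg, neg_neg, add_comm, exp_add]
  exact mul_le_mul_of_nonneg_left (hC t ht S hS) (exp_pos _).le

theorem prod_two_le : ∃ C : ℝ, 0 < C ∧ ∀ t : ℝ, 2 ≤ t → ∀ S : Finset ℕ,
    (∀ p ∈ S, p.Prime ∧ (p : ℝ) ≤ t) → ∏ p ∈ S, (1 + 2 / (p : ℝ)) ≤ C * log t ^ 2 := by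
  obtain ⟨C, hC⟩ := Chi_sum
  refine ⟨exp C ^ 2, by positivity, fun t ht S hS => (Chi_two S).trans ?_⟩
  rw [← mul_pow, two_mul, exp_add, ← sq]
  exact pow_le_pow_left₀ (exp_pos _).le (hC t ht S hS) 2

theorem prod_two_ll : ∃ C : ℝ, 0 < C ∧ ∀ X : ℝ, 16 ≤ X → ∀ n : ℕ, 0 < n → (n : ℝ) ≤ X →
    ∀ S ⊆ n.primeFactors, ∏ p ∈ S, (1 + 2 / (p : ℝ)) ≤ C * log (log X) ^ 2 := by
  obtain ⟨C, hC0, hC⟩ := prod_two_le
  refine ⟨exp 4 * C, by positivity, fun X hX n hn hnX S hS => ?_⟩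
  rw [← prod_filter_mul_prod_filter_not S (fun p : ℕ => (p : ℝ) ≤ log X), mul_comm, mul_assoc]
  exact mul_le_mul (Chi_big hX hn hnX hS) (hC _ (Chi_log hX) _ fun p hp =>
    ⟨Nat.prime_of_mem_primeFactors (hS (mem_filter.1 hp).1), (mem_filter.1 hp).2⟩)
    (prod_nonneg fun _ _ => by positivity) (exp_pos _).le

theorem chi_pt : ∃ C : ℝ, 0 < C ∧ ∀ (x x' : ℤ × ℕ) (q r : ℕ) (h : ℤ) (t : ℝ), 0 < q → 0 < r →
    2 ≤ t → chi x x' q r h ≤
      C * log t * exp (2 * Lt t (uu q r * uu r q)) * exp (2 * L3 x x' q r h t) := by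
  obtain ⟨C, hC0, hC⟩ := prod_inv_le
  refine ⟨C, hC0, fun x x' q r h t hq hr ht => ?_⟩
  have hP : ∀ {P : ℕ → Prop} [DecidablePred P], ∀ p ∈ (q * r).primeFactors.filter P, p.Prime :=
    fun p hp => Nat.prime_of_mem_primeFactors (mem_filter.1 hp).1
  have hu : 0 < uu q r := Nat.div_pos (Nat.gcd_le_left r hq) (Nat.gcd_pos_of_pos_left r hq)
  have hv : 0 < uu r q := Nat.div_pos (Nat.gcd_le_left q hr) (Nat.gcd_pos_of_pos_left q hr)
  have hlog : 0 < log t := log_pos (by linarith)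
  rw [chi, ← prod_filter_mul_prod_filter_not _ (fun p : ℕ => (p : ℝ) ≤ t), mul_assoc, ← exp_add]
  refine mul_le_mul ((prod_le_prod (fun p hp => chp_nonneg _ _ _ _ _ (hP p hp))
    fun p hp => Chi_chp _ _ _ _ _ (hP p hp)).trans
    (hC t ht _ fun p hp => ⟨hP p hp, (mem_filter.1 hp).2⟩)) ?_
    (prod_nonneg fun p hp => chp_nonneg _ _ _ _ _ (hP p hp)) (by positivity)
  refine (prod_le_prod (g := fun p : ℕ => exp (2 * (if p ∣ uu q r * uu r q then 1 / (p : ℝ) else 0) +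
      2 * if p ∈ S3 x x' q r h then 1 / (p : ℝ) else 0))
    (fun p hp => chp_nonneg _ _ _ _ _ (hP p hp)) fun p hp => ?_).trans ?_
  · have hp' := hP p hp
    have h0 : 0 ≤ 2 * (1 / (p : ℝ)) := by positivity
    have h1 : chp x x' (uu q r) (uu r q) h p ≤ exp (2 * (1 / (p : ℝ))) :=
      ((Chi_chp _ _ _ _ _ hp').trans (Chi_inv hp')).trans (by
        rw [mul_one_div, add_comm]
        exact add_one_le_exp _)
    split_ifs with h2 h3 h3
    · exact h1.trans (exp_le_exp.2 (by linarith))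
    · exact h1.trans (exp_le_exp.2 (by linarith))
    · exact h1.trans (exp_le_exp.2 (by linarith))
    have h4 : ¬ p ∣ uu q r := fun h => h2 (h.mul_right _)
    have h5 : ¬ p ∣ uu r q := fun h => h2 (h.mul_left _)
    rw [chp, if_neg h4, if_neg h5, if_neg, mul_zero, add_zero, exp_zero]
    rintro ⟨h6, h7⟩
    refine h3 (mem_filter.2 ⟨Nat.mem_primeFactors.2 ⟨hp', ?_, (Nat.gcd_pos_of_pos_left r hq).ne'⟩,
      fun h8 => (hp'.dvd_mul.1 h8).elim h2 h6, h7⟩)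
    rcases hp'.dvd_mul.1 (Nat.dvd_of_mem_primeFactors (mem_filter.1 hp).1) with h8 | h8
    · rw [← Nat.mul_div_cancel' (Nat.gcd_dvd_left q r)] at h8
      exact (hp'.dvd_mul.1 h8).resolve_right h4
    · rw [← Nat.mul_div_cancel' (Nat.gcd_dvd_left r q)] at h8
      exact Nat.gcd_comm r q ▸ (hp'.dvd_mul.1 h8).resolve_right h5
  · rw [← exp_sum, sum_add_distrib, ← mul_sum, ← mul_sum, ← sum_filter, ← sum_filter]
    refine exp_le_exp.2 (add_le_add (mul_le_mul_of_nonneg_left (sum_le_sum_of_subset_of_nonneg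
      (fun p hp => ?_) fun _ _ _ => by positivity) zero_le_two) (mul_le_mul_of_nonneg_left
      (sum_le_sum_of_subset_of_nonneg (fun p hp => ?_) fun _ _ _ => by positivity) zero_le_two))
    · obtain ⟨h1, h2⟩ := mem_filter.1 hp
      exact mem_filter.2 ⟨Nat.mem_primeFactors.2 ⟨hP p h1, h2, (mul_pos hu hv).ne'⟩,
        not_le.1 (mem_filter.1 h1).2⟩
    · obtain ⟨h1, h2⟩ := mem_filter.1 hp
      exact mem_filter.2 ⟨h2, not_le.1 (mem_filter.1 h1).2⟩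

theorem chi_ll : ∃ C : ℝ, 0 < C ∧ ∀ (x x' : ℤ × ℕ) (q r : ℕ) (h : ℤ) (X : ℝ), 0 < q → 0 < r →
    16 ≤ X → (q : ℝ) * r ≤ X → chi x x' q r h ≤ C * log (log X) := by
  obtain ⟨C, hC0, hC⟩ := prod_inv_le
  refine ⟨exp 4 * C, by positivity, fun x x' q r h X hq hr hX hn => ?_⟩
  have hP : ∀ {P : ℕ → Prop} [DecidablePred P], ∀ p ∈ (q * r).primeFactors.filter P, p.Prime :=
    fun p hp => Nat.prime_of_mem_primeFactors (mem_filter.1 hp).1
  rw [chi, ← prod_filter_mul_prod_filter_not _ (fun p : ℕ => (p : ℝ) ≤ log X), mul_comm, mul_assoc]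
  exact mul_le_mul ((prod_le_prod (fun p hp => chp_nonneg _ _ _ _ _ (hP p hp))
      fun p hp => (Chi_chp _ _ _ _ _ (hP p hp)).trans (Chi_inv (hP p hp))).trans
      (Chi_big hX (mul_pos hq hr) (by exact_mod_cast hn) subset_rfl))
    ((prod_le_prod (fun p hp => chp_nonneg _ _ _ _ _ (hP p hp))
      fun p hp => Chi_chp _ _ _ _ _ (hP p hp)).trans
      (hC _ (Chi_log hX) _ fun p hp => ⟨hP p hp, (mem_filter.1 hp).2⟩))
    (prod_nonneg fun p hp => chp_nonneg _ _ _ _ _ (hP p hp)) (exp_pos _).le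

theorem Lt_anti {t t' : ℝ} (h : t ≤ t') (n : ℕ) : Lt t' n ≤ Lt t n := by
  exact sum_le_sum_of_subset_of_nonneg
    (fun p hp => mem_filter.2 ⟨(mem_filter.1 hp).1, h.trans_lt (mem_filter.1 hp).2⟩)
    fun _ _ _ => by positivity

theorem anom_le {γ T : ℝ} {ψ : ℕ → ℝ} {q r : ℕ} (hq : 0 < q) (hr : 0 < r) (hT : 2 ≤ T)
    (h : Anom γ ψ T q r) : T ≤ log q ∧ T ≤ log r := by
  obtain ⟨k, -, -, h⟩ := h
  have hg := Nat.gcd_pos_of_pos_left r hq
  have hT0 : 0 < T := by linarith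
  set S := (S3 (ap γ (ψ q)) (ap γ (ψ r)) q r k).filter fun p : ℕ => T < p ∧ (p : ℝ) ≤ T ^ 2
  have h1 := Chi_card hg ((filter_subset _ _).trans (filter_subset _ _) : S ⊆ _) hT0
    fun p hp => (mem_filter.1 hp).2.1.le
  have h2 : ∑ p ∈ S, 1 / (p : ℝ) ≤ S.card • (1 / T) := sum_le_card_nsmul _ _ _ fun p hp =>
    one_div_le_one_div_of_le hT0 (mem_filter.1 hp).2.1.le
  have h3 := h.trans h2
  rw [nsmul_eq_mul, mul_one_div, div_le_div_iff₀ (log_pos (by linarith)) hT0, one_mul] at h3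
  have h4 : (0 : ℝ) < Nat.gcd q r := by exact_mod_cast hg
  exact ⟨(h3.trans h1).trans (log_le_log h4 (by exact_mod_cast Nat.gcd_le_left r hq)),
    (h3.trans h1).trans (log_le_log h4 (by exact_mod_cast Nat.gcd_le_right q hr))⟩

theorem top_anom (γ : ℝ) (ψ : ℕ → ℝ) {q r : ℕ} (hq : 0 < q) (hr : 0 < r) {T₀ : ℝ} (hT : 8 ≤ T₀) :
    (∀ h ∈ JJ γ (DD ψ q r) q r, chi (ap γ (ψ q)) (ap γ (ψ r)) q r h ≠ 0 →
      L3 (ap γ (ψ q)) (ap γ (ψ r)) q r h T₀ ≤ 1) ∨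
    ∃ i : ℕ, Anom γ ψ (T₀ ^ 2 ^ i) q r ∧
      ∀ h ∈ JJ γ (DD ψ q r) q r, chi (ap γ (ψ q)) (ap γ (ψ r)) q r h ≠ 0 →
        L3 (ap γ (ψ q)) (ap γ (ψ r)) q r h ((T₀ ^ 2 ^ i) ^ 2) ≤ 1 := by
  classical
  have h1 : ∃ k, ∀ j, k ≤ j → ¬ Anom γ ψ (T₀ ^ 2 ^ j) q r := by
    refine ⟨q, fun j hj h => ?_⟩
    have h2 : (2 : ℝ) ^ 2 ^ j ≤ T₀ ^ 2 ^ j := pow_le_pow_left₀ zero_le_two (by linarith) _
    have h3 : ((j + 1 : ℕ) : ℝ) ≤ (2 ^ 2 ^ j : ℕ) := by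
      exact_mod_cast Nat.lt_two_pow_self.trans Nat.lt_two_pow_self
    have h4 : (2 : ℝ) ≤ 2 ^ 2 ^ j := le_self_pow₀ one_le_two (by positivity)
    have h5 := (anom_le hq hr (h4.trans h2) h).1
    have h6 := log_le_self (Nat.cast_nonneg q)
    have h7 : (q : ℝ) ≤ j := by exact_mod_cast hj
    push_cast at h3
    linarith
  have h2 : ∀ h ∈ JJ γ (DD ψ q r) q r, chi (ap γ (ψ q)) (ap γ (ψ r)) q r h ≠ 0 →
      L3 (ap γ (ψ q)) (ap γ (ψ r)) q r h (T₀ ^ 2 ^ Nat.find h1) ≤ 1 := fun h hh h0 =>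
    Chi_tail _ hT _ fun j hj => le_of_not_ge fun h3 => Nat.find_spec h1 j hj ⟨h, hh, h0, h3⟩
  rcases hk : Nat.find h1 with _ | i
  · left
    simpa only [hk, pow_zero, pow_one] using h2
  · right
    refine ⟨i, by_contra fun h3 => Nat.find_min h1 (i.lt_succ_self.trans_eq hk.symm) fun j hj => ?_, ?_⟩
    · rcases hj.eq_or_lt with rfl | hj
      · exact h3
      · exact Nat.find_spec h1 j (hk.trans_le hj)
    · simpa only [hk, pow_succ 2 i, pow_mul] using h2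

end Vale.Agent.P028G
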