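import Vale.Agent.P028G.Crt

/-! Overlaps of the sieved sets. -/

namespace Vale.Agent.P028G

open Finset Real MeasureTheory Filter Vale.Agent.P028

theorem measurableSet_FS (γ ρ : ℝ) (x : ℤ × ℕ) (q : ℕ) : MeasurableSet (FS γ ρ x q) := by
  have e : FS γ ρ x q = ⋃ a : ℤ, ⋃ _ : IsCoprime (a * x.2 + x.1) (q : ℤ),
      {z : ℝ | |(q : ℝ) * z - a - γ| < ρ} := by
    ext z
    simp [FS]
  rw [e]
  exact (isOpen_iUnion fun a => isOpen_iUnion fun _ =>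
    isOpen_lt (by fun_prop) continuous_const).measurableSet

theorem Ovl2_le_one (p : ℕ) : 1 - 1 / (p : ℝ) ≤ 1 := sub_le_self _ (by positivity)

theorem cf_le_one (B q : ℕ) : cf B q ≤ 1 :=
  prod_le_one (fun _ hp => (one_sub_inv_pos' (Nat.prime_of_mem_primeFactors (mem_filter.1 hp).1)).le)
    fun p _ => Ovl2_le_one p

theorem Ovl2_tot {q : ℕ} (hq : 0 < q) :
    (Nat.totient q : ℝ) / q = ∏ p ∈ q.primeFactors, (1 - 1 / (p : ℝ)) := by
  have h := congrArg (fun t : ℚ => (t : ℝ)) (Nat.totient_eq_mul_prod_factors q)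
  have hq' : (q : ℝ) ≠ 0 := Nat.cast_ne_zero.2 hq.ne'
  push_cast at h
  rw [h, mul_div_cancel_left₀ _ hq']
  simp only [one_div]

theorem cf_mul (B q : ℕ) (hq : 0 < q) :
    cf B q * ∏ p ∈ q.primeFactors.filter (fun p => ¬ p ∣ B), (1 - 1 / (p : ℝ)) =
      (Nat.totient q : ℝ) / q := by
  rw [cf, prod_filter_mul_prod_filter_not, Ovl2_tot hq]

theorem Ovl2_not_dvd {m : ℤ} {q p : ℕ} (h : IsCoprime m (q : ℤ)) (hp : p.Prime) (hq : p ∣ q) :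
    ¬ (p : ℤ) ∣ m := fun hm =>
  (Nat.prime_iff_prime_int.1 hp).not_isUnit (h.isUnit_of_dvd' hm (Int.natCast_dvd_natCast.2 hq))

/-- Only the primes of `q` that do not divide `B` matter. -/
theorem coprime_iff {x : ℤ × ℕ} (hx : IsCoprime x.1 (x.2 : ℤ)) {q : ℕ} (hq : 0 < q) (a : ℤ) :
    IsCoprime (a * x.2 + x.1) (q : ℤ) ↔
      ∀ p ∈ q.primeFactors.filter (fun p => ¬ p ∣ x.2), ¬ (p : ℤ) ∣ a * x.2 + x.1 := by
  refine ⟨fun h p hp => ?_, fun h => ?_⟩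
  · have h1 := Nat.mem_primeFactors.1 (mem_filter.1 hp).1
    exact Ovl2_not_dvd h h1.1 h1.2.1
  · by_contra hc
    obtain ⟨p, hp, hd⟩ := Nat.exists_prime_and_dvd (mt Int.isCoprime_iff_gcd_eq_one.2 hc)
    have h1 : (p : ℤ) ∣ a * x.2 + x.1 := (Int.natCast_dvd_natCast.2 hd).trans (Int.gcd_dvd_left ..)
    have h2 : p ∣ q :=
      Int.natCast_dvd_natCast.1 ((Int.natCast_dvd_natCast.2 hd).trans (Int.gcd_dvd_right ..))
    by_cases hB : p ∣ x.2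
    · exact Ovl2_not_dvd hx hp hB
        ((Int.dvd_add_right ((Int.natCast_dvd_natCast.2 hB).mul_left a)).1 h1)
    · exact h p (mem_filter.2 ⟨Nat.mem_primeFactors.2 ⟨hp, h2, hq.ne'⟩, hB⟩) h1

/-- The density of the residues that avoid two linear conditions. -/
noncomputable def Ovl2N (α β α' β' : ℤ) (p : ℕ) : ℝ :=
  (((range p).filter fun j : ℕ => ¬ (p : ℤ) ∣ j * α + β ∧ ¬ (p : ℤ) ∣ j * α' + β').card : ℝ) / p

variable {α β α' β' : ℤ} {p : ℕ}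

theorem Ovl2N_nonneg : 0 ≤ Ovl2N α β α' β' p := by
  unfold Ovl2N
  positivity

theorem Ovl2N_comm : Ovl2N α β α' β' p = Ovl2N α' β' α β p := by
  simp only [Ovl2N, and_comm]

theorem Ovl2N_le (hp : p.Prime) (T : Finset ℕ) (hT : T ⊆ range p)
    (h : ∀ j ∈ T, (p : ℤ) ∣ j * α + β ∨ (p : ℤ) ∣ j * α' + β') :
    Ovl2N α β α' β' p ≤ 1 - T.card / p := by
  have hp' : (0 : ℝ) < p := Nat.cast_pos.2 hp.pos
  have h1 : ((range p).filter fun j : ℕ => ¬ (p : ℤ) ∣ j * α + β ∧ ¬ (p : ℤ) ∣ j * α' + β') ⊆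
      range p \ T := fun j hj => mem_sdiff.2 ⟨(mem_filter.1 hj).1, fun hjT =>
    (h j hjT).elim (mem_filter.1 hj).2.1 (mem_filter.1 hj).2.2⟩
  have h2 := card_le_card h1
  have h3 := card_le_card hT
  rw [card_sdiff_of_subset hT, card_range] at h2
  rw [card_range] at h3
  rw [Ovl2N, div_le_iff₀ hp', sub_mul, one_mul, div_mul_cancel₀ _ hp'.ne', ← Nat.cast_sub h3]
  exact_mod_cast h2

theorem Ovl2_ex (hp : p.Prime) (hα : ¬ (p : ℤ) ∣ α) (β : ℤ) :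
    ∃ j ∈ range p, (p : ℤ) ∣ j * α + β := by
  obtain ⟨cl, hcl⟩ := one_class hp β α hα
  obtain ⟨j, hj⟩ := card_pos.1 ((card_class hp.pos cl).symm ▸ one_pos)
  exact ⟨j, (mem_filter.1 hj).1, (hcl j).2 (mem_filter.1 hj).2⟩

theorem Ovl2N_zero (hp : p.Prime) : Ovl2N α β α' β' p ≤ 1 := by
  simpa using Ovl2N_le (α := α) (β := β) (α' := α') (β' := β') hp ∅ (empty_subset _) (by simp)

theorem Ovl2N_one (hp : p.Prime) (hα : ¬ (p : ℤ) ∣ α) : Ovl2N α β α' β' p ≤ 1 - 1 / p := by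
  obtain ⟨j, hj, h⟩ := Ovl2_ex hp hα β
  simpa using Ovl2N_le (α' := α') (β' := β') hp {j} (singleton_subset_iff.2 hj)
    fun i hi => Or.inl (mem_singleton.1 hi ▸ h)

theorem Ovl2N_two (hp : p.Prime) (hα : ¬ (p : ℤ) ∣ α) (hα' : ¬ (p : ℤ) ∣ α')
    (h0 : ¬ (p : ℤ) ∣ α' * β - α * β') : Ovl2N α β α' β' p ≤ (1 - 1 / p) * (1 - 1 / p) := by
  obtain ⟨j, hj, h⟩ := Ovl2_ex hp hα β
  obtain ⟨j', hj', h'⟩ := Ovl2_ex hp hα' β'
  have hne : j ≠ j' := by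
    rintro rfl
    refine h0 ?_
    have := (h.mul_left α').sub (h'.mul_left α)
    rwa [show α' * (j * α + β) - α * (j * α' + β') = α' * β - α * β' by ring] at this
  have h1 := Ovl2N_le (α := α) (β := β) (α' := α') (β' := β') hp {j, j'}
    (insert_subset hj (singleton_subset_iff.2 hj')) fun i hi => by
      rcases mem_insert.1 hi with rfl | hi
      · exact Or.inl h
      · exact Or.inr (mem_singleton.1 hi ▸ h')
  rw [card_pair hne] at h1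
  have h2 : ((2 : ℕ) : ℝ) / p = 2 * (1 / p) := by
    push_cast
    ring
  nlinarith [sq_nonneg (1 / (p : ℝ))]

theorem Ovl2_count {g : ℕ} (hg : 0 < g) (α β α' β' c : ℤ) (n : ℕ) :
    (((Ico c (c + n)).filter fun j : ℤ => ∀ p ∈ g.primeFactors,
      ¬ (p : ℤ) ∣ j * α + β ∧ ¬ (p : ℤ) ∣ j * α' + β').card : ℝ) ≤
      (n + g) * ∏ p ∈ g.primeFactors, Ovl2N α β α' β' p := by
  have hP : ∀ p ∈ g.primeFactors, p.Prime := fun p hp => Nat.prime_of_mem_primeFactors hp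
  have h1 := per_le g.primeFactors hP
    (fun p j => if ¬ (p : ℤ) ∣ j * α + β ∧ ¬ (p : ℤ) ∣ j * α' + β' then 1 else 0)
    (fun p _ j => by
      have e : ∀ a b : ℤ, (p : ℤ) ∣ (j + p) * a + b ↔ (p : ℤ) ∣ j * a + b := fun a b => by
        rw [show (j + p) * a + b = p * a + (j * a + b) by ring]
        exact Int.dvd_add_right (dvd_mul_right _ _)
      simp only [e]) (fun p _ j => by positivity) c n
  have hR : (0 : ℝ) < ∏ p ∈ g.primeFactors, (p : ℝ) :=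
    prod_pos fun p hp => Nat.cast_pos.2 (hP p hp).pos
  have hRg : ∏ p ∈ g.primeFactors, (p : ℝ) ≤ g := by
    rw [← Nat.cast_prod]
    exact Nat.cast_le.2 (Nat.le_of_dvd hg (Nat.prod_primeFactors_dvd g))
  simp only [prod_boole, sum_boole] at h1
  refine le_trans (le_of_eq (by congr)) (h1.trans ?_)
  simp only [Ovl2N, prod_div_distrib]
  rw [div_add_one hR.ne', div_mul_eq_mul_div, mul_div_assoc]
  gcongr

theorem vol_FS_le (γ s ρ : ℝ) {x : ℤ × ℕ} (hx : IsCoprime x.1 (x.2 : ℤ)) {q : ℕ} (hq : 0 < q)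
    (h0 : 0 < ρ) (h1 : ρ ≤ 1 / 2) :
    cf x.2 q * volume.real (FS γ ρ x q ∩ Set.Ico s (s + 3)) ≤
      10 * ((Nat.totient q : ℝ) / q * ρ) := by
  have hq' : (1 : ℝ) ≤ q := by exact_mod_cast hq
  have h2 := Ovl2_count hq x.2 x.1 x.2 x.1 (⌊q * s - γ - 1 / 2⌋ + 1) (3 * q + 1)
  have h3 := ovl_cover (γ := γ) hq h0 _ (S := FS γ ρ x q ∩ Set.Ico s (s + 3)) (fun z hz => by
    obtain ⟨⟨a, ha, ha'⟩, hz⟩ := hz
    have hw := mem_Ioo.1 (ovl_win h1 hz ha')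
    refine ⟨a, (?_ : a ∈ (Ico (⌊q * s - γ - 1 / 2⌋ + 1)
      (⌊q * s - γ - 1 / 2⌋ + 1 + (3 * q + 1 : ℕ))).filter fun j : ℤ => ∀ p ∈ q.primeFactors,
        ¬ (p : ℤ) ∣ j * x.2 + x.1 ∧ ¬ (p : ℤ) ∣ j * x.2 + x.1), ha'⟩
    refine mem_filter.2 ⟨mem_Ico.2 ⟨by omega, by omega⟩, fun p hp => and_self_iff.2 ?_⟩
    exact Ovl2_not_dvd ha (Nat.prime_of_mem_primeFactors hp) (Nat.dvd_of_mem_primeFactors hp))
  have h4 : cf x.2 q * ∏ p ∈ q.primeFactors, Ovl2N x.2 x.1 x.2 x.1 p ≤ (Nat.totient q : ℝ) / q := by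
    rw [Ovl2_tot hq, cf, prod_filter, ← prod_mul_distrib]
    refine prod_le_prod (fun p hp => mul_nonneg ?_ Ovl2N_nonneg) fun p hp => ?_
    · have := (one_sub_inv_pos' (Nat.prime_of_mem_primeFactors hp)).le
      positivity
    · have hp' := Nat.prime_of_mem_primeFactors hp
      split_ifs with hB
      · exact mul_le_of_le_one_right (one_sub_inv_pos' hp').le (Ovl2N_zero hp')
      · rw [one_mul]
        exact Ovl2N_one hp' (mt Int.natCast_dvd_natCast.1 hB)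
  have h5 : (((3 * q + 1 : ℕ) : ℝ) + q) * (2 * ρ / q) ≤ 10 * ρ := by
    rw [mul_div_assoc', div_le_iff₀ (by linarith)]
    push_cast
    nlinarith
  have h6 := cf_nonneg x.2 q
  have h7 : 0 ≤ ∏ p ∈ q.primeFactors, Ovl2N x.2 x.1 x.2 x.1 p := prod_nonneg fun _ _ => Ovl2N_nonneg
  calc _ ≤ cf x.2 q * ((((3 * q + 1 : ℕ) : ℝ) + q) *
        (∏ p ∈ q.primeFactors, Ovl2N x.2 x.1 x.2 x.1 p) * (2 * ρ / q)) :=
        mul_le_mul_of_nonneg_left (h3.trans (mul_le_mul_of_nonneg_right h2 (by positivity))) h6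
    _ = (cf x.2 q * ∏ p ∈ q.primeFactors, Ovl2N x.2 x.1 x.2 x.1 p) *
        ((((3 * q + 1 : ℕ) : ℝ) + q) * (2 * ρ / q)) := by ring
    _ ≤ (Nat.totient q : ℝ) / q * (10 * ρ) := by gcongr
    _ = _ := by ring

theorem ov_diag (γ s : ℝ) (ψ : ℕ → ℝ) {q : ℕ} (hq : 0 < q) (h0 : 0 < ψ q) (h1 : ψ q ≤ 1 / 2) :
    ov γ s ψ q q ≤ 10 * wt ψ q := by
  rw [ov, Set.inter_self, mul_assoc]
  exact (mul_le_of_le_one_left (mul_nonneg (cf_nonneg _ _) measureReal_nonneg)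
    (cf_le_one _ _)).trans (vol_FS_le γ s _ (ap_coprime γ _) hq h0 h1)

theorem Ovl2_loc {x x' : ℤ × ℕ} {g u v : ℕ} (huv : u.Coprime v) {a b : ℤ}
    (ha : IsCoprime (a * x.2 + x.1) (g * u : ℕ)) (hb : IsCoprime (b * x'.2 + x'.1) (g * v : ℕ))
    (hp : p.Prime) (hd : p ∣ g * u * (g * v)) :
    (if p ∣ g * u ∧ p ∣ x.2 then 1 - 1 / (p : ℝ) else 1) *
      (if p ∣ g * v ∧ p ∣ x'.2 then 1 - 1 / (p : ℝ) else 1) *
      (if p ∣ g then Ovl2N (u * x.2) (a * x.2 + x.1) (v * x'.2) (b * x'.2 + x'.1) p else 1) ≤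
    chp x x' u v (a * v - b * u) p * (if p ∣ g * u then 1 - 1 / (p : ℝ) else 1) *
      (if p ∣ g * v then 1 - 1 / (p : ℝ) else 1) := by
  have hp' := Nat.prime_iff_prime_int.1 hp
  have he := one_sub_inv_pos' hp
  have hc : ∀ {m n : ℕ}, ¬ p ∣ m → ¬ p ∣ n → ¬ (p : ℤ) ∣ (m : ℤ) * n := fun hm hn h =>
    (hp'.dvd_or_dvd h).elim (mt Int.natCast_dvd_natCast.1 hm) (mt Int.natCast_dvd_natCast.1 hn)
  have n0 := Ovl2N_zero (α := u * x.2) (β := a * x.2 + x.1) (α' := v * x'.2)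
    (β' := b * x'.2 + x'.1) hp
  have n1 : ¬ p ∣ u → ¬ p ∣ x.2 →
      Ovl2N (u * x.2) (a * x.2 + x.1) (v * x'.2) (b * x'.2 + x'.1) p ≤ 1 - 1 / p :=
    fun h h' => Ovl2N_one hp (hc h h')
  have n2 : ¬ p ∣ v → ¬ p ∣ x'.2 →
      Ovl2N (u * x.2) (a * x.2 + x.1) (v * x'.2) (b * x'.2 + x'.1) p ≤ 1 - 1 / p :=
    fun h h' => Ovl2N_comm.trans_le (Ovl2N_one hp (hc h h'))
  have n3 : ¬ p ∣ u → ¬ p ∣ x.2 → ¬ p ∣ v → ¬ p ∣ x'.2 → ¬ (p : ℤ) ∣ HH x x' u v (a * v - b * u) →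
      Ovl2N (u * x.2) (a * x.2 + x.1) (v * x'.2) (b * x'.2 + x'.1) p ≤ (1 - 1 / p) * (1 - 1 / p) :=
    fun h h' k k' l => Ovl2N_two hp (hc h h') (hc k k') (by
      rwa [show (v : ℤ) * x'.2 * (a * x.2 + x.1) - u * x.2 * (b * x'.2 + x'.1) =
        HH x x' u v (a * v - b * u) by unfold HH; ring])
  generalize Ovl2N (u * x.2) (a * x.2 + x.1) (v * x'.2) (b * x'.2 + x'.1) p = N at *
  have hne : p ∣ u → ¬ p ∣ v := fun h h' => hp.one_lt.ne' (Nat.eq_one_of_dvd_coprimes huv h h')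
  unfold chp
  generalize 1 - 1 / (p : ℝ) = e at *
  have hi : e⁻¹ * e = 1 := inv_mul_cancel₀ he.ne'
  by_cases hu : p ∣ u
  · have hv := hne hu
    have hq : p ∣ g * u := hu.mul_left g
    have h1 : ¬ (p : ℤ) ∣ (a * v - b * u) * x.2 + x.1 * v := fun h => by
      have h2 := h.add (((Int.natCast_dvd_natCast.2 hu).mul_left b).mul_right x.2)
      rw [show (a * v - b * u) * x.2 + x.1 * v + b * u * x.2 = (a * x.2 + x.1) * v by ring] at h2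
      exact (hp'.dvd_or_dvd h2).elim (Ovl2_not_dvd ha hp hq) (mt Int.natCast_dvd_natCast.1 hv)
    have hr : p ∣ g * v ↔ p ∣ g := by simp [hp.dvd_mul, hv]
    simp only [hu, hq, h1, hr, if_true, if_false, true_and]
    by_cases hg : p ∣ g <;> by_cases hB : p ∣ x.2 <;> by_cases hB' : p ∣ x'.2 <;>
      simp only [hg, hB, hB', hv, if_true, if_false, true_and, false_and, one_mul, mul_one, hi,
        not_false_eq_true, forall_true_left, le_refl] at n2 ⊢ <;> nlinarith [mul_pos he he]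
  by_cases hv : p ∣ v
  · have hr : p ∣ g * v := hv.mul_left g
    have h1 : ¬ (p : ℤ) ∣ (a * v - b * u) * x'.2 - x'.1 * u := fun h => by
      have h2 := (((Int.natCast_dvd_natCast.2 hv).mul_left a).mul_right x'.2).sub h
      rw [show a * v * x'.2 - ((a * v - b * u) * x'.2 - x'.1 * u) = (b * x'.2 + x'.1) * u by ring]
        at h2
      exact (hp'.dvd_or_dvd h2).elim (Ovl2_not_dvd hb hp hr) (mt Int.natCast_dvd_natCast.1 hu)
    have hq : p ∣ g * u ↔ p ∣ g := by simp [hp.dvd_mul, hu]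
    simp only [hu, hv, hq, h1, hr, if_true, if_false, true_and]
    by_cases hg : p ∣ g <;> by_cases hB : p ∣ x.2 <;> by_cases hB' : p ∣ x'.2 <;>
      simp only [hg, hB, hB', hu, if_true, if_false, true_and, false_and, one_mul, mul_one, hi,
        not_false_eq_true, forall_true_left, le_refl] at n1 ⊢ <;> nlinarith [mul_pos he he]
  have hg : p ∣ g := by simpa [hp.dvd_mul, hu, hv] using hd
  simp only [hu, hv, hg, hg.mul_right u, hg.mul_right v, if_true, if_false, true_and, hp.dvd_mul]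
  by_cases hB : p ∣ x.2 <;> by_cases hB' : p ∣ x'.2 <;>
    by_cases hH : (p : ℤ) ∣ HH x x' u v (a * v - b * u) <;>
    simp only [hB, hB', hH, hu, hv, if_true, if_false, one_mul, mul_one, hi,
      not_false_eq_true, forall_true_left, or_self, or_true, true_or, not_true_eq_false,
      and_false, and_true] at n1 n2 n3 ⊢ <;> nlinarith [mul_pos he he]

theorem Ovl2_ext {P : Finset ℕ} {n : ℕ} (hn : n ≠ 0) (hP : n.primeFactors ⊆ P)
    (hP' : ∀ p ∈ P, p.Prime) (F : ℕ → ℝ) :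
    ∏ p ∈ n.primeFactors, F p = ∏ p ∈ P, if p ∣ n then F p else 1 := by
  rw [← prod_filter]
  congr 1
  ext p
  exact ⟨fun h => mem_filter.2 ⟨hP h, Nat.dvd_of_mem_primeFactors h⟩, fun h =>
    Nat.mem_primeFactors.2 ⟨hP' p (mem_filter.1 h).1, (mem_filter.1 h).2, hn⟩⟩

theorem Ovl2_glob {x x' : ℤ × ℕ} {g u v : ℕ} (hg : 0 < g) (hu : 0 < u) (hv : 0 < v)
    (huv : u.Coprime v) {a b : ℤ} (ha : IsCoprime (a * x.2 + x.1) (g * u : ℕ))
    (hb : IsCoprime (b * x'.2 + x'.1) (g * v : ℕ)) :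
    cf x.2 (g * u) * cf x'.2 (g * v) * ∏ p ∈ g.primeFactors,
      Ovl2N (u * x.2) (a * x.2 + x.1) (v * x'.2) (b * x'.2 + x'.1) p ≤
    (∏ p ∈ (g * u * (g * v)).primeFactors, chp x x' u v (a * v - b * u) p) *
      ((Nat.totient (g * u) : ℝ) / (g * u : ℕ)) * ((Nat.totient (g * v) : ℝ) / (g * v : ℕ)) := by
  have hq := Nat.mul_pos hg hu
  have hr := Nat.mul_pos hg hv
  have h0 := (Nat.mul_pos hq hr).ne'
  have hP : ∀ p ∈ (g * u * (g * v)).primeFactors, p.Prime := fun p => Nat.prime_of_mem_primeFactors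
  have s1 := Nat.primeFactors_mono (dvd_mul_right (g * u) (g * v)) h0
  have s2 := Nat.primeFactors_mono (dvd_mul_left (g * v) (g * u)) h0
  have s3 := Nat.primeFactors_mono ((dvd_mul_right g u).mul_right (g * v)) h0
  rw [Ovl2_tot hq, Ovl2_tot hr, cf, cf, prod_filter, prod_filter, Ovl2_ext hq.ne' s1 hP,
    Ovl2_ext hr.ne' s2 hP, Ovl2_ext hg.ne' s3 hP, Ovl2_ext hq.ne' s1 hP, Ovl2_ext hr.ne' s2 hP]
  simp only [← prod_mul_distrib, ← ite_and]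
  refine prod_le_prod (fun p hp => ?_) fun p hp =>
    Ovl2_loc huv ha hb (hP p hp) (Nat.dvd_of_mem_primeFactors hp)
  have := (one_sub_inv_pos' (hP p hp)).le
  have := Ovl2N_nonneg (α := u * x.2) (β := a * x.2 + x.1) (α' := v * x'.2)
    (β' := b * x'.2 + x'.1) (p := p)
  positivity

open Classical in
/-- The numerators with a given determinant. -/
noncomputable def Ovl2A (x x' : ℤ × ℕ) (g u v : ℕ) (c h : ℤ) : Finset ℤ :=
  (Ioo c (c + 3 * (g * u : ℕ) + 2)).filter fun a => ∃ b : ℤ, a * v - b * u = h ∧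
    IsCoprime (a * x.2 + x.1) (g * u : ℕ) ∧ IsCoprime (b * x'.2 + x'.1) (g * v : ℕ)

open Classical in
theorem Ovl2A_mem {x x' : ℤ × ℕ} {g u v : ℕ} {c h a : ℤ} : a ∈ Ovl2A x x' g u v c h ↔
    a ∈ Ioo c (c + 3 * (g * u : ℕ) + 2) ∧ ∃ b : ℤ, a * v - b * u = h ∧
      IsCoprime (a * x.2 + x.1) (g * u : ℕ) ∧ IsCoprime (b * x'.2 + x'.1) (g * v : ℕ) :=
  mem_filter

theorem Ovl2_cover {γ p : ℝ} {q : ℕ} (hq : 0 < q) (hp : 0 < p) (J : Finset ℤ) (A : ℤ → Finset ℤ)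
    (f : ℤ → ℤ → ℤ) {S : Set ℝ}
    (h : ∀ x ∈ S, ∃ k ∈ J, ∃ a ∈ A k, |(q : ℝ) * x - f k a - γ| < p) :
    volume.real S ≤ (∑ k ∈ J, ((A k).card : ℝ)) * (2 * p / q) := by
  refine (ovl_cover (γ := γ) hq hp (J.biUnion fun k => (A k).image (f k)) fun z hz => ?_).trans
    (mul_le_mul_of_nonneg_right ?_ (by positivity))
  · obtain ⟨k, hk, a, ha, h1⟩ := h z hz
    exact ⟨_, mem_biUnion.2 ⟨k, hk, mem_image_of_mem _ ha⟩, h1⟩
  · rw [← Nat.cast_sum]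
    exact Nat.cast_le.2 (card_biUnion_le.trans (sum_le_sum fun _ _ => card_image_le))

theorem Ovl2A_le (x x' : ℤ × ℕ) {g u v : ℕ} (hg : 0 < g) (hu : 0 < u) (hv : 0 < v)
    (huv : u.Coprime v) (c h : ℤ) :
    cf x.2 (g * u) * cf x'.2 (g * v) * (Ovl2A x x' g u v c h).card ≤ 5 * g *
      ((∏ p ∈ (g * u * (g * v)).primeFactors, chp x x' u v h p) *
        ((Nat.totient (g * u) : ℝ) / (g * u : ℕ)) * ((Nat.totient (g * v) : ℝ) / (g * v : ℕ))) := by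
  rcases (Ovl2A x x' g u v c h).eq_empty_or_nonempty with h0 | h0
  · have : 0 ≤ ∏ p ∈ (g * u * (g * v)).primeFactors, chp x x' u v h p :=
      prod_nonneg fun _ hp => chp_nonneg _ _ _ _ _ (Nat.prime_of_mem_primeFactors hp)
    rw [h0, card_empty, Nat.cast_zero, mul_zero]
    positivity
  obtain ⟨a₀, ha₀, hmin⟩ := exists_min_image _ id h0
  obtain ⟨w₀, b₀, rfl, c₀, c₀'⟩ := Ovl2A_mem.1 ha₀
  have hu' : (0 : ℤ) < u := by exact_mod_cast hu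
  have h1 : Ovl2A x x' g u v c (a₀ * v - b₀ * u) ⊆
      ((Ico (0 : ℤ) (0 + (3 * g + 1 : ℕ))).filter fun j : ℤ => ∀ p ∈ g.primeFactors,
        ¬ (p : ℤ) ∣ j * (u * x.2) + (a₀ * x.2 + x.1) ∧
          ¬ (p : ℤ) ∣ j * (v * x'.2) + (b₀ * x'.2 + x'.1)).image fun j => a₀ + u * j := by
    intro a ha
    have hle : a₀ ≤ a := hmin a ha
    obtain ⟨w, b, e, c₁, c₁'⟩ := Ovl2A_mem.1 ha
    obtain ⟨j, hj⟩ : (u : ℤ) ∣ a - a₀ :=
      (Nat.isCoprime_iff_coprime.2 huv).dvd_of_dvd_mul_right ⟨b - b₀, by linarith⟩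
    obtain rfl : a = a₀ + u * j := by linarith
    obtain rfl : b = b₀ + v * j := mul_left_cancel₀ hu'.ne' (by linarith)
    have w1 := (mem_Ioo.1 w₀).1
    have w2 := (mem_Ioo.1 w).2
    push_cast at w2
    refine mem_image.2 ⟨j, mem_filter.2 ⟨mem_Ico.2 ⟨by nlinarith, ?_⟩, fun p hp => ?_⟩, rfl⟩
    · have : (u : ℤ) * j ≤ u * (3 * g) := by linarith
      have := le_of_mul_le_mul_left this hu'
      push_cast
      omega
    · have hp' := Nat.prime_of_mem_primeFactors hp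
      have hd := Nat.dvd_of_mem_primeFactors hp
      refine ⟨?_, ?_⟩
      · convert Ovl2_not_dvd c₁ hp' (hd.mul_right u) using 2
        ring
      · convert Ovl2_not_dvd c₁' hp' (hd.mul_right v) using 2
        ring
  have h2 := (Nat.cast_le.2 ((card_le_card h1).trans card_image_le)).trans
    (Ovl2_count hg (u * x.2) (a₀ * x.2 + x.1) (v * x'.2) (b₀ * x'.2 + x'.1) 0 (3 * g + 1))
  have h3 := Ovl2_glob hg hu hv huv c₀ c₀'
  have h4 : ((3 * g + 1 : ℕ) : ℝ) + g ≤ 5 * g := by exact_mod_cast (by omega : 3 * g + 1 + g ≤ 5 * g)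
  have h5 := mul_nonneg (cf_nonneg x.2 (g * u)) (cf_nonneg x'.2 (g * v))
  have h6 : 0 ≤ ∏ p ∈ g.primeFactors,
      Ovl2N (u * x.2) (a₀ * x.2 + x.1) (v * x'.2) (b₀ * x'.2 + x'.1) p :=
    prod_nonneg fun _ _ => Ovl2N_nonneg
  refine (mul_le_mul_of_nonneg_left (h2.trans (mul_le_mul_of_nonneg_right h4 h6)) h5).trans ?_
  rw [mul_left_comm]
  exact mul_le_mul_of_nonneg_left h3 (by positivity)

theorem Ovl2_id {ρ ρ' g u : ℝ} (h : 0 < ρ') (hg : 0 < g) (hu : 0 < u) :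
    2 * ρ / (g * u) = 2 * (ρ * ρ') / (g * (ρ' * u)) := by
  field_simp

theorem Ovl2_vol (γ s : ℝ) (x x' : ℤ × ℕ) {ρ ρ' : ℝ} {g u v : ℕ} (hg : 0 < g) (hu : 0 < u)
    (hv : 0 < v) (h0 : 0 < ρ) (h1 : ρ ≤ 1 / 2) (h2 : 0 < ρ') {J : Finset ℤ}
    (hJ : ∀ h : ℤ, |(h : ℝ) + γ * ((v : ℝ) - u)| ≤ 2 * max (ρ * v) (ρ' * u) → h ∈ J) :
    ∃ c, volume.real (FS γ ρ x (g * u) ∩ FS γ ρ' x' (g * v) ∩ Set.Ico s (s + 3)) ≤
      (∑ h ∈ J, ((Ovl2A x x' g u v c h).card : ℝ)) *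
        (2 * (ρ * ρ') / (g * max (ρ * v) (ρ' * u))) := by
  have hu' : (0 : ℝ) < u := by exact_mod_cast hu
  have hv' : (0 : ℝ) < v := by exact_mod_cast hv
  have hg' : (0 : ℝ) < g := by exact_mod_cast hg
  have key : ∀ z ∈ FS γ ρ x (g * u) ∩ FS γ ρ' x' (g * v) ∩ Set.Ico s (s + 3), ∃ a b : ℤ,
      a * v - b * u ∈ J ∧ a ∈ Ovl2A x x' g u v ⌊(g * u : ℕ) * s - γ - 1 / 2⌋ (a * v - b * u) ∧
      |((g * u : ℕ) : ℝ) * z - a - γ| < ρ ∧ |((g * v : ℕ) : ℝ) * z - b - γ| < ρ' := by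
    rintro z ⟨⟨⟨a, ca, ha⟩, b, cb, hb⟩, hz⟩
    refine ⟨a, b, hJ _ ?_, Ovl2A_mem.2 ⟨ovl_win h1 hz ha, b, rfl, ca, cb⟩, ha, hb⟩
    have e : ((a * v - b * u : ℤ) : ℝ) + γ * ((v : ℝ) - u) =
        u * (((g * v : ℕ) : ℝ) * z - b - γ) - v * (((g * u : ℕ) : ℝ) * z - a - γ) := by
      push_cast
      ring
    rw [e]
    refine (abs_sub _ _).trans ?_
    rw [abs_mul, abs_mul, abs_of_pos hu', abs_of_pos hv']
    linarith [mul_lt_mul_of_pos_left ha hv', mul_lt_mul_of_pos_left hb hu',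
      le_max_left (ρ * v) (ρ' * u), le_max_right (ρ * v) (ρ' * u)]
  refine ⟨⌊((g * u : ℕ) : ℝ) * s - γ - 1 / 2⌋, ?_⟩
  generalize ⌊((g * u : ℕ) : ℝ) * s - γ - 1 / 2⌋ = c at key
  rcases le_total (ρ * v) (ρ' * u) with h | h
  · refine (Ovl2_cover (γ := γ) (Nat.mul_pos hg hu) h0 J (Ovl2A x x' g u v c) (fun _ a => a)
      fun z hz => ?_).trans_eq ?_
    · obtain ⟨a, b, k1, k2, k3, -⟩ := key z hz
      exact ⟨_, k1, a, k2, k3⟩
    · rw [max_eq_right h, Nat.cast_mul, Ovl2_id h2 hg' hu']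
  · refine (Ovl2_cover (γ := γ) (Nat.mul_pos hg hv) h2 J (Ovl2A x x' g u v c)
      (fun h a => (a * v - h) / u) fun z hz => ?_).trans_eq ?_
    · obtain ⟨a, b, k1, k2, -, k4⟩ := key z hz
      refine ⟨_, k1, a, k2, ?_⟩
      rwa [sub_sub_cancel, Int.mul_ediv_cancel _ (Nat.cast_ne_zero.2 hu.ne')]
    · rw [max_eq_left h, Nat.cast_mul, Ovl2_id h0 hg' hv', mul_comm ρ' ρ]

theorem Ovl2_fin {g D C t t' ρ ρ' : ℝ} (hg : 0 < g) (hD : 0 < D)
    (h : 0 ≤ t * ρ * (t' * ρ') / D * C) :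
    5 * g * (C * t * t') * (2 * (ρ * ρ') / (g * D)) ≤ 14 * (t * ρ * (t' * ρ') / D * C) := by
  have e : 5 * g * (C * t * t') * (2 * (ρ * ρ') / (g * D)) = 10 * (t * ρ * (t' * ρ') / D * C) := by
    field_simp
    ring
  linarith

theorem ov_le (γ s : ℝ) (ψ : ℕ → ℝ) {q r : ℕ} (hq : 0 < q) (hr : 0 < r) (h0 : 0 < ψ q)
    (h1 : ψ q ≤ 1 / 2) (h2 : 0 < ψ r) (h3 : ψ r ≤ 1 / 2) :
    ov γ s ψ q r ≤ 14 * SS γ ψ q r := by
  have hg : 0 < Nat.gcd q r := Nat.gcd_pos_of_pos_left r hq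
  have huv : (uu q r).Coprime (uu r q) := by
    unfold uu
    rw [Nat.gcd_comm r q]
    exact Nat.coprime_div_gcd_div_gcd hg
  have eq : Nat.gcd q r * uu q r = q := Nat.mul_div_cancel' (Nat.gcd_dvd_left q r)
  have er : Nat.gcd q r * uu r q = r := by
    rw [Nat.gcd_comm]
    exact Nat.mul_div_cancel' (Nat.gcd_dvd_left r q)
  have hu : 0 < uu q r := Nat.pos_of_mul_pos_left (eq.symm ▸ hq)
  have hv : 0 < uu r q := Nat.pos_of_mul_pos_left (er.symm ▸ hr)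
  have hD0 : 0 < DD ψ q r := DD_eq ψ q r ▸ lt_max_of_lt_left (mul_pos h0 (Nat.cast_pos.2 hv))
  obtain ⟨c, hvol⟩ := Ovl2_vol γ s (ap γ (ψ q)) (ap γ (ψ r)) hg hu hv h0 h1 h2
    (J := JJ γ (DD ψ q r) q r) fun h hh => mem_JJ.2 (DD_eq ψ q r ▸ hh)
  have hsum := sum_le_sum fun h (_ : h ∈ JJ γ (DD ψ q r) q r) =>
    Ovl2A_le (ap γ (ψ q)) (ap γ (ψ r)) hg hu hv huv c h
  rw [← mul_sum, ← mul_sum, ← sum_mul, ← sum_mul, eq, er] at hsum
  rw [eq, er, ← DD_eq] at hvol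
  refine (mul_le_mul_of_nonneg_left hvol (mul_nonneg (cf_nonneg _ _) (cf_nonneg _ _))).trans ?_
  rw [← mul_assoc]
  refine (mul_le_mul_of_nonneg_right hsum (by positivity)).trans
    (Ovl2_fin (Nat.cast_pos.2 hg) hD0 (mul_nonneg (by positivity) (SC_nonneg γ ψ q r)))

end Vale.Agent.P028G
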