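import Vale.Agent.P028G.Sym
import Vale.Agent.P028G.Ovl2
import Vale.Agent.P028G.Chi
import Vale.Agent.P028G.Base2

/-! Exact pairs. -/

namespace Vale.Agent.P028G

open Finset Real MeasureTheory Filter Vale.Agent.P028

theorem maj_close {γ : ℝ} {x x' : ℤ × ℕ} (h1 : 1 ≤ x.2) (h2 : IsCoprime x.1 (x.2 : ℤ))
    (h1' : 1 ≤ x'.2) (h2' : IsCoprime x'.1 (x'.2 : ℤ))
    (h : (x'.2 : ℝ) * |(x.2 : ℝ) * γ - x.1| + x.2 * |(x'.2 : ℝ) * γ - x'.1| < 1) : x = x' := by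
  obtain ⟨A, B⟩ := x
  obtain ⟨A', B'⟩ := x'
  simp only at *
  have e : ((A * B' - A' * B : ℤ) : ℝ) = B * (B' * γ - A') - B' * (B * γ - A) := by
    push_cast
    ring
  have h3 : |((A * B' - A' * B : ℤ) : ℝ)| < 1 := by
    rw [e]
    refine (abs_sub _ _).trans_lt ?_
    rw [abs_mul, abs_mul, Nat.abs_cast, Nat.abs_cast]
    linarith
  have h4 : A * B' - A' * B = 0 := by
    rw [← Int.cast_abs] at h3
    exact Int.abs_lt_one_iff.1 (by exact_mod_cast h3)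
  have h5 : (B : ℤ) ∣ B' := h2.symm.dvd_of_dvd_mul_left ⟨A', by linarith⟩
  have h6 : (B' : ℤ) ∣ B := h2'.symm.dvd_of_dvd_mul_left ⟨A, by linarith⟩
  have h7 : B = B' := Nat.dvd_antisymm (Int.natCast_dvd_natCast.1 h5) (Int.natCast_dvd_natCast.1 h6)
  subst h7
  have h8 : (B : ℤ) ≠ 0 := by omega
  rw [mul_right_cancel₀ h8 (sub_eq_zero.1 h4)]

theorem maj_unique {γ ρ : ℝ} {x x' : ℤ × ℕ} (hρ : ρ < 1 / 16) (h : Maj γ ρ x) (h' : Maj γ ρ x') :
    x = x' := by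
  have k : ∀ {x x' : ℤ × ℕ}, Maj γ ρ x → Maj γ ρ x' →
      (x'.2 : ℝ) * |(x.2 : ℝ) * γ - x.1| < 1 / 2 := by
    intro x x' h h'
    have h0 : 0 ≤ ρ := (sq_nonneg _).trans h.2.2.2
    refine lt_of_pow_lt_pow_left₀ 4 (by norm_num) ?_
    have e : ((x'.2 : ℝ) * |(x.2 : ℝ) * γ - x.1|) ^ 4 =
        (x'.2 : ℝ) ^ 4 * (((x.2 : ℝ) * γ - x.1) ^ 2) ^ 2 := by
      rw [mul_pow, ← sq_abs ((x.2 : ℝ) * γ - x.1)]
      ring
    have h1 := pow_le_pow_left₀ (sq_nonneg _) h.2.2.2 2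
    have h2 := mul_le_mul_of_nonneg_left h1 (pow_nonneg (Nat.cast_nonneg (α := ℝ) x'.2) 4)
    have h3 := mul_le_mul_of_nonneg_right h'.2.2.1 h0
    rw [e]
    nlinarith
  exact maj_close h.1 h.2.1 h'.1 h'.2.1 (by linarith [k h h', k h' h])

theorem Exact_side {γ y : ℝ} {ψ : ℕ → ℝ} {q r : ℕ} (hq : 0 < q) (hr : 0 < r)
    (h0' : 0 < ψ r) (hy : 0 < y) (hy0 : y ≤ 1 / 2 ^ 80) (hne : q ≠ r) (hD1 : y / 2 < DD ψ q r)
    (hD2 : DD ψ q r ≤ y) (hE : Exact γ y q r) (hD : DD ψ q r = ψ r * uu q r) :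
    SC γ ψ q r = 0 ∨ Ex2 γ ψ q r := by
  obtain ⟨⟨A, B⟩, hB1, hAB, hB2, hθ⟩ := hE
  obtain ⟨hM4, hM, -⟩ := MM_facts hy hy0
  simp only at hB1 hAB hB2 hθ
  have hM4' : (4 : ℝ) ≤ MM y := by exact_mod_cast hM4
  have hB2' : (B : ℝ) ≤ (MM y : ℝ) ^ 9 := by exact_mod_cast hB2.le
  generalize (MM y : ℝ) = M at *
  have hM1 : 1 ≤ M := by linarith
  have hu : (1 : ℝ) ≤ uu q r := by exact_mod_cast uu_pos hq r
  have hv0 : (0 : ℝ) ≤ uu r q := Nat.cast_nonneg _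
  have hρ : ψ r ≤ y := (le_mul_of_one_le_right h0'.le hu).trans (hD ▸ hD2)
  have hMy : M ^ 30 * y ≤ 1 / 4 := by
    have h1 : 4 ≤ M ^ 10 := hM4'.trans (le_self_pow₀ hM1 (by norm_num))
    have h2 : 0 ≤ M ^ 30 * y := by positivity
    have h3 : M ^ 40 * y = M ^ 10 * (M ^ 30 * y) := by ring
    nlinarith
  have hMk : ∀ k, k ≤ 30 → M ^ k * y ≤ 1 / 4 := fun k hk =>
    (mul_le_mul_of_nonneg_right (pow_le_pow_right₀ hM1 hk) hy.le).trans hMy
  have hmaj : Maj γ (ψ r) (A, B) := by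
    refine ⟨hB1, hAB, ?_, ?_⟩
    · have h1 : (B : ℝ) ^ 4 ≤ M ^ 40 := by
        refine (pow_le_pow_left₀ (Nat.cast_nonneg _) hB2' 4).trans ?_
        rw [← pow_mul]
        exact pow_le_pow_right₀ hM1 (by norm_num)
      exact (mul_le_mul h1 hρ h0'.le (by positivity)).trans hM
    · have h1 : |(B : ℝ) * γ - A| * uu q r ≤ M ^ 15 * y :=
        (mul_le_mul_of_nonneg_left (le_max_left _ _) (abs_nonneg _)).trans hθ.le
      have h2 := pow_le_pow_left₀ (by positivity) h1 2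
      rw [mul_pow, sq_abs] at h2
      have h3 : (M ^ 15 * y) ^ 2 = M ^ 30 * y * y := by ring
      have h4 := mul_le_mul_of_nonneg_right hMy hy.le
      have h5 : ((B : ℝ) * γ - A) ^ 2 * uu q r ≤ ((B : ℝ) * γ - A) ^ 2 * (uu q r : ℝ) ^ 2 :=
        mul_le_mul_of_nonneg_left (le_self_pow₀ hu (by norm_num)) (sq_nonneg _)
      have h6 : ((B : ℝ) * γ - A) ^ 2 * uu q r ≤ ψ r * uu q r := by linarith
      exact le_of_mul_le_mul_right h6 (by linarith)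
  have hap : ap γ (ψ r) = (A, B) := by
    rcases ap_spec γ (ψ r) with h | ⟨h, -⟩
    · exact maj_unique (hρ.trans_lt (hy0.trans_lt (by norm_num))) h hmaj
    · exact absurd ⟨_, hmaj⟩ h
  have hJ : ∀ h ∈ JJ γ (DD ψ q r) q r, (B : ℤ) * h + A * ((uu r q : ℤ) - uu q r) = 0 := by
    intro h hh
    have h1 := mem_JJ.1 hh
    have e : (((B : ℤ) * h + A * ((uu r q : ℤ) - uu q r) : ℤ) : ℝ) =
        B * (h + γ * ((uu r q : ℝ) - uu q r)) - (B * γ - A) * ((uu r q : ℝ) - uu q r) := by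
      push_cast
      ring
    have h2 : |(uu r q : ℝ) - uu q r| ≤ max (uu q r : ℝ) (uu r q) := by
      rw [abs_sub_le_iff]
      constructor <;> linarith [le_max_left (uu q r : ℝ) (uu r q), le_max_right (uu q r : ℝ) (uu r q)]
    have h3 : |(((B : ℤ) * h + A * ((uu r q : ℤ) - uu q r) : ℤ) : ℝ)| < 1 := by
      rw [e]
      refine (abs_sub _ _).trans_lt ?_
      rw [abs_mul, abs_mul, Nat.abs_cast]
      have h4 := mul_le_mul hB2' (h1.trans (mul_le_mul_of_nonneg_left hD2 zero_le_two))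
        (abs_nonneg _) (by positivity)
      have h5 := mul_le_mul_of_nonneg_left h2 (abs_nonneg ((B : ℝ) * γ - A))
      linarith [hMk 9 (by norm_num), hMk 15 (by norm_num)]
    rw [← Int.cast_abs] at h3
    exact Int.abs_lt_one_iff.1 (by exact_mod_cast h3)
  by_cases hv : uu r q = 1
  · refine Or.inr ⟨hne, ?_, hD2.trans (hy0.trans (by norm_num)), hD, by rw [hap]; exact hB1, ?_⟩
    · have h1 := uu_mul' q r
      rw [hv, mul_one] at h1
      exact h1 ▸ Nat.gcd_dvd_left q r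
    · intro h hh
      have h1 := hJ h hh
      rw [hv] at h1
      rw [hap]
      exact h1
  · obtain ⟨p, hp, hpv⟩ := Nat.exists_prime_and_dvd hv
    have hpu : ¬ p ∣ uu q r := fun h =>
      hp.one_lt.ne' (Nat.eq_one_of_dvd_coprimes (uu_coprime hq) h hpv)
    have hpv' : (p : ℤ) ∣ uu r q := Int.natCast_dvd_natCast.2 hpv
    refine Or.inl (sum_eq_zero fun h hh => ?_)
    have h1 := hJ h hh
    have hpB : ¬ p ∣ B := fun hB => by
      have h2 : (B : ℤ) ∣ (uu r q : ℤ) - uu q r :=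
        hAB.symm.dvd_of_dvd_mul_left ⟨-h, by linarith⟩
      have h3 := (Int.natCast_dvd_natCast.2 hB).trans h2
      exact hpu (Int.natCast_dvd_natCast.1 ((dvd_sub_right hpv').1 h3))
    refine prod_eq_zero (i := p) (Nat.mem_primeFactors.2 ⟨hp, ?_, by positivity⟩) ?_
    · exact (hpv.trans (Dvd.intro_left _ (uu_mul' q r))).mul_left q
    · have h2 : (p : ℤ) ∣ h * B - A * uu q r := by
        have e : h * B - A * uu q r = -A * uu r q := by linarith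
        rw [e]
        exact hpv'.mul_left _
      rw [hap, chp, if_neg hpu, if_pos hpv, if_neg hpB, if_pos h2]

theorem exact_ex2 {γ y : ℝ} {ψ : ℕ → ℝ} {q r : ℕ} (hq : 0 < q) (hr : 0 < r) (h0 : 0 < ψ q)
    (h0' : 0 < ψ r) (hy : 0 < y) (hy0 : y ≤ 1 / 2 ^ 80) (hne : q ≠ r) (hD1 : y / 2 < DD ψ q r)
    (hD2 : DD ψ q r ≤ y) (hE : Exact γ y q r) :
    SC γ ψ q r = 0 ∨ Ex2 γ ψ q r ∨ Ex2 γ ψ r q := by
  rcases max_choice (ψ q * uu r q) (ψ r * uu q r) with h | h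
  · rw [← DD_eq, DD_comm] at h
    rw [DD_comm] at hD1 hD2
    have hE' : Exact γ y r q := by
      obtain ⟨x, a1, a2, a3, a4⟩ := hE
      exact ⟨x, a1, a2, a3, by rwa [max_comm]⟩
    rcases Exact_side hr hq h0 hy hy0 hne.symm hD1 hD2 hE' h with h1 | h1
    · exact Or.inl ((SC_comm γ ψ hq r).trans h1)
    · exact Or.inr (Or.inr h1)
  · rw [← DD_eq] at h
    rcases Exact_side hq hr h0' hy hy0 hne hD1 hD2 hE h with h1 | h1
    · exact Or.inl h1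
    · exact Or.inr (Or.inl h1)

theorem ex2_SS : ∃ C : ℝ, 0 < C ∧ ∀ (γ X : ℝ) (ψ : ℕ → ℝ) (q r : ℕ), 16 ≤ X → (q : ℝ) ^ 2 ≤ X →
    0 < q → 0 ≤ ψ q → 0 < ψ r → Ex2 γ ψ q r →
    SS γ ψ q r ≤ C * log (log X) * wt ψ q * pw q (uu q r) := by
  obtain ⟨C, hC, hb⟩ := chi_ll
  refine ⟨2 * C, by positivity, fun γ X ψ q r hX hqX hq h0 h0' hE => ?_⟩
  obtain ⟨-, hd, hD1, hD, -⟩ := hE
  have hr : 0 < r := Nat.pos_of_dvd_of_pos hd hq
  have hL := (Pi_loglog X hX).2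
  have hu : (0 : ℝ) < uu q r := by exact_mod_cast uu_pos hq r
  have hr' : (0 : ℝ) < r := by exact_mod_cast hr
  have hD0 : 0 ≤ DD ψ q r := by rw [hD]; positivity
  have hqr : (q : ℝ) * r ≤ X := by
    refine le_trans ?_ hqX
    rw [sq]
    exact mul_le_mul_of_nonneg_left (by exact_mod_cast Nat.le_of_dvd hq hd) (Nat.cast_nonneg _)
  have h1 : SC γ ψ q r ≤ 2 * C * log (log X) := by
    refine (sum_le_card_nsmul _ _ _ fun h _ => hb _ _ q r h X hq hr hX hqr).trans ?_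
    rw [nsmul_eq_mul, mul_assoc]
    exact mul_le_mul_of_nonneg_right ((card_JJ hD0 q r).trans (by linarith)) (by positivity)
  have h2 : r * uu q r = q := by
    have := uu_mul q r
    rwa [Nat.gcd_eq_right hd] at this
  have h3 : q / uu q r = r := Nat.div_eq_of_eq_mul_left (uu_pos hq r) h2.symm
  have h4 : (q : ℝ) = r * uu q r := by exact_mod_cast h2.symm
  have h5 : wt ψ q * wt ψ r / DD ψ q r = wt ψ q * pw q (uu q r) := by
    rw [mul_div_assoc, hD, pw, h3, h4]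
    congr 1
    rw [wt]
    field_simp
  have h6 := mul_nonneg (wt_nonneg h0) (pw_nonneg q (uu q r))
  rw [SS, h5, mul_assoc _ (wt ψ q), mul_comm]
  exact mul_le_mul_of_nonneg_right h1 h6

theorem Exact_sum {q : ℕ} (hq : 0 < q) (R S : Finset ℕ) (h : ∀ r ∈ R, r ∣ q ∧ uu q r ∈ S) :
    ∑ r ∈ R, pw q (uu q r) ≤ ∑ d ∈ S, pw q d := by
  have hi : Set.InjOn (uu q) R := fun r hr r' hr' e => by
    have h1 := uu_mul q r
    have h2 := uu_mul q r'
    rw [Nat.gcd_eq_right (h r hr).1] at h1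
    rw [Nat.gcd_eq_right (h r' hr').1, ← e] at h2
    exact Nat.eq_of_mul_eq_mul_right (uu_pos hq r) (h1.trans h2.symm)
  rw [← sum_image (f := pw q) hi]
  refine sum_le_sum_of_subset_of_nonneg (fun d hd => ?_) fun d _ _ => pw_nonneg q d
  obtain ⟨r, hr, rfl⟩ := mem_image.1 hd
  exact (h r hr).2

theorem ex2_sumB : ∃ C : ℝ, 0 < C ∧ ∀ (γ X : ℝ) (ψ : ℕ → ℝ) (q : ℕ) (R : Finset ℕ), 16 ≤ X →
    (q : ℝ) ^ 2 ≤ X → 0 < q → 0 ≤ ψ q → (∀ r ∈ R, 0 < ψ r ∧ Ex2 γ ψ q r) →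
    ∑ r ∈ R, SS γ ψ q r ≤ C * log (log X) * wt ψ q := by
  obtain ⟨C, hC, hb⟩ := ex2_SS
  refine ⟨C, hC, fun γ X ψ q R hX hqX hq h0 hR => ?_⟩
  have hL := (Pi_loglog X hX).2
  have hw := wt_nonneg h0
  refine (sum_le_sum fun r hr => hb γ X ψ q r hX hqX hq h0 (hR r hr).1 (hR r hr).2).trans ?_
  rw [← mul_sum]
  refine mul_le_of_le_one_right (by positivity) ?_
  exact (Exact_sum hq R q.divisors fun r hr => ⟨(hR r hr).2.2.1,
    Nat.mem_divisors.2 ⟨Dvd.intro_left _ (uu_mul q r), hq.ne'⟩⟩).trans (sum_pw q hq).le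

end Vale.Agent.P028G
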