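import Vale.Agent.P028G.Far
import Vale.Agent.P028G.Exact
import Vale.Agent.P028G.Level2

/-! The second moment under extra divergence. -/

namespace Vale.Agent.P028G

open Finset Real MeasureTheory Filter Vale.Agent.P028

theorem blockB_ll {X : ℕ} (hX : 16 ≤ X) {x : ℝ} (hx : 16 ≤ x) (hx2 : x ≤ (X : ℝ) ^ 2) :
    log (log x) ≤ 2 * ll X := by
  have hX' : (16 : ℝ) ≤ X := by exact_mod_cast hX
  have h1 : 1 ≤ ll X := hyps_ll hX'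
  have hlx : 0 < log x := log_pos (by linarith)
  have hlX : 0 < log (X : ℝ) := log_pos (by linarith)
  have h2 : log x ≤ 2 * log (X : ℝ) := by
    have := log_le_log (by linarith) hx2
    rwa [log_pow, Nat.cast_ofNat] at this
  have h3 := log_le_log hlx h2
  rw [log_mul (by norm_num) hlX.ne'] at h3
  have h4 : log 2 ≤ 1 := by have := log_two_lt_d9; linarith
  unfold ll at *
  linarith

theorem blockB_SS_comm (γ : ℝ) (ψ : ℕ → ℝ) {q : ℕ} (hq : 0 < q) (r : ℕ) :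
    SS γ ψ q r = SS γ ψ r q := by
  unfold SS
  rw [SC_comm γ ψ hq r, DD_comm ψ q r, mul_comm (wt ψ q)]

theorem blockB_SS : ∃ C : ℝ, 0 < C ∧ ∀ (γ : ℝ) (ψ : ℕ → ℝ) (X q r : ℕ) (y : ℝ), 16 ≤ X →
    (∀ q, 0 ≤ ψ q) → 0 < q → 0 < r → q ≤ X → r ≤ X → 0 < y → y / 2 < DD ψ q r →
    SS γ ψ q r ≤ C * ll X * (4 + 2 / y) * (wt ψ q * wt ψ r) := by
  obtain ⟨C, hC, hchi⟩ := chi_ll
  refine ⟨2 * C, by positivity, ?_⟩
  intro γ ψ X q r y hX hψ hq hr hqX hrX hy hD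
  have hX' : (16 : ℝ) ≤ X := by exact_mod_cast hX
  have h1 : 1 ≤ ll X := hyps_ll hX'
  have hD0 : 0 < DD ψ q r := lt_trans (by positivity) hD
  have hqr : (q : ℝ) * r ≤ (X : ℝ) ^ 2 := by
    rw [sq]
    exact mul_le_mul (by exact_mod_cast hqX) (by exact_mod_cast hrX) (by positivity)
      (by positivity)
  have h2 : ∀ h ∈ JJ γ (DD ψ q r) q r,
      chi (ap γ (ψ q)) (ap γ (ψ r)) q r h ≤ 2 * C * ll X := by
    intro h _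
    have h3 := hchi (ap γ (ψ q)) (ap γ (ψ r)) q r h ((X : ℝ) ^ 2) hq hr (by nlinarith) hqr
    have h4 := blockB_ll hX (x := (X : ℝ) ^ 2) (by nlinarith) le_rfl
    nlinarith
  have h3 : SC γ ψ q r ≤ (4 * DD ψ q r + 1) * (2 * C * ll X) := by
    unfold SC
    refine (sum_le_card_nsmul _ _ _ h2).trans ?_
    rw [nsmul_eq_mul]
    exact mul_le_mul_of_nonneg_right (card_JJ hD0.le q r) (by positivity)
  have hw : 0 ≤ wt ψ q * wt ψ r := mul_nonneg (wt_nonneg (hψ q)) (wt_nonneg (hψ r))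
  have h4 : 1 / DD ψ q r ≤ 2 / y := by
    rw [div_le_div_iff₀ hD0 hy]; linarith
  unfold SS
  refine (mul_le_mul_of_nonneg_left h3 (div_nonneg hw hD0.le)).trans ?_
  have h5 : wt ψ q * wt ψ r / DD ψ q r * ((4 * DD ψ q r + 1) * (2 * C * ll X)) =
      2 * C * ll X * (4 + 1 / DD ψ q r) * (wt ψ q * wt ψ r) := by
    field_simp
  rw [h5]
  gcongr

theorem blockB_small {C l y : ℝ} (hC : 1 ≤ C) (hl : 1 ≤ l) (hy : 0 < y)
    (h : ¬ (y ≤ 1 / 2 ^ 80 ∧ y ≤ (C * l) ^ (-(40 * ((4 : ℕ) : ℝ))))) :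
    y ^ (-(3 * (1 / 1280 : ℝ))) ≤ 2 * C * l := by
  have hCl : 1 ≤ C * l := by nlinarith
  by_cases h1 : y ≤ 1 / 2 ^ 80
  · have h2 : (C * l) ^ (-(40 * ((4 : ℕ) : ℝ))) ≤ y := (not_le.1 fun h2 => h ⟨h1, h2⟩).le
    have h3 := rpow_le_rpow_of_nonpos (by positivity) h2
      (show -(3 * (1 / 1280 : ℝ)) ≤ 0 by norm_num)
    rw [← rpow_mul (by positivity)] at h3
    have h4 : (C * l) ^ (-(40 * ((4 : ℕ) : ℝ)) * -(3 * (1 / 1280 : ℝ))) ≤ (C * l) ^ (1 : ℝ) :=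
      rpow_le_rpow_of_exponent_le hCl (by norm_num)
    rw [rpow_one] at h4
    nlinarith
  · have h2 : (2 : ℝ) ^ (-80 : ℝ) ≤ y := by
      rw [rpow_neg (by norm_num), ← one_div]
      have : (2 : ℝ) ^ (80 : ℝ) = 2 ^ 80 := by exact_mod_cast rpow_natCast 2 80
      rw [this]
      exact (not_le.1 h1).le
    have h3 := rpow_le_rpow_of_nonpos (by positivity) h2
      (show -(3 * (1 / 1280 : ℝ)) ≤ 0 by norm_num)
    rw [← rpow_mul (by positivity)] at h3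
    have h4 : (2 : ℝ) ^ ((-80 : ℝ) * -(3 * (1 / 1280 : ℝ))) ≤ 2 ^ (1 : ℝ) :=
      rpow_le_rpow_of_exponent_le (by norm_num) (by norm_num)
    rw [rpow_one] at h4
    nlinarith

theorem blockB_ms : ∃ K : ℝ, 0 < K ∧ ∀ γ : ℝ, 1 ≤ γ → ∀ (ψ : ℕ → ℝ) (B : Finset ℕ) (X : ℕ),
    16 ≤ X → (∀ q, 0 ≤ ψ q) → (∀ q ∈ B, 0 < q ∧ q ≤ X ∧ 0 < ψ q) → ∀ y : ℝ, 0 < y →
    y ≤ 16 * ll X ^ 3 → ∀ E : Finset (ℕ × ℕ), (∀ e ∈ E, e.1 ∈ B ∧ e.2 ∈ B ∧ e.1 ≠ e.2 ∧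
      y / 2 < DD ψ e.1 e.2 ∧ DD ψ e.1 e.2 ≤ y ∧ Bohr γ e.1 e.2 (2 * y) ∧
      (y ≤ 1 / 2 ^ 80 → ¬ Exact γ y e.1 e.2)) →
    (4 + 2 / y) * ms (wt ψ) E ≤ K * ll X ^ 3 * (∑ q ∈ B, wt ψ q) ^ (1 + 2 * (1 / 1280 : ℝ)) *
      min (y ^ (1 / 1280 : ℝ)) (y ^ (-(1 / 1280 : ℝ))) := by
  obtain ⟨Ct, hCt, htriv⟩ := level_triv (1 / 1280) (by norm_num) (by norm_num)
  obtain ⟨C2, hC2, hlev⟩ := level2 (1 / 1280) (by norm_num) le_rfl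
  obtain ⟨C, hC, hhyp⟩ := hypB
  refine ⟨96 * Ct + 6 * C2 + 12 * Ct * C, by positivity, ?_⟩
  intro γ hγ ψ B X hX hψ hB y hy hyl E hE
  have hX' : (16 : ℝ) ≤ X := by exact_mod_cast hX
  have hl : 1 ≤ ll X := hyps_ll hX'
  have hB' : ∀ q ∈ B, 0 < q ∧ 0 < ψ q := fun q hq => ⟨(hB q hq).1, (hB q hq).2.2⟩
  have hT := htriv ψ B hψ hB' y hy E fun e he => ⟨(hE e he).1, (hE e he).2.1, (hE e he).2.2.2.2.1⟩
  have hL := fun h1 h2 => hlev γ hγ ψ B hψ hB' y hy h1 h2 E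
  have hW0 : 0 ≤ ∑ q ∈ B, wt ψ q := sum_nonneg fun q _ => wt_nonneg (hψ q)
  have hV0 : 0 ≤ (∑ q ∈ B, wt ψ q) ^ (1 + 2 * (1 / 1280 : ℝ)) := by positivity
  generalize (∑ q ∈ B, wt ψ q) ^ (1 + 2 * (1 / 1280 : ℝ)) = V at *
  have hm0 : 0 ≤ ms (wt ψ) E :=
    sum_nonneg fun e _ => mul_nonneg (wt_nonneg (hψ _)) (wt_nonneg (hψ _))
  have hl3 : ll X ≤ ll X ^ 3 := le_self_pow₀ hl (by norm_num)
  have hp : 0 < y ^ (1 / 1280 : ℝ) := by positivity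
  have hn : 0 < y ^ (-(1 / 1280 : ℝ)) := by positivity
  rcases le_total 1 y with h1 | h1
  · have e1 : min (y ^ (1 / 1280 : ℝ)) (y ^ (-(1 / 1280 : ℝ))) = y ^ (-(1 / 1280 : ℝ)) :=
      min_eq_right (rpow_le_rpow_of_exponent_le h1 (by norm_num))
    rw [e1]
    have h2 : 4 + 2 / y ≤ 6 := by
      have : 2 / y ≤ 2 := div_le_self (by norm_num) h1
      linarith
    have h3 : y ^ (1 - 2 * (1 / 1280 : ℝ)) ≤ 16 * ll X ^ 3 * y ^ (-(1 / 1280 : ℝ)) := by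
      have h4 : y ^ (1 - 2 * (1 / 1280 : ℝ)) ≤ y ^ (1 + -(1 / 1280 : ℝ)) :=
        rpow_le_rpow_of_exponent_le h1 (by norm_num)
      rw [rpow_add hy, rpow_one] at h4
      exact h4.trans (mul_le_mul_of_nonneg_right hyl hn.le)
    calc (4 + 2 / y) * ms (wt ψ) E
        ≤ 6 * (Ct * (16 * ll X ^ 3 * y ^ (-(1 / 1280 : ℝ))) * V) := by
          refine mul_le_mul h2 (hT.trans ?_) hm0 (by norm_num)
          gcongr
      _ = 96 * Ct * ll X ^ 3 * V * y ^ (-(1 / 1280 : ℝ)) := by ring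
      _ ≤ _ := by
          gcongr
          have : 0 ≤ 12 * Ct * C := by positivity
          linarith
  · have e1 : min (y ^ (1 / 1280 : ℝ)) (y ^ (-(1 / 1280 : ℝ))) = y ^ (1 / 1280 : ℝ) :=
      min_eq_left (rpow_le_rpow_of_exponent_ge hy h1 (by norm_num))
    rw [e1]
    have h2 : 4 + 2 / y ≤ 6 / y := by
      have : 4 ≤ 4 / y := le_div_self (by norm_num) hy h1
      have e : 6 / y = 4 / y + 2 / y := by ring
      linarith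
    by_cases hc : y ≤ 1 / 2 ^ 80 ∧ y ≤ (C * ll X) ^ (-(40 * ((4 : ℕ) : ℝ)))
    · have hH : Hyp ψ B 1 4 (1 / 1280) y :=
        hhyp 1 (1 / 1280) 4 ψ B X (by norm_num) hX (fun q hq => ⟨(hB q hq).1, (hB q hq).2.1⟩) y hy
          hc.2
      have h3 := hL hc.1 hH fun e he =>
        ⟨(hE e he).1, (hE e he).2.1, (hE e he).2.2.1, (hE e he).2.2.2.1, (hE e he).2.2.2.2.1,
          (hE e he).2.2.2.2.2.1, (hE e he).2.2.2.2.2.2 hc.1⟩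
      rw [rpow_add hy, rpow_one] at h3
      calc (4 + 2 / y) * ms (wt ψ) E ≤ 6 / y * (C2 * (y * y ^ (1 / 1280 : ℝ)) * V) :=
            mul_le_mul h2 h3 hm0 (by positivity)
        _ = 6 * C2 * 1 * V * y ^ (1 / 1280 : ℝ) := by field_simp
        _ ≤ _ := by
            gcongr
            · have : 0 ≤ 96 * Ct + 12 * Ct * C := by positivity
              linarith
            · linarith
    · have h3 := blockB_small hC hl hy hc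
      have h4 : y ^ (1 - 2 * (1 / 1280 : ℝ)) =
          y * (y ^ (-(3 * (1 / 1280 : ℝ))) * y ^ (1 / 1280 : ℝ)) := by
        rw [← rpow_add hy, mul_comm y, ← rpow_add_one hy.ne']; congr 1; ring
      calc (4 + 2 / y) * ms (wt ψ) E
          ≤ 6 / y * (Ct * (y * (2 * C * ll X ^ 3 * y ^ (1 / 1280 : ℝ))) * V) := by
            refine mul_le_mul h2 (hT.trans ?_) hm0 (by positivity)
            rw [h4]
            gcongr
            refine h3.trans ?_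
            gcongr
        _ = 12 * Ct * C * ll X ^ 3 * V * y ^ (1 / 1280 : ℝ) := by field_simp; ring
        _ ≤ _ := by
            gcongr
            have : 0 ≤ 96 * Ct + 6 * C2 := by positivity
            linarith

theorem blockB_pow {l W : ℝ} (hl : 1 ≤ l) (hW : l ^ 6 ≤ W) :
    l ^ 4 * W ^ (1 + 2 * (1 / 1280 : ℝ)) ≤ W ^ 2 := by
  have h6 : 1 ≤ l ^ 6 := one_le_pow₀ hl
  have hW1 : 1 ≤ W := h6.trans hW
  have h1 : (l ^ 6) ^ (2 / 3 : ℝ) ≤ W ^ (2 / 3 : ℝ) :=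
    rpow_le_rpow (by positivity) hW (by norm_num)
  have h2 : (l ^ 6) ^ (2 / 3 : ℝ) = l ^ 4 := by
    rw [← rpow_natCast, ← rpow_mul (by positivity), ← rpow_natCast]
    congr 1
    norm_num
  have h3 : W ^ (2 / 3 : ℝ) * W ^ (1 + 2 * (1 / 1280 : ℝ)) ≤ W ^ 2 := by
    rw [← rpow_add (by positivity), ← rpow_natCast]
    exact rpow_le_rpow_of_exponent_le hW1 (by norm_num)
  rw [h2] at h1
  exact (mul_le_mul_of_nonneg_right h1 (by positivity)).trans h3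

theorem blockB_rest : ∃ K : ℝ, 0 < K ∧ ∀ γ : ℝ, 1 ≤ γ → ∀ (ψ : ℕ → ℝ) (B : Finset ℕ) (X : ℕ),
    16 ≤ X → (∀ q, 0 ≤ ψ q) → (∀ q ∈ B, 4 ≤ q ∧ q ≤ X ∧ 0 < ψ q) →
    ll X ^ 6 ≤ ∑ q ∈ B, wt ψ q → ∀ E : Finset (ℕ × ℕ), (∀ e ∈ E, e.1 ∈ B ∧ e.2 ∈ B ∧
      e.1 ≠ e.2 ∧ DD ψ e.1 e.2 < ll (e.1 * e.2) ^ 3 ∧ ¬ Ex2 γ ψ e.1 e.2 ∧ ¬ Ex2 γ ψ e.2 e.1 ∧
      SC γ ψ e.1 e.2 ≠ 0) →
    ∑ e ∈ E, SS γ ψ e.1 e.2 ≤ K * (∑ q ∈ B, wt ψ q) ^ 2 := by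
  obtain ⟨C, hC, hSS⟩ := blockB_SS
  obtain ⟨K, hK, hms⟩ := blockB_ms
  obtain ⟨G, hG, hgeo⟩ := geo_min (1 / 1280) (by norm_num)
  refine ⟨C * K * G, by positivity, ?_⟩
  intro γ hγ ψ B X hX hψ hB hW E hE
  have hX' : (16 : ℝ) ≤ X := by exact_mod_cast hX
  have hl : 1 ≤ ll X := hyps_ll hX'
  have hB' : ∀ q ∈ B, 0 < q ∧ q ≤ X ∧ 0 < ψ q := fun q hq =>
    ⟨by have := (hB q hq).1; omega, (hB q hq).2.1, (hB q hq).2.2⟩
  have hpow := blockB_pow hl hW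
  have hD : ∀ e ∈ E, 0 < DD ψ e.1 e.2 := fun e he =>
    block_DD_pos (hB' _ (hE e he).2.1).1 (hB' _ (hE e he).1).2.2
  refine sum_levels ψ E hD (fun e => SS γ ψ e.1 e.2)
    (fun y => C * K * (∑ q ∈ B, wt ψ q) ^ 2 *
      min (y ^ (1 / 1280 : ℝ)) (y ^ (-(1 / 1280 : ℝ)))) _ ?_ ?_
  · intro J
    rw [← mul_sum]
    calc _ ≤ C * K * (∑ q ∈ B, wt ψ q) ^ 2 * G :=
          mul_le_mul_of_nonneg_left (hgeo J) (by positivity)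
      _ = _ := by ring
  intro j E' hE' hlev
  have hy : (0 : ℝ) < 2 ^ j := by positivity
  generalize (2 : ℝ) ^ j = y at hy hlev ⊢
  have hmin : 0 ≤ min (y ^ (1 / 1280 : ℝ)) (y ^ (-(1 / 1280 : ℝ))) :=
    le_min (by positivity) (by positivity)
  rcases E'.eq_empty_or_nonempty with rfl | ⟨e₀, he₀⟩
  · rw [sum_empty]; positivity
  have hyl : y ≤ 16 * ll X ^ 3 := by
    obtain ⟨a1, a2, -, a4, -⟩ := hE e₀ (hE' he₀)
    have b1 := hB _ a1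
    have b2 := hB _ a2
    have c1 : (16 : ℝ) ≤ ((e₀.1 * e₀.2 : ℕ) : ℝ) := by
      exact_mod_cast (Nat.mul_le_mul b1.1 b2.1 : 4 * 4 ≤ e₀.1 * e₀.2)
    have c2 : ((e₀.1 * e₀.2 : ℕ) : ℝ) ≤ (X : ℝ) ^ 2 := by
      rw [sq]
      exact_mod_cast Nat.mul_le_mul b1.2.1 b2.2.1
    have c3 : ll (e₀.1 * e₀.2) ≤ 2 * ll X := blockB_ll hX c1 c2
    have c4 : 1 ≤ ll (e₀.1 * e₀.2) := hyps_ll c1
    have c5 : ll (e₀.1 * e₀.2) ^ 3 ≤ (2 * ll X) ^ 3 := pow_le_pow_left₀ (by linarith) c3 3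
    have c6 := (hlev e₀ he₀).1
    nlinarith
  have h1 := hms γ hγ ψ B X hX hψ hB' y hy hyl E' fun e he => by
    obtain ⟨a1, a2, a3, -, a5, a6, a7⟩ := hE e (hE' he)
    obtain ⟨b1, b2⟩ := hlev e he
    refine ⟨a1, a2, a3, b1, b2, ?_, fun hy0 hex => ?_⟩
    · obtain ⟨h, hh, -⟩ := exists_ne_zero_of_sum_ne_zero a7
      exact Near.mono (bohr_of_mem_JJ hh) (by linarith)
    · rcases exact_ex2 (hB' _ a1).1 (hB' _ a2).1 (hB' _ a1).2.2 (hB' _ a2).2.2 hy hy0 a3 b1 b2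
        hex with h | h | h
      · exact a7 h
      · exact a5 h
      · exact a6 h
  have h2 : ∑ e ∈ E', SS γ ψ e.1 e.2 ≤ C * ll X * ((4 + 2 / y) * ms (wt ψ) E') := by
    unfold ms
    rw [mul_sum, mul_sum]
    refine sum_le_sum fun e he => ?_
    obtain ⟨a1, a2, -⟩ := hE e (hE' he)
    have := hSS γ ψ X e.1 e.2 y hX hψ (hB' _ a1).1 (hB' _ a2).1 (hB' _ a1).2.1 (hB' _ a2).2.1 hy
      (hlev e he).1
    rwa [mul_assoc] at this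
  refine h2.trans ((mul_le_mul_of_nonneg_left h1 (by positivity)).trans ?_)
  calc _ = C * K * (ll X ^ 4 * (∑ q ∈ B, wt ψ q) ^ (1 + 2 * (1 / 1280 : ℝ))) *
        min (y ^ (1 / 1280 : ℝ)) (y ^ (-(1 / 1280 : ℝ))) := by ring
    _ ≤ _ := by gcongr

open Classical in
theorem blockB_ex : ∃ K : ℝ, 0 < K ∧ ∀ (γ : ℝ) (ψ : ℕ → ℝ) (B : Finset ℕ) (X : ℕ),
    16 ≤ X → (∀ q, 0 ≤ ψ q) → (∀ q ∈ B, 4 ≤ q ∧ q ≤ X ∧ 0 < ψ q) →
    ∑ q ∈ B, ∑ r ∈ B, (if Ex2 γ ψ q r then SS γ ψ q r else 0) ≤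
      K * ll X * ∑ q ∈ B, wt ψ q := by
  obtain ⟨C, hC, hex⟩ := ex2_sumB
  refine ⟨2 * C, by positivity, ?_⟩
  intro γ ψ B X hX hψ hB
  have hX' : (16 : ℝ) ≤ X := by exact_mod_cast hX
  rw [mul_sum]
  refine sum_le_sum fun q hq => ?_
  rw [← sum_filter]
  have hq0 : 0 < q := by have := (hB q hq).1; omega
  have hqX : (q : ℝ) ≤ X := by exact_mod_cast (hB q hq).2.1
  have h1 := hex γ ((X : ℝ) ^ 2) ψ q (B.filter fun r => Ex2 γ ψ q r) (by nlinarith)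
    (pow_le_pow_left₀ (by positivity) hqX 2) hq0 (hψ q)
    fun r hr => ⟨(hB r (mem_filter.1 hr).1).2.2, (mem_filter.1 hr).2⟩
  have h2 := blockB_ll hX (x := (X : ℝ) ^ 2) (by nlinarith) le_rfl
  have h3 := wt_nonneg (hψ q)
  refine h1.trans ?_
  have : C * log (log ((X : ℝ) ^ 2)) ≤ 2 * C * ll X := by nlinarith
  gcongr

theorem blockB : ∃ (C : ℝ) (X₀ : ℕ), 0 < C ∧ ∀ γ s : ℝ, 1 ≤ γ → ∀ (ψ : ℕ → ℝ) (B : Finset ℕ)
    (X : ℕ), X₀ ≤ X → (∀ q, 0 ≤ ψ q) → (∀ q ∈ B, 4 ≤ q ∧ q ≤ X ∧ 0 < ψ q ∧ ψ q ≤ 1 / 2) →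
    ll X ^ 6 ≤ ∑ q ∈ B, wt ψ q →
    ∑ q ∈ B, ∑ r ∈ B, ov γ s ψ q r ≤ C * (∑ q ∈ B, wt ψ q) ^ 2 := by
  classical
  obtain ⟨Cf, hCf, hfar⟩ := far_sum
  obtain ⟨Cr, hCr, hrest⟩ := blockB_rest
  obtain ⟨Ce, hCe, hex⟩ := blockB_ex
  refine ⟨10 + 14 * (Cf + 2 * Ce + Cr), 16, by positivity, ?_⟩
  intro γ s hγ ψ B X hX hψ hB hW
  have hX' : (16 : ℝ) ≤ X := by exact_mod_cast hX
  have hl : 1 ≤ ll X := hyps_ll hX'
  have hl6 : ll X ≤ ll X ^ 6 := le_self_pow₀ hl (by norm_num)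
  have hB' : ∀ q ∈ B, 4 ≤ q ∧ q ≤ X ∧ 0 < ψ q := fun q hq =>
    ⟨(hB q hq).1, (hB q hq).2.1, (hB q hq).2.2.1⟩
  have hpos : ∀ q ∈ B, 0 < q := fun q hq => by have := (hB q hq).1; omega
  have hW1 : 1 ≤ ∑ q ∈ B, wt ψ q := by linarith
  have h1 := hfar γ ψ B hψ (fun q hq => ⟨(hB q hq).1, (hB q hq).2.2.1⟩) hW1
    ((B ×ˢ B).filter fun e => ll (e.1 * e.2) ^ 3 ≤ DD ψ e.1 e.2) fun e he =>
      ⟨(mem_product.1 (mem_filter.1 he).1).1, (mem_product.1 (mem_filter.1 he).1).2,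
        (mem_filter.1 he).2⟩
  have h2 := hrest γ hγ ψ B X hX hψ hB' hW
    ((B ×ˢ B).filter fun e => e.1 ≠ e.2 ∧ DD ψ e.1 e.2 < ll (e.1 * e.2) ^ 3 ∧
      ¬ Ex2 γ ψ e.1 e.2 ∧ ¬ Ex2 γ ψ e.2 e.1 ∧ SC γ ψ e.1 e.2 ≠ 0) fun e he =>
      ⟨(mem_product.1 (mem_filter.1 he).1).1, (mem_product.1 (mem_filter.1 he).1).2,
        (mem_filter.1 he).2⟩
  have h3 := hex γ ψ B X hX hψ hB'
  have h4 : ∑ q ∈ B, ∑ r ∈ B, (if Ex2 γ ψ r q then SS γ ψ q r else 0) ≤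
      Ce * ll X * ∑ q ∈ B, wt ψ q := by
    rw [sum_comm]
    refine le_trans (le_of_eq ?_) h3
    refine sum_congr rfl fun q hq => sum_congr rfl fun r _ => ?_
    rw [blockB_SS_comm γ ψ (hpos q hq) r]
  have h5 : ∑ q ∈ B, ∑ r ∈ B, (if q = r then 10 * wt ψ q else 0) = 10 * ∑ q ∈ B, wt ψ q := by
    rw [mul_sum]
    refine sum_congr rfl fun q hq => ?_
    rw [sum_ite_eq, if_pos hq]
  rw [sum_filter, sum_product] at h1 h2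
  have h6 : ∀ q ∈ B, ∀ r ∈ B, ov γ s ψ q r ≤ (if q = r then 10 * wt ψ q else 0) +
      14 * ((if ll (q * r) ^ 3 ≤ DD ψ q r then SS γ ψ q r else 0) +
        (if Ex2 γ ψ q r then SS γ ψ q r else 0) + (if Ex2 γ ψ r q then SS γ ψ q r else 0) +
        (if q ≠ r ∧ DD ψ q r < ll (q * r) ^ 3 ∧ ¬ Ex2 γ ψ q r ∧ ¬ Ex2 γ ψ r q ∧
          SC γ ψ q r ≠ 0 then SS γ ψ q r else 0)) := by
    intro q hq r hr
    have hS := SS_nonneg γ hψ q r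
    have n1 : 0 ≤ (if ll (q * r) ^ 3 ≤ DD ψ q r then SS γ ψ q r else 0) := by
      split_ifs <;> linarith
    have n2 : 0 ≤ (if Ex2 γ ψ q r then SS γ ψ q r else 0) := by split_ifs <;> linarith
    have n3 : 0 ≤ (if Ex2 γ ψ r q then SS γ ψ q r else 0) := by split_ifs <;> linarith
    have n4 : 0 ≤ (if q ≠ r ∧ DD ψ q r < ll (q * r) ^ 3 ∧ ¬ Ex2 γ ψ q r ∧ ¬ Ex2 γ ψ r q ∧
        SC γ ψ q r ≠ 0 then SS γ ψ q r else 0) := by split_ifs <;> linarith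
    by_cases hqr : q = r
    · subst hqr
      have := ov_diag γ s ψ (hpos q hq) (hB q hq).2.2.1 (hB q hq).2.2.2
      rw [if_pos rfl]
      linarith
    have hov := ov_le γ s ψ (hpos q hq) (hpos r hr) (hB q hq).2.2.1 (hB q hq).2.2.2
      (hB r hr).2.2.1 (hB r hr).2.2.2
    rw [if_neg hqr]
    by_cases c1 : ll (q * r) ^ 3 ≤ DD ψ q r
    · rw [if_pos c1]; linarith
    by_cases c2 : Ex2 γ ψ q r
    · rw [if_pos c2]; linarith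
    by_cases c3 : Ex2 γ ψ r q
    · rw [if_pos c3]; linarith
    by_cases c4 : SC γ ψ q r = 0
    · have : SS γ ψ q r = 0 := by unfold SS; rw [c4, mul_zero]
      linarith
    · rw [if_pos (⟨hqr, not_le.1 c1, c2, c3, c4⟩ : q ≠ r ∧ DD ψ q r < ll (q * r) ^ 3 ∧
        ¬ Ex2 γ ψ q r ∧ ¬ Ex2 γ ψ r q ∧ SC γ ψ q r ≠ 0)]
      linarith
  refine (sum_le_sum fun q hq => sum_le_sum fun r hr => h6 q hq r hr).trans ?_
  simp only [sum_add_distrib, ← mul_sum]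
  rw [h5]
  have h7 : Ce * ll X * ∑ q ∈ B, wt ψ q ≤ Ce * (∑ q ∈ B, wt ψ q) ^ 2 := by
    rw [sq, mul_assoc]
    gcongr
    linarith
  have h8 : ∑ q ∈ B, wt ψ q ≤ (∑ q ∈ B, wt ψ q) ^ 2 := le_self_pow₀ hW1 (by norm_num)
  simp only at h1 h2
  linarith

end Vale.Agent.P028G
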