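import Vale.Agent.P028G.Defs

/-! Sums of products of periodic functions. -/

namespace Vale.Agent.P028G

open Finset Real MeasureTheory Filter Vale.Agent.P028

theorem one_class {p : ℕ} (hp : p.Prime) (A B : ℤ) (hB : ¬ (p : ℤ) ∣ B) :
    ∃ cl : ℤ, ∀ a : ℤ, (p : ℤ) ∣ a * B + A ↔ (p : ℤ) ∣ a - cl := by
  have hp' := Nat.prime_iff_prime_int.1 hp
  obtain ⟨u, v, h⟩ := (hp'.coprime_iff_not_dvd).2 hB
  refine ⟨-(A * v), fun a => ⟨fun h1 => ?_, fun h1 => ?_⟩⟩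
  · have e : a - -(A * v) = (a * B + A) * v + p * (u * a) := by linear_combination (-a) * h
    rw [e]
    exact (h1.mul_right _).add (dvd_mul_right _ _)
  · have e : a * B + A = (a - -(A * v)) * B + p * (u * A) := by linear_combination (-A) * h
    rw [e]
    exact (h1.mul_right _).add (dvd_mul_right _ _)

theorem crt_range (F : ℤ → ℝ) (c : ℤ) (n : ℕ) :
    ∑ j ∈ Ico c (c + n), F j = ∑ i ∈ range n, F (c + i) := by
  rw [Int.Ico_eq_finset_map, sum_map]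
  simp

theorem crt_zmod {m : ℕ} [NeZero m] (G : ZMod m → ℝ) (c : ℤ) :
    ∑ j ∈ Ico c (c + m), G (j : ZMod m) = ∑ x, G x := by
  have hinj : Set.InjOn (fun j : ℤ => (j : ZMod m)) (Ico c (c + m) : Finset ℤ) := by
    intro i hi j hj h
    have h1 := (ZMod.intCast_eq_intCast_iff_dvd_sub i j m).1 h
    simp only [coe_Ico, Set.mem_Ico] at hi hj
    have h2 := Int.eq_zero_of_abs_lt_dvd h1 (abs_lt.2 ⟨by omega, by omega⟩)
    omega
  rw [← sum_image hinj]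
  congr 1
  refine eq_univ_of_card _ ?_
  rw [card_image_of_injOn hinj, ZMod.card]
  simp

theorem crt_ex {m : ℕ} [NeZero m] {F : ℤ → ℝ} (hF : ∀ j, F (j + m) = F j) :
    ∃ G : ZMod m → ℝ, ∀ j : ℤ, F j = G j := by
  refine ⟨fun x => F x.val, fun j => ?_⟩
  have hp : Function.Periodic F (m : ℤ) := hF
  change F j = F ((j : ZMod m).val : ℤ)
  rw [ZMod.val_intCast, Int.emod_def, mul_comm]
  exact (hp.sub_int_mul_eq _).symm

theorem crt_shift {m : ℕ} (hm : 0 < m) {F : ℤ → ℝ} (hF : ∀ j, F (j + m) = F j) (c : ℤ) :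
    ∑ j ∈ Ico c (c + m), F j = ∑ j ∈ range m, F j := by
  have : NeZero m := ⟨hm.ne'⟩
  obtain ⟨G, hG⟩ := crt_ex hF
  have h := crt_range F 0 m
  simp only [zero_add] at h
  rw [← h]
  simp only [hG]
  rw [crt_zmod, ← crt_zmod G 0, zero_add]

theorem crt_two {m n : ℕ} (hm : 0 < m) (hn : 0 < n) (h : m.Coprime n) {F G : ℤ → ℝ}
    (hF : ∀ j, F (j + m) = F j) (hG : ∀ j, G (j + n) = G j) (c : ℤ) :
    ∑ j ∈ Ico c (c + (m * n : ℕ)), F j * G j =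
      (∑ j ∈ Ico c (c + m), F j) * ∑ j ∈ Ico c (c + n), G j := by
  have : NeZero m := ⟨hm.ne'⟩
  have : NeZero n := ⟨hn.ne'⟩
  have : NeZero (m * n) := ⟨(Nat.mul_pos hm hn).ne'⟩
  obtain ⟨F', hF'⟩ := crt_ex hF
  obtain ⟨G', hG'⟩ := crt_ex hG
  have h1 := crt_zmod (fun x => F' (ZMod.chineseRemainder h x).1 *
    G' (ZMod.chineseRemainder h x).2) c
  simp only [map_intCast, Prod.fst_intCast, Prod.snd_intCast] at h1
  simp only [hF', hG']
  rw [h1, crt_zmod, crt_zmod, sum_mul_sum, ← Fintype.sum_prod_type']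
  exact (ZMod.chineseRemainder h).toEquiv.sum_comp fun y => F' y.1 * G' y.2

theorem crt_per (P : Finset ℕ) (f : ℕ → ℤ → ℝ) (hf : ∀ p ∈ P, ∀ j : ℤ, f p (j + p) = f p j)
    (j : ℤ) : ∏ p ∈ P, f p (j + (∏ p ∈ P, p : ℕ)) = ∏ p ∈ P, f p j := by
  refine prod_congr rfl fun p hp => ?_
  obtain ⟨k, hk⟩ := dvd_prod_of_mem (fun p : ℕ => p) hp
  have h : Function.Periodic (f p) (p : ℤ) := hf p hp
  rw [hk, Nat.cast_mul, mul_comm]
  exact h.nat_mul k j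

theorem crt_cop {P₁ P₂ : Finset ℕ} (hd : Disjoint P₁ P₂) (h1 : ∀ p ∈ P₁, p.Prime)
    (h2 : ∀ p ∈ P₂, p.Prime) : (∏ p ∈ P₁, p).Coprime (∏ p ∈ P₂, p) :=
  Nat.Coprime.prod_left fun p hp => Nat.Coprime.prod_right fun r hr =>
    (Nat.coprime_primes (h1 p hp) (h2 r hr)).2 fun h => disjoint_left.1 hd hp (h ▸ hr)

theorem crt_two_sided {N : ℕ} (hN : 0 < N) {F : ℤ → ℝ} (h0 : ∀ j, 0 ≤ F j) {S : ℝ}
    (hS : ∀ c : ℤ, ∑ j ∈ Ico c (c + N), F j = S) (c : ℤ) (n : ℕ) :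
    ((n : ℝ) / N - 1) * S ≤ ∑ j ∈ Ico c (c + n), F j ∧
      ∑ j ∈ Ico c (c + n), F j ≤ ((n : ℝ) / N + 1) * S := by
  have hk : ∀ k : ℕ, ∑ i ∈ range (k * N), F (c + i) = k * S := fun k => by
    induction k with
    | zero => simp
    | succ k ih =>
      rw [add_mul, one_mul, sum_range_add, ih, Nat.cast_succ, add_mul, one_mul,
        ← hS (c + (k * N : ℕ)), crt_range]
      simp only [Nat.cast_add, add_assoc]
  have hS0 : 0 ≤ S := hS 0 ▸ sum_nonneg fun j _ => h0 j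
  have mono : ∀ a b : ℕ, a ≤ b → ∑ i ∈ range a, F (c + i) ≤ ∑ i ∈ range b, F (c + i) :=
    fun a b h => sum_le_sum_of_subset_of_nonneg (range_mono h) fun i _ _ => h0 _
  have h1 := mono _ _ (Nat.div_mul_le_self n N)
  have h2 := mono n ((n / N + 1) * N) (by rw [mul_comm]; exact (Nat.lt_mul_div_succ n hN).le)
  have h3 : ((n / N : ℕ) : ℝ) ≤ (n : ℝ) / N := Nat.cast_div_le
  have h4 : (n : ℝ) / N ≤ ((n / N : ℕ) : ℝ) + 1 := by
    rw [div_le_iff₀ (Nat.cast_pos.2 hN), mul_comm]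
    exact_mod_cast (Nat.lt_mul_div_succ n hN).le
  rw [hk] at h1 h2
  rw [crt_range]
  push_cast at h2
  exact ⟨(mul_le_mul_of_nonneg_right (by linarith) hS0).trans h1,
    h2.trans (mul_le_mul_of_nonneg_right (by linarith) hS0)⟩

theorem crt_ind {p : ℕ} (hp : 0 < p) (cl : ℤ) (a : ℝ) :
    ∑ j ∈ range p, (if (p : ℤ) ∣ (j : ℤ) - cl then a else 0) = a := by
  have : NeZero p := ⟨hp.ne'⟩
  have h1 := crt_range (fun j => if (p : ℤ) ∣ j - cl then a else 0) 0 p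
  have h2 := crt_zmod (fun x : ZMod p => if (cl : ZMod p) = x then a else 0) 0
  simp only [ZMod.intCast_eq_intCast_iff_dvd_sub, sum_ite_eq, mem_univ, if_true] at h2
  simp only [zero_add] at h1 h2
  rw [← h1, h2]

theorem crt_ind_per (p : ℕ) (cl : ℤ) (a : ℝ) (j : ℤ) :
    (if (p : ℤ) ∣ j + p - cl then a else 0) = if (p : ℤ) ∣ j - cl then a else 0 := by
  simp only [add_sub_right_comm, dvd_add_self_right]

theorem card_class {p : ℕ} (hp : 0 < p) (cl : ℤ) :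
    ((range p).filter fun j : ℕ => (p : ℤ) ∣ (j : ℤ) - cl).card = 1 := by
  have h := crt_ind hp cl 1
  rw [sum_boole] at h
  exact_mod_cast h

theorem per_prod (P : Finset ℕ) (hP : ∀ p ∈ P, p.Prime) (f : ℕ → ℤ → ℝ)
    (hf : ∀ p ∈ P, ∀ j : ℤ, f p (j + p) = f p j) (c : ℤ) :
    ∑ j ∈ Ico c (c + (∏ p ∈ P, p : ℕ)), ∏ p ∈ P, f p j =
      ∏ p ∈ P, ∑ j ∈ range p, f p (j : ℤ) := by
  induction P using Finset.induction_on with
  | empty => simp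
  | insert p P hp ih =>
    have h1 : ∀ r ∈ P, r.Prime := fun r hr => hP r (mem_insert_of_mem hr)
    have h2 : ∀ r ∈ P, ∀ j : ℤ, f r (j + r) = f r j := fun r hr => hf r (mem_insert_of_mem hr)
    have h3 := hP p (mem_insert_self p P)
    have h4 : p.Coprime (∏ r ∈ P, r) := Nat.Coprime.prod_right fun r hr =>
      (Nat.coprime_primes h3 (h1 r hr)).2 fun h => hp (h ▸ hr)
    simp only [prod_insert hp]
    rw [crt_two h3.pos (prod_pos fun r hr => (h1 r hr).pos) h4 (hf p (mem_insert_self p P))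
      (crt_per P f h2), ih h1 h2, crt_shift h3.pos (hf p (mem_insert_self p P))]

theorem per_le (P : Finset ℕ) (hP : ∀ p ∈ P, p.Prime) (f : ℕ → ℤ → ℝ)
    (hf : ∀ p ∈ P, ∀ j : ℤ, f p (j + p) = f p j) (h0 : ∀ p ∈ P, ∀ j : ℤ, 0 ≤ f p j)
    (c : ℤ) (n : ℕ) : ∑ j ∈ Ico c (c + n), ∏ p ∈ P, f p j ≤
      ((n : ℝ) / ∏ p ∈ P, (p : ℝ) + 1) * ∏ p ∈ P, ∑ j ∈ range p, f p (j : ℤ) := by
  have h := (crt_two_sided (prod_pos fun r hr => (hP r hr).pos)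
    (fun j => prod_nonneg fun p hp => h0 p hp j) (per_prod P hP f hf) c n).2
  rwa [Nat.cast_prod] at h

theorem avg_le (P₁ P₂ : Finset ℕ) (hd : Disjoint P₁ P₂) (h1 : ∀ p ∈ P₁, p.Prime)
    (h2 : ∀ p ∈ P₂, p.Prime) (f : ℕ → ℤ → ℝ) (hf : ∀ p ∈ P₁, ∀ j : ℤ, f p (j + p) = f p j)
    (h0 : ∀ p ∈ P₁, ∀ j : ℤ, 0 ≤ f p j) (μ : ℕ → ℝ)
    (hμ : ∀ p ∈ P₁, ∑ j ∈ range p, f p (j : ℤ) ≤ p * μ p) (cl : ℕ → ℤ) (c : ℤ) (n : ℕ) :
    ∑ j ∈ Ico c (c + n), (∏ p ∈ P₁, f p j) *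
        ∏ p ∈ P₂, (1 + if (p : ℤ) ∣ j - cl p then 2 / (p : ℝ) else 0) ≤
      (∏ p ∈ P₁, μ p) * (n * ∏ p ∈ P₂, (1 + 2 / (p : ℝ) ^ 2) +
        (∏ p ∈ P₁, (p : ℝ)) * ∏ p ∈ P₂, (1 + 2 / (p : ℝ))) := by
  simp only [prod_one_add, mul_sum]
  rw [sum_comm, ← sum_add_distrib, mul_sum]
  refine sum_le_sum fun K hK => ?_
  have hK' := mem_powerset.1 hK
  have h3 : ∀ p ∈ K, p.Prime := fun p hp => h2 p (hK' hp)
  have n1 : 0 < ∏ p ∈ P₁, p := prod_pos fun r hr => (h1 r hr).pos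
  have n2 : 0 < ∏ p ∈ K, p := prod_pos fun r hr => (h3 r hr).pos
  have hg : ∀ p ∈ K, ∀ j : ℤ, (fun (p : ℕ) (j : ℤ) => if (p : ℤ) ∣ j - cl p then 2 / (p : ℝ)
      else 0) p (j + p) = (fun (p : ℕ) (j : ℤ) => if (p : ℤ) ∣ j - cl p then 2 / (p : ℝ) else 0)
      p j := fun p _ j => crt_ind_per p (cl p) _ j
  have h4 := (crt_two_sided (Nat.mul_pos n1 n2) (F := fun j => (∏ p ∈ P₁, f p j) *
      ∏ p ∈ K, if (p : ℤ) ∣ j - cl p then 2 / (p : ℝ) else 0)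
    (S := (∏ p ∈ P₁, ∑ j ∈ range p, f p (j : ℤ)) * ∏ p ∈ K, 2 / (p : ℝ))
    (fun j => mul_nonneg (prod_nonneg fun p hp => h0 p hp j)
      (prod_nonneg fun p _ => by positivity)) (fun c => by
      rw [crt_two n1 n2 (crt_cop (hd.mono_right hK') h1 h3) (crt_per P₁ f hf)
        (crt_per K (fun p j => if (p : ℤ) ∣ j - cl p then 2 / (p : ℝ) else 0) hg),
        per_prod P₁ h1 f hf, per_prod K h3 _ hg]
      congr 1
      exact prod_congr rfl fun p hp => crt_ind (h3 p hp).pos _ _) c n).2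
  refine h4.trans ?_
  have h5 : ∏ p ∈ P₁, ∑ j ∈ range p, f p (j : ℤ) ≤ (∏ p ∈ P₁, (p : ℝ)) * ∏ p ∈ P₁, μ p := by
    rw [← prod_mul_distrib]
    exact prod_le_prod (fun p hp => sum_nonneg fun j _ => h0 p hp j) hμ
  have h6 : ∏ p ∈ K, 2 / (p : ℝ) ^ 2 = (∏ p ∈ K, 2 / (p : ℝ)) / ∏ p ∈ K, (p : ℝ) := by
    rw [← prod_div_distrib]
    exact prod_congr rfl fun p _ => by rw [div_div, sq]
  have n3 : (0 : ℝ) < ∏ p ∈ P₁, (p : ℝ) := prod_pos fun r hr => Nat.cast_pos.2 (h1 r hr).pos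
  have n4 : (0 : ℝ) < ∏ p ∈ K, (p : ℝ) := prod_pos fun r hr => Nat.cast_pos.2 (h3 r hr).pos
  have n5 : (0 : ℝ) ≤ ∏ p ∈ K, 2 / (p : ℝ) := prod_nonneg fun p _ => by positivity
  rw [h6, Nat.cast_mul, Nat.cast_prod, Nat.cast_prod]
  refine (mul_le_mul_of_nonneg_left (mul_le_mul_of_nonneg_right h5 n5)
    (by positivity)).trans (le_of_eq ?_)
  field_simp

theorem sieve_count (P : Finset ℕ) (hP : ∀ p ∈ P, p.Prime) (cl : ℕ → ℤ) (c : ℤ) (n : ℕ) :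
    n * ∏ p ∈ P, (1 - 1 / (p : ℝ)) - 2 ^ P.card ≤
      (((Ico c (c + n)).filter fun a : ℤ => ∀ p ∈ P, ¬ (p : ℤ) ∣ a - cl p).card : ℝ) := by
  have e1 : (((Ico c (c + n)).filter fun a : ℤ => ∀ p ∈ P, ¬ (p : ℤ) ∣ a - cl p).card : ℝ) =
      ∑ a ∈ Ico c (c + n), ∏ p ∈ P, (1 + -if (p : ℤ) ∣ a - cl p then (1 : ℝ) else 0) := by
    rw [← sum_boole]
    refine sum_congr rfl fun a _ => ?_
    rw [← prod_boole]
    refine prod_congr rfl fun p _ => ?_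
    split_ifs <;> simp
  have e2 : (2 : ℝ) ^ P.card = ∑ _K ∈ P.powerset, (1 : ℝ) := by simp
  rw [e1, e2]
  simp only [sub_eq_add_neg (1 : ℝ), prod_one_add, prod_neg]
  rw [sum_comm, mul_sum, ← sum_sub_distrib]
  refine sum_le_sum fun K hK => ?_
  have h3 : ∀ p ∈ K, p.Prime := fun p hp => hP p (mem_powerset.1 hK hp)
  have h4 := crt_two_sided (prod_pos fun r hr => (h3 r hr).pos)
    (F := fun j => ∏ p ∈ K, if (p : ℤ) ∣ j - cl p then (1 : ℝ) else 0) (S := 1)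
    (fun j => prod_nonneg fun p _ => by positivity) (fun c => by
      rw [per_prod K h3 _ fun p _ j => crt_ind_per p (cl p) _ j]
      exact prod_eq_one fun p hp => crt_ind (h3 p hp).pos _ _) c n
  rw [← mul_sum, prod_div_distrib, prod_const_one]
  rw [Nat.cast_prod, div_eq_mul_one_div] at h4
  rcases neg_one_pow_eq_or ℝ K.card with h | h <;> rw [h] <;> linarith [h4.1, h4.2]

theorem crt_pt {p : ℕ} (hp : 2 ≤ p) :
    (2 / (1 - (p : ℝ)⁻¹)) ^ 4 ≤ (if p < 5 then 32 else 1) * (p : ℝ) ^ 3 := by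
  have key : ∀ a b : ℝ, 1 < a → a ≤ p → (2 / (1 - a⁻¹)) ^ 4 ≤ b * a ^ 3 → 0 ≤ b →
      (2 / (1 - (p : ℝ)⁻¹)) ^ 4 ≤ b * (p : ℝ) ^ 3 := fun a b h1 h2 h3 h4 => by
    have h5 : (p : ℝ)⁻¹ ≤ a⁻¹ := inv_anti₀ (by linarith) h2
    have h6 : a⁻¹ < 1 := inv_lt_one_of_one_lt₀ h1
    refine le_trans (pow_le_pow_left₀ (div_nonneg zero_le_two (by linarith))
      (div_le_div_of_nonneg_left zero_le_two (by linarith) (by linarith)) 4) (h3.trans ?_)
    exact mul_le_mul_of_nonneg_left (pow_le_pow_left₀ (by linarith) h2 3) h4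
  split_ifs with h
  · exact key 2 32 (by norm_num) (by exact_mod_cast hp) (by norm_num) (by norm_num)
  · exact key 5 1 (by norm_num) (by exact_mod_cast not_lt.1 h) (by norm_num) (by norm_num)

theorem crt_four {q : ℕ} (hq : 0 < q) :
    ((2 : ℝ) ^ q.primeFactors.card / Nat.totient q) ^ 4 ≤ 32 ^ 5 / q := by
  have hq' : (0 : ℝ) < q := Nat.cast_pos.2 hq
  have h1 : (Nat.totient q : ℝ) = q * ∏ p ∈ q.primeFactors, (1 - (p : ℝ)⁻¹) := by
    have h := congrArg (Rat.cast : ℚ → ℝ) (Nat.totient_eq_mul_prod_factors q)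
    push_cast at h
    exact h
  have h2 : ((2 : ℝ) ^ q.primeFactors.card / Nat.totient q) ^ 4 * q ^ 4 =
      ∏ p ∈ q.primeFactors, (2 / (1 - (p : ℝ)⁻¹)) ^ 4 := by
    rw [prod_pow, prod_div_distrib, prod_const, ← mul_pow, h1, mul_comm (q : ℝ), ← div_div,
      div_mul_cancel₀ _ hq'.ne']
  have h3 : ∏ p ∈ q.primeFactors, (2 / (1 - (p : ℝ)⁻¹)) ^ 4 ≤
      (∏ p ∈ q.primeFactors, if p < 5 then (32 : ℝ) else 1) *
        (∏ p ∈ q.primeFactors, (p : ℝ)) ^ 3 := by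
    rw [← prod_pow, ← prod_mul_distrib]
    exact prod_le_prod (fun p _ => by positivity)
      fun p hp => crt_pt (Nat.prime_of_mem_primeFactors hp).two_le
  have h4 : (∏ p ∈ q.primeFactors, if p < 5 then (32 : ℝ) else 1) ≤ 32 ^ 5 := by
    rw [← prod_filter, prod_const]
    refine pow_le_pow_right₀ (by norm_num) ?_
    exact (card_le_card fun p hp => mem_range.2 (mem_filter.1 hp).2).trans (card_range 5).le
  have h5 : ∏ p ∈ q.primeFactors, (p : ℝ) ≤ q := by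
    rw [← Nat.cast_prod]
    exact Nat.cast_le.2 (Nat.le_of_dvd hq (Nat.prod_primeFactors_dvd q))
  have h6 := h3.trans (mul_le_mul h4 (pow_le_pow_left₀ (by positivity) h5 3) (by positivity)
    (by norm_num))
  rw [le_div_iff₀ hq']
  refine le_of_mul_le_mul_right ?_ (pow_pos hq' 3)
  linarith

theorem two_pow_omega :
    Tendsto (fun q : ℕ => (2 : ℝ) ^ q.primeFactors.card / Nat.totient q) atTop (nhds 0) := by
  refine tendsto_order.2 ⟨fun a ha => Eventually.of_forall fun q => ha.trans_le (by positivity),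
    fun a ha => ?_⟩
  have h1 := (tendsto_const_div_atTop_nhds_zero_nat ((32 : ℝ) ^ 5)).eventually
    (gt_mem_nhds (pow_pos ha 4))
  filter_upwards [h1, eventually_gt_atTop 0] with q h2 h3
  exact lt_of_pow_lt_pow_left₀ 4 ha.le ((crt_four h3).trans_lt h2)

end Vale.Agent.P028G
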