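import Vale.Agent.P028.Main

/-! Definitions for the inhomogeneous Duffin-Schaeffer problem with an arbitrary shift. -/

namespace Vale.Agent.P028G

open Finset Real MeasureTheory Vale.Agent.P028

/-- `A / B` is a major approximant of `γ` at precision `ρ`. -/
def Maj (γ ρ : ℝ) (x : ℤ × ℕ) : Prop :=
  1 ≤ x.2 ∧ IsCoprime x.1 (x.2 : ℤ) ∧ (x.2 : ℝ) ^ 4 * ρ ≤ 1 ∧ ((x.2 : ℝ) * γ - x.1) ^ 2 ≤ ρ

open Classical in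
/-- The chosen approximant, or `(1, 0)` if there is none. -/
noncomputable def ap (γ ρ : ℝ) : ℤ × ℕ := if h : ∃ x, Maj γ ρ x then h.choose else (1, 0)

/-- The soft factor. -/
noncomputable def cf (B q : ℕ) : ℝ := ∏ p ∈ q.primeFactors.filter (· ∣ B), (1 - 1 / (p : ℝ))

/-- The sieved approximation set. -/
def FS (γ ρ : ℝ) (x : ℤ × ℕ) (q : ℕ) : Set ℝ :=
  {z | ∃ a : ℤ, IsCoprime (a * x.2 + x.1) (q : ℤ) ∧ |(q : ℝ) * z - a - γ| < ρ}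

/-- The reduced ratio: `q = g * uu q r` and `r = g * uu r q`. -/
def uu (q r : ℕ) : ℕ := q / Nat.gcd q r

def HH (x x' : ℤ × ℕ) (u v : ℕ) (h : ℤ) : ℤ :=
  (x.2 : ℤ) * x'.2 * h + x.1 * x'.2 * v - x'.1 * x.2 * u

/-- The local correlation factor at a prime dividing `q * r`. -/
noncomputable def chp (x x' : ℤ × ℕ) (u v : ℕ) (h : ℤ) (p : ℕ) : ℝ :=
  if p ∣ u then
    (if p ∣ x.2 then 1 else if (p : ℤ) ∣ h * x.2 + x.1 * v then 0 else (1 - 1 / (p : ℝ))⁻¹)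
  else if p ∣ v then
    (if p ∣ x'.2 then 1 else if (p : ℤ) ∣ h * x'.2 - x'.1 * u then 0 else (1 - 1 / (p : ℝ))⁻¹)
  else if ¬ p ∣ x.2 * x'.2 ∧ (p : ℤ) ∣ HH x x' u v h then (1 - 1 / (p : ℝ))⁻¹ else 1

noncomputable def chi (x x' : ℤ × ℕ) (q r : ℕ) (h : ℤ) : ℝ :=
  ∏ p ∈ (q * r).primeFactors, chp x x' (uu q r) (uu r q) h p

/-- The integers `h` with `|h + γ (v - u)| ≤ 2 D`. -/
noncomputable def JJ (γ D : ℝ) (q r : ℕ) : Finset ℤ :=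
  Icc ⌈-(γ * ((uu r q : ℝ) - uu q r)) - 2 * D⌉ ⌊-(γ * ((uu r q : ℝ) - uu q r)) + 2 * D⌋

/-- The weighted overlap in a window. -/
noncomputable def ov (γ s : ℝ) (ψ : ℕ → ℝ) (q r : ℕ) : ℝ :=
  cf (ap γ (ψ q)).2 q * cf (ap γ (ψ r)).2 r *
    volume.real (FS γ (ψ q) (ap γ (ψ q)) q ∩ FS γ (ψ r) (ap γ (ψ r)) r ∩ Set.Ico s (s + 3))

/-- The sum of the correlation factors of a pair. -/
noncomputable def SC (γ : ℝ) (ψ : ℕ → ℝ) (q r : ℕ) : ℝ :=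
  ∑ h ∈ JJ γ (DD ψ q r) q r, chi (ap γ (ψ q)) (ap γ (ψ r)) q r h

/-- The arithmetic bound for the overlap. -/
noncomputable def SS (γ : ℝ) (ψ : ℕ → ℝ) (q r : ℕ) : ℝ :=
  wt ψ q * wt ψ r / DD ψ q r * SC γ ψ q r

noncomputable def Lt (t : ℝ) (n : ℕ) : ℝ :=
  ∑ p ∈ n.primeFactors.filter (fun p : ℕ => t < p), 1 / (p : ℝ)

/-- Primes where the two excluded classes coincide. -/
def S3 (x x' : ℤ × ℕ) (q r : ℕ) (h : ℤ) : Finset ℕ :=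
  (Nat.gcd q r).primeFactors.filter fun p =>
    ¬ p ∣ uu q r * uu r q * (x.2 * x'.2) ∧ (p : ℤ) ∣ HH x x' (uu q r) (uu r q) h

noncomputable def L3 (x x' : ℤ × ℕ) (q r : ℕ) (h : ℤ) (T : ℝ) : ℝ :=
  ∑ p ∈ (S3 x x' q r h).filter (fun p : ℕ => T < p), 1 / (p : ℝ)

/-- Many coincidences between `T` and `T ^ 2`. -/
def Anom (γ : ℝ) (ψ : ℕ → ℝ) (T : ℝ) (q r : ℕ) : Prop :=
  ∃ h ∈ JJ γ (DD ψ q r) q r, chi (ap γ (ψ q)) (ap γ (ψ r)) q r h ≠ 0 ∧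
    1 / log T ≤ ∑ p ∈ (S3 (ap γ (ψ q)) (ap γ (ψ r)) q r h).filter
      (fun p : ℕ => T < p ∧ (p : ℝ) ≤ T ^ 2), 1 / (p : ℝ)

/-- At most `σ Y` elements in every range `[Y, 2 Y)`. -/
def Thin (S : Finset ℕ) (σ : ℝ) : Prop :=
  ∀ Y : ℝ, 0 < Y → ((S.filter fun n : ℕ => Y ≤ n ∧ (n : ℝ) < 2 * Y).card : ℝ) ≤ σ * Y

def G1 (θ y : ℝ) (M a : ℕ) : Prop :=
  |θ| * a * (M : ℝ) ^ 4 ≤ 1 ∨
    ∀ t : ℕ, 1 ≤ t → t ≤ M ^ 4 → ¬ Near (θ * (t * a)) (2 * (M : ℝ) ^ 5 * y)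

/-- Good multipliers. -/
def Good2 (θ y : ℝ) (M : ℕ) (X : ℝ) (a b : ℕ) : Prop :=
  G1 θ y M a ∧ G1 θ y M b ∧
  (∀ t t' : ℕ, 1 ≤ t → t ≤ M ^ 2 → 1 ≤ t' → t' ≤ M ^ 2 → t * a ≠ t' * b →
    (M : ℝ) ^ 5 * y ≤ |θ| * (t * a) → (M : ℝ) ^ 5 * y ≤ |θ| * (t' * b) →
    ¬ Near (θ * ((t : ℝ) * a - t' * b)) (2 * y)) ∧
  (a : ℝ) ≤ X ∧ (b : ℝ) ≤ X

/-- Resonant integers with a nonzero nearest integer. -/
def NRes (θ y : ℝ) (M n : ℕ) : Prop :=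
  ∃ t : ℕ, 1 ≤ t ∧ t ≤ M ∧ Near (θ * (t * n)) (4 * y) ∧ 1 / 2 ≤ |θ| * (t * n)

/-- The cases in which the second endpoint of an edge gives a saving. -/
def SW2 (θ y : ℝ) (M a b m d m' d' : ℕ) : Prop :=
  (M < m' ∧ ¬ NRes θ y M (b * d) ∧ (M : ℝ) ^ 5 * y ≤ |θ| * (b * m' * d)) ∨
  (M < d' ∧ ¬ NRes θ y M (a * m) ∧ (M : ℝ) ^ 5 * y ≤ |θ| * (a * m * d')) ∨
    NRes θ y M (a * d') ∨ NRes θ y M (b * m')

def Rst (θ y : ℝ) (M a d : ℕ) : Prop :=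
  ∃ t : ℕ, 1 ≤ t ∧ t ≤ M ∧ ∃ z : ℤ, z ≠ 0 ∧ |θ * (a * d) * t - z| < y / (d : ℝ) ^ 2

/-- The cases in which the second endpoint gives a saving when the denominators are small. -/
def SH2 (θ y Y Z : ℝ) (M a b d m' d' : ℕ) : Prop :=
  Z < d' ∨
  ((∀ t : ℕ, 1 ≤ t → t ≤ M → ∀ z : ℤ, y / (d : ℝ) ^ 2 ≤ |θ * (b * d) * t - z|) ∧
    Y / 2 < m' ∧ (M : ℝ) ≤ y / (d : ℝ) ^ 2 * Y) ∨
  (|θ| * (b * d) ≤ 1 / (2 * M) ∧ M ≤ m' ∧ (M : ℝ) ^ 5 * y ≤ |θ| * (b * m' * d)) ∨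
  Rst θ y M a d'

/-- The scale attached to a level. -/
noncomputable def MM (y : ℝ) : ℕ := ⌊y ^ (-(1 / 40 : ℝ))⌋₊

/-- Pairs that see `γ` as a rational number with small denominator. -/
def Exact (γ y : ℝ) (q r : ℕ) : Prop :=
  ∃ x : ℤ × ℕ, 1 ≤ x.2 ∧ IsCoprime x.1 (x.2 : ℤ) ∧ x.2 < MM y ^ 9 ∧
    |(x.2 : ℝ) * γ - x.1| * max (uu q r : ℝ) (uu r q) < (MM y : ℝ) ^ 15 * y

/-- Surviving exact pairs: `r` divides `q` and the approximant of `r` is exact. -/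
def Ex2 (γ : ℝ) (ψ : ℕ → ℝ) (q r : ℕ) : Prop :=
  q ≠ r ∧ r ∣ q ∧ DD ψ q r ≤ 1 / 8 ∧ DD ψ q r = ψ r * uu q r ∧ 1 ≤ (ap γ (ψ r)).2 ∧
    ∀ h ∈ JJ γ (DD ψ q r) q r, ((ap γ (ψ r)).2 : ℤ) * h + (ap γ (ψ r)).1 * (1 - uu q r) = 0

/-- The double logarithm. -/
noncomputable def ll (n : ℕ) : ℝ := log (log n)

theorem mem_JJ {γ D : ℝ} {q r : ℕ} {h : ℤ} :
    h ∈ JJ γ D q r ↔ |(h : ℝ) + γ * ((uu r q : ℝ) - uu q r)| ≤ 2 * D := by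
  unfold JJ
  rw [mem_Icc, Int.ceil_le, Int.le_floor, abs_le]
  constructor <;> rintro ⟨h1, h2⟩ <;> constructor <;> linarith

theorem card_JJ {γ D : ℝ} (hD : 0 ≤ D) (q r : ℕ) : ((JJ γ D q r).card : ℝ) ≤ 4 * D + 1 := by
  refine cnt_int _ (by positivity) fun a ha b hb => ?_
  have h1 := abs_le.1 (mem_JJ.1 ha)
  have h2 := abs_le.1 (mem_JJ.1 hb)
  linarith [h1.2, h2.1]

theorem bohr_of_mem_JJ {γ D : ℝ} {q r : ℕ} {h : ℤ} (hh : h ∈ JJ γ D q r) :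
    Bohr γ q r (2 * D) := by
  refine ⟨h, ?_⟩
  have := mem_JJ.1 hh
  unfold uu at this
  rw [Nat.gcd_comm r q] at this
  rw [← abs_neg]
  convert this using 2
  ring

theorem DD_eq (ψ : ℕ → ℝ) (q r : ℕ) : DD ψ q r = max (ψ q * uu r q) (ψ r * uu q r) := by
  unfold DD uu; rw [Nat.gcd_comm r q]

theorem ap_spec (γ ρ : ℝ) : Maj γ ρ (ap γ ρ) ∨ ((¬ ∃ x, Maj γ ρ x) ∧ ap γ ρ = (1, 0)) := by
  unfold ap
  split_ifs with h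
  · exact Or.inl h.choose_spec
  · exact Or.inr ⟨h, rfl⟩

theorem ap_coprime (γ ρ : ℝ) : IsCoprime (ap γ ρ).1 ((ap γ ρ).2 : ℤ) := by
  rcases ap_spec γ ρ with h | ⟨-, h⟩
  · exact h.2.1
  · rw [h]; exact isCoprime_one_left

theorem ap_maj {γ ρ : ℝ} (h : 1 ≤ (ap γ ρ).2) : Maj γ ρ (ap γ ρ) := by
  rcases ap_spec γ ρ with h1 | ⟨-, h1⟩
  · exact h1
  · rw [h1] at h; simp at h

theorem one_sub_inv_pos' {p : ℕ} (hp : p.Prime) : 0 < 1 - 1 / (p : ℝ) := by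
  have : (2 : ℝ) ≤ p := by exact_mod_cast hp.two_le
  rw [sub_pos, div_lt_one (by linarith)]; linarith

theorem chp_nonneg (x x' : ℤ × ℕ) (u v : ℕ) (h : ℤ) {p : ℕ} (hp : p.Prime) :
    0 ≤ chp x x' u v h p := by
  have := inv_nonneg.2 (one_sub_inv_pos' hp).le
  unfold chp
  split_ifs <;> first | exact this | norm_num

theorem chi_nonneg (x x' : ℤ × ℕ) (q r : ℕ) (h : ℤ) : 0 ≤ chi x x' q r h :=
  prod_nonneg fun _ hp => chp_nonneg _ _ _ _ _ (Nat.prime_of_mem_primeFactors hp)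

theorem SC_nonneg (γ : ℝ) (ψ : ℕ → ℝ) (q r : ℕ) : 0 ≤ SC γ ψ q r :=
  sum_nonneg fun _ _ => chi_nonneg _ _ _ _ _

theorem cf_nonneg (B q : ℕ) : 0 ≤ cf B q :=
  prod_nonneg fun _ hp =>
    (one_sub_inv_pos' (Nat.prime_of_mem_primeFactors (mem_filter.1 hp).1)).le

theorem Lt_nonneg (t : ℝ) (n : ℕ) : 0 ≤ Lt t n := sum_nonneg fun _ _ => by positivity

theorem Thin.mono {S S' : Finset ℕ} {σ σ' : ℝ} (h : Thin S σ) (hS : S' ⊆ S) (hσ : σ ≤ σ') :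
    Thin S' σ' := by
  intro Y hY
  refine le_trans ?_ ((h Y hY).trans (mul_le_mul_of_nonneg_right hσ hY.le))
  exact_mod_cast card_le_card (filter_subset_filter _ hS)

theorem Good2.symm {θ y X : ℝ} {M a b : ℕ} (h : Good2 θ y M X a b) : Good2 θ y M X b a := by
  obtain ⟨h1, h2, h3, h4, h5⟩ := h
  refine ⟨h2, h1, ?_, h5, h4⟩
  intro t t' a1 a2 a3 a4 hne b1 b2 hn
  refine h3 t' t a3 a4 a1 a2 (fun h => hne h.symm) b2 b1 ?_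
  have := hn.neg
  have e : θ * ((t' : ℝ) * a - t * b) = -(θ * ((t : ℝ) * b - t' * a)) := by ring
  rw [e]; exact this

theorem FS_subset (γ : ℝ) (ψ : ℕ → ℝ) (x : ℤ × ℕ) (q : ℕ) : FS γ (ψ q) x q ⊆ ES γ ψ q :=
  fun _ ⟨a, _, h⟩ => ⟨a, h⟩

theorem ov_comm (γ s : ℝ) (ψ : ℕ → ℝ) (q r : ℕ) : ov γ s ψ q r = ov γ s ψ r q := by
  unfold ov
  rw [Set.inter_comm (FS γ (ψ q) _ q), mul_comm (cf _ q)]

end Vale.Agent.P028G
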