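import Vale.Agent.P028G.Crt
import Vale.Agent.Lib.Mertens

/-! The average of the correlation factor. -/

namespace Vale.Agent.P028G

open Finset Real MeasureTheory Filter Vale.Agent.P028

theorem Hsum_two {p : ℕ} (hp : p.Prime) : (2 : ℝ) ≤ p := by exact_mod_cast hp.two_le

theorem Hsum_inv {p : ℕ} (hp : p.Prime) : (1 - 1 / (p : ℝ))⁻¹ = p / (p - 1) := by
  have := Hsum_two hp
  have h1 : (p : ℝ) - 1 ≠ 0 := by linarith
  field_simp

theorem Hsum_inv_le {p : ℕ} (hp : p.Prime) : (1 - 1 / (p : ℝ))⁻¹ ≤ 1 + 2 / (p : ℝ) := by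
  have := Hsum_two hp
  rw [Hsum_inv hp, div_le_iff₀ (by linarith), ← sub_nonneg]
  have e : (1 + 2 / (p : ℝ)) * (p - 1) - p = (p - 2) / p := by
    field_simp
    ring
  rw [e]
  exact div_nonneg (by linarith) (by linarith)

theorem Hsum_inv_exp {p : ℕ} (hp : p.Prime) : (1 - 1 / (p : ℝ))⁻¹ ≤ exp (2 * (1 / (p : ℝ))) := by
  refine (Hsum_inv_le hp).trans ?_
  rw [mul_one_div, add_comm]
  exact add_one_le_exp _

theorem Hsum_chp_le (x x' : ℤ × ℕ) (u v : ℕ) (h : ℤ) {p : ℕ} (hp : p.Prime) :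
    chp x x' u v h p ≤ (1 - 1 / (p : ℝ))⁻¹ := by
  have h2 := Hsum_two hp
  have h1 : 1 ≤ (1 - 1 / (p : ℝ))⁻¹ := by
    rw [Hsum_inv hp, le_div_iff₀ (by linarith)]
    linarith
  unfold chp
  split_ifs <;> linarith

theorem Hsum_class {p : ℕ} (hp : p.Prime) (A B : ℤ) (hB : ¬ (p : ℤ) ∣ B) (a b : ℝ) :
    ∑ j ∈ range p, (if (p : ℤ) ∣ (j : ℤ) * B + A then a else b) = a + (p - 1) * b := by
  obtain ⟨cl, hcl⟩ := one_class hp A B hB
  simp only [hcl]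
  have h1 := card_class hp.pos cl
  have h2 := card_filter_add_card_filter_not (s := range p) fun j : ℕ => (p : ℤ) ∣ (j : ℤ) - cl
  rw [h1, card_range] at h2
  have h3 : (((range p).filter fun j : ℕ => ¬ (p : ℤ) ∣ (j : ℤ) - cl).card : ℝ) = p - 1 := by
    rw [eq_sub_iff_add_eq, add_comm]
    exact_mod_cast h2
  rw [sum_ite, sum_const, sum_const, h1, nsmul_eq_mul, nsmul_eq_mul, h3]
  simp

theorem Hsum_HH (x x' : ℤ × ℕ) (u v : ℕ) (h : ℤ) : HH x x' u v h =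
    h * ((x.2 * x'.2 : ℕ) : ℤ) + (x.1 * x'.2 * v - x'.1 * x.2 * u) := by
  unfold HH
  push_cast
  ring

theorem Hsum_mean (x x' : ℤ × ℕ) (u v : ℕ) {p : ℕ} (hp : p.Prime) :
    ∑ j ∈ range p, chp x x' u v (j : ℤ) p ≤ p * (1 + 2 / (p : ℝ) ^ 2) := by
  have h2 := Hsum_two hp
  have h3 : (p : ℝ) - 1 ≠ 0 := by linarith
  have h0 : (p : ℝ) ≤ p * (1 + 2 / (p : ℝ) ^ 2) :=
    le_mul_of_one_le_right (by linarith) (le_add_of_nonneg_right (by positivity))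
  have h1 : 0 + ((p : ℝ) - 1) * (1 - 1 / (p : ℝ))⁻¹ = p := by
    rw [Hsum_inv hp]
    field_simp
    simp
  unfold chp
  by_cases hu : p ∣ u
  · by_cases hb : p ∣ x.2
    · simpa [hu, hb] using h0
    · simp only [hu, hb, if_true, if_false]
      rw [Hsum_class hp _ _ (by exact_mod_cast hb), h1]
      exact h0
  by_cases hv : p ∣ v
  · by_cases hb : p ∣ x'.2
    · simpa [hu, hv, hb] using h0
    · simp only [hu, hv, hb, if_true, if_false, sub_eq_add_neg (_ * (x'.2 : ℤ))]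
      rw [Hsum_class hp _ _ (by exact_mod_cast hb), h1]
      exact h0
  by_cases hb : p ∣ x.2 * x'.2
  · simpa [hu, hv, hb] using h0
  · simp only [hu, hv, hb, if_false, not_false_eq_true, true_and, Hsum_HH]
    rw [Hsum_class hp _ _ (by exact_mod_cast hb), Hsum_inv hp, ← sub_nonneg]
    have e : p * (1 + 2 / (p : ℝ) ^ 2) - (p / (p - 1) + (p - 1) * 1) = (p - 2) / (p * (p - 1)) := by
      field_simp
      ring
    rw [e]
    exact div_nonneg (by linarith) (mul_nonneg (by linarith) (by linarith))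

theorem Hsum_per (x x' : ℤ × ℕ) (u v p : ℕ) (j : ℤ) :
    chp x x' u v (j + p) p = chp x x' u v j p := by
  have k : ∀ A B : ℤ, (p : ℤ) ∣ (j + p) * B + A ↔ (p : ℤ) ∣ j * B + A := fun A B => by
    rw [show (j + p) * B + A = j * B + A + p * B by ring]
    exact dvd_add_left (dvd_mul_right _ _)
  unfold chp
  simp only [Hsum_HH, sub_eq_add_neg (_ * (x'.2 : ℤ)), k]

theorem Hsum_sq : ∃ C : ℝ, 1 ≤ C ∧ ∀ S : Finset ℕ, ∏ p ∈ S, (1 + 2 / (p : ℝ) ^ 2) ≤ C := by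
  have hs : Summable fun n : ℕ => 2 / (n : ℝ) ^ 2 := by
    simpa [div_eq_mul_inv] using (summable_nat_pow_inv.2 one_lt_two).mul_left 2
  refine ⟨exp (∑' n : ℕ, 2 / (n : ℝ) ^ 2), one_le_exp (tsum_nonneg fun _ => by positivity),
    fun S => le_trans ?_ (exp_le_exp.2 (hs.sum_le_tsum S fun _ _ => by positivity))⟩
  rw [exp_sum]
  exact prod_le_prod (fun _ _ => by positivity) fun _ _ => by
    rw [add_comm]
    exact add_one_le_exp _

theorem Hsum_prim {t : ℝ} (ht : 0 ≤ t) (S : Finset ℕ) (hS : ∀ p ∈ S, p.Prime ∧ (p : ℝ) ≤ t) :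
    ∏ p ∈ S, (p : ℝ) ≤ (4 : ℝ) ^ t := by
  have h1 : ∏ p ∈ S, p ≤ primorial ⌊t⌋₊ :=
    prod_le_prod_of_subset_of_one_le' (fun p hp => mem_filter.2
      ⟨mem_range.2 (Nat.lt_succ_of_le (Nat.le_floor (hS p hp).2)), (hS p hp).1⟩)
      fun p hp _ => (mem_filter.1 hp).2.one_le
  have h2 : ((∏ p ∈ S, p : ℕ) : ℝ) ≤ ((4 ^ ⌊t⌋₊ : ℕ) : ℝ) :=
    Nat.cast_le.2 (h1.trans (primorial_le_four_pow _))
  push_cast at h2
  refine h2.trans ?_
  rw [← rpow_natCast]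
  exact rpow_le_rpow_of_exponent_le (by norm_num) (Nat.floor_le ht)

theorem Hsum_ite {Q A : Finset ℕ} (h : A ⊆ Q) (f : ℕ → ℝ) :
    ∏ p ∈ Q, (if p ∈ A then f p else 1) = ∏ p ∈ A, f p := by
  rw [prod_ite_mem, inter_eq_right.2 h]

theorem Hsum_uu (q r : ℕ) : q = Nat.gcd q r * uu q r :=
  (Nat.mul_div_cancel' (Nat.gcd_dvd_left q r)).symm

theorem Hsum_qr (q r : ℕ) : q * r = Nat.gcd q r * Nat.gcd q r * (uu q r * uu r q) := by
  have h1 := Hsum_uu q r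
  have h2 := Hsum_uu r q
  rw [Nat.gcd_comm r q] at h2
  calc q * r = (Nat.gcd q r * uu q r) * (Nat.gcd q r * uu r q) := by rw [← h1, ← h2]
    _ = _ := by ring

/-- The primes treated on average. -/
noncomputable def Hsum_P (x x' : ℤ × ℕ) (q r : ℕ) (t T : ℝ) : Finset ℕ :=
  (Nat.gcd q r).primeFactors.filter fun p : ℕ =>
    t < p ∧ (p : ℝ) ≤ T ∧ ¬ p ∣ uu q r * uu r q * (x.2 * x'.2)

theorem Hsum_pt (x x' : ℤ × ℕ) {q r : ℕ} (hq : 0 < q) (hr : 0 < r) {t T : ℝ} (hT : t ≤ T)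
    (cl : ℕ → ℤ) (hcl : ∀ p : ℕ, p.Prime → ¬ p ∣ x.2 * x'.2 → ∀ a : ℤ,
      (p : ℤ) ∣ HH x x' (uu q r) (uu r q) a → (p : ℤ) ∣ a - cl p) (h : ℤ) :
    chi x x' q r h ≤ ((∏ p ∈ (q * r).primeFactors.filter (fun p : ℕ => (p : ℝ) ≤ t),
      chp x x' (uu q r) (uu r q) h p) *
        ∏ p ∈ Hsum_P x x' q r t T, (1 + if (p : ℤ) ∣ h - cl p then 2 / (p : ℝ) else 0)) *
      (exp (2 * Lt t (uu q r * uu r q)) * exp (2 * L3 x x' q r h T)) := by
  have hqr : q * r ≠ 0 := by positivity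
  have huv : uu q r * uu r q ≠ 0 := right_ne_zero_of_mul (Hsum_qr q r ▸ hqr)
  have hg : Nat.gcd q r ≠ 0 := (Nat.gcd_pos_of_pos_left r hq).ne'
  have hgs : (Nat.gcd q r).primeFactors ⊆ (q * r).primeFactors :=
    Nat.primeFactors_mono ((Nat.gcd_dvd_left q r).mul_right r) hqr
  have s1 : (uu q r * uu r q).primeFactors.filter (fun p : ℕ => t < p) ⊆
      (q * r).primeFactors.filter (fun p : ℕ => ¬ (p : ℝ) ≤ t) := fun p hp => mem_filter.2
    ⟨Nat.primeFactors_mono (Dvd.intro_left _ (Hsum_qr q r).symm) hqr (mem_filter.1 hp).1,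
      not_le.2 (mem_filter.1 hp).2⟩
  have s2 : Hsum_P x x' q r t T ⊆ (q * r).primeFactors.filter (fun p : ℕ => ¬ (p : ℝ) ≤ t) :=
    fun p hp => mem_filter.2 ⟨hgs (mem_filter.1 hp).1, not_le.2 (mem_filter.1 hp).2.1⟩
  have s3 : (S3 x x' q r h).filter (fun p : ℕ => T < p) ⊆
      (q * r).primeFactors.filter (fun p : ℕ => ¬ (p : ℝ) ≤ t) := fun p hp => mem_filter.2
    ⟨hgs (mem_filter.1 (mem_filter.1 hp).1).1, not_le.2 (hT.trans_lt (mem_filter.1 hp).2)⟩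
  rw [chi, ← prod_filter_mul_prod_filter_not _ (fun p : ℕ => (p : ℝ) ≤ t), mul_assoc]
  refine mul_le_mul_of_nonneg_left ?_ (prod_nonneg fun p hp =>
    chp_nonneg _ _ _ _ _ (Nat.prime_of_mem_primeFactors (mem_filter.1 hp).1))
  rw [Lt, L3, mul_sum, mul_sum, exp_sum, exp_sum, ← Hsum_ite s1, ← Hsum_ite s2, ← Hsum_ite s3,
    ← prod_mul_distrib, ← prod_mul_distrib]
  refine prod_le_prod (fun p hp =>
    chp_nonneg _ _ _ _ _ (Nat.prime_of_mem_primeFactors (mem_filter.1 hp).1)) fun p hp => ?_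
  obtain ⟨hp1, hp2⟩ := mem_filter.1 hp
  have hp0 := Nat.prime_of_mem_primeFactors hp1
  have e1 : ∀ c : Prop, ∀ _ : Decidable c, 1 ≤ if c then exp (2 * (1 / (p : ℝ))) else 1 :=
    fun c _ => by
      split_ifs
      · exact one_le_exp (by positivity)
      · exact le_rfl
  have e2 : 1 ≤ if p ∈ Hsum_P x x' q r t T then
      (1 + if (p : ℤ) ∣ h - cl p then 2 / (p : ℝ) else 0) else 1 := by
    have : 0 ≤ 2 / (p : ℝ) := by positivity
    split_ifs <;> linarith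
  have e3 := (Hsum_chp_le x x' (uu q r) (uu r q) h hp0)
  by_cases h1 : p ∣ uu q r * uu r q
  · rw [if_pos (show p ∈ (uu q r * uu r q).primeFactors.filter (fun p : ℕ => t < p) from
      mem_filter.2 ⟨Nat.mem_primeFactors.2 ⟨hp0, h1, huv⟩, not_le.1 hp2⟩)]
    refine (e3.trans (Hsum_inv_exp hp0)).trans (le_trans ?_ (le_mul_of_one_le_left ?_ e2))
    · exact le_mul_of_one_le_right (exp_pos _).le (e1 _ _)
    · exact mul_nonneg (exp_pos _).le (zero_le_one.trans (e1 _ _))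
  by_cases h2 : ¬ p ∣ x.2 * x'.2 ∧ (p : ℤ) ∣ HH x x' (uu q r) (uu r q) h
  · have h3 : p ∈ (Nat.gcd q r).primeFactors := by
      have h4 := Nat.dvd_of_mem_primeFactors hp1
      rw [Hsum_qr, hp0.dvd_mul, hp0.dvd_mul, or_self] at h4
      exact Nat.mem_primeFactors.2 ⟨hp0, h4.resolve_right h1, hg⟩
    have h4 : ¬ p ∣ uu q r * uu r q * (x.2 * x'.2) := fun h5 =>
      (hp0.dvd_mul.1 h5).elim h1 h2.1
    rcases lt_or_ge T p with h5 | h5
    · rw [if_pos (show p ∈ (S3 x x' q r h).filter (fun p : ℕ => T < p) from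
        mem_filter.2 ⟨mem_filter.2 ⟨h3, h4, h2.2⟩, h5⟩)]
      refine (e3.trans (Hsum_inv_exp hp0)).trans (le_trans ?_ (le_mul_of_one_le_left ?_ e2))
      · exact le_mul_of_one_le_left (exp_pos _).le (e1 _ _)
      · exact mul_nonneg (zero_le_one.trans (e1 _ _)) (exp_pos _).le
    · rw [if_pos (show p ∈ Hsum_P x x' q r t T from mem_filter.2 ⟨h3, not_le.1 hp2, h5, h4⟩),
        if_pos (hcl p hp0 h2.1 h h2.2)]
      exact (e3.trans (Hsum_inv_le hp0)).trans (le_mul_of_one_le_right (by positivity)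
        (one_le_mul_of_one_le_of_one_le (e1 _ _) (e1 _ _)))
  · rw [chp, if_neg fun h3 => h1 (h3.mul_right _), if_neg fun h3 => h1 (h3.mul_left _), if_neg h2]
    exact one_le_mul_of_one_le_of_one_le e2 (one_le_mul_of_one_le_of_one_le (e1 _ _) (e1 _ _))

theorem hsum : ∃ C : ℝ, 0 < C ∧ ∀ (γ D t T Λ : ℝ) (x x' : ℤ × ℕ) (q r : ℕ), 0 < q → 0 < r →
    0 ≤ D → 2 ≤ t → t ≤ T →
    (∀ h ∈ JJ γ D q r, chi x x' q r h ≠ 0 → L3 x x' q r h T ≤ Λ) →
    ∑ h ∈ JJ γ D q r, chi x x' q r h ≤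
      C * (4 * D + 1 + (4 : ℝ) ^ t *
        ∏ p ∈ (Nat.gcd q r).primeFactors.filter (fun p : ℕ => (p : ℝ) ≤ T), (1 + 2 / (p : ℝ))) *
        exp (2 * Lt t (uu q r * uu r q)) * exp (2 * Λ) := by
  obtain ⟨C, hC1, hC⟩ := Hsum_sq
  refine ⟨C * C, by positivity, fun γ D t T Λ x x' q r hq hr hD ht hT hL => ?_⟩
  have hex : ∀ p : ℕ, ∃ c : ℤ, p.Prime → ¬ p ∣ x.2 * x'.2 → ∀ a : ℤ,
      (p : ℤ) ∣ HH x x' (uu q r) (uu r q) a → (p : ℤ) ∣ a - c := fun p => by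
    by_cases hp : p.Prime ∧ ¬ p ∣ x.2 * x'.2
    · obtain ⟨c, hc⟩ := one_class hp.1 (x.1 * x'.2 * uu r q - x'.1 * x.2 * uu q r)
        ((x.2 * x'.2 : ℕ) : ℤ) (by exact_mod_cast hp.2)
      exact ⟨c, fun _ _ a ha => (hc a).1 (Hsum_HH x x' _ _ a ▸ ha)⟩
    · exact ⟨0, fun h1 h2 => absurd ⟨h1, h2⟩ hp⟩
  choose cl hcl using hex
  set P₁ := (q * r).primeFactors.filter (fun p : ℕ => (p : ℝ) ≤ t) with hP₁
  have p1 : ∀ p ∈ P₁, p.Prime := fun p hp => Nat.prime_of_mem_primeFactors (mem_filter.1 hp).1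
  have p2 : ∀ p ∈ Hsum_P x x' q r t T, p.Prime := fun p hp =>
    Nat.prime_of_mem_primeFactors (mem_filter.1 hp).1
  obtain ⟨c, hc⟩ : ∃ c : ℤ, JJ γ D q r = Ico c (c + ((JJ γ D q r).card : ℕ)) := by
    unfold JJ
    refine ⟨⌈-(γ * ((uu r q : ℝ) - uu q r)) - 2 * D⌉, ?_⟩
    ext j
    rw [Int.card_Icc, mem_Icc, mem_Ico]
    omega
  have key := avg_le P₁ (Hsum_P x x' q r t T) (disjoint_left.2 fun p h1 h2 =>
    not_le.2 (mem_filter.1 h2).2.1 (mem_filter.1 h1).2) p1 p2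
    (fun p j => chp x x' (uu q r) (uu r q) j p) (fun p _ j => Hsum_per _ _ _ _ _ _)
    (fun p hp j => chp_nonneg _ _ _ _ _ (p1 p hp)) (fun p => 1 + 2 / (p : ℝ) ^ 2)
    (fun p hp => Hsum_mean _ _ _ _ (p1 p hp)) cl c (JJ γ D q r).card
  rw [← hc] at key
  have b1 := card_JJ (γ := γ) hD q r
  have b2 := Hsum_prim (by linarith : 0 ≤ t) P₁ fun p hp => ⟨p1 p hp, (mem_filter.1 hp).2⟩
  have b3 : ∏ p ∈ Hsum_P x x' q r t T, (1 + 2 / (p : ℝ)) ≤
      ∏ p ∈ (Nat.gcd q r).primeFactors.filter (fun p : ℕ => (p : ℝ) ≤ T), (1 + 2 / (p : ℝ)) :=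
    prod_le_prod_of_subset_of_one_le (fun p hp => mem_filter.2
      ⟨(mem_filter.1 hp).1, (mem_filter.1 hp).2.2.1⟩) (fun _ _ => by positivity)
      fun _ _ _ => le_add_of_nonneg_right (by positivity)
  have b4 : 0 ≤ ∏ p ∈ Hsum_P x x' q r t T, (1 + 2 / (p : ℝ)) :=
    prod_nonneg fun _ _ => by positivity
  have b5 : 0 ≤ ∏ p ∈ Hsum_P x x' q r t T, (1 + 2 / (p : ℝ) ^ 2) :=
    prod_nonneg fun _ _ => by positivity
  have b6 : 0 ≤ ∏ p ∈ P₁, (p : ℝ) := prod_nonneg fun _ _ => by positivity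
  have b7 : (0 : ℝ) ≤ (4 : ℝ) ^ t := by positivity
  calc ∑ h ∈ JJ γ D q r, chi x x' q r h
      ≤ ∑ h ∈ JJ γ D q r, ((∏ p ∈ P₁, chp x x' (uu q r) (uu r q) h p) *
          ∏ p ∈ Hsum_P x x' q r t T, (1 + if (p : ℤ) ∣ h - cl p then 2 / (p : ℝ) else 0)) *
          (exp (2 * Lt t (uu q r * uu r q)) * exp (2 * Λ)) := by
        refine sum_le_sum fun h hh => ?_
        have n0 : 0 ≤ (∏ p ∈ P₁, chp x x' (uu q r) (uu r q) h p) *
            ∏ p ∈ Hsum_P x x' q r t T, (1 + if (p : ℤ) ∣ h - cl p then 2 / (p : ℝ) else 0) :=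
          mul_nonneg (prod_nonneg fun p hp => chp_nonneg _ _ _ _ _ (p1 p hp))
            (prod_nonneg fun p _ => by split_ifs <;> positivity)
        by_cases h0 : chi x x' q r h = 0
        · rw [h0]
          positivity
        · refine (Hsum_pt x x' hq hr hT cl hcl h).trans ?_
          have := hL h hh h0
          gcongr
    _ ≤ _ := by
        rw [← sum_mul, mul_assoc _ (exp _)]
        refine mul_le_mul_of_nonneg_right (key.trans ?_) (by positivity)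
        rw [mul_assoc C]
        refine mul_le_mul (hC _) ?_ (add_nonneg (mul_nonneg (Nat.cast_nonneg _) b5)
          (mul_nonneg b6 b4)) (zero_le_one.trans hC1)
        rw [mul_add C, mul_comm C]
        refine add_le_add (mul_le_mul b1 (hC _) b5 ((Nat.cast_nonneg _).trans b1)) ?_
        exact (mul_le_mul b2 b3 b4 b7).trans
          (le_mul_of_one_le_left (mul_nonneg b7 (b4.trans b3)) hC1)

end Vale.Agent.P028G
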