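import Vale.Agent.P028G.Sym
import Vale.Agent.P028G.Hsum
import Vale.Agent.P028G.Chi
import Vale.Agent.P028G.Anat

/-! Pairs that are far apart. -/

namespace Vale.Agent.P028G

open Finset Real MeasureTheory Filter Vale.Agent.P028

theorem far_ll {n : ℕ} (hn : 16 ≤ n) : 1 ≤ ll n := by
  unfold ll
  have h16 : (16 : ℝ) ≤ n := by exact_mod_cast hn
  have h2 := log_two_gt_d9
  have h3 : log 16 = 4 * log 2 := by
    rw [show (16 : ℝ) = 2 ^ 4 by norm_num, log_pow]; norm_num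
  have h4 : log 16 ≤ log n := log_le_log (by norm_num) h16
  have h5 := exp_one_lt_d9
  rw [le_log_iff_exp_le (by linarith)]
  linarith

theorem far_pow {y D l : ℝ} (hy : 1 ≤ y) (hD : y / 2 < D) (hl : 1 ≤ l) (h : l ^ 3 ≤ D) :
    (4 : ℝ) ^ (2 + log y / 8) * l ^ 2 ≤ 32 * D := by
  have hD0 : 0 < D := by linarith
  have h0 : 0 ≤ log y := log_nonneg hy
  have h4 : log 4 ≤ 2 := by
    have := log_two_lt_d9
    rw [show (4 : ℝ) = 2 ^ 2 by norm_num, log_pow]; push_cast; linarith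
  have h1 : ((4 : ℝ) ^ (log y / 8)) ^ 3 ≤ y := by
    rw [rpow_def_of_pos (by norm_num), ← exp_nat_mul]
    conv_rhs => rw [← exp_log (show 0 < y by linarith)]
    refine exp_le_exp.2 ?_
    push_cast
    nlinarith
  refine le_of_pow_le_pow_left₀ (n := 3) (by norm_num) (by positivity) ?_
  rw [rpow_add (by norm_num), show (4 : ℝ) ^ (2 : ℝ) = 16 by norm_num]
  have h2 : (l ^ 3) ^ 2 ≤ D ^ 2 := pow_le_pow_left₀ (by positivity) h 2
  have h3 : ((4 : ℝ) ^ (log y / 8)) ^ 3 * (l ^ 3) ^ 2 ≤ (2 * D) * D ^ 2 :=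
    mul_le_mul (by linarith) h2 (by positivity) (by positivity)
  have h5 : 0 < D ^ 3 := by positivity
  calc (16 * (4 : ℝ) ^ (log y / 8) * l ^ 2) ^ 3
      = 4096 * (((4 : ℝ) ^ (log y / 8)) ^ 3 * (l ^ 3) ^ 2) := by ring
    _ ≤ 4096 * ((2 * D) * D ^ 2) := by gcongr
    _ ≤ (32 * D) ^ 3 := by nlinarith

theorem far_pt : ∃ K : ℝ, 0 < K ∧ ∀ (γ y : ℝ) (ψ : ℕ → ℝ) (q r : ℕ), (∀ q, 0 ≤ ψ q) → 4 ≤ q →
    4 ≤ r → 1 ≤ y → y / 2 < DD ψ q r → ll (q * r) ^ 3 ≤ DD ψ q r →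
    SS γ ψ q r ≤ K * (wt ψ q * wt ψ r * exp (2 * Lt (2 + log y / 8) (uu q r * uu r q))) := by
  obtain ⟨C1, hC1, h1⟩ := hsum
  obtain ⟨C2, hC2, h2⟩ := prod_two_ll
  refine ⟨C1 * (5 + 32 * C2), by positivity, fun γ y ψ q r hψ hq hr hy hD hl => ?_⟩
  have hqr : 16 ≤ q * r := Nat.mul_le_mul hq hr
  have hl1 := far_ll hqr
  have hD1 : 1 ≤ DD ψ q r := (one_le_pow₀ hl1).trans hl
  set D := DD ψ q r with hDD
  set t := 2 + log y / 8 with ht
  have ht2 : 2 ≤ t := by have := log_nonneg hy; linarith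
  have hg : Nat.gcd q r ≤ q * r :=
    (Nat.gcd_le_left _ (by omega)).trans (Nat.le_mul_of_pos_right _ (by omega))
  have a1 := h1 γ D t (max t ((q * r : ℕ) : ℝ)) 0 (ap γ (ψ q)) (ap γ (ψ r)) q r (by omega)
    (by omega) (by linarith) ht2 (le_max_left _ _) fun h _ _ => by
      refine (sum_eq_zero fun p hp => ?_).le
      have b1 := mem_filter.1 hp
      have b2 : p ≤ q * r := (Nat.le_of_mem_primeFactors (mem_filter.1 b1.1).1).trans hg
      have b3 : (p : ℝ) ≤ ((q * r : ℕ) : ℝ) := by exact_mod_cast b2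
      exact absurd (b3.trans (le_max_right t _)) (not_le.2 b1.2)
  have a2 := h2 ((q * r : ℕ) : ℝ) (by exact_mod_cast hqr) (Nat.gcd q r)
    (Nat.gcd_pos_of_pos_left _ (by omega)) (by exact_mod_cast hg) _
    (filter_subset (fun p : ℕ => (p : ℝ) ≤ max t ((q * r : ℕ) : ℝ)) _)
  have a3 := far_pow hy hD hl1 hl
  have a4 : (4 : ℝ) ^ t * ∏ p ∈ (Nat.gcd q r).primeFactors.filter
      (fun p : ℕ => (p : ℝ) ≤ max t ((q * r : ℕ) : ℝ)), (1 + 2 / (p : ℝ)) ≤ 32 * C2 * D :=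
    calc _ ≤ (4 : ℝ) ^ t * (C2 * ll (q * r) ^ 2) := mul_le_mul_of_nonneg_left a2 (by positivity)
      _ = C2 * ((4 : ℝ) ^ t * ll (q * r) ^ 2) := by ring
      _ ≤ C2 * (32 * D) := by gcongr
      _ = _ := by ring
  have a5 : SC γ ψ q r ≤ C1 * ((5 + 32 * C2) * D) * exp (2 * Lt t (uu q r * uu r q)) := by
    refine a1.trans ?_
    rw [mul_zero, exp_zero, mul_one]
    gcongr
    linarith
  have w1 := wt_nonneg (hψ q)
  have w2 := wt_nonneg (hψ r)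
  calc SS γ ψ q r ≤ wt ψ q * wt ψ r / D *
        (C1 * ((5 + 32 * C2) * D) * exp (2 * Lt t (uu q r * uu r q))) :=
      mul_le_mul_of_nonneg_left a5 (by positivity)
    _ = _ := by field_simp

theorem far_sum : ∃ C : ℝ, 0 < C ∧ ∀ (γ : ℝ) (ψ : ℕ → ℝ) (B : Finset ℕ), (∀ q, 0 ≤ ψ q) →
    (∀ q ∈ B, 4 ≤ q ∧ 0 < ψ q) → 1 ≤ ∑ q ∈ B, wt ψ q → ∀ E : Finset (ℕ × ℕ),
    (∀ e ∈ E, e.1 ∈ B ∧ e.2 ∈ B ∧ ll (e.1 * e.2) ^ 3 ≤ DD ψ e.1 e.2) →
    ∑ e ∈ E, SS γ ψ e.1 e.2 ≤ C * (∑ q ∈ B, wt ψ q) ^ 2 := by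
  classical
  obtain ⟨K, hK, h1⟩ := far_pt
  obtain ⟨C3, hC3, h3⟩ := level_anat (1 / 10) (by norm_num) le_rfl
  obtain ⟨G, hG, h4⟩ := geo_min 1 one_pos
  refine ⟨K * exp 2 + K * C3 * G, by positivity, fun γ ψ B hψ hB hW E hE => ?_⟩
  set W := ∑ q ∈ B, wt ψ q with hWd
  have hD1 : ∀ e ∈ E, 1 ≤ DD ψ e.1 e.2 := fun e he =>
    (one_le_pow₀ (far_ll (Nat.mul_le_mul (hB _ (hE e he).1).1 (hB _ (hE e he).2.1).1))).trans
      (hE e he).2.2
  have key := sum_levels ψ E (fun e he => one_pos.trans_le (hD1 e he))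
    (fun e => SS γ ψ e.1 e.2 - K * exp 2 * (wt ψ e.1 * wt ψ e.2))
    (fun y => K * C3 * W ^ 2 * min (y ^ (1 : ℝ)) (y ^ (-1 : ℝ))) (K * C3 * W ^ 2 * G)
    (fun J => by rw [← mul_sum]; exact mul_le_mul_of_nonneg_left (h4 J) (by positivity))
    fun j E' hE' hj => by
      rcases E'.eq_empty_or_nonempty with rfl | ⟨e0, he0⟩
      · rw [sum_empty]; positivity
      set y : ℝ := 2 ^ j with hy
      have hy1 : 1 ≤ y := (hD1 e0 (hE' he0)).trans (hj e0 he0).2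
      have hy0 : 0 < y := by linarith
      set t := 2 + log y / 8 with ht
      have ht2 : 2 ≤ t := by have := log_nonneg hy1; linarith
      have b1 := h3 ψ B hψ (fun q hq => ⟨by have := (hB q hq).1; omega, (hB q hq).2⟩) y t hy0 ht2
        (E'.filter fun e => 1 < Lt t (uu e.1 e.2 * uu e.2 e.1)) fun e he =>
          ⟨(hE e (hE' (mem_filter.1 he).1)).1, (hE e (hE' (mem_filter.1 he).1)).2.1,
            (hj e (mem_filter.1 he).1).2, (mem_filter.1 he).2⟩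
      have b2 : ∑ e ∈ E', (SS γ ψ e.1 e.2 - K * exp 2 * (wt ψ e.1 * wt ψ e.2)) ≤
          K * ∑ e ∈ E'.filter fun e => 1 < Lt t (uu e.1 e.2 * uu e.2 e.1),
            wt ψ e.1 * wt ψ e.2 * exp (4 * Lt t (uu e.1 e.2 * uu e.2 e.1)) := by
        rw [sum_filter, mul_sum]
        refine sum_le_sum fun e he => ?_
        have c0 := hE e (hE' he)
        have c1 := h1 γ y ψ e.1 e.2 hψ (hB _ c0.1).1 (hB _ c0.2.1).1 hy1 (hj e he).1 c0.2.2
        have c2 : 0 ≤ K * (wt ψ e.1 * wt ψ e.2) :=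
          mul_nonneg hK.le (mul_nonneg (wt_nonneg (hψ _)) (wt_nonneg (hψ _)))
        rw [← ht] at c1
        set L := Lt t (uu e.1 e.2 * uu e.2 e.1)
        split_ifs with hL
        · have c3 : exp (2 * L) ≤ exp (4 * L) := exp_le_exp.2 (by linarith)
          nlinarith [mul_le_mul_of_nonneg_left c3 c2, mul_nonneg c2 (exp_pos 2).le]
        · have c3 : exp (2 * L) ≤ exp 2 := exp_le_exp.2 (by linarith)
          nlinarith [mul_le_mul_of_nonneg_left c3 c2]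
      have b3 : exp (-(16 * t)) ≤ y ^ (-2 : ℝ) := by
        rw [rpow_def_of_pos hy0]
        exact exp_le_exp.2 (by linarith)
      have b4 : W ^ (1 + 2 * (1 / 10) : ℝ) ≤ W ^ 2 := by
        rw [← rpow_natCast]
        exact rpow_le_rpow_of_exponent_le hW (by norm_num)
      have b5 : y ^ (1 - 2 * (1 / 10) : ℝ) * y ^ (-2 : ℝ) ≤ min (y ^ (1 : ℝ)) (y ^ (-1 : ℝ)) := by
        rw [← rpow_add hy0]
        exact le_min (rpow_le_rpow_of_exponent_le hy1 (by norm_num))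
          (rpow_le_rpow_of_exponent_le hy1 (by norm_num))
      refine b2.trans ((mul_le_mul_of_nonneg_left b1 hK.le).trans ?_)
      calc K * (C3 * y ^ (1 - 2 * (1 / 10) : ℝ) * exp (-(16 * t)) * W ^ (1 + 2 * (1 / 10) : ℝ))
          ≤ K * (C3 * y ^ (1 - 2 * (1 / 10) : ℝ) * y ^ (-2 : ℝ) * W ^ 2) := by gcongr
        _ = K * C3 * W ^ 2 * (y ^ (1 - 2 * (1 / 10) : ℝ) * y ^ (-2 : ℝ)) := by ring
        _ ≤ _ := by gcongr
  have hm : ∑ e ∈ E, wt ψ e.1 * wt ψ e.2 ≤ W ^ 2 := by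
    rw [sq, hWd, sum_mul_sum, ← sum_product']
    exact sum_le_sum_of_subset_of_nonneg
      (fun e he => mem_product.2 ⟨(hE e he).1, (hE e he).2.1⟩)
      fun e _ _ => mul_nonneg (wt_nonneg (hψ _)) (wt_nonneg (hψ _))
  rw [sum_sub_distrib, ← mul_sum] at key
  have := mul_le_mul_of_nonneg_left hm (show 0 ≤ K * exp 2 by positivity)
  nlinarith

end Vale.Agent.P028G
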