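import Vale.Agent.P028G.Ovl2

/-! From the second moment bound to full measure. -/

namespace Vale.Agent.P028G

open Finset Real MeasureTheory Filter Vale.Agent.P028

open Classical in
theorem fin2_cnt {x : ℤ × ℕ} (hx : IsCoprime x.1 (x.2 : ℤ)) {q : ℕ} (hq : 0 < q) (c : ℤ) (L : ℕ) :
    L * ((Nat.totient q : ℝ) / q) - 2 ^ q.primeFactors.card ≤ cf x.2 q *
      (((Ico c (c + L)).filter fun a : ℤ => IsCoprime (a * x.2 + x.1) (q : ℤ)).card : ℝ) := by
  have h1 : ∀ p : ℕ, p ∈ q.primeFactors.filter (fun p => ¬ p ∣ x.2) →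
      ∃ cl : ℤ, ∀ a : ℤ, (p : ℤ) ∣ a * x.2 + x.1 ↔ (p : ℤ) ∣ a - cl := fun p hp =>
    one_class (Nat.prime_of_mem_primeFactors (mem_filter.1 hp).1) _ _
      fun h => (mem_filter.1 hp).2 (Int.natCast_dvd_natCast.1 h)
  choose! cl hcl using h1
  have h2 := sieve_count (q.primeFactors.filter fun p => ¬ p ∣ x.2)
    (fun p hp => Nat.prime_of_mem_primeFactors (mem_filter.1 hp).1) cl c L
  have e : ((Ico c (c + L)).filter fun a : ℤ => IsCoprime (a * x.2 + x.1) (q : ℤ)) =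
      (Ico c (c + L)).filter fun a : ℤ =>
        ∀ p ∈ q.primeFactors.filter (fun p => ¬ p ∣ x.2), ¬ (p : ℤ) ∣ a - cl p := by
    refine filter_congr fun a _ => ?_
    rw [coprime_iff hx hq]
    exact forall₂_congr fun p hp => not_congr (hcl p hp a)
  rw [e]
  refine le_trans ?_ (mul_le_mul_of_nonneg_left h2 (cf_nonneg _ _))
  rw [mul_sub, mul_left_comm, cf_mul _ _ hq]
  refine sub_le_sub_left ?_ _
  exact (mul_le_of_le_one_left (by positivity) (cf_le_one _ _)).trans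
    (pow_le_pow_right₀ one_le_two (card_filter_le _ _))

theorem fin2_vol (γ : ℝ) {ρ : ℝ} {q : ℕ} (hq : 0 < q) (h0 : 0 < ρ) (h1 : ρ ≤ 1 / 2) (G : Finset ℤ)
    {S : Set ℝ} (hS : volume S ≠ ⊤) (h : ∀ a ∈ G, ∀ z : ℝ, |(q : ℝ) * z - a - γ| < ρ → z ∈ S) :
    G.card * (2 * ρ / q) ≤ volume.real S := by
  have hq0 : (0 : ℝ) < q := by exact_mod_cast hq
  set I : ℤ → Set ℝ := fun a => Set.Ioo ((a + γ - ρ) / q) ((a + γ + ρ) / q) with hI
  have hIm : ∀ (a : ℤ) (x : ℝ), x ∈ I a ↔ a + γ - ρ < x * q ∧ x * q < a + γ + ρ := by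
    intro a x
    simp only [hI, Set.mem_Ioo, div_lt_iff₀ hq0, lt_div_iff₀ hq0]
  have hv2 : volume.real (⋃ a ∈ G, I a) = G.card * (2 * ρ / q) := by
    rw [measureReal_biUnion_finset ?_ (fun a _ => measurableSet_Ioo) (fun a _ => by simp),
      ← nsmul_eq_mul, ← Finset.sum_const]
    · refine Finset.sum_congr rfl fun a _ => ?_
      rw [Real.volume_real_Ioo_of_le (div_le_div_of_nonneg_right (by linarith) hq0.le)]
      ring
    · intro a _ a' _ hne
      refine Set.disjoint_left.2 fun x hx hx' => hne ?_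
      rw [hIm] at hx hx'
      have e1 : (a : ℝ) < a' + 1 := by linarith [hx.1, hx'.2]
      have e2 : (a' : ℝ) < a + 1 := by linarith [hx.2, hx'.1]
      have e3 : a < a' + 1 := by exact_mod_cast e1
      have e4 : a' < a + 1 := by exact_mod_cast e2
      omega
  rw [← hv2]
  refine measureReal_mono (fun x hx => ?_) hS
  simp only [Set.mem_iUnion] at hx
  obtain ⟨a, ha, hx⟩ := hx
  rw [hIm] at hx
  exact h a ha x (abs_lt.2 ⟨by linarith [hx.1], by linarith [hx.2]⟩)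

theorem fin2_blocks (γ s : ℝ) {q L : ℕ} (hq : 0 < q) (hL : 0 < L) {V : Set ℝ}
    (hV : V ⊆ Set.Ico s (s + 3)) : ∃ A : Finset ℤ, volume.real V ≤ A.card * ((L : ℝ) / q) ∧
      ∀ k ∈ A, ∃ y ∈ V, k * L + γ - 1 / 2 ≤ y * q ∧ y * q < k * L + L + γ - 1 / 2 := by
  classical
  have hq0 : (0 : ℝ) < q := by exact_mod_cast hq
  have hL0 : (0 : ℝ) < L := by exact_mod_cast hL
  set cell : ℤ → Set ℝ := fun k => Set.Ico ((k * L + γ - 1 / 2) / q) ((k * L + L + γ - 1 / 2) / q)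
    with hcell
  have hcm : ∀ (k : ℤ) (x : ℝ),
      x ∈ cell k ↔ k * L + γ - 1 / 2 ≤ x * q ∧ x * q < k * L + L + γ - 1 / 2 := by
    intro a x
    simp only [hcell, Set.mem_Ico, div_le_iff₀ hq0, lt_div_iff₀ hq0]
  set A : Finset ℤ := (Finset.Icc ⌊(q * s - γ + 1 / 2) / L⌋ ⌊(q * (s + 3) - γ + 1 / 2) / L⌋).filter
    fun k => (cell k ∩ V).Nonempty with hA
  have hcov : V ⊆ ⋃ k ∈ A, cell k := by
    intro x hx
    have hxU := hV hx
    have hc : x ∈ cell ⌊(q * x - γ + 1 / 2) / L⌋ := by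
      rw [hcm]
      have h1 := (le_div_iff₀ hL0).1 (Int.floor_le ((q * x - γ + 1 / 2) / L))
      have h2 := (div_lt_iff₀ hL0).1 (Int.lt_floor_add_one ((q * x - γ + 1 / 2) / L))
      constructor <;> linarith
    simp only [Set.mem_iUnion]
    refine ⟨_, ?_, hc⟩
    rw [hA, Finset.mem_filter, Finset.mem_Icc]
    refine ⟨⟨Int.floor_le_floor (div_le_div_of_nonneg_right ?_ hL0.le),
      Int.floor_le_floor (div_le_div_of_nonneg_right ?_ hL0.le)⟩, x, hc, hx⟩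
    · linarith [mul_le_mul_of_nonneg_left hxU.1 hq0.le]
    · linarith [mul_le_mul_of_nonneg_left hxU.2.le hq0.le]
  refine ⟨A, ?_, fun k hk => ?_⟩
  · refine (measureReal_mono hcov ?_).trans ((measureReal_biUnion_finset_le _ _).trans ?_)
    · exact ne_top_of_le_ne_top (ENNReal.sum_ne_top.2 fun a _ => by simp [hcell])
        (measure_biUnion_finset_le _ _)
    · refine le_of_eq ?_
      rw [← nsmul_eq_mul, ← Finset.sum_const]
      refine Finset.sum_congr rfl fun a _ => ?_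
      rw [hcell, Real.volume_real_Ico_of_le (div_le_div_of_nonneg_right (by linarith) hq0.le)]
      ring
  · obtain ⟨y, hy, hyV⟩ := (Finset.mem_filter.1 hk).2
    exact ⟨y, hyV, (hcm k y).1 hy⟩

theorem equi2 (γ s η : ℝ) (hη : 0 < η) (U : Set ℝ) (hU : IsOpen U) (hUs : U ⊆ Set.Ico s (s + 3)) :
    ∃ Q : ℕ, ∀ q : ℕ, Q < q → ∀ (ρ : ℝ) (x : ℤ × ℕ), 0 < ρ → ρ ≤ 1 / 2 →
      IsCoprime x.1 (x.2 : ℤ) → 2 * ((Nat.totient q : ℝ) / q * ρ) * (volume.real U - η) ≤
        cf x.2 q * volume.real (FS γ ρ x q ∩ U) := by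
  classical
  have hfin : volume U ≠ ⊤ := ne_top_of_le_ne_top (by simp) (measure_mono hUs)
  obtain ⟨n, hn⟩ := fin_inner (η / 2) (half_pos hη) U hU hfin
  set Un : Set ℝ := {x | Metric.ball x (1 / ((n : ℝ) + 1)) ⊆ U} with hUn
  have hUnU : Un ⊆ U := fun x hx => hx (Metric.mem_ball_self (by positivity))
  have hV3 : volume.real Un ≤ 3 := by
    refine (measureReal_mono (hUnU.trans hUs) (by simp)).trans (le_of_eq ?_)
    rw [Real.volume_real_Ico_of_le (by linarith)]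
    ring
  obtain ⟨δ, hδ0, hδ1, hδ2⟩ : ∃ δ : ℝ, 0 < δ ∧ δ ≤ 1 ∧ δ ≤ η / 6 :=
    ⟨min 1 (η / 6), by positivity, min_le_left _ _, min_le_right _ _⟩
  obtain ⟨Q, hQ⟩ := eventually_atTop.1 (two_pow_omega.eventually
    (gt_mem_nhds (show (0 : ℝ) < δ / (2 * (n + 1)) by positivity)))
  refine ⟨max Q n, fun q hq ρ x h0 h1 hx => ?_⟩
  have hqn : n + 1 ≤ q := lt_of_le_of_lt (le_max_right _ _) hq
  have hq0 : 0 < q := by omega
  have hq0' : (0 : ℝ) < q := by exact_mod_cast hq0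
  have hφ : (0 : ℝ) < Nat.totient q := by exact_mod_cast Nat.totient_pos.2 hq0
  have h2 := (div_lt_iff₀ hφ).1 (hQ q (lt_of_le_of_lt (le_max_left _ _) hq).le)
  obtain ⟨L, hL, hL1, hL2⟩ : ∃ L : ℕ, 0 < L ∧ (L : ℝ) * (n + 1) ≤ q ∧ (q : ℝ) ≤ L * (2 * (n + 1)) := by
    have a1 : 0 < q / (n + 1) := Nat.div_pos hqn n.succ_pos
    have a2 := Nat.div_mul_le_self q (n + 1)
    have a3 := Nat.lt_div_mul_add (a := q) n.succ_pos
    refine ⟨q / (n + 1), a1, by exact_mod_cast a2, ?_⟩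
    have a4 : q ≤ q / (n + 1) * (2 * (n + 1)) := by nlinarith
    exact_mod_cast a4
  have hL0 : (0 : ℝ) < L := by exact_mod_cast hL
  have h3 : (2 : ℝ) ^ q.primeFactors.card ≤ δ * (L * ((Nat.totient q : ℝ) / q)) := by
    refine h2.le.trans ?_
    have a1 : 1 / (2 * ((n : ℝ) + 1)) ≤ L / q := by
      rw [div_le_div_iff₀ (by positivity) hq0']
      linarith
    calc δ / (2 * (n + 1)) * (Nat.totient q : ℝ) = δ * Nat.totient q * (1 / (2 * (n + 1))) := by ring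
      _ ≤ δ * Nat.totient q * (L / q) := mul_le_mul_of_nonneg_left a1 (by positivity)
      _ = _ := by ring
  obtain ⟨A, hA1, hA2⟩ := fin2_blocks γ s hq0 hL (hUnU.trans hUs)
  set G : ℤ → Finset ℤ := fun k =>
    (Ico (k * L) (k * L + L)).filter fun a : ℤ => IsCoprime (a * x.2 + x.1) (q : ℤ) with hG
  have hcard : (A.biUnion G).card = ∑ k ∈ A, (G k).card := by
    refine card_biUnion fun k _ k' _ hne => Finset.disjoint_left.2 fun a ha ha' => hne ?_
    have b1 := mem_Ico.1 (mem_filter.1 ha).1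
    have b2 := mem_Ico.1 (mem_filter.1 ha').1
    have b3 : (0 : ℤ) < L := by exact_mod_cast hL
    have b4 : k < k' + 1 := lt_of_mul_lt_mul_right (by linarith [b1.1, b2.2]) b3.le
    have b5 : k' < k + 1 := lt_of_mul_lt_mul_right (by linarith [b1.2, b2.1]) b3.le
    omega
  have h4 := fin2_vol γ hq0 h0 h1 (A.biUnion G) (S := FS γ ρ x q ∩ U)
    (ne_top_of_le_ne_top hfin (measure_mono Set.inter_subset_right)) fun a ha z hz => by
      obtain ⟨k, hk, hak⟩ := mem_biUnion.1 ha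
      obtain ⟨y, hy, c1, c2⟩ := hA2 k hk
      refine ⟨⟨a, (mem_filter.1 hak).2, hz⟩, hy ?_⟩
      have b1 := mem_Ico.1 (mem_filter.1 hak).1
      have b2 : (k : ℝ) * L ≤ a := by exact_mod_cast b1.1
      have b3 : (a : ℝ) + 1 ≤ k * L + L := by exact_mod_cast b1.2
      rw [abs_lt] at hz
      rw [Metric.mem_ball, Real.dist_eq]
      have b4 : |z - y| * q < L := by
        rw [← abs_of_pos hq0', ← abs_mul, abs_lt]
        constructor <;> linarith [hz.1, hz.2]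
      rw [lt_div_iff₀ (by positivity)]
      have b5 := abs_nonneg (z - y)
      refine lt_of_mul_lt_mul_left (a := (L : ℝ)) ?_ hL0.le
      nlinarith [mul_le_mul_of_nonneg_left hL1 b5]
  have h5 : A.card * ((1 - δ) * (L * ((Nat.totient q : ℝ) / q))) ≤
      cf x.2 q * (A.biUnion G).card := by
    rw [hcard, Nat.cast_sum, mul_sum, ← nsmul_eq_mul, ← sum_const]
    refine sum_le_sum fun k _ => le_trans ?_ (fin2_cnt hx hq0 (k * L) L)
    linarith
  have h6 : volume.real U - η ≤ (1 - δ) * (A.card * ((L : ℝ) / q)) := by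
    refine le_trans ?_ (mul_le_mul_of_nonneg_left hA1 (sub_nonneg.2 hδ1))
    nlinarith [mul_le_mul_of_nonneg_left hV3 hδ0.le]
  calc 2 * ((Nat.totient q : ℝ) / q * ρ) * (volume.real U - η)
      ≤ 2 * ((Nat.totient q : ℝ) / q * ρ) * ((1 - δ) * (A.card * ((L : ℝ) / q))) :=
        mul_le_mul_of_nonneg_left h6 (by positivity)
    _ = A.card * ((1 - δ) * (L * ((Nat.totient q : ℝ) / q))) * (2 * ρ / q) := by ring
    _ ≤ cf x.2 q * (A.biUnion G).card * (2 * ρ / q) :=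
        mul_le_mul_of_nonneg_right h5 (by positivity)
    _ ≤ _ := by
        rw [mul_assoc]
        exact mul_le_mul_of_nonneg_left h4 (cf_nonneg _ _)

theorem fin2_null (γ C s : ℝ) (ψ : ℕ → ℝ)
    (h : ∀ Q : ℕ, ∃ B : Finset ℕ, (∀ q ∈ B, Q < q ∧ 0 < ψ q ∧ ψ q ≤ 1 / 2) ∧
      1 ≤ ∑ q ∈ B, wt ψ q ∧ ∑ q ∈ B, ∑ r ∈ B, ov γ s ψ q r ≤ C * (∑ q ∈ B, wt ψ q) ^ 2)
    (Q : ℕ) (K : Set ℝ) (hK : MeasurableSet K) (hKs : K ⊆ Set.Ioo s (s + 3))
    (hKE : ∀ q, Q < q → ∀ x ∈ K, x ∉ ES γ ψ q) : volume K = 0 := by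
  have hKfin : volume K ≠ ⊤ := ne_top_of_le_ne_top (by simp) (measure_mono hKs)
  have key : ∀ δ : ℝ, 0 < δ → volume.real K ≤ δ ^ 2 + δ * (|C| + 1) := by
    intro δ hδ
    obtain ⟨U₀, hKU, hUo, -, hUd⟩ := hK.exists_isOpen_sdiff_lt hKfin
      (show ENNReal.ofReal (δ ^ 2) ≠ 0 by simpa using hδ.ne')
    set U := U₀ ∩ Set.Ioo s (s + 3) with hUdef
    have hUs : U ⊆ Set.Ico s (s + 3) := Set.inter_subset_right.trans Set.Ioo_subset_Ico_self
    have hUfin : volume U ≠ ⊤ := ne_top_of_le_ne_top (by simp) (measure_mono hUs)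
    have hUop : IsOpen U := hUo.inter isOpen_Ioo
    obtain ⟨Q₁, hQ₁⟩ := equi2 γ s (δ ^ 2) (by positivity) U hUop hUs
    obtain ⟨B, hB, hW, hC⟩ := h (max Q Q₁)
    set W := ∑ q ∈ B, wt ψ q with hWdef
    have hW0 : 0 < W := by linarith
    have hDfin : volume (U \ K) ≠ ⊤ := ne_top_of_le_ne_top hUfin (measure_mono Set.sdiff_subset)
    have : IsFiniteMeasure (volume.restrict (U \ K)) := isFiniteMeasure_restrict.2 hDfin
    have hD : volume.real (U \ K) ≤ δ ^ 2 :=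
      ENNReal.toReal_le_of_le_ofReal (by positivity)
        ((measure_mono (Set.sdiff_subset_sdiff_left Set.inter_subset_left)).trans hUd.le)
    have hm : ∀ q, MeasurableSet (FS γ (ψ q) (ap γ (ψ q)) q) := fun q => measurableSet_FS _ _ _ _
    have hl := fin_l2 (volume.restrict (U \ K)) B (fun q => cf (ap γ (ψ q)).2 q)
      (fun q => FS γ (ψ q) (ap γ (ψ q)) q) hm (show 0 < δ / W by positivity)
    have hKU' : volume.real K ≤ volume.real U :=
      measureReal_mono (Set.subset_inter hKU hKs) hUfin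
    have h1 : 2 * W * (volume.real K - δ ^ 2) ≤ ∑ q ∈ B, cf (ap γ (ψ q)).2 q *
        (volume.restrict (U \ K)).real (FS γ (ψ q) (ap γ (ψ q)) q) := by
      rw [hWdef, Finset.mul_sum, Finset.sum_mul]
      refine Finset.sum_le_sum fun q hq => ?_
      obtain ⟨hq1, hq2, hq3⟩ := hB q hq
      have e : FS γ (ψ q) (ap γ (ψ q)) q ∩ (U \ K) = FS γ (ψ q) (ap γ (ψ q)) q ∩ U := by
        ext x
        exact ⟨fun hx => ⟨hx.1, hx.2.1⟩, fun hx => ⟨hx.1, hx.2, fun hxK =>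
          hKE q (lt_of_le_of_lt (le_max_left _ _) hq1) x hxK (FS_subset γ ψ _ q hx.1)⟩⟩
      rw [measureReal_restrict_apply (hm q), e]
      refine le_trans ?_ (hQ₁ q (lt_of_le_of_lt (le_max_right _ _) hq1) _ _ hq2 hq3
        (ap_coprime γ (ψ q)))
      exact mul_le_mul_of_nonneg_left (by linarith) (by have := wt_nonneg hq2.le; positivity)
    have h2 : ∑ q ∈ B, ∑ r ∈ B, cf (ap γ (ψ q)).2 q * cf (ap γ (ψ r)).2 r *
        (volume.restrict (U \ K)).real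
          (FS γ (ψ q) (ap γ (ψ q)) q ∩ FS γ (ψ r) (ap γ (ψ r)) r) ≤ |C| * W ^ 2 := by
      refine le_trans ?_ (hC.trans (mul_le_mul_of_nonneg_right (le_abs_self _) (sq_nonneg _)))
      refine Finset.sum_le_sum fun q _ => Finset.sum_le_sum fun r _ => ?_
      refine mul_le_mul_of_nonneg_left ?_ (mul_nonneg (cf_nonneg _ _) (cf_nonneg _ _))
      rw [measureReal_restrict_apply ((hm q).inter (hm r))]
      exact measureReal_mono (Set.inter_subset_inter_right _ (Set.sdiff_subset.trans hUs))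
        (ne_top_of_le_ne_top (by simp) (measure_mono Set.inter_subset_right))
    rw [measureReal_restrict_apply MeasurableSet.univ, Set.univ_inter] at hl
    have h3 := mul_le_mul_of_nonneg_left h2 (show 0 ≤ δ / W / 2 by positivity)
    have h4 := div_le_div_of_nonneg_right hD (show 0 ≤ 2 * (δ / W) by positivity)
    have h5 : δ / W / 2 * (|C| * W ^ 2) + δ ^ 2 / (2 * (δ / W)) =
        2 * W * (δ * (|C| + 1) / 4) := by
      field_simp
      ring
    have h6 : 2 * W * (volume.real K - δ ^ 2) ≤ 2 * W * (δ * (|C| + 1) / 4) := by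
      linarith
    have h7 := le_of_mul_le_mul_left h6 (by positivity)
    have h8 : 0 ≤ δ * (|C| + 1) := by positivity
    linarith
  have hc : Continuous fun δ : ℝ => δ ^ 2 + δ * (|C| + 1) := by fun_prop
  have ht : Filter.Tendsto (fun δ : ℝ => δ ^ 2 + δ * (|C| + 1))
      (nhdsWithin 0 (Set.Ioi 0)) (nhds 0) := by
    simpa using (hc.tendsto 0).mono_left nhdsWithin_le_nhds
  have h0 : volume.real K ≤ 0 :=
    ge_of_tendsto ht (Filter.eventually_of_mem self_mem_nhdsWithin key)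
  exact (measureReal_eq_zero_iff hKfin).1 (le_antisymm h0 measureReal_nonneg)

theorem full2 (γ C : ℝ) (ψ : ℕ → ℝ)
    (h : ∀ (Q : ℕ) (s : ℝ), ∃ B : Finset ℕ, (∀ q ∈ B, Q < q ∧ 0 < ψ q ∧ ψ q ≤ 1 / 2) ∧
      1 ≤ ∑ q ∈ B, wt ψ q ∧ ∑ q ∈ B, ∑ r ∈ B, ov γ s ψ q r ≤ C * (∑ q ∈ B, wt ψ q) ^ 2) :
    ∀ᵐ x : ℝ, Set.Infinite {q : ℕ | 0 < q ∧ ∃ a : ℤ, |(q : ℝ) * x - a - γ| < ψ q} := by
  have key : ∀ (Q : ℕ) (z : ℤ), ∀ᵐ x : ℝ,
      x ∉ Set.Ico (z : ℝ) (z + 1) \ ⋃ q ∈ {q : ℕ | Q < q}, ES γ ψ q := by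
    intro Q z
    rw [← measure_eq_zero_iff_ae_notMem]
    refine fin2_null γ C (z - 1) ψ (fun Q => h Q _) Q _ (measurableSet_Ico.diff
      (MeasurableSet.biUnion (Set.to_countable _) fun q _ => measurableSet_ES γ ψ q)) ?_ ?_
    · exact fun x hx => ⟨by linarith [hx.1.1], by linarith [hx.1.2]⟩
    · exact fun q hq x hx hxq => hx.2 (Set.mem_biUnion hq hxq)
  have key2 := ae_all_iff.2 fun Q => ae_all_iff.2 (key Q)
  filter_upwards [key2] with x hx
  refine Set.infinite_of_forall_exists_gt fun Q => ?_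
  have h1 := hx Q ⌊x⌋
  by_contra hcon
  refine h1 ⟨⟨Int.floor_le x, Int.lt_floor_add_one x⟩, fun hmem => hcon ?_⟩
  simp only [Set.mem_iUnion] at hmem
  obtain ⟨q, hq, hxq⟩ := hmem
  exact ⟨q, ⟨lt_of_le_of_lt (Nat.zero_le _) hq, hxq⟩, hq⟩

end Vale.Agent.P028G
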