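import Vale.Agent.P028G.Exact

/-! The remaining case of many coincidences is impossible. -/

namespace Vale.Agent.P028G

open Finset Real MeasureTheory Filter Vale.Agent.P028

theorem HCon_pos {γ T : ℝ} {ψ : ℕ → ℝ} {q r : ℕ} (hT : 1 < T) (hA : Anom γ ψ T q r) :
    1 ≤ (ap γ (ψ q)).2 ∧ 1 ≤ (ap γ (ψ r)).2 := by
  obtain ⟨h, -, -, hS⟩ := hA
  have h1 : 0 < 1 / log T := one_div_pos.2 (log_pos hT)
  obtain ⟨p, hp⟩ := nonempty_of_sum_ne_zero (h1.trans_le hS).ne'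
  have h2 := (mem_filter.1 (mem_filter.1 hp).1).2.1
  constructor <;> refine Nat.pos_of_ne_zero fun c => h2 ?_ <;> simp [c]

theorem HCon_half {s t R : ℝ} (h : s ^ 4 * t ^ 4 ≤ R) (hR : R < 1 / 16) : s * t < 1 / 2 := by
  refine lt_of_pow_lt_pow_left₀ 4 (by norm_num) ?_
  rw [mul_pow]
  linarith

theorem HCon_ne {γ y T s ρ K v P P' : ℝ} {x x' : ℤ × ℕ} {n : ℕ} (h0 : 0 < P) (h0' : 0 < P')
    (h1 : P' ≤ 1 / 16) (hρ : 0 < ρ) (hy : 0 < y) (hs : s * s = T) (hn : 0 < n) (hK : (n : ℝ) ≤ K)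
    (hv : ρ * y ≤ P * v) (hψ : (2 * T * K) ^ 4 * P ^ 3 ≤ ρ ^ 4) (M : Maj γ P x) (M' : Maj γ P' x')
    (hle : x.2 ≤ x'.2)
    (k : 1 ≤ (x'.2 : ℝ) * |(x.2 : ℝ) * γ - x.1| + x.2 * |(x'.2 : ℝ) * γ - x'.1|)
    (hc : |(x.2 : ℝ) * γ - x.1| * v < s * y * x.2)
    (hc' : ((x'.2 / Nat.gcd x'.2 n : ℕ) : ℝ) < s) : False := by
  obtain ⟨b1, -, m1, -⟩ := M
  obtain ⟨b1', -, m1', m2'⟩ := M'
  have B0 : (0 : ℝ) < x.2 := by exact_mod_cast b1
  have B0' : (0 : ℝ) < x'.2 := by exact_mod_cast b1'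
  have hle' : (x.2 : ℝ) ≤ x'.2 := by exact_mod_cast hle
  have s0 : 0 < s := (Nat.cast_nonneg _).trans_lt hc'
  have n0 : (0 : ℝ) < n := by exact_mod_cast hn
  have v0 : 0 < v := pos_of_mul_pos_right ((mul_pos hρ hy).trans_le hv) h0.le
  rw [← sq_abs] at m2'
  have a0 := abs_nonneg ((x.2 : ℝ) * γ - x.1)
  have a0' := abs_nonneg ((x'.2 : ℝ) * γ - x'.1)
  generalize |(x.2 : ℝ) * γ - x.1| = θ at *
  generalize |(x'.2 : ℝ) * γ - x'.1| = θ' at *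
  have k1 : (x'.2 : ℝ) * θ' ≤ 1 / 2 := by
    refine le_of_pow_le_pow_left₀ (n := 4) (by norm_num) (by norm_num) ?_
    calc ((x'.2 : ℝ) * θ') ^ 4 = x'.2 ^ 4 * (θ' ^ 2) ^ 2 := by ring
      _ ≤ x'.2 ^ 4 * P' ^ 2 := by gcongr
      _ = x'.2 ^ 4 * P' * P' := by ring
      _ ≤ 1 * (1 / 16) := by gcongr
      _ = _ := by norm_num
  have k2 : (x.2 : ℝ) * θ' ≤ x'.2 * θ' := by gcongr
  have k3 : (x'.2 : ℝ) ≤ K * s := by
    have l3 : (Nat.gcd x'.2 n : ℝ) ≤ K := le_trans (by exact_mod_cast Nat.gcd_le_right _ hn) hK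
    calc (x'.2 : ℝ) = (Nat.gcd x'.2 n : ℝ) * (x'.2 / Nat.gcd x'.2 n : ℕ) := by
          exact_mod_cast (Nat.mul_div_cancel' (Nat.gcd_dvd_left x'.2 n)).symm
      _ ≤ K * s := by gcongr; linarith
  have k4 : v < 2 * T * K * x.2 * y := by
    calc v = 2 * (1 / 2 * v) := by ring
      _ ≤ 2 * (x'.2 * θ * v) := by gcongr; linarith
      _ = 2 * x'.2 * (θ * v) := by ring
      _ < 2 * x'.2 * (s * y * x.2) := by gcongr
      _ ≤ 2 * (K * s) * (s * y * x.2) := by gcongr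
      _ = _ := by rw [← hs]; ring
  have k5 : ρ < 2 * T * K * x.2 * P := by
    refine lt_of_mul_lt_mul_right (a := y) (hv.trans_lt ?_) hy.le
    calc P * v < P * (2 * T * K * x.2 * y) := by gcongr
      _ = _ := by ring
  have k6 := pow_lt_pow_left₀ k5 hρ.le (n := 4) (by norm_num)
  have k7 : (2 * T * K * x.2 * P) ^ 4 ≤ (2 * T * K) ^ 4 * P ^ 3 * 1 := by
    calc _ = (2 * T * K) ^ 4 * P ^ 3 * (x.2 ^ 4 * P) := by ring
      _ ≤ _ := by gcongr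
  linarith

theorem HCon_chi {x : ℤ × ℕ} {q r : ℕ} {h : ℤ} (hq : 0 < q) (hr : 0 < r) (hne : q ≠ r)
    (hx : IsCoprime x.1 (x.2 : ℤ)) (e : x.2 * h + x.1 * ((uu r q : ℤ) - uu q r) = 0) :
    chi x x q r h = 0 := by
  have cop := uu_coprime (r := r) hq
  have hB : (x.2 : ℤ) ∣ (uu r q : ℤ) - uu q r :=
    hx.symm.dvd_of_dvd_mul_left ⟨-h, by linear_combination e⟩
  have key : ∀ p : ℕ, p.Prime → p ∣ uu q r ∨ p ∣ uu r q → chi x x q r h = 0 := fun p pp hp => by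
    have nb : ¬ (p ∣ uu q r ∧ p ∣ uu r q) := fun c =>
      pp.one_lt.ne' (Nat.eq_one_of_dvd_coprimes cop c.1 c.2)
    have nB : ¬ p ∣ x.2 := fun c => by
      have h1 := (Int.natCast_dvd_natCast.2 c).trans hB
      rcases hp with hp | hp
      · exact nb ⟨hp, Int.natCast_dvd_natCast.1
          ((dvd_sub_left (Int.natCast_dvd_natCast.2 hp)).1 h1)⟩
      · exact nb ⟨Int.natCast_dvd_natCast.1
          ((dvd_sub_right (Int.natCast_dvd_natCast.2 hp)).1 h1), hp⟩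
    refine prod_eq_zero (i := p) (Nat.mem_primeFactors.2 ⟨pp, ?_, by positivity⟩) ?_
    · rcases hp with hp | hp
      · exact (hp.trans (Dvd.intro_left _ (uu_mul q r))).mul_right _
      · exact (hp.trans (Dvd.intro_left _ (uu_mul' q r))).mul_left _
    · rw [chp]
      by_cases hu : p ∣ uu q r
      · rw [if_pos hu, if_neg nB, if_pos]
        rw [show h * x.2 + x.1 * uu r q = x.1 * uu q r by linear_combination e]
        exact (Int.natCast_dvd_natCast.2 hu).mul_left _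
      · have hv := hp.resolve_left hu
        rw [if_neg hu, if_pos hv, if_neg nB, if_pos]
        rw [show h * x.2 - x.1 * uu q r = -x.1 * uu r q by linear_combination e]
        exact (Int.natCast_dvd_natCast.2 hv).mul_left _
  by_cases hu : uu q r = 1
  · refine key _ (Nat.minFac_prime fun hv : uu r q = 1 => hne ?_) (Or.inr (Nat.minFac_dvd _))
    rw [← uu_mul q r, hu, ← hv, uu_mul']
  · exact key _ (Nat.minFac_prime hu) (Or.inl (Nat.minFac_dvd _))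

theorem HCon_few {T : ℝ} (hT : 16 ≤ T) {H : ℤ} (h0 : H ≠ 0) (hb : (|H| : ℤ) < T ^ 3) (I : Finset ℕ)
    (hI : ∀ p ∈ I, p.Prime ∧ T < p ∧ (p : ℤ) ∣ H) (hS : 1 / log T ≤ ∑ p ∈ I, 1 / (p : ℝ)) :
    False := by
  have T0 : 0 < T := by linarith
  have h1 : ∏ p ∈ I, p ≤ H.natAbs := Nat.le_of_dvd (Int.natAbs_pos.2 h0)
    (Finset.prod_primes_dvd _ (fun p hp => (hI p hp).1.prime)
      fun p hp => Int.natCast_dvd.1 (hI p hp).2.2)
  have h2 : T ^ I.card ≤ ∏ p ∈ I, (p : ℝ) := by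
    rw [← prod_const]
    exact prod_le_prod (fun _ _ => T0.le) fun p hp => (hI p hp).2.1.le
  have h3 : T ^ I.card < T ^ 3 := by
    refine h2.trans_lt (lt_of_le_of_lt ?_ hb)
    rw [← Nat.cast_prod, ← Int.natCast_natAbs]
    exact_mod_cast h1
  have h4 : (I.card : ℝ) ≤ 2 := by
    have h5 := (pow_lt_pow_iff_right₀ (by linarith)).1 h3
    exact_mod_cast Nat.lt_succ_iff.1 h5
  have h5 : ∑ p ∈ I, 1 / (p : ℝ) ≤ 2 * (1 / T) := by
    refine (sum_le_card_nsmul _ _ (1 / T) fun p hp =>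
      one_div_le_one_div_of_le T0 (hI p hp).2.1.le).trans ?_
    rw [nsmul_eq_mul]
    gcongr
  have hsT : 4 ≤ √T := le_sqrt_of_sq_le (by linarith)
  have hTT : √T * √T = T := mul_self_sqrt T0.le
  have h6 := log_le_sub_one_of_pos (sqrt_pos.2 T0)
  rw [log_sqrt T0.le] at h6
  have h7 := hS.trans h5
  rw [mul_one_div, div_le_div_iff₀ (log_pos (by linarith)) T0] at h7
  nlinarith

theorem hb_contra {γ y T ρ K : ℝ} {ψ : ℕ → ℝ} {q r n₀ n₀' : ℕ} (hq : 0 < q) (hr : 0 < r)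
    (hne : q ≠ r) (h0 : 0 < ψ q) (h0' : 0 < ψ r) (h1 : ψ q ≤ 1 / 16) (h1' : ψ r ≤ 1 / 16)
    (hA : Anom γ ψ T q r) (hD : DD ψ q r ≤ y) (hT : 16 ≤ T) (hyT : y ≤ √T) (hρ : 0 < ρ)
    (hn : 0 < n₀) (hn' : 0 < n₀') (hd : n₀ ∣ uu r q) (hd' : n₀' ∣ uu q r)
    (hK : (n₀ : ℝ) ≤ K) (hK' : (n₀' : ℝ) ≤ K)
    (hs : ρ * y ≤ ψ q * uu r q) (hs' : ρ * y ≤ ψ r * uu q r)
    (hψ : (2 * T * K) ^ 4 * ψ q ^ 3 ≤ ρ ^ 4) (hψ' : (2 * T * K) ^ 4 * ψ r ^ 3 ≤ ρ ^ 4)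
    (hc : (((ap γ (ψ q)).2 / Nat.gcd (ap γ (ψ q)).2 n₀ : ℕ) : ℝ) < √T ∧
      |((ap γ (ψ q)).2 : ℝ) * γ - (ap γ (ψ q)).1| * uu r q < √T * y * (ap γ (ψ q)).2)
    (hc' : (((ap γ (ψ r)).2 / Nat.gcd (ap γ (ψ r)).2 n₀' : ℕ) : ℝ) < √T ∧
      |((ap γ (ψ r)).2 : ℝ) * γ - (ap γ (ψ r)).1| * uu q r < √T * y * (ap γ (ψ r)).2) :
    False := by
  obtain ⟨b1, b1'⟩ := HCon_pos (by linarith) hA
  obtain ⟨h, hh, hχ, hS⟩ := hA
  have M := ap_maj b1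
  have M' := ap_maj b1'
  have hsT : 4 ≤ √T := le_sqrt_of_sq_le (by linarith)
  have hTT : √T * √T = T := mul_self_sqrt (by linarith)
  have y0 : 0 < y := by
    have h2 : (0 : ℝ) < uu r q := by exact_mod_cast uu_pos hr q
    rw [DD_eq] at hD
    exact (mul_pos h0 h2).trans_le ((le_max_left _ _).trans hD)
  by_cases hx : ap γ (ψ r) = ap γ (ψ q)
  swap
  · have k : 1 ≤ ((ap γ (ψ r)).2 : ℝ) * |((ap γ (ψ q)).2 : ℝ) * γ - (ap γ (ψ q)).1| +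
        (ap γ (ψ q)).2 * |((ap γ (ψ r)).2 : ℝ) * γ - (ap γ (ψ r)).1| :=
      not_lt.1 fun c => hx (maj_close b1 M.2.1 b1' M'.2.1 c).symm
    rcases le_total (ap γ (ψ q)).2 (ap γ (ψ r)).2 with hle | hle
    · exact HCon_ne h0 h0' h1' hρ y0 hTT hn' hK' hs hψ M M' hle k hc.2 hc'.1
    · exact HCon_ne h0' h0 h1 hρ y0 hTT hn hK hs' hψ' M' M hle (by rwa [add_comm]) hc'.2 hc.1
  rw [hx] at hc' hχ hS
  generalize ap γ (ψ q) = x at *
  have cop : Nat.Coprime (Nat.gcd x.2 n₀') (Nat.gcd x.2 n₀) :=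
    ((uu_coprime hq).coprime_dvd_left ((Nat.gcd_dvd_right _ _).trans hd')).coprime_dvd_right
      ((Nat.gcd_dvd_right _ _).trans hd)
  have e1 := Nat.mul_div_cancel' (Nat.gcd_dvd_left x.2 n₀)
  have e2 := Nat.mul_div_cancel' (Nat.gcd_dvd_left x.2 n₀')
  have l1 : Nat.gcd x.2 n₀' ≤ x.2 / Nat.gcd x.2 n₀ :=
    Nat.le_of_dvd (Nat.div_pos (Nat.gcd_le_left _ b1) (Nat.gcd_pos_of_pos_left _ b1))
      (cop.dvd_of_dvd_mul_left (by rw [e1]; exact Nat.gcd_dvd_left _ _))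
  have l2 : (x.2 : ℝ) ≤ T := by
    have l3 : (Nat.gcd x.2 n₀' : ℝ) ≤ √T := le_trans (by exact_mod_cast l1) hc.1.le
    calc (x.2 : ℝ) = (Nat.gcd x.2 n₀' : ℝ) * (x.2 / Nat.gcd x.2 n₀' : ℕ) := by exact_mod_cast e2.symm
      _ ≤ √T * √T := by gcongr; exact hc'.1.le
      _ = T := hTT
  have hH : x.2 * h + x.1 * ((uu r q : ℤ) - uu q r) ≠ 0 := fun c =>
    hχ (HCon_chi hq hr hne M.2.1 c)
  have hb : (|x.2 * h + x.1 * ((uu r q : ℤ) - uu q r)| : ℤ) < T ^ 3 := by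
    have k1 := (mem_JJ.1 hh).trans (mul_le_mul_of_nonneg_left hD zero_le_two)
    have B0 : (0 : ℝ) ≤ x.2 := Nat.cast_nonneg _
    have k2 : |((x.2 : ℝ) * γ - x.1) * ((uu r q : ℝ) - uu q r)| ≤ √T * y * x.2 := by
      have u0 : (0 : ℝ) ≤ uu q r := Nat.cast_nonneg _
      have v0 : (0 : ℝ) ≤ uu r q := Nat.cast_nonneg _
      have a0 := abs_nonneg ((x.2 : ℝ) * γ - x.1)
      have k3 := mul_nonneg a0 u0
      have k4 := mul_nonneg a0 v0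
      rw [abs_mul]
      rcases abs_cases ((uu r q : ℝ) - uu q r) with ⟨e, -⟩ | ⟨e, -⟩ <;> rw [e] <;>
        linarith [hc.2, hc'.2]
    have e : ((x.2 * h + x.1 * ((uu r q : ℤ) - uu q r) : ℤ) : ℝ) =
        x.2 * (h + γ * ((uu r q : ℝ) - uu q r)) - (x.2 * γ - x.1) * ((uu r q : ℝ) - uu q r) := by
      push_cast
      ring
    rw [Int.cast_abs, e]
    refine (abs_sub _ _).trans_lt ?_
    rw [abs_mul, abs_of_nonneg B0]
    have k5 : (x.2 : ℝ) * |h + γ * ((uu r q : ℝ) - uu q r)| ≤ T * (2 * √T) := by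
      gcongr
      linarith
    have k6 : √T * y * x.2 ≤ √T * √T * T := by gcongr
    rw [hTT] at k6
    have k7 : T * (2 * √T) ≤ T * T := by
      gcongr
      nlinarith
    have k8 : T * T * 16 ≤ T * T * T := by gcongr
    have k9 : 0 < T * T := by positivity
    linarith
  refine HCon_few hT hH hb _ (fun p hp => ?_) hS
  obtain ⟨hp, hp1, -⟩ := mem_filter.1 hp
  obtain ⟨hp, hp2, hp3⟩ := mem_filter.1 hp
  have pp := Nat.prime_of_mem_primeFactors hp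
  refine ⟨pp, hp1, ?_⟩
  have e : HH x x (uu q r) (uu r q) h = x.2 * (x.2 * h + x.1 * ((uu r q : ℤ) - uu q r)) := by
    rw [HH]
    ring
  rw [e] at hp3
  refine ((Nat.prime_iff_prime_int.1 pp).dvd_or_dvd hp3).resolve_left fun c => hp2 ?_
  exact ((Int.natCast_dvd_natCast.1 c).mul_right _).mul_left _

/-- Within a short range of precisions there is at most one major approximant. -/
theorem maj_range {γ ρ ρ₁ ρ₂ R : ℝ} {x x' : ℤ × ℕ} (hρ : 0 < ρ) (hR : 0 < R) (hRρ : 16 * R < ρ)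
    (h1 : ρ * R ≤ ρ₁) (h2 : ρ₁ ≤ R) (h1' : ρ * R ≤ ρ₂) (h2' : ρ₂ ≤ R)
    (h : Maj γ ρ₁ x) (h' : Maj γ ρ₂ x') : x = x' := by
  have key : ∀ {s s' : ℝ} {z z' : ℤ × ℕ}, ρ * R ≤ s → s' ≤ R → Maj γ s z → Maj γ s' z' →
      (z.2 : ℝ) * |(z'.2 : ℝ) * γ - z'.1| < 1 / 2 := by
    intro s s' z z' a b M M'
    refine HCon_half (R := R / ρ) ?_ (by rw [div_lt_iff₀ hρ]; linarith)
    have k1 : (z.2 : ℝ) ^ 4 * (ρ * R) ≤ 1 := le_trans (by gcongr) M.2.2.1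
    have k2 : |(z'.2 : ℝ) * γ - z'.1| ^ 2 ≤ R := by rw [sq_abs]; exact M'.2.2.2.trans b
    rw [le_div_iff₀ hρ]
    calc _ = (z.2 : ℝ) ^ 4 * ρ * (|(z'.2 : ℝ) * γ - z'.1| ^ 2) ^ 2 := by ring
      _ ≤ (z.2 : ℝ) ^ 4 * ρ * R ^ 2 := by gcongr
      _ = (z.2 : ℝ) ^ 4 * (ρ * R) * R := by ring
      _ ≤ 1 * R := by gcongr
      _ = R := one_mul _
  refine maj_close (γ := γ) h.1 h.2.1 h'.1 h'.2.1 ?_
  linarith [key h1 h2' h h', key h1' h2 h' h]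

/-- The Schur test with two different levels. -/
theorem schur2 {V W : Finset ℕ} {E : Finset (ℕ × ℕ)} {a b N : ℕ} {m d : ℕ → ℕ}
    (hC : Clu V W E a b N m d) (ψ : ℕ → ℝ) (hV : ∀ v ∈ V, 0 < ψ v) (hW : ∀ w ∈ W, 0 < ψ w)
    (y₁ y₂ : ℝ) (hy₁ : 0 < y₁) (hy₂ : 0 < y₂)
    (hD : ∀ e ∈ E, ψ e.1 * uu e.2 e.1 ≤ y₁ ∧ ψ e.2 * uu e.1 e.2 ≤ y₂) :
    ms (wt ψ) E ≤ 2 * √(y₁ * y₂) / √((a : ℝ) * b) *
      √((∑ v ∈ V, wt ψ v) * ∑ w ∈ W, wt ψ w) := by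
  have ha : (0 : ℝ) < a := by exact_mod_cast hC.apos
  have hb : (0 : ℝ) < b := by exact_mod_cast hC.bpos
  have hdV : ∀ v ∈ V, 0 < d v := fun v hv => Nat.pos_of_dvd_of_pos (hC.vV v hv).2.2.1 hC.Npos
  have hdW : ∀ w ∈ W, 0 < d w := fun w hw => Nat.pos_of_dvd_of_pos (hC.vW w hw).2.2.1 hC.Npos
  have hmV : ∀ v ∈ V, (0 : ℝ) < m v := fun v hv => by exact_mod_cast (hC.vV v hv).2.1
  have hmW : ∀ w ∈ W, (0 : ℝ) < m w := fun w hw => by exact_mod_cast (hC.vW w hw).2.1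
  have hYV : ∀ v ∈ V, 0 < y₁ / (ψ v * b * d v) := fun v hv => by
    have := hV v hv
    have := hdV v hv
    positivity
  have hYW : ∀ w ∈ W, 0 < y₂ / (ψ w * a * d w) := fun w hw => by
    have := hW w hw
    have := hdW w hw
    positivity
  have hD1 : ∀ e ∈ E, ψ e.1 * ((b : ℝ) * m e.2 * d e.1) ≤ y₁ := fun e he => by
    have := (hD e he).1
    rw [uu, Nat.gcd_comm, (hC.edge e he).2.2.2.1] at this
    exact_mod_cast this
  have hD2 : ∀ e ∈ E, ψ e.2 * ((a : ℝ) * m e.1 * d e.2) ≤ y₂ := fun e he => by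
    have := (hD e he).2
    rw [uu, (hC.edge e he).2.2.1] at this
    exact_mod_cast this
  have s1 := schur_side E Prod.fst Prod.snd V N m d (wt ψ) (fun v => y₁ / (ψ v * b * d v))
    (fun w => √(y₂ / (ψ w * a * d w)) / √(m w)) (y₂ / a) 2 (by positivity)
    (fun v hv => wt_nonneg (hV v hv).le) hYV (fun v hv => (hC.vV v hv).2.1)
    (fun e he => (hC.edge e he).1)
    (fun e he e' he' h1 h2 h3 => Prod.ext h1
      (hC.injW _ (hC.edge e he).2.1 _ (hC.edge e' he').2.1 h2 h3))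
    (fun e he => by
      obtain ⟨e1, e2, -⟩ := hC.edge e he
      obtain ⟨w1, -, w3, w4⟩ := hC.vW _ e2
      exact schur_pt (pw_nonneg _ _) (by exact_mod_cast hdW _ e2) (hW _ e2) ha hy₂ (hmV _ e1)
        (hmW _ e2) (wt_le_pw ψ N _ _ hC.Npos w3 w1 w4 (hW _ e2).le) (hD2 e he))
    (fun v hv => nb_triv N hC.Npos _ _ fun t ht => by
      obtain ⟨w, he, rfl⟩ := base_memW ht
      obtain ⟨-, w2, w3, -⟩ := hC.vW _ (hC.edge _ he).2.1
      exact ⟨w2, base_le_div (hV v hv) hC.bpos (hdV v hv) (hD1 _ he) rfl, w3⟩)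
  have s2 := schur_side E Prod.snd Prod.fst W N m d (wt ψ) (fun w => y₂ / (ψ w * a * d w))
    (fun v => √(y₁ / (ψ v * b * d v)) / √(m v)) (y₁ / b) 2 (by positivity)
    (fun w hw => wt_nonneg (hW w hw).le) hYW (fun w hw => (hC.vW w hw).2.1)
    (fun e he => (hC.edge e he).2.1)
    (fun e he e' he' h1 h2 h3 => Prod.ext
      (hC.injV _ (hC.edge e he).1 _ (hC.edge e' he').1 h2 h3) h1)
    (fun e he => by
      obtain ⟨e1, e2, -⟩ := hC.edge e he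
      obtain ⟨w1, -, w3, w4⟩ := hC.vV _ e1
      exact schur_pt (pw_nonneg _ _) (by exact_mod_cast hdV _ e1) (hV _ e1) hb hy₁ (hmW _ e2)
        (hmV _ e1) (wt_le_pw ψ N _ _ hC.Npos w3 w1 w4 (hV _ e1).le) (hD1 e he))
    (fun w hw => nb_triv N hC.Npos _ _ fun t ht => by
      obtain ⟨v, he, rfl⟩ := base_memV ht
      obtain ⟨-, w2, w3, -⟩ := hC.vV _ (hC.edge _ he).1
      exact ⟨w2, base_le_div (hW w hw) hC.apos (hdW w hw) (hD2 _ he) rfl, w3⟩)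
  have hpos : ∀ e ∈ E, 0 < √(y₁ / (ψ e.1 * b * d e.1)) / √(m e.1) ∧
      0 < √(y₂ / (ψ e.2 * a * d e.2)) / √(m e.2) ∧ 0 ≤ wt ψ e.1 ∧ 0 ≤ wt ψ e.2 := fun e he =>
    ⟨div_pos (sqrt_pos.2 (hYV _ (hC.edge e he).1)) (sqrt_pos.2 (hmV _ (hC.edge e he).1)),
      div_pos (sqrt_pos.2 (hYW _ (hC.edge e he).2.1)) (sqrt_pos.2 (hmW _ (hC.edge e he).2.1)),
      wt_nonneg (hV _ (hC.edge e he).1).le, wt_nonneg (hW _ (hC.edge e he).2.1).le⟩
  have cs := sum_sq_le_sum_mul_sum_of_sq_le_mul E (r := fun e => wt ψ e.1 * wt ψ e.2)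
    (f := fun e => wt ψ e.1 * wt ψ e.2 *
      (√(y₂ / (ψ e.2 * a * d e.2)) / √(m e.2) / (√(y₁ / (ψ e.1 * b * d e.1)) / √(m e.1))))
    (g := fun e => wt ψ e.2 * wt ψ e.1 *
      (√(y₁ / (ψ e.1 * b * d e.1)) / √(m e.1) / (√(y₂ / (ψ e.2 * a * d e.2)) / √(m e.2))))
    (fun e he => by
      obtain ⟨p1, p2, p3, p4⟩ := hpos e he
      positivity)
    (fun e he => by
      obtain ⟨p1, p2, p3, p4⟩ := hpos e he
      positivity)
    (fun e he => by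
      obtain ⟨p1, p2, -, -⟩ := hpos e he
      generalize √(y₁ / (ψ e.1 * b * d e.1)) / √(m e.1) = A at p1 ⊢
      generalize √(y₂ / (ψ e.2 * a * d e.2)) / √(m e.2) = B at p2 ⊢
      exact le_of_eq (by field_simp))
  have hA : 0 ≤ ∑ v ∈ V, wt ψ v := sum_nonneg fun v hv => wt_nonneg (hV v hv).le
  have hB : 0 ≤ ∑ w ∈ W, wt ψ w := sum_nonneg fun w hw => wt_nonneg (hW w hw).le
  have hfin := cs.trans (mul_le_mul s1 s2 (sum_nonneg fun e he => by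
    obtain ⟨p1, p2, p3, p4⟩ := hpos e he
    positivity) (by positivity))
  refine schur_sq (hfin.trans_eq ?_) (by positivity)
  rw [mul_pow, div_pow, mul_pow, sq_sqrt (by positivity), sq_sqrt (by positivity),
    sq_sqrt (by positivity)]
  field_simp

end Vale.Agent.P028G
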