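import Vale.Agent.P028G.HCnt
import Vale.Agent.P028G.HCon

/-! Many coincidences are rare inside a cluster. -/

namespace Vale.Agent.P028G

open Finset Real MeasureTheory Filter Vale.Agent.P028

theorem HBase_rpow {lam L s : ℝ} (h1 : 1 ≤ lam) (hL : lam ≤ L) (hs : s ≤ lam) :
    lam ^ s ≤ exp (L ^ 2) := by
  refine (rpow_le_rpow_of_exponent_le h1 hs).trans ?_
  rw [rpow_def_of_pos (by linarith), exp_le_exp, sq]
  have := log_le_sub_one_of_pos (show 0 < lam by linarith)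
  exact mul_le_mul (by linarith) hL (by linarith) (by linarith)

theorem HBase_num {ε lam L y T p : ℝ} (h0 : 0 < ε) (hl : 512 + 81 / ε ≤ lam) (hL : lam ≤ L)
    (T0 : 0 < T) (hT : log T ≤ lam) (hy : 0 < y) (hy' : 1 / y ≤ lam ^ (3 / ε))
    (hp : p ≤ exp (-(L - 1) ^ 40)) :
    (2 * T * (lam ^ (78 / ε) * exp (L ^ 35))) ^ 4 * p ≤ (1 / lam ^ 32 * min y 1) ^ 4 := by
  have e0 : 0 < 1 / ε := by positivity
  rw [div_eq_mul_one_div] at hl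
  have l1 : 1 ≤ lam := by linarith
  have L1 : 1 ≤ L := by linarith
  have a1 := HBase_rpow (s := 78 / ε) l1 hL (by rw [div_eq_mul_one_div]; linarith)
  have a2 := HBase_rpow (s := 3 / ε) l1 hL (by rw [div_eq_mul_one_div]; linarith)
  have a3 := HBase_rpow (s := (32 : ℕ)) l1 hL (by push_cast; linarith)
  rw [rpow_natCast] at a3
  have a4 : T ≤ exp L := (log_le_iff_le_exp T0).1 (hT.trans hL)
  have a5 : (2 : ℝ) ≤ exp 1 := by linarith [add_one_le_exp 1]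
  have a6 : 1 ≤ exp (L ^ 2) * min y 1 := by
    rcases min_choice y 1 with h | h <;> rw [h]
    · exact (div_le_iff₀ hy).1 (hy'.trans a2)
    · rw [mul_one]
      exact one_le_exp (by positivity)
  have a7 : 1 ≤ exp (L ^ 2) * (1 / lam ^ 32) := by
    rwa [mul_one_div, le_div_iff₀ (by positivity), one_mul]
  have m0 : 0 < 1 / lam ^ 32 * min y 1 := mul_pos (by positivity) (lt_min hy one_pos)
  have a8 : 2 * T * (lam ^ (78 / ε) * exp (L ^ 35)) ≤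
      exp (6 * L ^ 35) * (1 / lam ^ 32 * min y 1) := by
    calc _ = 2 * T * (lam ^ (78 / ε) * exp (L ^ 35)) * 1 * 1 := by ring
      _ ≤ exp 1 * exp L * (exp (L ^ 2) * exp (L ^ 35)) * (exp (L ^ 2) * (1 / lam ^ 32)) *
          (exp (L ^ 2) * min y 1) := by gcongr
      _ = exp (1 + L + (L ^ 2 + L ^ 35) + L ^ 2 + L ^ 2) * (1 / lam ^ 32 * min y 1) := by
          simp only [exp_add]
          ring
      _ ≤ _ := by
          refine mul_le_mul_of_nonneg_right (exp_le_exp.2 ?_) m0.le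
          linarith [one_le_pow₀ (n := 35) L1, le_self_pow₀ L1 (n := 35) (by norm_num),
            pow_le_pow_right₀ L1 (show 2 ≤ 35 by norm_num)]
  generalize 1 / lam ^ 32 * min y 1 = η at *
  have a9 : 4 * (6 * L ^ 35) ≤ (L - 1) ^ 40 := by
    have b1 : (L / 2) ^ 40 ≤ (L - 1) ^ 40 := pow_le_pow_left₀ (by positivity) (by linarith) _
    have b2 : L ^ 35 * 512 ^ 5 ≤ L ^ 35 * L ^ 5 := by
      gcongr
      linarith
    have b3 : (L / 2) ^ 40 = L ^ 35 * L ^ 5 / 2 ^ 40 := by ring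
    have b4 : 0 ≤ L ^ 35 := by positivity
    linarith
  refine (mul_le_mul_of_nonneg_left hp (by positivity)).trans ?_
  calc _ ≤ (exp (6 * L ^ 35) * η) ^ 4 * exp (-(L - 1) ^ 40) := by gcongr
    _ = exp (4 * (6 * L ^ 35) + -(L - 1) ^ 40) * η ^ 4 := by
        rw [exp_add, mul_pow, ← exp_nat_mul]
        push_cast
        ring
    _ ≤ 1 * η ^ 4 := by
        gcongr
        exact exp_le_one_iff.2 (by linarith)
    _ = _ := one_mul _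

theorem HBase_ll {lam : ℝ} {N n v : ℕ} (hl : 2 * (Nat.factorial 36 : ℝ) ≤ lam) (hN : 0 < N)
    (hv : 0 < v) (h1 : n ∣ N) (h2 : N / n ∣ v) (hlv : lam ≤ ll v)
    (hZ : (n : ℝ) ≤ exp (max (ll N) lam ^ 35)) : max (ll N) lam - 1 ≤ ll v := by
  rcases le_total (ll N) lam with h | h
  · rw [max_eq_right h]
    linarith
  rw [max_eq_left h] at hZ ⊢
  have f0 : (0 : ℝ) < Nat.factorial 36 := by exact_mod_cast Nat.factorial_pos 36
  have k3 := pow_div_factorial_le_exp (ll N) (by linarith) 36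
  generalize (Nat.factorial 36 : ℝ) = F at *
  have lN : 0 < log N := by
    refine (log_natCast_nonneg N).lt_of_ne fun c => ?_
    have : ll N = 0 := by rw [ll, ← c, log_zero]
    linarith
  have k1 := log_le_log (by exact_mod_cast hN) (base_NZ hv h1 h2 hZ)
  rw [log_mul (exp_pos _).ne' (by positivity), log_exp] at k1
  have k2 : exp (ll N) = log N := exp_log lN
  have k4 : 2 * ll N ^ 35 ≤ log N := by
    rw [div_le_iff₀ f0, k2] at k3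
    refine le_of_mul_le_mul_right (le_trans ?_ k3) f0
    have l0 : 0 ≤ ll N := by linarith
    calc _ = ll N ^ 35 * (2 * F) := by ring
      _ ≤ ll N ^ 35 * ll N := by
          gcongr
          linarith
      _ = _ := by ring
  have k5 : exp (ll N - 1) ≤ log v := by
    rw [exp_sub, k2, div_le_iff₀ (exp_pos 1)]
    have := mul_le_mul_of_nonneg_left (add_one_le_exp 1) (log_natCast_nonneg v)
    linarith
  exact (le_log_iff_exp_le ((exp_pos _).trans_le k5)).2 k5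

theorem HBase_tail {C lam : ℝ} {N : ℕ} (hC : 0 < C)
    (h : ∀ X : ℝ, 16 ≤ X → ∀ N : ℕ, 0 < N → (N : ℝ) ≤ X → Lam N ≤ C * log (log X)) (hN : 0 < N)
    (hl : 16 ≤ lam) :
    ∑ d' ∈ N.divisors.filter (fun d' : ℕ => exp (max (ll N) lam ^ 35) < d'), pw N d' ≤
      C / lam ^ 32 := by
  have hL : lam ≤ max (ll N) lam := le_max_right _ _
  have k1 : Lam N ≤ C * max (ll N) lam := by
    refine (h _ (le_max_right (N : ℝ) 16) N hN (le_max_left _ _)).trans ?_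
    gcongr
    rcases max_choice (N : ℝ) 16 with e | e <;> rw [e]
    · exact le_max_left _ _
    · linarith [log_le_self (log_nonneg (show (1 : ℝ) ≤ 16 by norm_num)),
        log_le_self (show (0 : ℝ) ≤ 16 by norm_num)]
  generalize max (ll N) lam = L at *
  have l0 : 0 < lam := by linarith
  have L1 : 1 ≤ L := by linarith
  refine (pw_tail N hN _ (one_lt_exp_iff.2 (by positivity))).trans ?_
  rw [log_exp, div_le_div_iff₀ (by positivity) (by positivity)]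
  calc _ ≤ C * L * L ^ 32 := by gcongr
    _ = C * L ^ 33 := by ring
    _ ≤ _ := by
        gcongr
        norm_num

/-- An endpoint with small precision and a level that is not too small. -/
def HBase_G (y T ρ K : ℝ) (ψ : ℕ → ℝ) (v w : ℕ) : Prop :=
  0 < ψ v ∧ (2 * T * K) ^ 4 * ψ v ≤ (ρ * min y 1) ^ 4 ∧ ρ * y ≤ ψ v * uu w v ∧ ψ v * uu w v ≤ y

/-- The alternative under which coincidences can be counted. -/
def HBase_A (γ y T : ℝ) (x : ℤ × ℕ) (n s : ℕ) : Prop :=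
  √T ≤ ((x.2 / Nat.gcd x.2 n : ℕ) : ℝ) ∨ √T * y * x.2 ≤ |(x.2 : ℝ) * γ - x.1| * s

theorem HBase_small {y T ρ K p : ℝ} (hT : 16 ≤ T) (hK : 1 ≤ K) (hy : 0 < y) (hρ : 0 < ρ)
    (hρ1 : ρ ≤ 1) (hp : 0 < p) (h : (2 * T * K) ^ 4 * p ≤ (ρ * min y 1) ^ 4) :
    (T * K) ^ 4 * p ≤ (ρ * y) ^ 4 ∧ (T * K) ^ 4 * p ≤ 1 ∧ 16 * p < ρ * ρ ∧ p ≤ 1 / 16 ∧
      (2 * T * K) ^ 4 * p ^ 3 ≤ ρ ^ 4 := by
  have m0 : 0 ≤ min y 1 := (lt_min hy one_pos).le
  have k0 : 16 * 1 ≤ T * K := by gcongr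
  have k1 : (T * K) ^ 4 * p ≤ (2 * T * K) ^ 4 * p := by
    gcongr
    linarith
  have k2 : (ρ * min y 1) ^ 4 ≤ (ρ * y) ^ 4 := by
    gcongr
    exact min_le_left _ _
  have k3 : (ρ * min y 1) ^ 4 ≤ ρ ^ 4 := by
    gcongr
    exact mul_le_of_le_one_right hρ.le (min_le_right _ _)
  have k4 : ρ ^ 4 ≤ ρ ^ 2 := pow_le_pow_of_le_one hρ.le hρ1 (by norm_num)
  have k5 : ρ ^ 2 ≤ 1 := pow_le_one₀ hρ.le hρ1
  have k6 : (16 * 1) ^ 4 * p ≤ (T * K) ^ 4 * p := by gcongr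
  have k7 : (2 * T * K) ^ 4 * p ^ 3 ≤ (2 * T * K) ^ 4 * p ^ 1 := by
    have := pow_le_pow_of_le_one hp.le (show p ≤ 1 by linarith) (show 1 ≤ 3 by norm_num)
    gcongr
  exact ⟨by linarith, by linarith, by linarith, by linarith, by linarith⟩

theorem HBase_side {γ y T ρ K Z Y δ σ : ℝ} {ψ : ℕ → ℝ} {v N n₀ c : ℕ} (hN : 0 < N) (hn : 0 < n₀)
    (hT : 16 ≤ T) (hK : 1 ≤ K) (hy : 0 < y) (hρ : 0 < ρ) (hρ1 : ρ ≤ 1)
    (hδ : ∑ d' ∈ N.divisors.filter (fun d' : ℕ => Z < d'), pw N d' ≤ δ)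
    (hσ : 2 * δ + 1200 * log T ^ 2 * (y / T + 1 / √T) ≤ σ) (Γ : Finset (ℕ × ℕ))
    (hΓ : ∀ t ∈ Γ, 0 < t.1 ∧ (t.1 : ℝ) ≤ Y ∧ t.2 ∣ N ∧ (Z < t.2 ∨ ∃ w, uu w v = n₀ * t.1 ∧
      uu v w = c * t.2 ∧ (n₀ : ℝ) ≤ K ∧ HBase_G y T ρ K ψ v w ∧ HBase_G y T ρ K ψ w v ∧
      Anom γ ψ T v w ∧ HBase_A γ y T (ap γ (ψ v)) n₀ (uu w v))) : nb N Γ ≤ σ * √Y := by
  have T0 : 0 < T := by linarith
  refine (nbr_or (fun t ht => (hΓ t ht).2.2.2) (c := δ * (2 * √Y))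
    (c' := 1200 * log T ^ 2 * (y / T + 1 / √T) * √Y) (fun Δ hΔ h => ?_) fun Δ hΔ h => ?_).trans
    (by linarith [mul_le_mul_of_nonneg_right hσ (sqrt_nonneg Y)])
  · exact (nbr_fib1 N Δ (N.divisors.filter fun d' : ℕ => Z < d') (fun t ht => mem_filter.2
      ⟨Nat.mem_divisors.2 ⟨(hΓ t (hΔ ht)).2.2.1, hN.ne'⟩, h t ht⟩) (2 * √Y) fun d' S hS =>
      nbr_all Y S fun n hn => ⟨(hΓ _ (hΔ (hS n hn))).1, (hΓ _ (hΔ (hS n hn))).2.1⟩).trans
      (by gcongr)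
  rcases Δ.eq_empty_or_nonempty with rfl | ⟨t0, ht0⟩
  · rw [nb, sum_empty]
    positivity
  obtain ⟨w0, -, -, nK, ⟨p0, p1, -, -⟩, -, A0, -⟩ := h t0 ht0
  have b1 := (HCon_pos (by linarith) A0).1
  obtain ⟨-, cop, m1, m2⟩ := ap_maj b1
  obtain ⟨s1, s2, -, s4, -⟩ := HBase_small hT hK hy hρ hρ1 p0 p1
  rw [← sq_abs] at m2
  have g1 : ∀ s : ℝ, 0 ≤ s → s ^ 4 * ψ v ≤ T ^ 4 →
      |((ap γ (ψ v)).2 : ℝ) * γ - (ap γ (ψ v)).1| * n₀ * s ≤ 1 := fun s s0 hs => by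
    refine le_of_pow_le_pow_left₀ (n := 4) (by norm_num) zero_le_one ?_
    calc _ = (|((ap γ (ψ v)).2 : ℝ) * γ - (ap γ (ψ v)).1| ^ 2) ^ 2 * n₀ ^ 4 * s ^ 4 := by ring
      _ ≤ ψ v ^ 2 * K ^ 4 * s ^ 4 := by gcongr
      _ = s ^ 4 * ψ v * K ^ 4 * ψ v := by ring
      _ ≤ T ^ 4 * K ^ 4 * ψ v := by gcongr
      _ ≤ _ := by linarith
  have g2 : ∀ s r : ℝ, 0 ≤ r → s ^ 4 * ψ v ≤ T ^ 4 → ρ * y ≤ ψ v * (n₀ * r) → s ≤ r := by
    intro s r r0 hs hr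
    have k : ψ v * K * s ≤ ρ * y := by
      refine le_of_pow_le_pow_left₀ (n := 4) (by norm_num) (by positivity) (le_trans ?_ s1)
      calc _ = s ^ 4 * ψ v * K ^ 4 * ψ v * ψ v ^ 2 := by ring
        _ ≤ T ^ 4 * K ^ 4 * ψ v * 1 ^ 2 := by
            gcongr
            linarith
        _ = _ := by ring
    refine le_of_mul_le_mul_left (k.trans (hr.trans ?_)) (show 0 < ψ v * K by positivity)
    rw [mul_assoc]
    gcongr
  have t1 := m1.trans (one_le_pow₀ (n := 4) (show 1 ≤ T by linarith))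
  have t2 : T ^ 4 * ψ v ≤ T ^ 4 := mul_le_of_le_one_right (by positivity) (by linarith)
  refine hb_nb γ y T Y (ap γ (ψ v)) n₀ N (fun d' => Classical.epsilon fun x =>
    ∃ s, ρ * (y / (c * d' : ℕ)) ≤ s ∧ s ≤ y / (c * d' : ℕ) ∧ Maj γ s x) (fun d' => c * d') b1 cop
    hn hN hT hy (g1 _ (Nat.cast_nonneg _) t1) (g1 _ T0.le t2) Δ fun t ht => ?_
  obtain ⟨q1, q2, q3, -⟩ := hΓ t (hΔ ht)
  obtain ⟨w, u1, u2, -, ⟨-, -, r1, r2⟩, ⟨p0', p1', r1', r2'⟩, An, Al⟩ := h t ht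
  have M' := ap_maj (HCon_pos (by linarith) An).2
  obtain ⟨z, hz, -, hS⟩ := An
  have hz' := (mem_JJ.1 hz).trans
    (mul_le_mul_of_nonneg_left ((DD_eq ψ v w).trans_le (max_le r2 r2')) zero_le_two)
  rw [HBase_A] at Al
  rw [u2] at r1' r2'
  have u0 : (0 : ℝ) < (c * t.2 : ℕ) := pos_of_mul_pos_right ((mul_pos hρ hy).trans_le r1') p0'.le
  have w1 : ρ * (y / (c * t.2 : ℕ)) ≤ ψ w := by rwa [← mul_div_assoc, div_le_iff₀ u0]
  have w2 : ψ w ≤ y / (c * t.2 : ℕ) := by rwa [le_div_iff₀ u0]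
  obtain ⟨s, x1, x2, x3⟩ := Classical.epsilon_spec (p := fun x =>
    ∃ s, ρ * (y / (c * t.2 : ℕ)) ≤ s ∧ s ≤ y / (c * t.2 : ℕ) ∧ Maj γ s x) ⟨_, _, w1, w2, M'⟩
  have ex := maj_range hρ (div_pos hy u0) (lt_of_mul_lt_mul_left (a := ρ)
    (by linarith [(HBase_small hT hK hy hρ hρ1 p0' p1').2.2.1]) hρ.le) x1 x2 w1 w2 x3 M'
  rw [u1, Nat.cast_mul] at r1 Al
  rw [u1, u2, Nat.cast_mul] at hz'
  refine ⟨q1, q2, q3, Nat.cast_le.1 (g2 _ _ (Nat.cast_nonneg _) t1 r1),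
    g2 _ _ (Nat.cast_nonneg _) t2 r1, Al, z, hz', _, fun p hp => ?_, hS⟩
  obtain ⟨hp, hp1, hp2⟩ := mem_filter.1 hp
  obtain ⟨hp, hp3, hp4⟩ := mem_filter.1 hp
  rw [u1, u2] at hp4
  rw [ex]
  exact ⟨Nat.prime_of_mem_primeFactors hp, hp1, hp2, fun k => hp3 (k.mul_left _), hp4⟩

theorem hbase (ε : ℝ) (h0 : 0 < ε) (h1 : ε ≤ 1 / 10) : ∃ C l₀ : ℝ, 0 < C ∧ 1 ≤ l₀ ∧
    ∀ (V W : Finset ℕ) (E : Finset (ℕ × ℕ)) (a b N : ℕ) (m d : ℕ → ℕ), Clu V W E a b N m d →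
    ∀ (γ : ℝ) (ψ : ℕ → ℝ), (∀ v ∈ V, 0 < ψ v ∧ ψ v ≤ exp (-ll v ^ 40)) →
    (∀ w ∈ W, 0 < ψ w ∧ ψ w ≤ exp (-ll w ^ 40)) →
    ∀ y T lam : ℝ, l₀ ≤ lam → lam ^ 200 ≤ T → log T ≤ lam → 0 < y → y ≤ lam ^ 4 →
    1 / y ≤ lam ^ (3 / ε) → (a : ℝ) ≤ lam ^ (78 / ε) → (b : ℝ) ≤ lam ^ (78 / ε) →
    (∀ e ∈ E, e.1 ≠ e.2 ∧ DD ψ e.1 e.2 ≤ y ∧ lam ≤ ll e.1 ∧ lam ≤ ll e.2 ∧
      Anom γ ψ T e.1 e.2) →
    ms (wt ψ) E ≤ C / lam ^ 16 * y / √((a : ℝ) * b) *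
      √((∑ v ∈ V, wt ψ v) * ∑ w ∈ W, wt ψ w) := by
  classical
  obtain ⟨C₀, hC0, hLam⟩ := Lam_le
  have e0 : 0 < 81 / ε := by positivity
  have f0 : (0 : ℝ) < Nat.factorial 36 := by exact_mod_cast Nat.factorial_pos 36
  refine ⟨24 * (C₀ + 6) + 4, 2 * Nat.factorial 36 + 512 + 81 / ε, by positivity, by linarith, ?_⟩
  intro V W E a b N m d hC γ ψ hV hW y T lam hl hT1 hT2 hy hy1 hy2 ha hb hE
  have l1 : 1 ≤ lam := by linarith
  have l0 : 0 < lam := by linarith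
  have hT : 16 ≤ T := le_trans (le_trans (by linarith) (le_self_pow₀ l1 (by norm_num))) hT1
  have hsT : lam ^ 100 ≤ √T := le_sqrt_of_sq_le (by rwa [← pow_mul])
  have hyT : y ≤ √T := hy1.trans ((pow_le_pow_right₀ l1 (by norm_num)).trans hsT)
  have hL : lam ≤ max (ll N) lam := le_max_right _ _
  have hll : ∀ n v : ℕ, 0 < v → n ∣ N → N / n ∣ v → lam ≤ ll v → ψ v ≤ exp (-ll v ^ 40) →
      (n : ℝ) ≤ exp (max (ll N) lam ^ 35) →
      (2 * T * (lam ^ (78 / ε) * exp (max (ll N) lam ^ 35))) ^ 4 * ψ v ≤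
        (1 / lam ^ 32 * min y 1) ^ 4 := fun n v hv h1 h2 h3 h4 h5 => by
    refine HBase_num h0 (by linarith) hL (by linarith) hT2 hy hy2 (h4.trans ?_)
    have := HBase_ll (((le_add_of_nonneg_right (by norm_num)).trans
      (le_add_of_nonneg_right e0.le)).trans hl) hC.Npos hv h1 h2 h3 h5
    rw [exp_le_exp, neg_le_neg_iff]
    exact pow_le_pow_left₀ (by linarith) this _
  have hδ := HBase_tail hC0 hLam hC.Npos (show 16 ≤ lam by linarith)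
  have hZ : 1 ≤ exp (max (ll N) lam ^ 35) := one_le_exp (by positivity)
  generalize exp (max (ll N) lam ^ 35) = Z at hll hδ hZ
  have hX : 1 ≤ lam ^ (78 / ε) := one_le_rpow l1 (by positivity)
  generalize lam ^ (78 / ε) = X at hll hX ha hb
  have hK : 1 ≤ X * Z := one_le_mul_of_one_le_of_one_le hX hZ
  have hσ : 2 * (C₀ / lam ^ 32) + 1200 * log T ^ 2 * (y / T + 1 / √T) ≤
      72 * ((C₀ + 6) / lam ^ 16) ^ 2 := by
    have s0 : 0 < √T := by positivity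
    have k1 : y / T ≤ 1 / √T := by
      rw [div_le_div_iff₀ (by linarith) s0, one_mul]
      exact (mul_le_mul_of_nonneg_right hyT s0.le).trans_eq (mul_self_sqrt (by linarith))
    have k2 : 1 / √T ≤ 1 / lam ^ 34 :=
      one_div_le_one_div_of_le (by positivity) ((pow_le_pow_right₀ l1 (by norm_num)).trans hsT)
    have k3 : log T ^ 2 * (y / T + 1 / √T) ≤ lam ^ 2 * (2 * (1 / lam ^ 34)) := by
      have := log_nonneg (show 1 ≤ T by linarith)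
      gcongr
      linarith
    have k4 : lam ^ 2 * (2 * (1 / lam ^ 34)) = 2 * (1 / lam ^ 32) := by field_simp
    have k5 : 72 * ((C₀ + 6) / lam ^ 16) ^ 2 = 72 * (C₀ + 6) ^ 2 * (1 / lam ^ 32) := by field_simp
    have k6 : (2 * C₀ + 2400) * (1 / lam ^ 32) ≤ 72 * (C₀ + 6) ^ 2 * (1 / lam ^ 32) := by
      gcongr
      nlinarith
    rw [k5, div_eq_mul_one_div C₀]
    linarith
  have hρ : 0 < 1 / lam ^ 32 := by positivity
  have hρ1 : 1 / lam ^ 32 ≤ 1 := (div_le_one (by positivity)).2 (one_le_pow₀ l1)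
  have hρ2 : √(1 / lam ^ 32 * y * y) = 1 / lam ^ 16 * y := by
    rw [← sqrt_sq (show 0 ≤ 1 / lam ^ 16 * y by positivity)]
    congr 1
    field_simp
  generalize 1 / lam ^ 32 = ρ at hll hρ hρ1 hρ2
  have hV' : ∀ v ∈ V, 0 < ψ v := fun v hv => (hV v hv).1
  have hW' : ∀ w ∈ W, 0 < ψ w := fun w hw => (hW w hw).1
  have hD : ∀ e ∈ E, ψ e.1 * uu e.2 e.1 ≤ y ∧ ψ e.2 * uu e.1 e.2 ≤ y := fun e he =>
    max_le_iff.1 ((DD_eq ψ _ _).symm.trans_le (hE e he).2.1)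
  have hs := sum_filter_add_sum_filter_not E (fun e => ψ e.1 * uu e.2 e.1 ≤ ρ * y)
    fun e => wt ψ e.1 * wt ψ e.2
  have hs' := sum_filter_add_sum_filter_not (E.filter fun e => ¬ ψ e.1 * uu e.2 e.1 ≤ ρ * y)
    (fun e => ψ e.2 * uu e.1 e.2 ≤ ρ * y) fun e => wt ψ e.1 * wt ψ e.2
  have k1 := schur2 (hC.mono (filter_subset (fun e => ψ e.1 * uu e.2 e.1 ≤ ρ * y) E)) ψ hV' hW'
    (ρ * y) y (by positivity) hy fun e he => ⟨(mem_filter.1 he).2, (hD e (mem_filter.1 he).1).2⟩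
  have k2 := schur2 (hC.mono ((filter_subset (fun e => ψ e.2 * uu e.1 e.2 ≤ ρ * y) _).trans
    (filter_subset (fun e => ¬ ψ e.1 * uu e.2 e.1 ≤ ρ * y) E))) ψ hV' hW' y (ρ * y) hy
    (by positivity) fun e he =>
      ⟨(hD e (mem_filter.1 (mem_filter.1 he).1).1).1, (mem_filter.1 he).2⟩
  rw [hρ2] at k1
  rw [mul_comm y, hρ2] at k2
  have sub := (filter_subset (fun e => ¬ ψ e.2 * uu e.1 e.2 ≤ ρ * y) _).trans
    (filter_subset (fun e => ¬ ψ e.1 * uu e.2 e.1 ≤ ρ * y) E)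
  have hG : ∀ v w, (v, w) ∈ (E.filter fun e => ¬ ψ e.1 * uu e.2 e.1 ≤ ρ * y).filter
      (fun e => ¬ ψ e.2 * uu e.1 e.2 ≤ ρ * y) → (d v : ℝ) ≤ Z → (d w : ℝ) ≤ Z →
      HBase_G y T ρ (X * Z) ψ v w ∧ HBase_G y T ρ (X * Z) ψ w v := fun v w he z1 z2 => by
    obtain ⟨he, n2⟩ := mem_filter.1 he
    obtain ⟨he, n1⟩ := mem_filter.1 he
    obtain ⟨hv, hw, -⟩ := hC.edge _ he
    obtain ⟨v1, -, v3, v4⟩ := hC.vV _ hv
    obtain ⟨w1, -, w3, w4⟩ := hC.vW _ hw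
    exact ⟨⟨hV' _ hv, hll _ _ v1 v3 v4 (hE _ he).2.2.1 (hV _ hv).2 z1, (not_le.1 n1).le,
      (hD _ he).1⟩, hW' _ hw, hll _ _ w1 w3 w4 (hE _ he).2.2.2.1 (hW _ hw).2 z2,
      (not_le.1 n2).le, (hD _ he).2⟩
  have hu : ∀ v w, (v, w) ∈ E → uu w v = b * d v * m w ∧ uu v w = a * d w * m v := fun v w he => by
    obtain ⟨-, -, u1, u2, -⟩ := hC.edge _ he
    rw [uu, uu, Nat.gcd_comm w v]
    exact ⟨u2.trans (mul_right_comm _ _ _), u1.trans (mul_right_comm _ _ _)⟩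
  have hn : ∀ c n : ℕ, (c : ℝ) ≤ X → (n : ℝ) ≤ Z → ((c * n : ℕ) : ℝ) ≤ X * Z := fun c n h h' => by
    push_cast
    gcongr
  have dV : ∀ v ∈ V, 0 < b * d v := fun v hv =>
    Nat.mul_pos hC.bpos (Nat.pos_of_dvd_of_pos (hC.vV v hv).2.2.1 hC.Npos)
  have dW : ∀ w ∈ W, 0 < a * d w := fun w hw =>
    Nat.mul_pos hC.apos (Nat.pos_of_dvd_of_pos (hC.vW w hw).2.2.1 hC.Npos)
  have k3 := base_two (hC.mono sub) ψ hV' hW' y hy (fun e he => (hE e (sub he)).2.1)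
    (fun v w => Z < d w ∨ ((d v : ℝ) ≤ Z ∧ (d w : ℝ) ≤ Z ∧
      HBase_A γ y T (ap γ (ψ v)) (b * d v) (uu w v))) _ ((C₀ + 6) / lam ^ 16) (by positivity)
    (by positivity) le_rfl
    (fun v hv Γ hΓ => HBase_side (c := a * m v) hC.Npos (dV v hv) hT hK hy hρ hρ1 hδ hσ Γ
      fun t ht => by
      obtain ⟨w, he, hp, rfl⟩ := hΓ t ht
      obtain ⟨q1, q2, q3⟩ := base_factW hC ψ hV' (sub he) (hE _ (sub he)).2.1
      refine ⟨q1, q2, q3, hp.imp_right fun ⟨z1, z2, z3⟩ => ⟨w, (hu _ _ (sub he)).1,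
        (hu _ _ (sub he)).2.trans (mul_right_comm _ _ _), hn _ _ hb z1, (hG _ _ he z1 z2).1,
        (hG _ _ he z1 z2).2, (hE _ (sub he)).2.2.2.2, z3⟩⟩)
    (fun w hw Γ hΓ => HBase_side (c := b * m w) hC.Npos (dW w hw) hT hK hy hρ hρ1 hδ hσ Γ
      fun t ht => by
      obtain ⟨v, he, hp, rfl⟩ := hΓ t ht
      obtain ⟨q1, q2, q3⟩ := base_factV hC ψ hW' (sub he) (hE _ (sub he)).2.1
      refine ⟨q1, q2, q3, (lt_or_ge Z (d v)).imp_right fun z1 => ?_⟩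
      have z2 : (d w : ℝ) ≤ Z := not_lt.1 fun c => hp (Or.inl c)
      obtain ⟨G1, G2⟩ := hG _ _ he z1 z2
      obtain ⟨u1, u2⟩ := hu _ _ (sub he)
      obtain ⟨ne, hd, -, -, An⟩ := hE _ (sub he)
      have hv := (hC.edge _ (sub he)).1
      refine ⟨v, u2, u1.trans (mul_right_comm _ _ _), hn _ _ ha z2, G2, G1,
        An.symm (hC.vV _ hv).1, ?_⟩
      by_contra c'
      have c : ¬ HBase_A γ y T (ap γ (ψ v)) (b * d v) (uu w v) := fun c => hp (Or.inr ⟨z1, z2, c⟩)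
      rw [HBase_A, not_or, not_le, not_le] at c c'
      obtain ⟨-, -, -, s1, s2⟩ := HBase_small hT hK hy hρ hρ1 G1.1 G1.2.1
      obtain ⟨-, -, -, s1', s2'⟩ := HBase_small hT hK hy hρ hρ1 G2.1 G2.2.1
      exact hb_contra (hC.vV _ hv).1 (hC.vW _ hw).1 ne G1.1 G2.1 s1 s1' An hd hT hyT hρ (dV _ hv)
        (dW _ hw) (Dvd.intro _ u1.symm) (Dvd.intro _ u2.symm) (hn _ _ hb z1) (hn _ _ ha z2)
        G1.2.2.1 G2.2.2.1 s2 s2' c c')
  unfold ms at k1 k2 k3 ⊢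
  rw [← hs, ← hs']
  refine (add_le_add k1 (add_le_add k2 k3)).trans_eq ?_
  ring

end Vale.Agent.P028G
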