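import Vale.Agent.P028G.Thin
import Vale.Agent.P028G.Crt

/-! Counting coincidences of the excluded classes. -/

namespace Vale.Agent.P028G

open Finset Real MeasureTheory Filter Vale.Agent.P028

theorem HCnt_cls (T : Finset ℤ) {m : ℕ} (hm : 0 < m) {D : ℝ} (hD : 0 ≤ D)
    (h : ∀ a ∈ T, ∀ b ∈ T, (m : ℤ) ∣ a - b ∧ (a : ℝ) - b ≤ D) : (T.card : ℝ) ≤ D / m + 1 := by
  rcases T.eq_empty_or_nonempty with rfl | ⟨a0, h0⟩
  · simp only [card_empty, Nat.cast_zero]; positivity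
  have hm' : (0 : ℝ) < m := Nat.cast_pos.2 hm
  have e : ∀ a ∈ T, (m : ℤ) * ((a - a0) / m) = a - a0 := fun a ha =>
    Int.mul_ediv_cancel' (h a ha a0 h0).1
  rw [← card_image_of_injOn (f := fun a => (a - a0) / (m : ℤ)) fun a ha b hb hab => by
    have h1 := e a ha
    have h2 := e b hb
    simp only at hab
    rw [hab] at h1
    omega]
  refine cnt_int _ (by positivity) fun a ha b hb => ?_
  obtain ⟨a, ha', rfl⟩ := mem_image.1 ha
  obtain ⟨b, hb', rfl⟩ := mem_image.1 hb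
  have h1 : (m : ℝ) * (((a - a0) / m : ℤ) : ℝ) = a - a0 := by exact_mod_cast e a ha'
  have h2 : (m : ℝ) * (((b - a0) / m : ℤ) : ℝ) = b - a0 := by exact_mod_cast e b hb'
  rw [le_div_iff₀ hm']
  linarith [(h a ha' b hb').2]

theorem HCnt_len {δ Y w V t : ℝ} (hδ : 0 ≤ δ) (hY : 0 < Y) (hw : 0 < w) (hV : 0 < V) (ht : 1 ≤ t)
    (h : V ≤ t ∨ V * w ≤ 2 * δ * Y) : ∃ L, 0 ≤ L ∧ L ≤ Y ∧ δ * L ≤ 4 * w ∧ L / t ≤ 8 * (Y / V) ∧
      ∀ d, d ≤ Y → δ * d ≤ 4 * w → d ≤ L := by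
  have h1 : ∀ L, 0 ≤ L → L ≤ Y → V ≤ t → L / t ≤ 8 * (Y / V) := fun L h0 h1 h2 => by
    have : L / t ≤ Y / V := div_le_div₀ hY.le h1 hV h2
    have : 0 < Y / V := by positivity
    linarith
  have h2 : ∀ L, 0 ≤ L → L * V ≤ 8 * Y → L / t ≤ 8 * (Y / V) := fun L h0 h1 => by
    refine (div_le_self h0 ht).trans ?_
    rwa [← mul_div_assoc, le_div_iff₀ hV]
  rcases le_or_gt (δ * Y) (4 * w) with h3 | h3
  · refine ⟨Y, hY.le, le_rfl, h3, h.elim (h1 Y hY.le le_rfl) fun h4 => h2 Y hY.le ?_,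
      fun d hd _ => hd⟩
    have : V ≤ 8 := le_of_mul_le_mul_right (by linarith) hw
    nlinarith
  · have d0 : 0 < δ := hδ.lt_of_ne (by rintro rfl; linarith)
    have h4 : 4 * w / δ ≤ Y := by rw [div_le_iff₀ d0]; linarith
    refine ⟨4 * w / δ, by positivity, h4, by rw [mul_div_cancel₀ _ d0.ne'],
      h.elim (h1 _ (by positivity) h4) fun h5 => h2 _ (by positivity) ?_, fun d _ hd => ?_⟩
    · rw [div_mul_eq_mul_div, div_le_iff₀ d0]; linarith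
    · rw [le_div_iff₀ d0]; linarith

theorem HCnt_num {δ Y y V t g p L : ℝ} (hδ : 0 ≤ δ) (hY : 0 < Y) (hy : 0 < y) (hV : 2 ≤ V)
    (ht : 1 ≤ t) (hg : 1 ≤ g) (hp : 1 ≤ p) (hL0 : 0 ≤ L) (hLY : L ≤ Y)
    (hL : δ * L ≤ 4 * (y * (g * t))) (hLt : L / t ≤ 8 * (Y / V)) (hδV : δ * V ^ 2 ≤ 1)
    (hB : g * t ≤ 2 * Y) (hVY : V ^ 2 ≤ 2 * Y) :
    ((δ * Y + 4 * (y * (g * t))) / p / g + 1) * (L / t + 1) ≤ 100 * (y / p + 1 / V) * Y := by
  have V0 : 0 < V := by linarith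
  have p0 : 0 < p := by linarith
  have e : ((δ * Y + 4 * (y * (g * t))) / p / g + 1) * (L / t + 1) =
      δ * L / (g * t) * (Y / p) + δ * Y / (p * g) + 4 * (y / p * L) + 4 * (y / p * t) +
        L / t + 1 := by
    field_simp; ring
  have a0 : 0 < y / p := by positivity
  have a1 : δ * L / (g * t) * (Y / p) ≤ 4 * (y / p * Y) := by
    have : δ * L / (g * t) ≤ 4 * y := by rw [div_le_iff₀ (by positivity)]; linarith
    calc _ ≤ 4 * y * (Y / p) := mul_le_mul_of_nonneg_right this (by positivity)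
      _ = _ := by ring
  have a2 : δ * Y / (p * g) ≤ Y / V := by
    refine (div_le_self (by positivity) (one_le_mul_of_one_le_of_one_le hp hg)).trans ?_
    rw [le_div_iff₀ V0]
    have : δ * V ≤ 1 := by nlinarith [mul_nonneg hδ V0.le]
    nlinarith
  have a3 := mul_le_mul_of_nonneg_left hLY a0.le
  have a4 : y / p * t ≤ y / p * (2 * Y) :=
    mul_le_mul_of_nonneg_left (le_trans (by nlinarith) hB) a0.le
  have a5 : 1 ≤ Y / V := by rw [le_div_iff₀ V0]; nlinarith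
  have a6 : 0 < y / p * Y := by positivity
  have e2 : 100 * (y / p + 1 / V) * Y = 100 * (y / p * Y) + 100 * (Y / V) := by ring
  rw [e, e2]
  linarith

theorem hcnt {γ y V : ℝ} {x : ℤ × ℕ} {n₀ u p : ℕ} {c : ℤ} (hp : p.Prime) (hx1 : 1 ≤ x.2)
    (hx : IsCoprime x.1 (x.2 : ℤ)) (hpB : ¬ p ∣ x.2) (hn : 0 < n₀) (hV : 2 ≤ V) (hy : 0 < y)
    (hθ : |(x.2 : ℝ) * γ - x.1| * n₀ * x.2 ≤ 1) (hθ' : |(x.2 : ℝ) * γ - x.1| * n₀ * V ^ 2 ≤ 1)
    (S : Finset ℕ)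
    (hS : ∀ n ∈ S, (∃ h : ℤ, |(h : ℝ) + γ * ((n₀ : ℝ) * n - u)| ≤ 2 * y ∧
        (p : ℤ) ∣ (x.2 : ℤ) * h + x.1 * (n₀ * n) - c) ∧ x.2 ≤ n ∧ V ^ 2 ≤ n ∧
      (V ≤ ((x.2 / Nat.gcd x.2 n₀ : ℕ) : ℝ) ∨
        V * y * x.2 ≤ |(x.2 : ℝ) * γ - x.1| * (n₀ * n))) :
    Thin S (100 * (y / p + 1 / V)) := by
  intro Y hY
  obtain ⟨A, B⟩ := x
  simp only at *
  set S' := S.filter fun n : ℕ => Y ≤ n ∧ (n : ℝ) < 2 * Y with hS'
  have V0 : 0 < V := by linarith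
  have p1 : (1 : ℝ) ≤ p := by exact_mod_cast hp.one_le
  rcases S'.eq_empty_or_nonempty with h0 | ⟨n1, hn1⟩
  · rw [h0, card_empty, Nat.cast_zero]; positivity
  obtain ⟨t, n', hcop, hBt, hn'⟩ := Nat.exists_coprime B n₀
  have g0 : 0 < Nat.gcd B n₀ := Nat.gcd_pos_of_pos_right _ hn
  have et : B / Nat.gcd B n₀ = t := Nat.div_eq_of_eq_mul_left g0 hBt
  rw [et] at hS
  generalize Nat.gcd B n₀ = g at *
  have t0 : 0 < t := Nat.pos_of_mul_pos_right (hBt ▸ hx1)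
  have t1 : (1 : ℝ) ≤ t := by exact_mod_cast t0
  have g1 : (1 : ℝ) ≤ g := by exact_mod_cast g0
  have eB : (B : ℝ) = g * t := by rw [hBt]; push_cast; ring
  set θ := (B : ℝ) * γ - A with hθd
  set δ := |θ| * n₀ with hδ
  have d0 : 0 ≤ δ := by positivity
  have hz : ∀ n ∈ S, ∃ z : ℤ, |(p : ℝ) * z + θ * n₀ * n + (c - B * γ * u)| ≤ 2 * (y * B) ∧
      (B : ℤ) ∣ p * z + c - A * (n₀ * n) := fun n hn => by
    obtain ⟨⟨h, h1, z, h2⟩, -⟩ := hS n hn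
    refine ⟨z, ?_, h, by linarith⟩
    have h3 : (p : ℝ) * z = B * h + A * (n₀ * n) - c := by exact_mod_cast h2.symm
    have h4 : (p : ℝ) * z + θ * n₀ * n + (c - B * γ * u) = B * (h + γ * (n₀ * n - u)) := by
      rw [h3, hθd]; ring
    rw [h4, abs_mul, Nat.abs_cast]
    nlinarith [mul_le_mul_of_nonneg_left h1 (Nat.cast_nonneg B)]
  choose! z hz1 hz2 using hz
  have m1 := fun n (hn : n ∈ S') => mem_filter.1 hn
  obtain ⟨-, b1, b2, b3⟩ := hS n1 (m1 n1 hn1).1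
  have b4 := (m1 n1 hn1).2.2
  have b5 : (B : ℝ) ≤ n1 := by exact_mod_cast b1
  obtain ⟨L, hL0, hLY, hL, hLt, hLd⟩ := HCnt_len (δ := δ) (w := y * B) d0 hY
    (by rw [eB]; positivity) V0 t1 (b3.imp_right fun h => by
      have := mul_le_mul_of_nonneg_left b4.le d0
      rw [← mul_assoc, ← hδ] at h
      linarith)
  have dif : ∀ n ∈ S', ∀ n' ∈ S', (n : ℝ) - n' ≤ Y ∧
      |(p : ℝ) * (z n - z n') + θ * n₀ * (n - n')| ≤ 4 * (y * B) ∧
      (B : ℤ) ∣ p * (z n - z n') - A * (n₀ * (n - n')) := fun n hn n' hn' => by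
    refine ⟨by linarith [(m1 n hn).2.2, (m1 n' hn').2.1], ?_, ?_⟩
    · have h1 := abs_le.1 (hz1 n (m1 n hn).1)
      have h2 := abs_le.1 (hz1 n' (m1 n' hn').1)
      exact abs_le.2 ⟨by linarith [h1.1, h2.2], by linarith [h1.2, h2.1]⟩
    · have := dvd_sub (hz2 n (m1 n hn).1) (hz2 n' (m1 n' hn').1)
      rwa [show (p : ℤ) * z n + c - A * (n₀ * n) - (p * z n' + c - A * (n₀ * n')) =
        p * (z n - z n') - A * (n₀ * (n - n')) by ring] at this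
  refine (cnt_fib S' z (A := L / t + 1) (B := (δ * Y + 4 * (y * B)) / p / g + 1) (by positivity)
    (fun k => ?_) ?_).trans ?_
  · rw [← card_image_of_injective _ (Nat.cast_injective (R := ℤ))]
    refine HCnt_cls _ t0 hL0 fun a ha b hb => ?_
    obtain ⟨a, ha', rfl⟩ := mem_image.1 ha
    obtain ⟨b, hb', rfl⟩ := mem_image.1 hb
    obtain ⟨ha1, ha2⟩ := mem_filter.1 ha'
    obtain ⟨hb1, hb2⟩ := mem_filter.1 hb'
    obtain ⟨c1, c2, c3⟩ := dif a ha1 b hb1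
    rw [ha2, hb2, sub_self, mul_zero] at c2 c3
    constructor
    · rw [zero_sub, dvd_neg] at c3
      have c4 := hx.symm.dvd_of_dvd_mul_left c3
      rw [hBt, hn'] at c4
      push_cast at c4
      rw [mul_right_comm, mul_dvd_mul_iff_right (by exact_mod_cast g0.ne')] at c4
      exact (Nat.isCoprime_iff_coprime.2 hcop).dvd_of_dvd_mul_left c4
    · push_cast
      refine hLd _ c1 ?_
      rw [zero_add, abs_mul, abs_mul, Nat.abs_cast] at c2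
      exact (mul_le_mul_of_nonneg_left (le_abs_self _) d0).trans c2
  · refine HCnt_cls _ g0 (by positivity) fun a ha b hb => ?_
    obtain ⟨a, ha', rfl⟩ := mem_image.1 ha
    obtain ⟨b, hb', rfl⟩ := mem_image.1 hb
    obtain ⟨c1, c2, c3⟩ := dif a ha' b hb'
    constructor
    · have c4 : (g : ℤ) ∣ B := by rw [hBt]; push_cast; exact dvd_mul_left _ _
      have c5 : (g : ℤ) ∣ A * (n₀ * (a - b)) := by
        rw [hn']; push_cast
        exact ((dvd_mul_left _ _).mul_right _).mul_left _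
      have c6 := dvd_add (c4.trans c3) c5
      rw [sub_add_cancel] at c6
      refine (Nat.isCoprime_iff_coprime.2 ?_).dvd_of_dvd_mul_left c6
      exact ((hp.coprime_iff_not_dvd.2 hpB).coprime_dvd_right (Int.natCast_dvd_natCast.1 c4)).symm
    · have c4 : |θ * n₀ * ((a : ℝ) - b)| ≤ δ * Y := by
        rw [abs_mul, abs_mul, Nat.abs_cast]
        exact mul_le_mul_of_nonneg_left (abs_sub_le_iff.2 ⟨c1, (dif b hb' a ha').1⟩) d0
      rw [le_div_iff₀ (by linarith)]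
      linarith [(abs_le.1 c2).2, (abs_le.1 c4).1]
  · rw [eB] at hL b5 ⊢
    exact HCnt_num d0 hY hy hV t1 g1 p1 hL0 hLY hL hLt hθ' (by linarith) (by linarith)

theorem hb_nb (γ y T Y : ℝ) (x : ℤ × ℕ) (n₀ N : ℕ) (x' : ℕ → ℤ × ℕ) (u : ℕ → ℕ)
    (hx1 : 1 ≤ x.2) (hx : IsCoprime x.1 (x.2 : ℤ)) (hn : 0 < n₀) (hN : 0 < N) (hT : 16 ≤ T)
    (hy : 0 < y) (hθ : |(x.2 : ℝ) * γ - x.1| * n₀ * x.2 ≤ 1)
    (hθ' : |(x.2 : ℝ) * γ - x.1| * n₀ * T ≤ 1) (Γ : Finset (ℕ × ℕ))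
    (hΓ : ∀ t ∈ Γ, 0 < t.1 ∧ (t.1 : ℝ) ≤ Y ∧ t.2 ∣ N ∧ x.2 ≤ t.1 ∧ T ≤ t.1 ∧
      (√T ≤ ((x.2 / Nat.gcd x.2 n₀ : ℕ) : ℝ) ∨
        √T * y * x.2 ≤ |(x.2 : ℝ) * γ - x.1| * (n₀ * t.1)) ∧
      ∃ h : ℤ, |(h : ℝ) + γ * ((n₀ : ℝ) * t.1 - u t.2)| ≤ 2 * y ∧ ∃ I : Finset ℕ,
        (∀ p ∈ I, p.Prime ∧ T < p ∧ (p : ℝ) ≤ T ^ 2 ∧ ¬ p ∣ x.2 * (x' t.2).2 ∧
          (p : ℤ) ∣ HH x (x' t.2) (u t.2) (n₀ * t.1) h) ∧ 1 / log T ≤ ∑ p ∈ I, 1 / (p : ℝ)) :
    nb N Γ ≤ 1200 * log T ^ 2 * (y / T + 1 / √T) * √Y := by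
  classical
  have T0 : 0 < T := by linarith
  have l1 : 1 ≤ log T := by
    rw [le_log_iff_exp_le T0]; linarith [exp_one_lt_d9]
  have s4 : 2 ≤ √T := le_sqrt_of_sq_le (by linarith)
  refine nbr_div N hN Γ (fun t ht => (hΓ t ht).2.2.1) _ fun d S hS => ?_
  set I := (Icc 1 ⌊T ^ 2⌋₊).filter fun p : ℕ => p.Prime ∧ T < p ∧ ¬ p ∣ x.2 * (x' d).2 with hI
  have h1 := thin_moment I S (fun p n => ∃ h : ℤ, |(h : ℝ) + γ * ((n₀ : ℝ) * n - u d)| ≤ 2 * y ∧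
    (p : ℤ) ∣ HH x (x' d) (u d) (n₀ * n) h) (fun p => log T / p) (fun p => 100 * (y / p + 1 / √T))
    (fun p _ => by positivity) (fun n hn => ?_) fun p hp S' hS' hP => ?_
  · have h2 : ∑ p ∈ I, log T / p * (100 * (y / p + 1 / √T)) ≤
        300 * log T ^ 2 * (y / T + 1 / √T) := by
      have h3 : ∑ p ∈ I, 1 / (p : ℝ) ≤ 3 * log T := by
        refine (sum_le_sum_of_subset_of_nonneg (filter_subset _ _) fun _ _ _ => by
          positivity).trans ?_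
        have h4 := harmonic_le_one_add_log ⌊T ^ 2⌋₊
        rw [harmonic_eq_sum_Icc] at h4
        push_cast at h4
        have h5 : log (⌊T ^ 2⌋₊ : ℕ) ≤ log (T ^ 2) :=
          log_le_log (Nat.cast_pos.2 (Nat.floor_pos.2 (by nlinarith))) (Nat.floor_le (by positivity))
        rw [log_pow] at h5
        push_cast at h5
        simp only [one_div]
        linarith
      calc _ ≤ ∑ p ∈ I, 1 / (p : ℝ) * (100 * log T * (y / T + 1 / √T)) := by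
            refine sum_le_sum fun p hp => ?_
            have h4 : y / p ≤ y / T := div_le_div_of_nonneg_left hy.le T0 (mem_filter.1 hp).2.2.1.le
            calc _ ≤ log T / p * (100 * (y / T + 1 / √T)) :=
                  mul_le_mul_of_nonneg_left (by linarith) (by positivity)
              _ = _ := by ring
        _ ≤ 3 * log T * (100 * log T * (y / T + 1 / √T)) := by
            rw [← sum_mul]
            exact mul_le_mul_of_nonneg_right h3 (by positivity)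
        _ = _ := by ring
    refine (thin_sqrt (by positivity) (h1.mono Subset.rfl h2) fun n hn =>
      ⟨(hΓ _ (hS n hn)).1, (hΓ _ (hS n hn)).2.1⟩).trans_eq ?_
    ring
  · obtain ⟨-, -, -, -, -, -, h, h2, J, h3, h4⟩ := hΓ _ (hS n hn)
    refine ⟨J, fun p hp => ?_, fun p hp => ⟨h, h2, (h3 p hp).2.2.2.2⟩, ?_⟩
    · obtain ⟨a1, a2, a3, a4, -⟩ := h3 p hp
      exact mem_filter.2 ⟨mem_Icc.2 ⟨a1.one_le, Nat.le_floor a3⟩, a1, a2, a4⟩
    · rw [div_le_iff₀ (by linarith), sum_mul] at h4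
      exact h4.trans_eq (sum_congr rfl fun p _ => by ring)
  · obtain ⟨-, a1, -, a2⟩ := mem_filter.1 hp
    obtain ⟨cl, hcl⟩ := one_class a1 (-((x' d).1 * x.2 * u d)) (x' d).2 fun h =>
      a2 ((Int.natCast_dvd_natCast.1 h).mul_left _)
    refine hcnt (γ := γ) (u := u d) (c := cl) a1 hx1 hx (fun h => a2 (h.mul_right _)) hn s4 hy hθ
      (by rwa [sq_sqrt T0.le]) S' fun n hn' => ?_
    obtain ⟨-, -, -, b1, b2, b3, -⟩ := hΓ _ (hS n (hS' hn'))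
    obtain ⟨h, h2, h3⟩ := hP n hn'
    refine ⟨⟨h, h2, (hcl _).1 ?_⟩, b1, by rwa [sq_sqrt T0.le], b3⟩
    rwa [show ((x.2 : ℤ) * h + x.1 * (n₀ * n)) * (x' d).2 + -((x' d).1 * x.2 * u d) =
      HH x (x' d) (u d) (n₀ * n) h by unfold HH; push_cast; ring]

end Vale.Agent.P028G
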