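import Vale.Agent.P028G.HBase

/-! Many coincidences are rare. -/

namespace Vale.Agent.P028G

open Finset Real MeasureTheory Filter Vale.Agent.P028

theorem hlevel (ε : ℝ) (h0 : 0 < ε) (h1 : ε ≤ 1 / 12) : ∃ C l₀ : ℝ, 0 < C ∧ 1 ≤ l₀ ∧
    ∀ (γ : ℝ) (ψ : ℕ → ℝ) (B : Finset ℕ), (∀ q, 0 ≤ ψ q) →
    (∀ q ∈ B, 0 < q ∧ 0 < ψ q ∧ ψ q ≤ exp (-ll q ^ 40)) →
    ∀ y T lam : ℝ, l₀ ≤ lam → lam ^ 200 ≤ T → log T ≤ lam → 0 < y → y ≤ lam ^ 4 →
    1 / y ≤ lam ^ (3 / ε) → ∀ E : Finset (ℕ × ℕ),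
    (∀ e ∈ E, e.1 ∈ B ∧ e.2 ∈ B ∧ e.1 ≠ e.2 ∧ DD ψ e.1 e.2 ≤ y ∧ lam ≤ ll e.1 ∧ lam ≤ ll e.2 ∧
      Anom γ ψ T e.1 e.2) →
    ms (wt ψ) E ≤ C * y ^ (1 - 2 * ε) / lam ^ 13 * (∑ q ∈ B, wt ψ q) ^ (1 + 2 * ε) := by
  classical
  have h2 : ε ≤ 1 / 10 := by linarith
  obtain ⟨K, hK, hgen⟩ := level_gen ε h0 h2
  obtain ⟨ζ, hζ0, hζ⟩ := zeta_bound ε h0
  obtain ⟨ζ', hζ0', hζ'⟩ := zeta_bound (ε / 2) (by linarith)
  obtain ⟨C, l₀, hC, hl₀, hb⟩ := hbase ε h0 h2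
  have ht2 := th_ge h0 h2
  have ht3 := th_le h2
  set a1 : ℝ := (C ^ (1 - 2 * ε)) ^ th ε with ha1
  set a2 : ℝ := ((2 : ℝ) ^ (1 - 2 * ε)) ^ th ε with ha2
  have ha1p : 0 < a1 := by positivity
  have ha2p : 0 < a2 := by positivity
  refine ⟨(K * (ζ ^ 2 * a1 + ζ' ^ 2 * a2)) ^ (1 / th ε), l₀, by positivity, hl₀, ?_⟩
  intro γ ψ B hψ hB y T lam hl hT hlT hy hy4 hy3 E hE
  have hl1 : 1 ≤ lam := hl₀.trans hl
  have hl0 : 0 < lam := by linarith
  set X : ℝ := lam ^ (78 / ε) with hX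
  rw [mul_div_assoc]
  refine hgen ψ B hψ (fun q hq => (hB q hq).1) E (fun e he => ⟨(hE e he).1, (hE e he).2.1⟩)
    (fun a b => if (a : ℝ) ≤ X ∧ (b : ℝ) ≤ X then C / lam ^ 16 * y else 2 * y)
    (fun a b => by split_ifs <;> positivity) _ (y ^ (1 - 2 * ε) / lam ^ 13) (by positivity)
    (by positivity) ?_ ?_
  · intro S hS
    have g1 : ((C / lam ^ 16 * y) ^ (1 - 2 * ε)) ^ th ε ≤
        a1 * (y ^ (1 - 2 * ε) / lam ^ 13) ^ th ε := by
      rw [ha1, ← mul_rpow (by positivity) (by positivity)]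
      refine rpow_le_rpow (by positivity) ?_ (by linarith)
      rw [div_mul_eq_mul_div, div_rpow (by positivity) (by positivity), mul_rpow hC.le hy.le,
        mul_div_assoc]
      refine mul_le_mul_of_nonneg_left (div_le_div_of_nonneg_left (by positivity) (by positivity)
        ?_) (by positivity)
      rw [← rpow_natCast lam 16, ← rpow_mul hl0.le, ← rpow_natCast lam 13]
      refine rpow_le_rpow_of_exponent_le hl1 ?_
      push_cast
      linarith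
    have g2 : X ^ (-(ε / 2)) * ((2 * y) ^ (1 - 2 * ε)) ^ th ε ≤
        a2 * (y ^ (1 - 2 * ε) / lam ^ 13) ^ th ε := by
      rw [ha2, mul_rpow (by norm_num) hy.le, mul_rpow (by positivity) (by positivity),
        div_rpow (by positivity) (by positivity), mul_left_comm, div_eq_inv_mul (_ ^ th ε),
        ← rpow_natCast lam 13, ← rpow_mul hl0.le, ← rpow_mul hl0.le, ← rpow_neg hl0.le]
      refine mul_le_mul_of_nonneg_left (mul_le_mul_of_nonneg_right
        (rpow_le_rpow_of_exponent_le hl1 ?_) (by positivity)) (by positivity)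
      have : 78 / ε * -(ε / 2) = -39 := by field_simp; norm_num
      rw [this]
      push_cast
      linarith
    have g4 : ∑ t ∈ S.filter fun t => ¬((t.1 : ℝ) ≤ X ∧ (t.2 : ℝ) ≤ X),
        ((t.1 : ℝ) * t.2) ^ (-(1 + ε)) ≤ ζ' ^ 2 * X ^ (-(ε / 2)) := by
      refine le_trans (sum_le_sum (g := fun t : ℕ × ℕ =>
        ((t.1 : ℝ) * t.2) ^ (-(1 + ε / 2)) * X ^ (-(ε / 2))) fun t ht => ?_) ?_
      · have k1 : (1 : ℝ) ≤ t.1 := by exact_mod_cast (hS t (mem_filter.1 ht).1).1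
        have k2 : (1 : ℝ) ≤ t.2 := by exact_mod_cast (hS t (mem_filter.1 ht).1).2
        have k3 : X ≤ (t.1 : ℝ) * t.2 := by
          rcases not_and_or.1 (mem_filter.1 ht).2 with h | h
          · exact (not_le.1 h).le.trans (le_mul_of_one_le_right (by linarith) k2)
          · exact (not_le.1 h).le.trans (le_mul_of_one_le_left (by linarith) k1)
        rw [show -(1 + ε) = -(1 + ε / 2) + -(ε / 2) by ring, rpow_add (by positivity)]
        exact mul_le_mul_of_nonneg_left (rpow_le_rpow_of_nonpos (by positivity) k3 (by linarith))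
          (by positivity)
      · rw [← sum_mul]
        exact mul_le_mul_of_nonneg_right (level_zeta hζ0' hζ' _
          fun t ht => hS t (mem_filter.1 ht).1) (by positivity)
    have g5 := level_zeta hζ0 hζ (S.filter fun t => (t.1 : ℝ) ≤ X ∧ (t.2 : ℝ) ≤ X)
      fun t ht => hS t (mem_filter.1 ht).1
    rw [← sum_filter_add_sum_filter_not S fun t => (t.1 : ℝ) ≤ X ∧ (t.2 : ℝ) ≤ X,
      sum_congr rfl fun t ht => by rw [if_pos (mem_filter.1 ht).2],
      sum_congr (s₁ := S.filter fun t => ¬((t.1 : ℝ) ≤ X ∧ (t.2 : ℝ) ≤ X)) rfl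
        fun t ht => by rw [if_neg (mem_filter.1 ht).2], ← sum_mul, ← sum_mul]
    have g7 := mul_le_mul g5 g1 (by positivity) (by positivity)
    have g8 := mul_le_mul_of_nonneg_right g4
      (show 0 ≤ ((2 * y) ^ (1 - 2 * ε)) ^ th ε by positivity)
    have g9 := mul_le_mul_of_nonneg_left g2 (sq_nonneg ζ')
    linarith
  · intro V hV W hW E' hE' a b N m d hC'
    by_cases hg : (a : ℝ) ≤ X ∧ (b : ℝ) ≤ X
    · rw [if_pos hg]
      exact hb V W E' a b N m d hC' γ ψ (fun v hv => (hB v (hV hv)).2)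
        (fun v hv => (hB v (hW hv)).2) y T lam hl hT hlT hy hy4 hy3 hg.1 hg.2
        fun e he => (hE e (hE' he)).2.2
    · rw [if_neg hg]
      exact base_triv hC' ψ (fun v hv => (hB v (hV hv)).2.1) (fun v hv => (hB v (hW hv)).2.1) y hy
        fun e he => (hE e (hE' he)).2.2.2.1

end Vale.Agent.P028G
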