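import Vale.Agent.P028G.Far
import Vale.Agent.P028G.HLevel

/-! One level for small approximating functions. -/

namespace Vale.Agent.P028G

open Finset Real MeasureTheory Filter Vale.Agent.P028

theorem LevelA_split {α : Type*} (E : Finset α) (F base w : α → ℝ) (An : ℕ → α → Prop)
    (c : ℕ → ℝ) (G : ℝ) (hG : 0 ≤ G)
    (hpt : ∀ e ∈ E, F e ≤ base e ∨ ∃ i, An i e ∧ F e ≤ base e + c i * w e)
    (hsum : ∀ i, ∀ E' ⊆ E, (∀ e ∈ E', An i e) → c i * ∑ e ∈ E', w e ≤ G * (1 / 2) ^ i) :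
    ∑ e ∈ E, F e ≤ ∑ e ∈ E, base e + 2 * G := by
  classical
  let P : α → Prop := fun e => ∃ i, An i e ∧ F e ≤ base e + c i * w e
  let idx : α → ℕ := fun e => if h : P e then h.choose else 0
  have hidx : ∀ e, P e → An (idx e) e ∧ F e ≤ base e + c (idx e) * w e := by
    intro e h
    have : idx e = h.choose := dif_pos h
    rw [this]
    exact h.choose_spec
  have h1 : ∑ e ∈ E, F e ≤ ∑ e ∈ E, (base e + if P e then c (idx e) * w e else 0) := by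
    refine sum_le_sum fun e he => ?_
    by_cases h : P e
    · rw [if_pos h]; exact (hidx e h).2
    · rw [if_neg h, add_zero]; exact (hpt e he).resolve_right h
  rw [sum_add_distrib, ← sum_filter] at h1
  refine h1.trans (add_le_add le_rfl ?_)
  rw [← sum_fiberwise_of_maps_to (s := E.filter P) (t := (E.filter P).image idx) (g := idx)
    (fun e he => mem_image_of_mem _ he)]
  have h2 : ∀ i ∈ (E.filter P).image idx,
      ∑ e ∈ (E.filter P).filter (fun e => idx e = i), c (idx e) * w e ≤ G * (1 / 2) ^ i := by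
    intro i _
    have e1 : ∑ e ∈ (E.filter P).filter (fun e => idx e = i), c (idx e) * w e =
        c i * ∑ e ∈ (E.filter P).filter (fun e => idx e = i), w e := by
      rw [mul_sum]
      exact sum_congr rfl fun e he => by rw [(mem_filter.1 he).2]
    rw [e1]
    refine hsum i _ ((filter_subset _ _).trans (filter_subset _ _)) fun e he => ?_
    have := (hidx e (mem_filter.1 (mem_filter.1 he).1).2).1
    rwa [(mem_filter.1 he).2] at this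
  refine (sum_le_sum h2).trans ?_
  rw [← mul_sum, mul_comm]
  refine mul_le_mul_of_nonneg_right ?_ hG
  exact (summable_geometric_two.sum_le_tsum _ fun i _ => by positivity).trans_eq tsum_geometric_two

theorem LevelA_Tmin : ∃ T₁ : ℝ, 8 ≤ T₁ ∧ ∀ T, T₁ ≤ T → log T ^ 200 ≤ T := by
  have h := (isLittleO_pow_log_id_atTop (n := 200)).bound one_pos
  obtain ⟨a, ha⟩ := eventually_atTop.1 h
  refine ⟨max a 8, le_max_right _ _, fun T hT => ?_⟩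
  have h1 := ha T ((le_max_left _ _).trans hT)
  have h2 : 0 ≤ T := by linarith [le_max_right a 8]
  simp only [id, one_mul, norm_eq_abs] at h1
  rw [abs_of_nonneg h2] at h1
  exact (le_abs_self _).trans h1

theorem LevelA_log_le {y a : ℝ} (hy : 1 ≤ y) (ha : 0 < a) : 1 + log y ≤ (1 + 1 / a) * y ^ a := by
  have h1 := log_le_rpow_div (by linarith : 0 ≤ y) ha
  have h2 : 1 ≤ y ^ a := one_le_rpow hy ha.le
  have e : (1 + 1 / a) * y ^ a = y ^ a + y ^ a / a := by ring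
  linarith

/-- the scale `mu` -/
theorem LevelA_mu {ε : ℝ} (h0 : 0 < ε) (h1 : ε ≤ 1 / 12) {l y : ℝ} (hl : 1 ≤ l) (hy : 0 < y) :
    ∃ μ : ℝ, l ≤ μ ∧ y ≤ μ ^ 4 ∧ 1 / y ≤ μ ^ (3 / ε) ∧
      (∀ z, l ≤ z → y ≤ z ^ 4 → 1 / y ≤ z ^ (3 / ε) → μ ≤ z) ∧ log μ ≤ log l + |log y| ∧
      (4 + 2 / y) * y ^ (1 - 2 * ε) ≤ 6 * μ ^ 6 ∧
      1 ≤ μ ^ 2 * min (y ^ (ε / 2)) (y ^ (-(ε / 2))) := by
  set a := y ^ (1 / 4 : ℝ) with ha
  set b := y ^ (-(ε / 3)) with hb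
  have ha0 : 0 < a := rpow_pos_of_pos hy _
  have hb0 : 0 < b := rpow_pos_of_pos hy _
  have ha4 : a ^ 4 = y := by
    rw [ha, ← rpow_natCast, ← rpow_mul hy.le]; norm_num
  have hb3 : b ^ (3 / ε) = 1 / y := by
    rw [hb, ← rpow_mul hy.le, one_div, ← rpow_neg_one]
    congr 1
    field_simp
  set μ := max l (max a b) with hμ
  have hlμ : l ≤ μ := le_max_left _ _
  have haμ : a ≤ μ := (le_max_left _ _).trans (le_max_right _ _)
  have hbμ : b ≤ μ := (le_max_right _ _).trans (le_max_right _ _)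
  have hμ1 : 1 ≤ μ := hl.trans hlμ
  have hll : 0 ≤ log l := log_nonneg hl
  refine ⟨μ, hlμ, ?_, ?_, ?_, ?_, ?_, ?_⟩
  · rw [← ha4]; exact pow_le_pow_left₀ ha0.le haμ 4
  · rw [← hb3]; exact rpow_le_rpow hb0.le hbμ (by positivity)
  · intro z hz h4 h3
    have hz0 : 0 ≤ z := by linarith
    refine max_le hz (max_le ?_ ?_)
    · rw [← ha4] at h4
      exact (pow_le_pow_iff_left₀ ha0.le hz0 (by norm_num)).1 h4
    · rw [← hb3] at h3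
      exact (rpow_le_rpow_iff hb0.le hz0 (by positivity)).1 h3
  · have e1 : log a ≤ log l + |log y| := by
      rw [ha, log_rpow hy]
      nlinarith [le_abs_self (log y), abs_nonneg (log y)]
    have e2 : log b ≤ log l + |log y| := by
      rw [hb, log_rpow hy]
      nlinarith [neg_abs_le (log y), abs_nonneg (log y)]
    have e3 : log l ≤ log l + |log y| := by linarith [abs_nonneg (log y)]
    rcases max_choice l (max a b) with h | h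
    · rw [hμ, h]; exact e3
    · rcases max_choice a b with h' | h'
      · rw [hμ, h, h']; exact e1
      · rw [hμ, h, h']; exact e2
  · have e : (4 + 2 / y) * y ^ (1 - 2 * ε) = 4 * y ^ (1 - 2 * ε) + 2 * y ^ (-(2 * ε)) := by
      have : y ^ (1 - 2 * ε) = y * y ^ (-(2 * ε)) := by
        rw [sub_eq_add_neg, rpow_add hy, rpow_one]
      rw [add_mul, this]
      field_simp
    rw [e]
    rcases le_total 1 y with h | h
    · have e1 : y ^ (1 - 2 * ε) ≤ y := by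
        simpa using rpow_le_rpow_of_exponent_le h (by linarith : 1 - 2 * ε ≤ 1)
      have e2 : y ^ (-(2 * ε)) ≤ 1 := rpow_le_one_of_one_le_of_nonpos h (by linarith)
      have e3 : y ≤ μ ^ 6 := by
        calc y = a ^ 4 := ha4.symm
          _ ≤ μ ^ 4 := pow_le_pow_left₀ ha0.le haμ 4
          _ ≤ μ ^ 6 := pow_le_pow_right₀ hμ1 (by norm_num)
      linarith
    · have e1 : y ^ (1 - 2 * ε) ≤ y ^ (-(2 * ε)) :=
        rpow_le_rpow_of_exponent_ge hy h (by linarith)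
      have e2 : y ^ (-(2 * ε)) = b ^ 6 := by
        rw [hb, ← rpow_natCast, ← rpow_mul hy.le]
        congr 1
        push_cast
        ring
      have e3 : b ^ 6 ≤ μ ^ 6 := pow_le_pow_left₀ hb0.le hbμ 6
      linarith
  · rcases le_total 1 y with h | h
    · rw [min_eq_right (rpow_le_rpow_of_exponent_le h (by linarith))]
      have e1 : a ^ 2 * y ^ (-(ε / 2)) = y ^ (1 / 2 - ε / 2) := by
        rw [ha, ← rpow_natCast, ← rpow_mul hy.le, ← rpow_add hy]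
        congr 1
        push_cast
        ring
      have e2 : 1 ≤ y ^ (1 / 2 - ε / 2) := one_le_rpow h (by linarith)
      have e3 : a ^ 2 ≤ μ ^ 2 := pow_le_pow_left₀ ha0.le haμ 2
      have e4 := mul_le_mul_of_nonneg_right e3 (rpow_pos_of_pos hy (-(ε / 2))).le
      linarith
    · rw [min_eq_left (rpow_le_rpow_of_exponent_ge hy h (by linarith))]
      have e1 : b ^ 2 * y ^ (ε / 2) = y ^ (-(ε / 6)) := by
        rw [hb, ← rpow_natCast, ← rpow_mul hy.le, ← rpow_add hy]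
        congr 1
        push_cast
        ring
      have e2 : 1 ≤ y ^ (-(ε / 6)) := one_le_rpow_of_pos_of_le_one_of_nonpos hy h (by linarith)
      have e3 : b ^ 2 ≤ μ ^ 2 := pow_le_pow_left₀ hb0.le hbμ 2
      have e4 := mul_le_mul_of_nonneg_right e3 (rpow_pos_of_pos hy (ε / 2)).le
      linarith

theorem LevelA_big {K L y : ℝ} (hK : 0 ≤ K) (hy : 1 ≤ y) (hL0 : 0 ≤ L)
    (hL : L ≤ K * (1 + |log y|)) : (4 : ℝ) ^ (2 + |log y| / 8) * L ^ 2 ≤ 400 * K ^ 2 * y := by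
  have hy0 : 0 < y := by linarith
  have hlog : 0 ≤ log y := log_nonneg hy
  rw [abs_of_nonneg hlog] at hL ⊢
  set a := y ^ (1 / 4 : ℝ) with ha
  have ha1 : 1 ≤ a := one_le_rpow hy (by norm_num)
  have ha4 : a ^ 4 = y := by
    rw [ha, ← rpow_natCast, ← rpow_mul hy0.le]; norm_num
  have h1 : (4 : ℝ) ^ (2 + log y / 8) ≤ 16 * a := by
    rw [rpow_add (by norm_num), ha, rpow_def_of_pos hy0, rpow_def_of_pos (by norm_num : (0 : ℝ) < 4) (log y / 8)]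
    have e : (4 : ℝ) ^ (2 : ℝ) = 16 := by norm_num
    rw [e]
    refine mul_le_mul_of_nonneg_left (exp_le_exp.2 ?_) (by norm_num)
    have h4 : log 4 ≤ 2 := by
      have : log 4 = 2 * log 2 := by
        rw [show (4 : ℝ) = 2 ^ 2 by norm_num, log_pow]; norm_num
      linarith [log_two_lt_d9]
    nlinarith
  have h2 : 1 + log y ≤ 5 * a := by
    have := LevelA_log_le hy (a := 1 / 4) (by norm_num)
    norm_num at this
    simpa [ha] using this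
  have h3 : L ≤ K * (5 * a) := hL.trans (mul_le_mul_of_nonneg_left h2 hK)
  have h4 : L ^ 2 ≤ (K * (5 * a)) ^ 2 := pow_le_pow_left₀ hL0 h3 2
  have h5 : a ^ 3 ≤ a ^ 4 := pow_le_pow_right₀ ha1 (by norm_num)
  calc (4 : ℝ) ^ (2 + log y / 8) * L ^ 2 ≤ 16 * a * (K * (5 * a)) ^ 2 :=
        mul_le_mul h1 h4 (by positivity) (by positivity)
    _ = 400 * K ^ 2 * a ^ 3 := by ring
    _ ≤ 400 * K ^ 2 * y := by rw [← ha4]; gcongr

theorem LevelA_small {ε K L y : ℝ} (h0 : 0 < ε) (hK : 0 ≤ K) (hy0 : 0 < y) (hy : y ≤ 1)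
    (hL : L ≤ K * (1 + |log y|)) : L / y ≤ K * (1 + 2 / ε) * y ^ (-(1 + ε / 2)) := by
  have h1 : 1 ≤ y⁻¹ := one_le_inv_iff₀.2 ⟨hy0, hy⟩
  have h2 := LevelA_log_le h1 (a := ε / 2) (by positivity)
  have e1 : |log y| = log y⁻¹ := by
    rw [log_inv, abs_of_nonpos (log_nonpos hy0.le hy)]
  have e2 : y ^ (-(1 + ε / 2)) = y⁻¹ ^ (ε / 2) / y := by
    rw [inv_rpow hy0.le, ← rpow_neg hy0.le, neg_add, rpow_add hy0, rpow_neg_one]
    field_simp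
  have e3 : 1 + 1 / (ε / 2) = 1 + 2 / ε := by field_simp
  rw [e3, ← e1] at h2
  rw [e2, ← mul_div_assoc]
  refine div_le_div_of_nonneg_right ?_ hy0.le
  rw [mul_assoc]
  exact hL.trans (mul_le_mul_of_nonneg_left h2 hK)

theorem LevelA_tail {ε y : ℝ} (h0 : 0 < ε) (h1 : ε ≤ 1 / 12) (hy : 0 < y) :
    max 1 (y ^ (-(1 + ε / 2))) * (y ^ (1 - 2 * ε) * exp (-(16 * (2 + |log y| / 8)))) ≤
      min (y ^ (ε / 2)) (y ^ (-(ε / 2))) := by
  rcases le_total 1 y with h | h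
  · have hlog : 0 ≤ log y := log_nonneg h
    rw [max_eq_left (rpow_le_one_of_one_le_of_nonpos h (by linarith)),
      min_eq_right (rpow_le_rpow_of_exponent_le h (by linarith)), abs_of_nonneg hlog, one_mul,
      rpow_def_of_pos hy, rpow_def_of_pos hy, ← exp_add]
    exact exp_le_exp.2 (by nlinarith)
  · have hlog : log y ≤ 0 := log_nonpos hy.le h
    rw [max_eq_right (one_le_rpow_of_pos_of_le_one_of_nonpos hy h (by linarith)),
      min_eq_left (rpow_le_rpow_of_exponent_ge hy h (by linarith)), abs_of_nonpos hlog,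
      rpow_def_of_pos hy, rpow_def_of_pos hy, rpow_def_of_pos hy, ← exp_add, ← exp_add]
    exact exp_le_exp.2 (by nlinarith)

theorem LevelA_Mx {ε y : ℝ} (h0 : 0 < ε) (hy : 0 < y) :
    4 + 2 / y ≤ 6 * max 1 (y ^ (-(1 + ε / 2))) := by
  rcases le_total 1 y with h | h
  · have : 2 / y ≤ 2 := div_le_self (by norm_num) h
    linarith [le_max_left 1 (y ^ (-(1 + ε / 2)))]
  · have e1 : y ^ (-1 : ℝ) ≤ y ^ (-(1 + ε / 2)) := rpow_le_rpow_of_exponent_ge hy h (by linarith)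
    rw [rpow_neg_one] at e1
    have e2 : 2 / y = 2 * y⁻¹ := div_eq_mul_inv _ _
    linarith [le_max_left 1 (y ^ (-(1 + ε / 2))), le_max_right 1 (y ^ (-(1 + ε / 2)))]

/-- all parameters of a level -/
theorem LevelA_par {ε : ℝ} (h0 : 0 < ε) (h1 : ε ≤ 1 / 12) {l : ℝ} (hl : 1 ≤ l) :
    ∃ K : ℝ, 0 < K ∧ ∀ y : ℝ, 0 < y → ∃ μ T₀ : ℝ, l ≤ μ ∧ y ≤ μ ^ 4 ∧ 1 / y ≤ μ ^ (3 / ε) ∧
      (∀ z, l ≤ z → y ≤ z ^ 4 → 1 / y ≤ z ^ (3 / ε) → μ ≤ z) ∧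
      (4 + 2 / y) * y ^ (1 - 2 * ε) ≤ 6 * μ ^ 6 ∧
      1 ≤ μ ^ 2 * min (y ^ (ε / 2)) (y ^ (-(ε / 2))) ∧ 2 + |log y| / 8 ≤ T₀ ∧ 8 ≤ T₀ ∧
      μ ^ 200 ≤ T₀ ∧ (∀ T, T₀ ≤ T → log T ^ 200 ≤ T) ∧
      (1 ≤ y → (4 : ℝ) ^ (2 + |log y| / 8) * log T₀ ^ 2 ≤ K * y) ∧
      (y ≤ 1 → log T₀ / y ≤ K * max 1 (y ^ (-(1 + ε / 2)))) := by
  obtain ⟨T₁, hT8, hT₁⟩ := LevelA_Tmin
  have hll : 0 ≤ log l := log_nonneg hl
  have hl1 : 0 ≤ log T₁ := log_nonneg (by linarith)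
  set K₀ := 200 * log l + 200 + log T₁ with hK₀
  have hK0 : 0 < K₀ := by positivity
  refine ⟨400 * K₀ ^ 2 + K₀ * (1 + 2 / ε), by positivity, fun y hy => ?_⟩
  obtain ⟨μ, a1, a2, a3, a4, a5, a6, a7⟩ := LevelA_mu h0 h1 hl hy
  set t := 2 + |log y| / 8 with ht
  set T₀ := max (μ ^ 200) (max t T₁) with hT₀
  have b1 : t ≤ T₀ := (le_max_left _ _).trans (le_max_right _ _)
  have b2 : T₁ ≤ T₀ := (le_max_right _ _).trans (le_max_right _ _)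
  have habs := abs_nonneg (log y)
  have hlog : log T₀ ≤ K₀ * (1 + |log y|) := by
    rcases max_choice (μ ^ 200) (max t T₁) with h | h
    · rw [hT₀, h, log_pow]
      push_cast
      nlinarith
    · rcases max_choice t T₁ with h' | h'
      · rw [hT₀, h, h']
        have := log_le_sub_one_of_pos (by positivity : 0 < t)
        nlinarith
      · rw [hT₀, h, h']
        nlinarith
  refine ⟨μ, T₀, a1, a2, a3, a4, a6, a7, b1, hT8.trans b2, le_max_left _ _,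
    fun T hT => hT₁ T (b2.trans hT), fun h => ?_, fun h => ?_⟩
  · have := LevelA_big hK0.le h (log_nonneg (by linarith)) hlog
    have h2 : 0 ≤ K₀ * (1 + 2 / ε) * y := by positivity
    linarith
  · have := LevelA_small h0 hK0.le hy h hlog
    have h2 : K₀ * (1 + 2 / ε) * y ^ (-(1 + ε / 2)) ≤
        (400 * K₀ ^ 2 + K₀ * (1 + 2 / ε)) * max 1 (y ^ (-(1 + ε / 2))) :=
      mul_le_mul (by nlinarith [sq_nonneg K₀]) (le_max_right _ _) (rpow_pos_of_pos hy _).le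
        (by positivity)
    linarith

theorem LevelA_pt : ∃ C : ℝ, 0 < C ∧ ∀ (γ : ℝ) (ψ : ℕ → ℝ) (q r : ℕ) (y t T : ℝ), 0 < q → 0 < r →
    0 < y → y / 2 < DD ψ q r → 2 ≤ t → t ≤ T →
    (∀ h ∈ JJ γ (DD ψ q r) q r, chi (ap γ (ψ q)) (ap γ (ψ r)) q r h ≠ 0 →
      L3 (ap γ (ψ q)) (ap γ (ψ r)) q r h T ≤ 1) →
    SC γ ψ q r / DD ψ q r ≤ (4 + 2 / y) * (C * log T * exp (2 * Lt t (uu q r * uu r q))) := by
  obtain ⟨C, hC, h⟩ := chi_pt
  refine ⟨C * exp 2, by positivity, fun γ ψ q r y t T hq hr hy hD ht hT hL => ?_⟩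
  have hD0 : 0 < DD ψ q r := by linarith
  have hlT : 0 ≤ log T := log_nonneg (by linarith)
  set X := C * exp 2 * log T * exp (2 * Lt t (uu q r * uu r q)) with hX
  have hX0 : 0 ≤ X := by positivity
  have h1 : SC γ ψ q r ≤ (4 * DD ψ q r + 1) * X := by
    refine le_trans ?_ (mul_le_mul_of_nonneg_right (card_JJ (γ := γ) hD0.le q r) hX0)
    rw [← nsmul_eq_mul]
    refine sum_le_card_nsmul _ _ _ fun a ha => ?_
    by_cases hc : chi (ap γ (ψ q)) (ap γ (ψ r)) q r a = 0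
    · rw [hc]; exact hX0
    · refine (h _ _ q r a T hq hr (ht.trans hT)).trans ?_
      have e1 : exp (2 * Lt T (uu q r * uu r q)) ≤ exp (2 * Lt t (uu q r * uu r q)) :=
        exp_le_exp.2 (by linarith [Lt_anti hT (uu q r * uu r q)])
      have e2 : exp (2 * L3 (ap γ (ψ q)) (ap γ (ψ r)) q r a T) ≤ exp 2 :=
        exp_le_exp.2 (by linarith [hL a ha hc])
      calc _ ≤ C * log T * exp (2 * Lt t (uu q r * uu r q)) * exp 2 := by gcongr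
        _ = X := by rw [hX]; ring
  rw [div_le_iff₀ hD0]
  refine h1.trans ?_
  have h2 : 1 ≤ 2 / y * DD ψ q r := by
    rw [div_mul_eq_mul_div, le_div_iff₀ hy]; linarith
  nlinarith

theorem LevelA_ptA (K : ℝ) (hK : 0 < K) : ∃ C : ℝ, 0 < C ∧ ∀ (γ : ℝ) (ψ : ℕ → ℝ) (q r : ℕ)
    (y t T Mx : ℝ), 0 < q → 0 < r → 0 < y → y / 2 < DD ψ q r → 2 ≤ t → t ≤ T → 1 ≤ Mx →
    (1 ≤ y → (4 : ℝ) ^ t * log T ^ 2 ≤ K * y) → (y ≤ 1 → log T / y ≤ K * Mx) →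
    (∀ h ∈ JJ γ (DD ψ q r) q r, chi (ap γ (ψ q)) (ap γ (ψ r)) q r h ≠ 0 →
      L3 (ap γ (ψ q)) (ap γ (ψ r)) q r h T ≤ 1) →
    SC γ ψ q r / DD ψ q r ≤ C * Mx * exp (2 * Lt t (uu q r * uu r q)) := by
  obtain ⟨C1, hC1, h1⟩ := LevelA_pt
  obtain ⟨C2, hC2, h2⟩ := hsum
  obtain ⟨C3, hC3, h3⟩ := prod_two_le
  refine ⟨6 * C1 * K + C2 * (6 + 2 * C3 * K) * exp 2, by positivity,
    fun γ ψ q r y t T Mx hq hr hy hD ht hT hM hb hs hL => ?_⟩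
  have hD0 : 0 < DD ψ q r := by linarith
  have hlT : 0 ≤ log T := log_nonneg (by linarith)
  set X := exp (2 * Lt t (uu q r * uu r q)) with hX
  have hX0 : 0 < X := exp_pos _
  rcases le_total y 1 with h | h
  · refine (h1 γ ψ q r y t T hq hr hy hD ht hT hL).trans ?_
    have e1 : 4 + 2 / y ≤ 6 / y := by
      rw [le_div_iff₀ hy, add_mul, div_mul_cancel₀ _ hy.ne']; linarith
    calc (4 + 2 / y) * (C1 * log T * X) ≤ 6 / y * (C1 * log T * X) := by gcongr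
      _ = 6 * C1 * (log T / y) * X := by ring
      _ ≤ 6 * C1 * (K * Mx) * X := by gcongr; exact hs h
      _ = 6 * C1 * K * Mx * X := by ring
      _ ≤ _ := by gcongr; exact le_add_of_nonneg_right (by positivity)
  · have e1 := h2 γ (DD ψ q r) t T 1 _ _ q r hq hr hD0.le ht hT hL
    have e2 := h3 T (ht.trans hT) ((Nat.gcd q r).primeFactors.filter fun p : ℕ => (p : ℝ) ≤ T)
      fun p hp => ⟨Nat.prime_of_mem_primeFactors (mem_filter.1 hp).1, (mem_filter.1 hp).2⟩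
    have e3 : (4 : ℝ) ^ t * ∏ p ∈ (Nat.gcd q r).primeFactors.filter (fun p : ℕ => (p : ℝ) ≤ T),
        (1 + 2 / (p : ℝ)) ≤ C3 * (K * y) := by
      calc _ ≤ (4 : ℝ) ^ t * (C3 * log T ^ 2) := by gcongr
        _ = C3 * ((4 : ℝ) ^ t * log T ^ 2) := by ring
        _ ≤ _ := mul_le_mul_of_nonneg_left (hb h) hC3.le
    have e4 : C3 * (K * y) ≤ 2 * C3 * K * DD ψ q r := by
      have : C3 * K * y ≤ C3 * K * (2 * DD ψ q r) := by gcongr; linarith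
      linarith
    rw [div_le_iff₀ hD0]
    refine e1.trans ?_
    rw [mul_one]
    calc _ ≤ C2 * ((6 + 2 * C3 * K) * DD ψ q r) * X * exp 2 := by gcongr; linarith
      _ = C2 * (6 + 2 * C3 * K) * exp 2 * 1 * X * DD ψ q r := by ring
      _ ≤ _ := by gcongr; exact le_add_of_nonneg_left (by positivity)

theorem LevelA_exp (L : ℝ) : exp (2 * L) ≤ exp 2 + if 1 < L then exp (4 * L) else 0 := by
  split_ifs with h
  · have : exp (2 * L) ≤ exp (4 * L) := exp_le_exp.2 (by linarith)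
    linarith [exp_pos (2 : ℝ)]
  · rw [add_zero]; exact exp_le_exp.2 (by linarith)

theorem LevelA_exp2 (L : ℝ) {lam : ℝ} (hl : 1 ≤ lam) :
    lam * exp (2 * L) ≤ (exp 2 + 1) * lam ^ 2 + if 1 < L then exp (4 * L) else 0 := by
  have h2 := exp_pos (2 : ℝ)
  split_ifs with h
  · have e : exp (4 * L) = exp (2 * L) ^ 2 := by
      rw [← exp_nat_mul]; congr 1; push_cast; ring
    rw [e]
    nlinarith [sq_nonneg (lam - exp (2 * L)), mul_pos h2 (by positivity : 0 < lam ^ 2),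
      exp_pos (2 * L)]
  · have e : exp (2 * L) ≤ exp 2 := exp_le_exp.2 (by linarith)
    have e1 : lam * exp (2 * L) ≤ lam * exp 2 := by gcongr
    have e2 : lam ≤ lam ^ 2 := by nlinarith
    nlinarith

theorem LevelA_lam {μ lam m : ℝ} {i : ℕ} (hμ : 1 ≤ μ) (h1 : μ ≤ lam) (h2 : (2 : ℝ) ^ i ≤ lam)
    (hm0 : 0 ≤ m) (hm : 1 ≤ μ ^ 2 * m) : μ ^ 6 * lam ^ 2 / lam ^ 13 ≤ m * (1 / 2) ^ i := by
  have hl : 1 ≤ lam := hμ.trans h1
  have hl0 : 0 < lam := by linarith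
  have e1 : μ ^ 6 ≤ lam ^ 6 := pow_le_pow_left₀ (by linarith) h1 6
  have e2 : μ ^ 2 ≤ lam ^ 2 := pow_le_pow_left₀ (by linarith) h1 2
  have e3 : 1 ≤ lam * (1 / 2) ^ i := by
    rw [one_div, inv_pow, ← div_eq_mul_inv, le_div_iff₀ (by positivity)]; linarith
  have e4 : 1 ≤ lam ^ 2 * m := hm.trans (mul_le_mul_of_nonneg_right e2 hm0)
  have e5 : (1 : ℝ) ≤ lam ^ 2 := one_le_pow₀ hl
  rw [div_le_iff₀ (by positivity)]
  calc μ ^ 6 * lam ^ 2 ≤ lam ^ 6 * lam ^ 2 * 1 * 1 * 1 := by rw [mul_one, mul_one, mul_one]; gcongr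
    _ ≤ lam ^ 6 * lam ^ 2 * (lam ^ 2 * m) * (lam * (1 / 2) ^ i) * lam ^ 2 := by gcongr
    _ = _ := by ring

theorem LevelA_edge (K : ℝ) (hK : 0 < K) : ∃ K1 C2 : ℝ, 0 < K1 ∧ 0 < C2 ∧ ∀ (γ : ℝ) (ψ : ℕ → ℝ)
    (q r : ℕ) (y t T₀ Mx μ : ℝ), (∀ q, 0 ≤ ψ q) → 0 < q → 0 < r → 0 < y → y / 2 < DD ψ q r →
    2 ≤ t → t ≤ T₀ → 8 ≤ T₀ → 1 ≤ Mx → 1 ≤ μ → 4 + 2 / y ≤ 6 * Mx →
    (1 ≤ y → (4 : ℝ) ^ t * log T₀ ^ 2 ≤ K * y) → (y ≤ 1 → log T₀ / y ≤ K * Mx) →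
    SS γ ψ q r ≤ K1 * Mx * (wt ψ q * wt ψ r * (exp 2 + if 1 < Lt t (uu q r * uu r q) then
      exp (4 * Lt t (uu q r * uu r q)) else 0)) ∨ ∃ i : ℕ, Anom γ ψ (T₀ ^ 2 ^ i) q r ∧
    SS γ ψ q r ≤ K1 * Mx * (wt ψ q * wt ψ r * (exp 2 + if 1 < Lt t (uu q r * uu r q) then
      exp (4 * Lt t (uu q r * uu r q)) else 0)) +
      C2 * (4 + 2 / y) * max μ (log (T₀ ^ 2 ^ i)) ^ 2 * (wt ψ q * wt ψ r) := by
  obtain ⟨C1, hC1, hA⟩ := LevelA_ptA K hK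
  obtain ⟨C2, hC2, hB⟩ := LevelA_pt
  refine ⟨C1 + 12 * C2, 2 * C2 * (exp 2 + 1), by positivity, by positivity, ?_⟩
  intro γ ψ q r y t T₀ Mx μ hψ hq hr hy b4 ht2 a7 a8 hM1 hμ1 hMx a11 a12
  have eS : SS γ ψ q r = wt ψ q * wt ψ r * (SC γ ψ q r / DD ψ q r) := by
    simp only [SS]; ring
  have hwe : 0 ≤ wt ψ q * wt ψ r := mul_nonneg (wt_nonneg (hψ _)) (wt_nonneg (hψ _))
  have hy2 : 0 ≤ 4 + 2 / y := by positivity
  have x1 := LevelA_exp (Lt t (uu q r * uu r q))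
  have x2 := fun lam hl => LevelA_exp2 (Lt t (uu q r * uu r q)) (lam := lam) hl
  have hXe : 0 ≤ if 1 < Lt t (uu q r * uu r q) then exp (4 * Lt t (uu q r * uu r q)) else 0 := by
    split_ifs
    · exact (exp_pos _).le
    · exact le_rfl
  rw [eS]
  generalize (if 1 < Lt t (uu q r * uu r q) then exp (4 * Lt t (uu q r * uu r q)) else 0) = X
    at x1 x2 hXe
  generalize wt ψ q * wt ψ r = w at hwe
  rcases top_anom γ ψ hq hr a8 with h | ⟨i, hi, h⟩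
  · left
    have e1 := hA γ ψ q r y t T₀ Mx hq hr hy b4 ht2 a7 hM1 a11 a12 h
    calc _ ≤ w * (C1 * Mx * exp (2 * Lt t (uu q r * uu r q))) := mul_le_mul_of_nonneg_left e1 hwe
      _ ≤ w * ((C1 + 12 * C2) * Mx * (exp 2 + X)) := by
          gcongr
          linarith
      _ = _ := by ring
  · right
    refine ⟨i, hi, ?_⟩
    have hTi : T₀ ≤ T₀ ^ 2 ^ i := le_self_pow₀ (by linarith) (pow_ne_zero i two_ne_zero)
    have hT2 : t ≤ (T₀ ^ 2 ^ i) ^ 2 := a7.trans (hTi.trans (le_self_pow₀ (by linarith) two_ne_zero))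
    have e1 := hB γ ψ q r y t _ hq hr hy b4 ht2 hT2 h
    have e3 : log ((T₀ ^ 2 ^ i) ^ 2) ≤ 2 * max μ (log (T₀ ^ 2 ^ i)) := by
      rw [log_pow]
      push_cast
      linarith [le_max_right μ (log (T₀ ^ 2 ^ i))]
    have e2 := x2 _ (hμ1.trans (le_max_left μ (log (T₀ ^ 2 ^ i))))
    generalize max μ (log (T₀ ^ 2 ^ i)) = lam at e2 e3
    have e4 : (4 + 2 / y) * (2 * C2) * (w * X) ≤ (C1 + 12 * C2) * Mx * (w * (exp 2 + X)) := by
      have f1 : (4 + 2 / y) * (2 * C2) ≤ (C1 + 12 * C2) * Mx := by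
        have : (4 + 2 / y) * (2 * C2) ≤ 6 * Mx * (2 * C2) := by gcongr
        have f2 : 0 ≤ C1 * Mx := by positivity
        nlinarith
      have f3 : X ≤ exp 2 + X := le_add_of_nonneg_left (exp_pos _).le
      gcongr
    have e5 := exp_pos (2 * Lt t (uu q r * uu r q))
    generalize exp (2 * Lt t (uu q r * uu r q)) = Y at e1 e2 e5
    calc _ ≤ w * ((4 + 2 / y) * (C2 * log ((T₀ ^ 2 ^ i) ^ 2) * Y)) :=
          mul_le_mul_of_nonneg_left e1 hwe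
      _ ≤ w * ((4 + 2 / y) * (C2 * (2 * lam) * Y)) := by gcongr
      _ = w * ((4 + 2 / y) * (2 * C2)) * (lam * Y) := by ring
      _ ≤ w * ((4 + 2 / y) * (2 * C2)) * ((exp 2 + 1) * lam ^ 2 + X) := by gcongr
      _ = (4 + 2 / y) * (2 * C2) * (w * X) +
          2 * C2 * (exp 2 + 1) * (4 + 2 / y) * lam ^ 2 * w := by ring
      _ ≤ _ := add_le_add e4 le_rfl

theorem LevelA_anom (ε : ℝ) (h0 : 0 < ε) (h1 : ε ≤ 1 / 12) : ∃ C l₀ : ℝ, 0 < C ∧ 1 ≤ l₀ ∧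
    ∀ (γ : ℝ) (ψ : ℕ → ℝ) (B : Finset ℕ), (∀ q, 0 ≤ ψ q) →
    (∀ q ∈ B, 0 < q ∧ 0 < ψ q ∧ ψ q ≤ exp (-ll q ^ 40) ∧ l₀ ≤ ll q) → 1 ≤ ∑ q ∈ B, wt ψ q →
    ∀ y μ T₀ m : ℝ, 0 < y → l₀ ≤ μ → y ≤ μ ^ 4 → 1 / y ≤ μ ^ (3 / ε) →
    (∀ z, l₀ ≤ z → y ≤ z ^ 4 → 1 / y ≤ z ^ (3 / ε) → μ ≤ z) →
    (4 + 2 / y) * y ^ (1 - 2 * ε) ≤ 6 * μ ^ 6 → 0 ≤ m → 1 ≤ μ ^ 2 * m → 8 ≤ T₀ → μ ^ 200 ≤ T₀ →
    (∀ T, T₀ ≤ T → log T ^ 200 ≤ T) → ∀ (i : ℕ) (E : Finset (ℕ × ℕ)),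
    (∀ e ∈ E, e.1 ∈ B ∧ e.2 ∈ B ∧ e.1 ≠ e.2 ∧ y / 2 < DD ψ e.1 e.2 ∧ DD ψ e.1 e.2 ≤ y ∧
      y ≤ ll e.1 ^ 4 ∧ y ≤ ll e.2 ^ 4 ∧ 1 / y ≤ ll e.1 ^ (3 / ε) ∧ 1 / y ≤ ll e.2 ^ (3 / ε)) →
    (∀ e ∈ E, Anom γ ψ (T₀ ^ 2 ^ i) e.1 e.2) →
    (4 + 2 / y) * max μ (log (T₀ ^ 2 ^ i)) ^ 2 * ms (wt ψ) E ≤
      C * m * (∑ q ∈ B, wt ψ q) ^ 2 * (1 / 2) ^ i := by
  obtain ⟨Ch, l₀, hCh, hl₀, hlev⟩ := hlevel ε h0 h1
  refine ⟨6 * Ch, l₀, by positivity, hl₀, ?_⟩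
  intro γ ψ B hψ hBq hW y μ T₀ m hy a1 a2 a3 a4 a5 hm0 a6 a8 a9 a10 i E hE hAn
  have hμ1 : 1 ≤ μ := hl₀.trans a1
  have hTi : T₀ ≤ T₀ ^ 2 ^ i := le_self_pow₀ (by linarith) (pow_ne_zero i two_ne_zero)
  have hW2 : (∑ q ∈ B, wt ψ q) ^ (1 + 2 * ε) ≤ (∑ q ∈ B, wt ψ q) ^ 2 := by
    rw [← rpow_natCast]
    exact rpow_le_rpow_of_exponent_le hW (by push_cast; linarith)
  have c2 : (2 : ℝ) ^ i ≤ log (T₀ ^ 2 ^ i) := by
    rw [log_pow]
    push_cast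
    have : 1 ≤ log T₀ := by
      rw [le_log_iff_exp_le (by linarith)]
      linarith [exp_one_lt_d9]
    exact le_mul_of_one_le_right (by positivity) this
  have c3 := a10 _ hTi
  generalize T₀ ^ 2 ^ i = T at hTi c2 c3 hAn
  set lam := max μ (log T) with hlam
  have hμl : μ ≤ lam := le_max_left _ _
  have hl1 : 1 ≤ lam := hμ1.trans hμl
  have hlogl : log T ≤ lam := le_max_right _ _
  have c1 : lam ^ 200 ≤ T := by
    rcases max_choice μ (log T) with h | h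
    · rw [hlam, h]; exact a9.trans hTi
    · rw [hlam, h]; exact c3
  have hll : ∀ q ∈ B, y ≤ ll q ^ 4 → 1 / y ≤ ll q ^ (3 / ε) → T ≤ log q → lam ≤ ll q :=
    fun q hq d1 d2 d3 => max_le (a4 _ (hBq q hq).2.2.2 d1 d2) (log_le_log (by linarith) d3)
  have e1 := hlev γ ψ B hψ (fun q hq => ⟨(hBq q hq).1, (hBq q hq).2.1, (hBq q hq).2.2.1⟩) y
    T lam (a1.trans hμl) c1 hlogl hy (a2.trans (pow_le_pow_left₀ (by linarith) hμl 4))
    (a3.trans (rpow_le_rpow (by linarith) hμl (by positivity))) E (fun e he => by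
      obtain ⟨b1, b2, b3, -, b5, b6, b7, b8, b9⟩ := hE e he
      have := anom_le (hBq _ b1).1 (hBq _ b2).1 (by linarith) (hAn e he)
      exact ⟨b1, b2, b3, b5, hll _ b1 b6 b8 this.1, hll _ b2 b7 b9 this.2, hAn e he⟩)
  have e2 := LevelA_lam hμ1 hμl (c2.trans hlogl) hm0 a6
  clear_value lam
  generalize ∑ q ∈ B, wt ψ q = W at e1 hW2 hW
  calc _ ≤ (4 + 2 / y) * lam ^ 2 * (Ch * y ^ (1 - 2 * ε) / lam ^ 13 * W ^ (1 + 2 * ε)) :=
        mul_le_mul_of_nonneg_left e1 (by positivity)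
    _ = Ch * ((4 + 2 / y) * y ^ (1 - 2 * ε)) * (lam ^ 2 / lam ^ 13) * W ^ (1 + 2 * ε) := by ring
    _ ≤ Ch * (6 * μ ^ 6) * (lam ^ 2 / lam ^ 13) * W ^ 2 := by gcongr
    _ = 6 * Ch * (μ ^ 6 * lam ^ 2 / lam ^ 13) * W ^ 2 := by ring
    _ ≤ 6 * Ch * (m * (1 / 2) ^ i) * W ^ 2 := by gcongr
    _ = _ := by ring

theorem levelA (ε : ℝ) (h0 : 0 < ε) (h1 : ε ≤ 1 / 12) : ∃ C l₀ : ℝ, 0 < C ∧
    ∀ (γ : ℝ) (ψ : ℕ → ℝ) (B : Finset ℕ), (∀ q, 0 ≤ ψ q) →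
    (∀ q ∈ B, 0 < q ∧ 0 < ψ q ∧ ψ q ≤ exp (-ll q ^ 40) ∧ l₀ ≤ ll q) → 1 ≤ ∑ q ∈ B, wt ψ q →
    ∀ y : ℝ, 0 < y → ∀ E : Finset (ℕ × ℕ),
    (∀ e ∈ E, e.1 ∈ B ∧ e.2 ∈ B ∧ e.1 ≠ e.2 ∧ y / 2 < DD ψ e.1 e.2 ∧ DD ψ e.1 e.2 ≤ y ∧
      y ≤ ll e.1 ^ 4 ∧ y ≤ ll e.2 ^ 4 ∧ 1 / y ≤ ll e.1 ^ (3 / ε) ∧ 1 / y ≤ ll e.2 ^ (3 / ε)) →
    ∑ e ∈ E, SS γ ψ e.1 e.2 ≤
      C * min (y ^ (ε / 2)) (y ^ (-(ε / 2))) * (∑ q ∈ B, wt ψ q) ^ 2 +
        C * max 1 (y ^ (-(1 + ε / 2))) * ms (wt ψ) E := by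
  obtain ⟨Ch, l₀, hCh, hl₀, hlev⟩ := LevelA_anom ε h0 h1
  obtain ⟨Ca, hCa, hanat⟩ := level_anat ε h0 (by linarith)
  obtain ⟨K, hK, hpar⟩ := LevelA_par h0 h1 hl₀
  obtain ⟨K1, C2, hK1, hC2, hedge⟩ := LevelA_edge K hK
  refine ⟨K1 * exp 2 + K1 * Ca + 2 * (C2 * Ch), l₀, by positivity, ?_⟩
  intro γ ψ B hψ hBq hW y hy E hE
  obtain ⟨μ, T₀, a1, a2, a3, a4, a5, a6, a7, a8, a9, a10, a11, a12⟩ := hpar y hy
  have htail := LevelA_tail h0 h1 hy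
  have hMx := LevelA_Mx h0 hy
  have ht2 : 2 ≤ 2 + |log y| / 8 := by linarith [abs_nonneg (log y)]
  have hM1 : 1 ≤ max 1 (y ^ (-(1 + ε / 2))) := le_max_left _ _
  have hm0 : 0 ≤ min (y ^ (ε / 2)) (y ^ (-(ε / 2))) :=
    le_min (rpow_pos_of_pos hy _).le (rpow_pos_of_pos hy _).le
  generalize 2 + |log y| / 8 = t at ht2 htail a7 a11
  generalize max 1 (y ^ (-(1 + ε / 2))) = Mx at hM1 htail hMx a12
  generalize min (y ^ (ε / 2)) (y ^ (-(ε / 2))) = m at hm0 htail a6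
  have hW2 : (∑ q ∈ B, wt ψ q) ^ (1 + 2 * ε) ≤ (∑ q ∈ B, wt ψ q) ^ 2 := by
    rw [← rpow_natCast]
    exact rpow_le_rpow_of_exponent_le hW (by push_cast; linarith)
  have key := LevelA_split E (fun e => SS γ ψ e.1 e.2) _ (fun e => wt ψ e.1 * wt ψ e.2)
    (fun i e => Anom γ ψ (T₀ ^ 2 ^ i) e.1 e.2)
    (fun i => C2 * (4 + 2 / y) * max μ (log (T₀ ^ 2 ^ i)) ^ 2)
    (C2 * Ch * m * (∑ q ∈ B, wt ψ q) ^ 2) (by positivity)
    (fun e he => hedge γ ψ e.1 e.2 y t T₀ Mx μ hψ (hBq _ (hE e he).1).1 (hBq _ (hE e he).2.1).1 hy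
      (hE e he).2.2.2.1 ht2 a7 a8 hM1 (hl₀.trans a1) hMx a11 a12)
    (fun i E' hE' hAn => by
      have := mul_le_mul_of_nonneg_left (hlev γ ψ B hψ hBq hW y μ T₀ m hy a1 a2 a3 a4 a5 hm0 a6 a8
        a9 a10 i E' (fun e he => hE e (hE' he)) hAn) hC2.le
      unfold ms at this
      linarith)
  refine key.trans ?_
  have e2 := hanat ψ B hψ (fun q hq => ⟨(hBq q hq).1, (hBq q hq).2.1⟩) y t hy ht2
    (E.filter fun e => 1 < Lt t (uu e.1 e.2 * uu e.2 e.1)) fun e he =>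
      ⟨(hE e (mem_filter.1 he).1).1, (hE e (mem_filter.1 he).1).2.1,
        (hE e (mem_filter.1 he).1).2.2.2.2.1, (mem_filter.1 he).2⟩
  have e1 : ∑ e ∈ E, K1 * Mx * (wt ψ e.1 * wt ψ e.2 * (exp 2 +
      if 1 < Lt t (uu e.1 e.2 * uu e.2 e.1) then exp (4 * Lt t (uu e.1 e.2 * uu e.2 e.1)) else 0)) =
      K1 * Mx * (exp 2 * ms (wt ψ) E + ∑ e ∈ E.filter (fun e => 1 < Lt t (uu e.1 e.2 * uu e.2 e.1)),
        wt ψ e.1 * wt ψ e.2 * exp (4 * Lt t (uu e.1 e.2 * uu e.2 e.1))) := by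
    rw [← mul_sum, ms, sum_filter]
    congr 1
    rw [mul_sum, ← sum_add_distrib]
    refine sum_congr rfl fun e _ => ?_
    split_ifs <;> ring
  rw [e1]
  have hms : 0 ≤ ms (wt ψ) E :=
    sum_nonneg fun e _ => mul_nonneg (wt_nonneg (hψ _)) (wt_nonneg (hψ _))
  generalize ∑ e ∈ E.filter (fun e => 1 < Lt t (uu e.1 e.2 * uu e.2 e.1)),
    wt ψ e.1 * wt ψ e.2 * exp (4 * Lt t (uu e.1 e.2 * uu e.2 e.1)) = S at e2
  generalize ms (wt ψ) E = A at hms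
  generalize ∑ q ∈ B, wt ψ q = W at e2 hW2 hW
  have e3 : Mx * S ≤ Ca * m * W ^ 2 := by
    calc _ ≤ Mx * (Ca * y ^ (1 - 2 * ε) * exp (-(16 * t)) * W ^ (1 + 2 * ε)) :=
          mul_le_mul_of_nonneg_left e2 (by linarith)
      _ = Ca * (Mx * (y ^ (1 - 2 * ε) * exp (-(16 * t)))) * W ^ (1 + 2 * ε) := by ring
      _ ≤ _ := by gcongr
  have e4 := mul_le_mul_of_nonneg_left e3 hK1.le
  have e5 : 0 ≤ K1 * exp 2 * m * W ^ 2 := by positivity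
  have e6 : 0 ≤ (K1 * Ca + 2 * (C2 * Ch)) * Mx * A := by positivity
  linarith

end Vale.Agent.P028G
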