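import Vale.Agent.P028G.BlockA
import Vale.Agent.P028G.BlockB
import Vale.Agent.P028G.Fin2

/-! The main theorems for an arbitrary shift. -/

namespace Vale.Agent.P028G

open Finset Real MeasureTheory Filter Vale.Agent.P028

theorem main_shift (γ : ℝ) (ψ : ℕ → ℝ) (x : ℝ) (n : ℤ) :
    {q : ℕ | 0 < q ∧ ∃ a : ℤ, |(q : ℝ) * x - a - (γ + n)| < ψ q} =
      {q : ℕ | 0 < q ∧ ∃ a : ℤ, |(q : ℝ) * x - a - γ| < ψ q} := by
  ext q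
  simp only [Set.mem_ofPred_eq]
  refine and_congr_right fun _ => ⟨?_, ?_⟩
  · rintro ⟨a, ha⟩
    refine ⟨a + n, ?_⟩
    have e : (q : ℝ) * x - ((a + n : ℤ) : ℝ) - γ = q * x - a - (γ + n) := by push_cast; ring
    rwa [e]
  · rintro ⟨a, ha⟩
    refine ⟨a - n, ?_⟩
    have e : (q : ℝ) * x - ((a - n : ℤ) : ℝ) - (γ + n) = q * x - a - γ := by push_cast; ring
    rwa [e]

theorem main_one_le (γ : ℝ) : 1 ≤ γ + ((1 - ⌊γ⌋ : ℤ) : ℝ) := by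
  have := Int.floor_le γ
  push_cast; linarith

theorem mainA1 (γ : ℝ) (hγ : 1 ≤ γ) (ψ : ℕ → ℝ) (hψ : ∀ q, 0 ≤ ψ q)
    (hdiv : ¬ Summable fun q : ℕ => (Nat.totient q : ℝ) / q * ψ q)
    (hs : ∀ᶠ q : ℕ in atTop, ψ q ≤ exp (-(log (log q)) ^ 40)) :
    ∀ᵐ x : ℝ, Set.Infinite {q : ℕ | 0 < q ∧ ∃ a : ℤ, |(q : ℝ) * x - a - γ| < ψ q} := by
  classical
  obtain ⟨C, q₀, hC, hblock⟩ := blockA
  set w : ℕ → ℝ := fun q => if 1 / (q : ℝ) ^ 2 ≤ ψ q then wt ψ q else 0 with hw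
  have hw0 : ∀ q, 0 ≤ w q := fun q => by
    simp only [hw]; split_ifs
    · exact wt_nonneg (hψ q)
    · exact le_rfl
  have hdiv' : ¬ Summable w := by
    intro hsum
    have h2 : Summable fun q : ℕ => 1 / (q : ℝ) ^ 2 := summable_one_div_nat_pow.2 (by norm_num)
    refine hdiv (Summable.of_nonneg_of_le (fun q => wt_nonneg (hψ q)) (fun q => ?_) (hsum.add h2))
    simp only [hw]
    split_ifs with h
    · have : (0 : ℝ) ≤ 1 / (q : ℝ) ^ 2 := by positivity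
      change wt ψ q ≤ _
      linarith
    · rw [zero_add]
      have h3 : (Nat.totient q : ℝ) / q ≤ 1 := by
        rcases Nat.eq_zero_or_pos q with h0 | h0
        · simp [h0]
        · rw [div_le_one (by exact_mod_cast h0)]; exact_mod_cast Nat.totient_le q
      calc (Nat.totient q : ℝ) / q * ψ q ≤ 1 * ψ q := mul_le_mul_of_nonneg_right h3 (hψ q)
        _ ≤ _ := by rw [one_mul]; exact (not_le.1 h).le
  have hev : ∀ᶠ q : ℕ in atTop, 1 ≤ q ∧ q₀ ≤ q ∧ ψ q ≤ exp (-ll q ^ 40) ∧ ψ q ≤ 1 / 2 := by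
    filter_upwards [hs, main_ll.eventually_ge_atTop 1, eventually_ge_atTop 1,
      eventually_ge_atTop q₀] with q h1 h2 h3 h4
    refine ⟨h3, h4, h1, h1.trans ?_⟩
    have h6 : 1 ≤ (log (log (q : ℝ))) ^ 40 := one_le_pow₀ h2
    have h7 : exp (-(log (log (q : ℝ))) ^ 40) ≤ exp (-1) := exp_le_exp.2 (by linarith)
    refine h7.trans ?_
    rw [exp_neg, one_div]
    exact inv_anti₀ (by norm_num) (by linarith [add_one_le_exp (1 : ℝ)])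
  obtain ⟨Q₀, hQ₀⟩ := eventually_atTop.1 hev
  refine full2 γ C ψ fun Q s => ?_
  obtain ⟨X, hX⟩ := main_big w hw0 hdiv' (max Q Q₀) 1
  set B := (Ioc (max Q Q₀) X).filter (fun q : ℕ => 1 / (q : ℝ) ^ 2 ≤ ψ q) with hB
  have hW : ∑ q ∈ B, wt ψ q = ∑ q ∈ Ioc (max Q Q₀) X, w q := by rw [hB, sum_filter]
  have hmem : ∀ q ∈ B, Q < q ∧ Q₀ ≤ q ∧ 1 / (q : ℝ) ^ 2 ≤ ψ q := by
    intro q hq
    simp only [hB, mem_filter, mem_Ioc, max_lt_iff] at hq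
    exact ⟨hq.1.1.1, hq.1.1.2.le, hq.2⟩
  have hW1 : 1 ≤ ∑ q ∈ B, wt ψ q := by rw [hW]; exact hX
  refine ⟨B, fun q hq => ⟨(hmem q hq).1, ?_, (hQ₀ q (hmem q hq).2.1).2.2.2⟩, hW1, ?_⟩
  · have h1 : (0 : ℝ) < q := by exact_mod_cast (hQ₀ q (hmem q hq).2.1).1
    exact lt_of_lt_of_le (by positivity) (hmem q hq).2.2
  · exact hblock γ s hγ ψ B hψ (fun q hq => ⟨(hQ₀ q (hmem q hq).2.1).2.1, (hmem q hq).2.2,
      (hQ₀ q (hmem q hq).2.1).2.2.1⟩) hW1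

theorem mainB1 (γ : ℝ) (hγ : 1 ≤ γ) (ψ : ℕ → ℝ) (hψ : ∀ q, 0 ≤ ψ q)
    (hdiv : ¬ Summable fun q : ℕ => (Nat.totient q : ℝ) / q * ψ q / (log (log q)) ^ 12) :
    ∀ᵐ x : ℝ, Set.Infinite {q : ℕ | 0 < q ∧ ∃ a : ℤ, |(q : ℝ) * x - a - γ| < ψ q} := by
  by_cases hfr : ∃ᶠ q : ℕ in atTop, 1 / 2 < ψ q
  · exact Eventually.of_forall (main_triv γ ψ hfr)
  have hhalf : ∀ᶠ q : ℕ in atTop, ψ q ≤ 1 / 2 := by
    rw [not_frequently] at hfr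
    exact hfr.mono fun q hq => not_lt.1 hq
  have hdiv' : ¬ Summable fun q : ℕ => wt ψ q / (log (log q)) ^ (12 : ℝ) := by
    intro hs
    refine hdiv (hs.congr fun q => ?_)
    rw [show (12 : ℝ) = ((12 : ℕ) : ℝ) by norm_num, rpow_natCast]
    rfl
  obtain ⟨C, X₀, hC, hblock⟩ := blockB
  obtain ⟨Q₀, hQ₀⟩ := eventually_atTop.1 (hhalf.and (eventually_ge_atTop 4))
  obtain ⟨X₁, hX₁⟩ := eventually_atTop.1 ((main_ll.eventually_ge_atTop 1).and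
    (eventually_ge_atTop X₀))
  refine full2 γ C ψ fun Q s => ?_
  obtain ⟨X, hX1, hX⟩ := blocksB (wt ψ) (fun q => wt_nonneg (hψ q)) 12 (by norm_num) hdiv'
    (max Q Q₀) X₁
  obtain ⟨hl1, hX0⟩ := hX₁ X hX1
  set B := (Ioc (max Q Q₀) X).filter (fun q => 0 < ψ q) with hB
  have hW : ∑ q ∈ B, wt ψ q = ∑ q ∈ Ioc (max Q Q₀) X, wt ψ q := main_filter ψ hψ _
  have hmem : ∀ q ∈ B, Q < q ∧ Q₀ ≤ q ∧ 0 < ψ q ∧ q ≤ X := by
    intro q hq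
    simp only [hB, mem_filter, mem_Ioc, max_lt_iff] at hq
    exact ⟨hq.1.1.1, hq.1.1.2.le, hq.2, hq.1.2⟩
  have hW0 : ll X ^ 6 ≤ ∑ q ∈ B, wt ψ q := by
    rw [hW]
    refine le_trans (le_of_eq ?_) hX
    rw [show (12 : ℝ) / 2 = ((6 : ℕ) : ℝ) by norm_num, rpow_natCast]
    rfl
  have hW1 : 1 ≤ ∑ q ∈ B, wt ψ q := (one_le_pow₀ hl1).trans hW0
  refine ⟨B, fun q hq => ⟨(hmem q hq).1, (hmem q hq).2.2.1, (hQ₀ q (hmem q hq).2.1).1⟩, hW1, ?_⟩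
  exact hblock γ s hγ ψ B X hX0 hψ (fun q hq => ⟨(hQ₀ q (hmem q hq).2.1).2, (hmem q hq).2.2.2,
    (hmem q hq).2.2.1, (hQ₀ q (hmem q hq).2.1).1⟩) hW0

theorem mainA2 (γ : ℝ) (ψ : ℕ → ℝ) (hψ : ∀ q, 0 ≤ ψ q)
    (hdiv : ¬ Summable fun q : ℕ => (Nat.totient q : ℝ) / q * ψ q)
    (hs : ∀ᶠ q : ℕ in atTop, ψ q ≤ exp (-(log (log q)) ^ 40)) :
    ∀ᵐ x : ℝ, Set.Infinite {q : ℕ | 0 < q ∧ ∃ a : ℤ, |(q : ℝ) * x - a - γ| < ψ q} := by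
  filter_upwards [mainA1 _ (main_one_le γ) ψ hψ hdiv hs] with x hx
  rwa [main_shift] at hx

theorem mainB2 (γ : ℝ) (ψ : ℕ → ℝ) (hψ : ∀ q, 0 ≤ ψ q)
    (hdiv : ¬ Summable fun q : ℕ => (Nat.totient q : ℝ) / q * ψ q / (log (log q)) ^ 12) :
    ∀ᵐ x : ℝ, Set.Infinite {q : ℕ | 0 < q ∧ ∃ a : ℤ, |(q : ℝ) * x - a - γ| < ψ q} := by
  filter_upwards [mainB1 _ (main_one_le γ) ψ hψ hdiv] with x hx
  rwa [main_shift] at hx

end Vale.Agent.P028G
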