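import Vale.Agent.P028G.Defs

/-! Exponential moments for sums of reciprocals of prime factors. -/

namespace Vale.Agent.P028G

open Finset Real MeasureTheory Filter Vale.Agent.P028

theorem Lt_mul (t : ℝ) (m n : ℕ) : Lt t (m * n) ≤ Lt t m + Lt t n := by
  rcases eq_or_ne (m * n) 0 with h | h
  · rw [h]
    have := add_nonneg (Lt_nonneg t m) (Lt_nonneg t n)
    simpa [Lt] using this
  unfold Lt
  rw [Nat.primeFactors_mul (left_ne_zero_of_mul h) (right_ne_zero_of_mul h), filter_union,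
    ← sum_union_inter]
  exact le_add_of_nonneg_right (sum_nonneg fun _ _ => by positivity)

theorem Mom_ind (S : Finset ℕ) (ν c : ℕ → ℝ) (Z : ℝ)
    (h : ∀ k : ℕ, 0 < k → ∑ n ∈ S.filter (k ∣ ·), ν n ≤ Z / k) (P : Finset ℕ) :
    (∀ p ∈ P, p.Prime ∧ 0 ≤ c p) → ∀ k : ℕ, 0 < k → (∀ p ∈ P, ¬ p ∣ k) →
      ∑ n ∈ S.filter (k ∣ ·), ν n * ∏ p ∈ P, (1 + if p ∣ n then c p else 0) ≤
        Z / k * ∏ p ∈ P, (1 + c p / p) := by
  induction P using Finset.induction_on with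
  | empty => intro _ k hk _; simpa using h k hk
  | insert q P hq ih =>
    intro hP k hk hd
    obtain ⟨hq1, hq2⟩ := hP q (mem_insert_self _ _)
    have hP' : ∀ p ∈ P, p.Prime ∧ 0 ≤ c p := fun p hp => hP p (mem_insert_of_mem hp)
    have h1 := ih hP' k hk fun p hp => hd p (mem_insert_of_mem hp)
    have h2 := ih hP' (k * q) (Nat.mul_pos hk hq1.pos) fun p hp hpd => by
      rcases ((hP' p hp).1.dvd_mul).1 hpd with h3 | h3
      · exact hd p (mem_insert_of_mem hp) h3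
      · exact hq ((Nat.prime_dvd_prime_iff_eq (hP' p hp).1 hq1).1 h3 ▸ hp)
    have hc : Nat.Coprime k q := ((hq1.coprime_iff_not_dvd).2 (hd q (mem_insert_self _ _))).symm
    have h3 : S.filter (k * q ∣ ·) = (S.filter (k ∣ ·)).filter (q ∣ ·) := by
      rw [filter_filter]
      exact filter_congr fun n _ => ⟨fun h => ⟨(dvd_mul_right k q).trans h,
        (dvd_mul_left q k).trans h⟩, fun h => hc.mul_dvd_of_dvd_of_dvd h.1 h.2⟩
    rw [h3, sum_filter (q ∣ ·)] at h2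
    have h4 := mul_le_mul_of_nonneg_left h2 hq2
    rw [mul_sum] at h4
    have h5 := add_le_add h1 h4
    rw [← sum_add_distrib] at h5
    refine le_trans (le_of_eq (sum_congr rfl fun n _ => ?_)) (h5.trans_eq ?_)
    · rw [prod_insert hq]
      split_ifs <;> ring
    · rw [prod_insert hq]
      push_cast
      ring

theorem Mom_exp {y : ℝ} : exp y - 1 ≤ y * exp y := by
  have h1 := add_one_le_exp (-y)
  have h2 := mul_le_mul_of_nonneg_right h1 (exp_pos y).le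
  rw [← exp_add, neg_add_cancel, exp_zero] at h2
  linarith

theorem Mom_sq {t : ℝ} (ht : 2 ≤ t) (P : Finset ℕ) (hP : ∀ p ∈ P, t < p) :
    ∑ p ∈ P, ((p : ℝ) ^ 2)⁻¹ ≤ 2 / t := by
  refine (sum_le_sum_of_subset_of_nonneg (t := Ioo ⌊t⌋₊ (P.sup id + 1)) (fun p hp => ?_)
    fun _ _ _ => by positivity).trans ((sum_Ioo_inv_sq_le _ _).trans ?_)
  · exact mem_Ioo.2 ⟨(Nat.floor_lt (by linarith)).2 (hP p hp),
      Nat.lt_succ_of_le (le_sup (f := id) hp)⟩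
  · exact div_le_div_of_nonneg_left (by norm_num) (by linarith) (Nat.lt_floor_add_one t).le

theorem mom (lam : ℝ) (hl : 0 ≤ lam) : ∃ C : ℝ, 0 < C ∧ ∀ t : ℝ, 2 ≤ t →
    ∀ (S : Finset ℕ) (ν : ℕ → ℝ) (Z : ℝ), (∀ n ∈ S, 0 < n ∧ 0 ≤ ν n) →
    (∀ k : ℕ, 0 < k → ∑ n ∈ S.filter (k ∣ ·), ν n ≤ Z / k) →
    ∑ n ∈ S, ν n * exp (lam * t * Lt t n) ≤ C * Z := by
  refine ⟨exp (2 * (lam * exp lam)), exp_pos _, fun t ht S ν Z hS h => ?_⟩
  have ht0 : 0 < t := by linarith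
  set P := S.biUnion fun n => n.primeFactors.filter fun p : ℕ => t < p with hPd
  have hP : ∀ p ∈ P, p.Prime ∧ t < p := fun p hp => by
    obtain ⟨n, -, hn⟩ := mem_biUnion.1 hp
    exact ⟨Nat.prime_of_mem_primeFactors (mem_filter.1 hn).1, (mem_filter.1 hn).2⟩
  have hc : ∀ p : ℕ, 0 ≤ exp (lam * t * (1 / p)) - 1 := fun p =>
    sub_nonneg.2 (one_le_exp (by positivity))
  have h1 := Mom_ind S ν (fun p => exp (lam * t * (1 / p)) - 1) Z h P
    (fun p hp => ⟨(hP p hp).1, hc p⟩) 1 one_pos fun p hp => (hP p hp).1.not_dvd_one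
  have hZ : 0 ≤ Z := by
    simpa using (sum_nonneg fun n hn => (hS n (mem_filter.1 hn).1).2).trans (h 1 one_pos)
  rw [filter_true_of_mem fun n _ => one_dvd n, Nat.cast_one, div_one] at h1
  refine le_trans (le_of_eq (sum_congr rfl fun n hn => ?_)) (h1.trans ?_)
  · have h2 : P.filter (· ∣ n) = n.primeFactors.filter fun p : ℕ => t < p := by
      ext p
      rw [mem_filter]
      refine ⟨fun hp => mem_filter.2 ⟨Nat.mem_primeFactors.2 ⟨(hP p hp.1).1, hp.2, (hS n hn).1.ne'⟩,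
        (hP p hp.1).2⟩, fun hp => ⟨mem_biUnion.2 ⟨n, hn, hp⟩,
          Nat.dvd_of_mem_primeFactors (mem_filter.1 hp).1⟩⟩
    rw [Lt, mul_sum, exp_sum, ← h2, prod_filter]
    refine congrArg _ (prod_congr rfl fun p _ => ?_)
    split_ifs <;> ring
  · rw [mul_comm]
    refine mul_le_mul_of_nonneg_right ?_ hZ
    have h3 : ∀ p ∈ P, 1 + (exp (lam * t * (1 / p)) - 1) / p ≤
        exp (lam * exp lam * t * ((p : ℝ) ^ 2)⁻¹) := fun p hp => by
      have hp0 : (0 : ℝ) < p := ht0.trans (hP p hp).2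
      refine le_trans ?_ ((add_comm _ _).trans_le (add_one_le_exp _))
      have h4 : exp (lam * t * (1 / p)) ≤ exp lam := by
        rw [mul_assoc, mul_one_div]
        exact exp_le_exp.2 (mul_le_of_le_one_right hl ((div_le_one hp0).2 (hP p hp).2.le))
      have h5 := Mom_exp.trans (mul_le_mul_of_nonneg_left h4
        (by positivity : 0 ≤ lam * t * (1 / p)))
      refine add_le_add le_rfl ((div_le_div_of_nonneg_right h5 hp0.le).trans_eq ?_)
      field_simp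
    refine (prod_le_prod (fun p _ => add_nonneg zero_le_one
      (div_nonneg (hc p) (Nat.cast_nonneg p))) h3).trans ?_
    rw [← exp_sum, ← mul_sum]
    refine exp_le_exp.2 ((mul_le_mul_of_nonneg_left (Mom_sq ht P fun p hp => (hP p hp).2)
      (by positivity)).trans_eq ?_)
    field_simp

theorem Mom_markov {lam t L C Z : ℝ} (hl : 0 ≤ lam) (ht : 2 ≤ t) {S : Finset ℕ} {ν : ℕ → ℝ}
    (hS : ∀ n ∈ S, 0 ≤ ν n ∧ L ≤ Lt t n)
    (h : ∑ n ∈ S, ν n * exp (lam * t * Lt t n) ≤ C * Z) :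
    ∑ n ∈ S, ν n ≤ C * Z * exp (-(lam * t * L)) := by
  refine le_trans ?_ (mul_le_mul_of_nonneg_right h (exp_pos _).le)
  rw [sum_mul]
  refine sum_le_sum fun n hn => ?_
  rw [mul_assoc, ← exp_add]
  refine le_mul_of_one_le_right (hS n hn).1 (one_le_exp ?_)
  have := mul_le_mul_of_nonneg_left (hS n hn).2 (by positivity : 0 ≤ lam * t)
  linarith

theorem Mom_div (S : Finset ℕ) (k : ℕ) (f : ℕ → ℝ) :
    ∑ n ∈ S.filter (k ∣ ·), f n = ∑ j ∈ (S.filter (k ∣ ·)).image (· / k), f (k * j) := by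
  rw [sum_image fun a ha b hb hab => by
    rw [← Nat.mul_div_cancel' (mem_filter.1 ha).2, ← Nat.mul_div_cancel' (mem_filter.1 hb).2]
    exact congrArg _ hab]
  exact sum_congr rfl fun n hn => by rw [Nat.mul_div_cancel' (mem_filter.1 hn).2]

theorem Mom_mem {S : Finset ℕ} {k j : ℕ} (h : j ∈ (S.filter (k ∣ ·)).image (· / k)) :
    k * j ∈ S := by
  obtain ⟨n, hn, rfl⟩ := mem_image.1 h
  rw [Nat.mul_div_cancel' (mem_filter.1 hn).2]
  exact (mem_filter.1 hn).1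

theorem tail_sqrt (lam : ℝ) (hl : 0 ≤ lam) : ∃ C : ℝ, 0 < C ∧ ∀ t L Y : ℝ, 2 ≤ t →
    ∀ S : Finset ℕ, (∀ n ∈ S, 0 < n ∧ (n : ℝ) ≤ Y ∧ L ≤ Lt t n) →
    ∑ n ∈ S, 1 / √(n : ℝ) ≤ C * exp (-(lam * t * L)) * √Y := by
  obtain ⟨C, hC, h⟩ := mom lam hl
  refine ⟨2 * C, by positivity, fun t L Y ht S hS => ?_⟩
  refine (Mom_markov hl ht (fun n hn => ⟨by positivity, (hS n hn).2.2⟩)
    (h t ht S _ (2 * √Y) (fun n hn => ⟨(hS n hn).1, by positivity⟩) fun k hk => ?_)).trans_eq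
    (by ring)
  have hk0 : (0 : ℝ) < k := by exact_mod_cast hk
  have h1 : ∑ j ∈ (S.filter (k ∣ ·)).image (· / k), 1 / √(j : ℝ) ≤ 2 * √(Y / k) := by
    refine (sum_le_sum_of_subset_of_nonneg (fun j hj => ?_) fun _ _ _ => by positivity).trans
      (sum_inv_sqrt _)
    obtain ⟨h2, h3, -⟩ := hS _ (Mom_mem hj)
    refine mem_Icc.2 ⟨Nat.pos_of_mul_pos_left h2, Nat.le_floor ((le_div_iff₀' hk0).2 ?_)⟩
    exact_mod_cast h3
  have h2 : 2 * √(Y / k) / √k = 2 * √Y / k := by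
    rw [sqrt_div' _ hk0.le, mul_div_assoc, div_div, mul_self_sqrt hk0.le, mul_div_assoc]
  rw [Mom_div, ← h2]
  refine le_trans (le_of_eq ?_) (div_le_div_of_nonneg_right h1 (sqrt_nonneg _))
  rw [sum_div]
  refine sum_congr rfl fun j _ => ?_
  rw [Nat.cast_mul, sqrt_mul hk0.le, div_div, mul_comm]

theorem tail_pw (lam : ℝ) (hl : 0 ≤ lam) : ∃ C : ℝ, 0 < C ∧ ∀ t L : ℝ, 2 ≤ t →
    ∀ N : ℕ, 0 < N → ∀ S : Finset ℕ, (∀ n ∈ S, n ∣ N ∧ L ≤ Lt t n) →
    ∑ n ∈ S, pw N n ≤ C * exp (-(lam * t * L)) := by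
  obtain ⟨C, hC, h⟩ := mom lam hl
  refine ⟨C, hC, fun t L ht N hN S hS => ?_⟩
  refine (Mom_markov hl ht (fun n hn => ⟨pw_nonneg N n, (hS n hn).2⟩)
    (h t ht S _ 1 (fun n hn => ⟨Nat.pos_of_dvd_of_pos (hS n hn).1 hN, pw_nonneg N n⟩)
      fun k _ => ?_)).trans_eq (by ring)
  refine le_trans ?_ (Pi_mult N k hN)
  rw [← sum_filter]
  exact sum_le_sum_of_subset_of_nonneg (filter_subset_filter _ fun n hn =>
    Nat.mem_divisors.2 ⟨(hS n hn).1, hN.ne'⟩) fun n _ _ => pw_nonneg N n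

theorem tail_rpow (ε lam : ℝ) (hε : 0 < ε) (hl : 0 ≤ lam) : ∃ C : ℝ, 0 < C ∧ ∀ t L : ℝ, 2 ≤ t →
    ∀ S : Finset ℕ, (∀ n ∈ S, 0 < n ∧ L ≤ Lt t n) →
    ∑ n ∈ S, (n : ℝ) ^ (-(1 + ε)) ≤ C * exp (-(lam * t * L)) := by
  obtain ⟨C, hC, h⟩ := mom lam hl
  obtain ⟨ζ, hζ0, hζ⟩ := zeta_bound ε hε
  refine ⟨C * ζ, by positivity, fun t L ht S hS => ?_⟩
  refine Mom_markov hl ht (fun n hn => ⟨by positivity, (hS n hn).2⟩)
    (h t ht S _ ζ (fun n hn => ⟨(hS n hn).1, by positivity⟩) fun k hk => ?_)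
  have hk1 : (1 : ℝ) ≤ k := by exact_mod_cast hk
  have h1 := hζ ((S.filter (k ∣ ·)).image (· / k)) fun j hj =>
    Nat.pos_of_mul_pos_left (hS _ (Mom_mem hj)).1
  rw [Mom_div]
  refine le_trans ?_ (div_le_div_of_nonneg_right h1 (by linarith))
  rw [sum_div]
  refine sum_le_sum fun j _ => ?_
  rw [Nat.cast_mul, mul_rpow (by linarith) (Nat.cast_nonneg j), div_eq_inv_mul, ← rpow_neg_one]
  exact mul_le_mul_of_nonneg_right (rpow_le_rpow_of_exponent_le hk1 (by linarith))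
    (by positivity)

end Vale.Agent.P028G
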