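import Vale.Agent.P028G.Thin

/-! Neighbour sums when the centre has few small primes. -/

namespace Vale.Agent.P028G

open Finset Real MeasureTheory Filter Vale.Agent.P028

theorem Nbr2_zero {z : ℤ} (h : |(z : ℝ)| < 1) : z = 0 := by
  have : |z| < 1 := by exact_mod_cast h
  exact Int.abs_lt_one_iff.1 this

theorem Nbr2_thin_empty {σ : ℝ} (hσ : 0 ≤ σ) : Thin ∅ σ := by
  intro Y hY
  simp only [filter_empty, card_empty, Nat.cast_zero]
  positivity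

theorem nres_thin {θ y : ℝ} {M a : ℕ} (hM : 2 ≤ M) (hy : 0 < y) (hyM : 8 * (M : ℝ) ^ 2 * y ≤ 1)
    (hg : G1 θ y M a) (S : Finset ℕ) (hS : ∀ n ∈ S, 0 < n ∧ NRes θ y M (a * n)) :
    Thin S (21 / M) := by
  have hM2 : (2 : ℝ) ≤ M := by exact_mod_cast hM
  have hM0 : (0 : ℝ) < M := by linarith
  have key := thin_union (Icc 1 M) S
    (fun t n => Near (θ * (t * ((a * n : ℕ) : ℝ))) (4 * y) ∧
      1 / 2 ≤ |θ| * (t * ((a * n : ℕ) : ℝ))) (fun _ => 21 / (M : ℝ) ^ 2) ?_ ?_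
  · refine key.mono subset_rfl (le_of_eq ?_)
    rw [sum_const, Nat.card_Icc, nsmul_eq_mul]
    simp only [add_tsub_cancel_right]
    field_simp
  · intro n hn
    obtain ⟨t, h1, h2, h3, h4⟩ := (hS n hn).2
    exact ⟨t, mem_Icc.2 ⟨h1, h2⟩, h3, h4⟩
  · intro t ht S' hS' hP
    obtain ⟨t1, t2⟩ := mem_Icc.1 ht
    have t1' : (1 : ℝ) ≤ t := by exact_mod_cast t1
    have t2' : (t : ℝ) ≤ M := by exact_mod_cast t2
    rcases hg with hg | hg
    · have ha0 : (0 : ℝ) ≤ a := Nat.cast_nonneg a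
      have hal : |θ * t * a| = |θ| * t * a := by
        rw [abs_mul, abs_mul, abs_of_nonneg ha0, abs_of_nonneg (by linarith : (0 : ℝ) ≤ t)]
      have hal3 : |θ| * t * a * (M : ℝ) ^ 3 ≤ 1 := by
        have h1 : |θ| * t * a * (M : ℝ) ^ 3 ≤ |θ| * M * a * (M : ℝ) ^ 3 := by gcongr
        calc _ ≤ _ := h1
          _ = |θ| * a * (M : ℝ) ^ 4 := by ring
          _ ≤ 1 := hg
      have hnn : 0 ≤ |θ| * t * a := by positivity
      refine slow_thin (α := θ * t * a) (β := 0) (w := 4 * y) (by nlinarith) (by linarith) ?_ ?_ ?_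
      · rw [hal, le_div_iff₀ (by positivity)]
        have : (M : ℝ) ^ 2 ≤ (M : ℝ) ^ 3 := pow_le_pow_right₀ (by linarith) (by norm_num)
        nlinarith
      · rw [le_div_iff₀ (by positivity)]
        nlinarith
      · intro n hn
        obtain ⟨h3, h4⟩ := hP n hn
        push_cast at h3 h4
        have hn0 : (0 : ℝ) ≤ n := Nat.cast_nonneg n
        have h5 : 1 / 2 ≤ |θ| * t * a * n := by linarith
        refine ⟨?_, ?_, ?_⟩
        · have h6 : |θ| * t * a * n * (M : ℝ) ^ 3 ≤ n := by nlinarith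
          have h7 : 1 / 2 * (M : ℝ) ^ 3 ≤ |θ| * t * a * n * (M : ℝ) ^ 3 := by gcongr
          have h8 : (M : ℝ) ^ 2 ≤ 1 / 2 * (M : ℝ) ^ 3 := by nlinarith [sq_nonneg (M : ℝ)]
          linarith
        · rw [hal]; nlinarith
        · have e : θ * t * a * n - 0 = θ * (t * (a * n)) := by ring
          rwa [e]
    · have h5 : (4 : ℝ) ≤ (M : ℝ) ^ 5 := by
        have : (2 : ℝ) ^ 5 ≤ (M : ℝ) ^ 5 := by gcongr
        linarith
      have k1 : ∀ k : ℕ, 1 ≤ k → Near (θ * (t * (a * k))) (8 * y) → (M : ℝ) ^ 3 ≤ k := by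
        intro k a3 a4
        by_contra hcon
        have a5 : k < M ^ 3 := by exact_mod_cast not_le.1 hcon
        refine hg (t * k) (Nat.mul_pos t1 a3) ?_ ?_
        · calc t * k ≤ M * M ^ 3 := Nat.mul_le_mul t2 a5.le
            _ = M ^ 4 := by ring
        · have e : θ * (((t * k : ℕ) : ℝ) * a) = θ * (t * (a * k)) := by push_cast; ring
          rw [e]
          exact a4.mono (by nlinarith)
      have hsep : P028.Sep S' ((M : ℝ) ^ 3) := by
        refine ⟨fun n hn => ?_, fun n hn n' hn' hlt => ?_⟩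
        · refine k1 n (hS n (hS' hn)).1 ?_
          have := (hP n hn).1
          push_cast at this
          exact this.mono (by linarith)
        · obtain ⟨k, rfl⟩ := Nat.exists_eq_add_of_le hlt.le
          rw [Nat.cast_add, add_sub_cancel_left]
          refine k1 k (by omega) ?_
          have a1 := (hP _ hn').1.sub (hP n hn).1
          have e : θ * ((t : ℝ) * ((a * (n + k) : ℕ) : ℝ)) - θ * (t * ((a * n : ℕ) : ℝ)) =
              θ * (t * (a * k)) := by push_cast; ring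
          rw [e] at a1
          exact a1.mono (by linarith)
      refine (sep_thin (by positivity) hsep).mono subset_rfl ?_
      rw [div_le_div_iff₀ (by positivity) (by positivity)]
      nlinarith [sq_nonneg (M : ℝ), pow_pos hM0 2]

theorem nonres_thin {θ y β : ℝ} {M c : ℕ} (hM : 2 ≤ M) (hy : 0 < y)
    (hyM : 8 * (M : ℝ) ^ 2 * y ≤ 1) (hc : ¬ NRes θ y M c) (S : Finset ℕ)
    (hS : ∀ n ∈ S, M < n ∧ (M : ℝ) ^ 5 * y ≤ |θ| * (c * n) ∧ Near (θ * (c * n) - β) (2 * y)) :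
    Thin S (21 / M) := by
  have hM2 : (2 : ℝ) ≤ M := by exact_mod_cast hM
  have hM0 : (0 : ℝ) < M := by linarith
  by_cases hr : Res θ y M c
  · obtain ⟨t, t1, t2, z, hz⟩ := hr
    have t1' : (1 : ℝ) ≤ t := by exact_mod_cast t1
    have hc0 : (0 : ℝ) ≤ c := Nat.cast_nonneg c
    have h1 : |θ| * (t * c) < 1 / 2 := by
      by_contra hcon
      exact hc ⟨t, t1, t2, ⟨z, hz⟩, not_lt.1 hcon⟩
    have hab : |θ * (t * c)| = |θ| * (t * c) := by
      rw [abs_mul, abs_of_nonneg (by positivity : (0 : ℝ) ≤ t * c)]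
    have hy8 : 32 * y ≤ 1 := by nlinarith [mul_le_mul hM2 hM2 (by norm_num) hM0.le]
    have hz0 : z = 0 := by
      apply Nbr2_zero
      have : |(z : ℝ)| ≤ |θ * (t * c)| + |θ * (t * c) - z| := by
        have := abs_sub (θ * (t * c)) (θ * (t * c) - z)
        simpa using this
      linarith
    rw [hz0, Int.cast_zero, sub_zero, hab] at hz
    have hal : |θ * c| = |θ| * c := by rw [abs_mul, abs_of_nonneg hc0]
    have h2 : |θ| * c ≤ 4 * y := by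
      have : |θ| * c * 1 ≤ |θ| * c * t := by gcongr
      linarith
    have hMy : 4 * y * M ≤ 1 := by nlinarith
    refine slow_thin (α := θ * c) (β := β) (w := 2 * y) hM2 (by linarith) ?_ ?_ ?_
    · rw [hal, le_div_iff₀ hM0]; nlinarith
    · rw [le_div_iff₀ hM0]; nlinarith
    · intro n hn
      obtain ⟨a1, a2, a3⟩ := hS n hn
      refine ⟨by exact_mod_cast a1.le, ?_, ?_⟩
      · rw [hal]
        have h4 : (2 : ℝ) ≤ (M : ℝ) ^ 4 := by
          have : (2 : ℝ) ^ 4 ≤ (M : ℝ) ^ 4 := by gcongr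
          linarith
        have h5 : (M : ℝ) * y * 2 ≤ M * y * (M : ℝ) ^ 4 := by gcongr
        nlinarith
      · have e : θ * c * n - β = θ * (c * n) - β := by ring
        rwa [e]
  · have hsep : P028.Sep S M := nbr_sep (γ := θ) (y := y) (β := β) (c := c)
      fun n hn => ⟨(hS n hn).1, hr, (hS n hn).2.2⟩
    refine (sep_thin hM0 hsep).mono subset_rfl ?_
    gcongr
    norm_num

theorem nb_SW2 (θ y X δ Y : ℝ) (M a b m d N : ℕ) (hM : 2 ≤ M) (hN : 0 < N) (hy : 0 < y)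
    (hyM : 8 * (M : ℝ) ^ 2 * y ≤ 1) (hg : Good2 θ y M X a b)
    (hδ : ∑ d' ∈ N.divisors.filter (fun d' : ℕ => exp (√(M : ℝ)) < d'), pw N d' ≤ δ)
    (Γ : Finset (ℕ × ℕ))
    (hΓ : ∀ t ∈ Γ, 0 < t.1 ∧ (t.1 : ℝ) ≤ Y ∧ t.2 ∣ N ∧
      Near (θ * ((a : ℝ) * m * t.2 - b * t.1 * d)) (2 * y) ∧ SW2 θ y M a b m d t.1 t.2) :
    nb N Γ ≤ (420 / √(M : ℝ) + 4 * δ) * √Y := by
  have hM2 : (2 : ℝ) ≤ M := by exact_mod_cast hM
  have hM0 : (0 : ℝ) < M := by linarith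
  have hσ : (0 : ℝ) ≤ 21 / M := by positivity
  have hZ : 1 ≤ exp (√(M : ℝ)) := one_le_exp (sqrt_nonneg _)
  have c1 : ∀ Δ ⊆ Γ, (∀ t ∈ Δ, M < t.1 ∧ ¬ NRes θ y M (b * d) ∧
      (M : ℝ) ^ 5 * y ≤ |θ| * (b * t.1 * d)) → nb N Δ ≤ 4 * (21 / M) * √Y := by
    intro Δ hs hc
    refine nbr_div N hN Δ (fun t ht => (hΓ t (hs ht)).2.2.1) _ fun d' S hS => ?_
    refine thin_sqrt hσ ?_ fun n hn => ⟨(hΓ _ (hs (hS n hn))).1, (hΓ _ (hs (hS n hn))).2.1⟩
    rcases S.eq_empty_or_nonempty with rfl | ⟨n0, hn0⟩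
    · exact Nbr2_thin_empty hσ
    refine nonres_thin (θ := θ) (β := θ * (a * m * d')) (c := b * d) hM hy hyM
      (hc _ (hS n0 hn0)).2.1 S fun n hn => ⟨(hc _ (hS n hn)).1, ?_, ?_⟩
    · have h1 := (hc _ (hS n hn)).2.2
      have e : ((b * d : ℕ) : ℝ) * n = b * n * d := by push_cast; ring
      rwa [e]
    · have h1 := (hΓ _ (hs (hS n hn))).2.2.2.1.neg
      have e : θ * (((b * d : ℕ) : ℝ) * n) - θ * (a * m * d') =
          -(θ * ((a : ℝ) * m * d' - b * n * d)) := by push_cast; ring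
      rwa [e]
  have c2 : ∀ Δ ⊆ Γ, (∀ t ∈ Δ, M < t.2 ∧ ¬ NRes θ y M (a * m) ∧
      (M : ℝ) ^ 5 * y ≤ |θ| * (a * m * t.2)) →
      nb N Δ ≤ (21 / M * (2 * √(M : ℝ) + 1) + δ) * (2 * √Y) := by
    intro Δ hs hc
    refine nbr_fib2 N Δ Y (fun t ht => ⟨(hΓ t (hs ht)).1, (hΓ t (hs ht)).2.1⟩) _ fun m' S hS => ?_
    refine nbr_tail N hN _ δ _ hδ S (fun n hn => (hΓ _ (hs (hS n hn))).2.2.1) fun S' h1 h2 => ?_
    have h3 := thin_inv (S := S') hσ hZ ?_ fun n hn => ⟨Nat.pos_of_dvd_of_pos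
      (hΓ _ (hs (hS n (h1 hn)))).2.2.1 hN, h2 n hn⟩
    · rwa [log_exp] at h3
    rcases S'.eq_empty_or_nonempty with rfl | ⟨n0, hn0⟩
    · exact Nbr2_thin_empty hσ
    refine nonres_thin (θ := θ) (β := θ * (b * m' * d)) (c := a * m) hM hy hyM
      (hc _ (hS n0 (h1 hn0))).2.1 S' fun n hn => ⟨(hc _ (hS n (h1 hn))).1, ?_, ?_⟩
    · have h4 := (hc _ (hS n (h1 hn))).2.2
      have e : ((a * m : ℕ) : ℝ) * n = a * m * n := by push_cast; ring
      rwa [e]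
    · have h4 := (hΓ _ (hs (hS n (h1 hn)))).2.2.2.1
      have e : θ * (((a * m : ℕ) : ℝ) * n) - θ * (b * m' * d) =
          θ * ((a : ℝ) * m * n - b * m' * d) := by push_cast; ring
      rwa [e]
  have c3 : ∀ Δ ⊆ Γ, (∀ t ∈ Δ, NRes θ y M (a * t.2)) →
      nb N Δ ≤ (21 / M * (2 * √(M : ℝ) + 1) + δ) * (2 * √Y) := by
    intro Δ hs hc
    refine nbr_fib2 N Δ Y (fun t ht => ⟨(hΓ t (hs ht)).1, (hΓ t (hs ht)).2.1⟩) _ fun m' S hS => ?_
    refine nbr_tail N hN _ δ _ hδ S (fun n hn => (hΓ _ (hs (hS n hn))).2.2.1) fun S' h1 h2 => ?_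
    have hp : ∀ n ∈ S', 0 < n := fun n hn => Nat.pos_of_dvd_of_pos
      (hΓ _ (hs (hS n (h1 hn)))).2.2.1 hN
    have h3 := thin_inv (S := S') hσ hZ
      (nres_thin hM hy hyM hg.1 S' fun n hn => ⟨hp n hn, hc (m', n) (hS n (h1 hn))⟩)
      fun n hn => ⟨hp n hn, h2 n hn⟩
    rwa [log_exp] at h3
  have c4 : ∀ Δ ⊆ Γ, (∀ t ∈ Δ, NRes θ y M (b * t.1)) → nb N Δ ≤ 4 * (21 / M) * √Y := by
    intro Δ hs hc
    refine nbr_div N hN Δ (fun t ht => (hΓ t (hs ht)).2.2.1) _ fun d' S hS => ?_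
    exact thin_sqrt hσ (nres_thin hM hy hyM hg.2.1 S
      fun n hn => ⟨(hΓ _ (hs (hS n hn))).1, hc (n, d') (hS n hn)⟩)
      fun n hn => ⟨(hΓ _ (hs (hS n hn))).1, (hΓ _ (hs (hS n hn))).2.1⟩
  refine (nbr_four N Γ (fun t ht => (hΓ t ht).2.2.2.2) c1 c2 c3 c4).trans ?_
  have hs1 : 1 ≤ √(M : ℝ) := one_le_sqrt.2 (by linarith)
  have hs0 : 0 < √(M : ℝ) := by linarith
  have hsq : (M : ℝ) = √(M : ℝ) * √(M : ℝ) := (mul_self_sqrt hM0.le).symm
  have h1 : 21 / (M : ℝ) ≤ 21 / √(M : ℝ) := by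
    apply div_le_div_of_nonneg_left (by norm_num) hs0
    nlinarith
  have h2 : 21 / (M : ℝ) * √(M : ℝ) = 21 / √(M : ℝ) := by
    rw [div_mul_eq_mul_div, div_eq_div_iff hM0.ne' hs0.ne']
    nlinarith
  have h3 : 420 / √(M : ℝ) = 20 * (21 / √(M : ℝ)) := by ring
  have h4 := mul_le_mul_of_nonneg_right h1 (sqrt_nonneg Y)
  have h5 : 21 / (M : ℝ) * √(M : ℝ) * √Y = 21 / √(M : ℝ) * √Y := by rw [h2]
  rw [h3]
  generalize 21 / (M : ℝ) = A at *
  generalize 21 / √(M : ℝ) = B at *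
  nlinarith

theorem Nbr2_one {θ y Q : ℝ} {M a m d' : ℕ} (hM : 2 ≤ M) (hy : 0 < y)
    (hg : G1 θ y M a) (hm : 0 < m) (hd' : 0 < d')
    (h1 : m ≤ M) (h2 : d' ≤ M) (hQ : |Q| < (M : ℝ) ^ 5 * y)
    (hn : Near (θ * ((a : ℝ) * m * d') - Q) (2 * y))
    (hph : (M : ℝ) ^ 6 * y ≤ |θ| * ((a : ℝ) * m * d')) : False := by
  have hM2 : (2 : ℝ) ≤ M := by exact_mod_cast hM
  have hM0 : (0 : ℝ) < M := by linarith
  have h5 : (32 : ℝ) ≤ (M : ℝ) ^ 5 := by
    have : (2 : ℝ) ^ 5 ≤ (M : ℝ) ^ 5 := by gcongr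
    linarith
  obtain ⟨z, hz⟩ := hn
  rcases hg with hg | hg
  · have h1' : (m : ℝ) ≤ M := by exact_mod_cast h1
    have h2' : (d' : ℝ) ≤ M := by exact_mod_cast h2
    have hab : |θ * ((a : ℝ) * m * d')| = |θ| * ((a : ℝ) * m * d') := by
      rw [abs_mul, abs_of_nonneg (by positivity : (0 : ℝ) ≤ (a : ℝ) * m * d')]
    have hP : |θ| * ((a : ℝ) * m * d') * (M : ℝ) ^ 2 ≤ 1 := by
      have h3 : |θ| * ((a : ℝ) * m * d') * (M : ℝ) ^ 2 ≤
          |θ| * ((a : ℝ) * M * M) * (M : ℝ) ^ 2 := by gcongr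
      calc _ ≤ _ := h3
        _ = |θ| * a * (M : ℝ) ^ 4 := by ring
        _ ≤ 1 := hg
    have hP0 : 0 ≤ |θ| * ((a : ℝ) * m * d') := by positivity
    have hM4 : (4 : ℝ) ≤ (M : ℝ) ^ 2 := by nlinarith
    have hP4 : |θ| * ((a : ℝ) * m * d') ≤ 1 / 4 := by nlinarith
    have h6 : 2 * ((M : ℝ) ^ 5 * y) ≤ (M : ℝ) ^ 6 * y := by
      have : 2 * ((M : ℝ) ^ 5 * y) ≤ M * ((M : ℝ) ^ 5 * y) := by gcongr
      nlinarith
    have hy32 : 32 * y ≤ (M : ℝ) ^ 5 * y := by gcongr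
    generalize |θ| * ((a : ℝ) * m * d') = P at *
    generalize θ * ((a : ℝ) * m * d') = P' at *
    have b1 := abs_le.1 hz
    have b2 := abs_lt.1 hQ
    have b3 := abs_le.1 (hab.le.trans hP4)
    have hz0 : z = 0 := by
      apply Nbr2_zero
      rw [abs_lt]
      constructor <;> linarith [b1.1, b1.2, b2.1, b2.2, b3.1, b3.2]
    rw [hz0, Int.cast_zero, sub_zero] at b1
    have : |P'| < P := by
      rw [abs_lt]
      constructor <;> linarith [b1.1, b1.2, b2.1, b2.2]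
    linarith
  · refine hg (m * d') (Nat.mul_pos hm hd') ?_ ⟨z, ?_⟩
    · calc m * d' ≤ M * M := Nat.mul_le_mul h1 h2
        _ = M ^ 2 := by ring
        _ ≤ M ^ 4 := Nat.pow_le_pow_right (by omega) (by norm_num)
    · have e : θ * (((m * d' : ℕ) : ℝ) * a) - z = (θ * ((a : ℝ) * m * d') - Q - z) + Q := by
        push_cast; ring
      rw [e]
      refine (abs_add_le _ _).trans ?_
      have hy32 : 32 * y ≤ (M : ℝ) ^ 5 * y := by gcongr
      linarith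

theorem cover_SW2 {θ y X : ℝ} {M a b m d m' d' : ℕ} (hM : 2 ≤ M) (hy : 0 < y)
    (hyM : 8 * (M : ℝ) ^ 2 * y ≤ 1) (hg : Good2 θ y M X a b) (hm : 0 < m) (hd : 0 < d)
    (hm' : 0 < m') (hd' : 0 < d') (hne : a * m * d' ≠ b * m' * d)
    (hn : Near (θ * ((a : ℝ) * m * d' - b * m' * d)) (2 * y))
    (hph : (M : ℝ) ^ 6 * y ≤ |θ| * max ((a : ℝ) * m * d') (b * m' * d)) :
    SW2 θ y M a b m d m' d' ∨ SW2 θ y M b a m' d' m d := by
  by_contra hcon
  obtain ⟨n1, n2⟩ := not_or.1 hcon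
  unfold SW2 at n1 n2
  simp only [not_or] at n1 n2
  obtain ⟨p1, p2, p3, p4⟩ := n1
  obtain ⟨q1, q2, q3, q4⟩ := n2
  have hM2 : (2 : ℝ) ≤ M := by exact_mod_cast hM
  have hM0 : (0 : ℝ) < M := by linarith
  have hA : (M : ℝ) ^ 5 * y ≤ |θ| * (a * m * d') → m ≤ M ∧ d' ≤ M := fun h =>
    ⟨not_lt.1 fun h1 => q1 ⟨h1, p3, h⟩, not_lt.1 fun h1 => p2 ⟨h1, q4, h⟩⟩
  have hB : (M : ℝ) ^ 5 * y ≤ |θ| * (b * m' * d) → m' ≤ M ∧ d ≤ M := fun h =>
    ⟨not_lt.1 fun h1 => p1 ⟨h1, q3, h⟩, not_lt.1 fun h1 => q2 ⟨h1, p4, h⟩⟩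
  have h56 : (M : ℝ) ^ 5 * y ≤ (M : ℝ) ^ 6 * y := by
    have : (M : ℝ) ^ 5 ≤ (M : ℝ) ^ 6 := pow_le_pow_right₀ (by linarith) (by norm_num)
    gcongr
  by_cases a1 : (M : ℝ) ^ 5 * y ≤ |θ| * (a * m * d')
  · by_cases b1 : (M : ℝ) ^ 5 * y ≤ |θ| * (b * m' * d)
    · obtain ⟨a2, a3⟩ := hA a1
      obtain ⟨b2, b3⟩ := hB b1
      refine hg.2.2.1 (m * d') (m' * d) (Nat.mul_pos hm hd') ?_ (Nat.mul_pos hm' hd) ?_ ?_ ?_ ?_ ?_
      · rw [sq]; exact Nat.mul_le_mul a2 a3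
      · rw [sq]; exact Nat.mul_le_mul b2 b3
      · intro h
        apply hne
        calc a * m * d' = m * d' * a := by ring
          _ = m' * d * b := h
          _ = b * m' * d := by ring
      · have e : ((m * d' : ℕ) : ℝ) * a = a * m * d' := by push_cast; ring
        rwa [e]
      · have e : ((m' * d : ℕ) : ℝ) * b = b * m' * d := by push_cast; ring
        rwa [e]
      · have e : ((m * d' : ℕ) : ℝ) * a - ((m' * d : ℕ) : ℝ) * b = a * m * d' - b * m' * d := by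
          push_cast; ring
        rwa [e]
    · obtain ⟨a2, a3⟩ := hA a1
      have b2 := not_le.1 b1
      refine Nbr2_one (Q := θ * (b * m' * d)) hM hy hg.1 hm hd' a2 a3 ?_ ?_ ?_
      · rwa [abs_mul, abs_of_nonneg (by positivity : (0 : ℝ) ≤ (b : ℝ) * m' * d)]
      · rwa [← mul_sub]
      · rcases le_total ((a : ℝ) * m * d') (b * m' * d) with h | h
        · rw [max_eq_right h] at hph
          linarith
        · rwa [max_eq_left h] at hph
  · have a2 := not_le.1 a1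
    have b0 : (M : ℝ) ^ 6 * y ≤ |θ| * (b * m' * d) := by
      rcases le_total ((a : ℝ) * m * d') (b * m' * d) with h | h
      · rwa [max_eq_right h] at hph
      · rw [max_eq_left h] at hph
        linarith
    obtain ⟨b2, b3⟩ := hB (h56.trans b0)
    refine Nbr2_one (Q := θ * (a * m * d')) hM hy hg.2.1 hm' hd b2 b3 ?_ ?_ b0
    · rwa [abs_mul, abs_of_nonneg (by positivity : (0 : ℝ) ≤ (a : ℝ) * m * d')]
    · have h1 := hn.neg
      have e : θ * ((b : ℝ) * m' * d) - θ * (a * m * d') =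
          -(θ * ((a : ℝ) * m * d' - b * m' * d)) := by ring
      rwa [e]

end Vale.Agent.P028G
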