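import Vale.Agent.P028G.Defs

/-! Symmetry in the two endpoints, and summation over dyadic levels. -/

namespace Vale.Agent.P028G

open Finset Real MeasureTheory Filter Vale.Agent.P028

theorem uu_mul (q r : ℕ) : Nat.gcd q r * uu q r = q :=
  Nat.mul_div_cancel' (Nat.gcd_dvd_left q r)

theorem uu_mul' (q r : ℕ) : Nat.gcd q r * uu r q = r := by
  rw [Nat.gcd_comm]; exact uu_mul r q

theorem uu_coprime {q r : ℕ} (hq : 0 < q) : Nat.Coprime (uu q r) (uu r q) := by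
  unfold uu
  rw [Nat.gcd_comm r q]
  exact Nat.coprime_div_gcd_div_gcd (Nat.gcd_pos_of_pos_left r hq)

theorem uu_pos {q : ℕ} (hq : 0 < q) (r : ℕ) : 0 < uu q r :=
  Nat.div_pos (Nat.le_of_dvd hq (Nat.gcd_dvd_left q r)) (Nat.gcd_pos_of_pos_left r hq)

theorem HH_swap (x x' : ℤ × ℕ) (u v : ℕ) (h : ℤ) : HH x' x v u (-h) = -HH x x' u v h := by
  unfold HH; ring

theorem chi_swap (x x' : ℤ × ℕ) {q r : ℕ} (hq : 0 < q) (h : ℤ) :
    chi x' x r q (-h) = chi x x' q r h := by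
  unfold chi
  rw [mul_comm r q]
  refine prod_congr rfl fun p hp => ?_
  have hpp := Nat.prime_of_mem_primeFactors hp
  have hc := uu_coprime (r := r) hq
  unfold chp
  have e1 : (p : ℤ) ∣ -h * x'.2 + x'.1 * (uu q r : ℕ) ↔
      (p : ℤ) ∣ h * x'.2 - x'.1 * (uu q r : ℕ) := by
    rw [show -h * x'.2 + x'.1 * (uu q r : ℕ) = -(h * x'.2 - x'.1 * (uu q r : ℕ)) by ring, dvd_neg]
  have e2 : (p : ℤ) ∣ -h * x.2 - x.1 * (uu r q : ℕ) ↔ (p : ℤ) ∣ h * x.2 + x.1 * (uu r q : ℕ) := by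
    rw [show -h * x.2 - x.1 * (uu r q : ℕ) = -(h * x.2 + x.1 * (uu r q : ℕ)) by ring, dvd_neg]
  by_cases h1 : p ∣ uu q r
  · have h2 : ¬ p ∣ uu r q := fun h2 =>
      hpp.one_lt.ne' (Nat.eq_one_of_dvd_coprimes hc h1 h2)
    simp only [h1, h2, if_true, if_false, e2]
  · by_cases h2 : p ∣ uu r q
    · simp only [h1, h2, if_true, if_false, e1]
    · simp only [h1, h2, if_false, HH_swap, dvd_neg, mul_comm x'.2 x.2]

theorem JJ_swap {γ D : ℝ} {q r : ℕ} {h : ℤ} : -h ∈ JJ γ D r q ↔ h ∈ JJ γ D q r := by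
  rw [mem_JJ, mem_JJ, ← abs_neg]
  have e : -(((-h : ℤ) : ℝ) + γ * ((uu q r : ℝ) - uu r q)) =
      (h : ℝ) + γ * ((uu r q : ℝ) - uu q r) := by push_cast; ring
  rw [e]

theorem S3_swap (x x' : ℤ × ℕ) (q r : ℕ) (h : ℤ) : S3 x' x r q (-h) = S3 x x' q r h := by
  unfold S3
  rw [Nat.gcd_comm r q, HH_swap, mul_comm (uu r q), mul_comm x'.2]
  simp only [dvd_neg]

theorem Anom.symm {γ T : ℝ} {ψ : ℕ → ℝ} {q r : ℕ} (hq : 0 < q) (h : Anom γ ψ T q r) :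
    Anom γ ψ T r q := by
  obtain ⟨k, h1, h2, h3⟩ := h
  refine ⟨-k, ?_, ?_, ?_⟩
  · rw [DD_comm ψ r q]; exact JJ_swap.2 h1
  · rwa [chi_swap _ _ hq]
  · rwa [S3_swap]

theorem SC_comm (γ : ℝ) (ψ : ℕ → ℝ) {q : ℕ} (hq : 0 < q) (r : ℕ) :
    SC γ ψ q r = SC γ ψ r q := by
  unfold SC
  rw [DD_comm ψ r q]
  refine sum_bij' (fun h _ => -h) (fun h _ => -h) (fun h hh => JJ_swap.2 hh)
    (fun h hh => JJ_swap.1 (by rwa [neg_neg])) (fun h _ => neg_neg h) (fun h _ => neg_neg h) ?_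
  intro h _
  exact (chi_swap _ _ hq h).symm

theorem SS_nonneg (γ : ℝ) {ψ : ℕ → ℝ} (hψ : ∀ q, 0 ≤ ψ q) (q r : ℕ) : 0 ≤ SS γ ψ q r := by
  unfold SS
  have h1 : 0 ≤ DD ψ q r :=
    le_max_of_le_left (mul_nonneg (hψ q) (Nat.cast_nonneg _))
  exact mul_nonneg (div_nonneg (mul_nonneg (wt_nonneg (hψ q)) (wt_nonneg (hψ r))) h1)
    (SC_nonneg _ _ _ _)

theorem sum_levels (ψ : ℕ → ℝ) (E : Finset (ℕ × ℕ)) (hD : ∀ e ∈ E, 0 < DD ψ e.1 e.2)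
    (F : ℕ × ℕ → ℝ) (g : ℝ → ℝ) (G : ℝ) (hg : ∀ J : Finset ℤ, ∑ j ∈ J, g (2 ^ j) ≤ G)
    (h : ∀ j : ℤ, ∀ E' ⊆ E, (∀ e ∈ E', (2 : ℝ) ^ j / 2 < DD ψ e.1 e.2 ∧ DD ψ e.1 e.2 ≤ 2 ^ j) →
      ∑ e ∈ E', F e ≤ g (2 ^ j)) : ∑ e ∈ E, F e ≤ G := by
  classical
  have hex : ∀ e : ℕ × ℕ, ∃ j : ℤ, 0 < DD ψ e.1 e.2 →
      (2 : ℝ) ^ j / 2 < DD ψ e.1 e.2 ∧ DD ψ e.1 e.2 ≤ 2 ^ j := by
    intro e
    by_cases h0 : 0 < DD ψ e.1 e.2
    · obtain ⟨n, hn⟩ := exists_mem_Ioc_zpow h0 (show (1 : ℝ) < 2 by norm_num)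
      refine ⟨n + 1, fun _ => ⟨?_, hn.2⟩⟩
      rw [zpow_add_one₀ (by norm_num)]
      linarith [hn.1]
    · exact ⟨0, fun h1 => absurd h1 h0⟩
  choose lv hlv using hex
  rw [← sum_fiberwise_of_maps_to (s := E) (t := E.image lv) (g := lv)
    (fun e he => mem_image_of_mem _ he)]
  refine le_trans (sum_le_sum fun j _ => h j _ (filter_subset _ _) ?_) (hg _)
  intro e he
  obtain ⟨he1, rfl⟩ := mem_filter.1 he
  exact hlv e (hD e he1)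

theorem geo_min (c : ℝ) (hc : 0 < c) : ∃ G : ℝ, 0 < G ∧ ∀ J : Finset ℤ,
    ∑ j ∈ J, min (((2 : ℝ) ^ j) ^ c) (((2 : ℝ) ^ j) ^ (-c)) ≤ G := by
  classical
  have hg1 : (1 / 2 : ℝ) ^ c < 1 := rpow_lt_one (by norm_num) (by norm_num) hc
  have hG : 0 < (1 - (1 / 2 : ℝ) ^ c)⁻¹ := inv_pos.2 (by linarith)
  refine ⟨2 * (1 - (1 / 2 : ℝ) ^ c)⁻¹, by positivity, fun J => ?_⟩
  have key : ∀ j : ℤ, min (((2 : ℝ) ^ j) ^ c) (((2 : ℝ) ^ j) ^ (-c)) ≤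
      ((1 / 2 : ℝ) ^ j.natAbs) ^ c := by
    intro j
    rcases Int.natAbs_eq j with h | h
    · refine (min_le_right _ _).trans (le_of_eq ?_)
      conv_lhs => rw [h]
      rw [zpow_natCast, rpow_neg (by positivity), ← inv_rpow (by positivity), one_div, inv_pow]
    · refine (min_le_left _ _).trans (le_of_eq ?_)
      conv_lhs => rw [h]
      rw [zpow_neg, zpow_natCast, one_div, inv_pow]
  refine (sum_le_sum fun j _ => key j).trans ?_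
  rw [← sum_filter_add_sum_filter_not J (fun j => 0 ≤ j), two_mul]
  refine add_le_add ?_ ?_
  · rw [← sum_image (f := fun n : ℕ => ((1 / 2 : ℝ) ^ n) ^ c) (g := Int.natAbs)]
    · exact block_geo hc _
    · intro a ha b hb hab
      have h1 := (mem_filter.1 ha).2
      have h2 := (mem_filter.1 hb).2
      omega
  · rw [← sum_image (f := fun n : ℕ => ((1 / 2 : ℝ) ^ n) ^ c) (g := Int.natAbs)]
    · exact block_geo hc _
    · intro a ha b hb hab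
      have h1 := (mem_filter.1 ha).2
      have h2 := (mem_filter.1 hb).2
      omega

end Vale.Agent.P028G
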