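import Vale.Agent.P028G.Defs

/-! Thin sets of integers. -/

namespace Vale.Agent.P028G

open Finset Real MeasureTheory Filter Vale.Agent.P028

theorem Thin_dyadic {S : Finset ℕ} {σ : ℝ} (h : Thin S σ) (hS : ∀ n ∈ S, 0 < n)
    (f g : ℕ → ℝ) (hg0 : ∀ j, 0 ≤ g j) (hfg : ∀ n j : ℕ, (2 : ℝ) ^ j ≤ n → f n ≤ g j)
    (J : Finset ℕ) (hJ : ∀ n ∈ S, Nat.log 2 n ∈ J) :
    ∑ n ∈ S, f n ≤ ∑ j ∈ J, σ * 2 ^ j * g j := by
  rw [← sum_fiberwise_of_maps_to hJ f]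
  refine sum_le_sum fun j _ => ?_
  have h1 : ∀ n ∈ S.filter (fun n => Nat.log 2 n = j),
      (2 : ℝ) ^ j ≤ n ∧ (n : ℝ) < 2 * 2 ^ j := by
    intro n hn
    obtain ⟨hn1, hn2⟩ := mem_filter.1 hn
    have a1 : 2 ^ j ≤ n := hn2 ▸ Nat.pow_log_le_self 2 (hS n hn1).ne'
    have a2 : n < 2 ^ (j + 1) := hn2 ▸ Nat.lt_pow_succ_log_self (by norm_num) n
    rw [pow_succ, mul_comm] at a2
    exact ⟨by exact_mod_cast a1, by exact_mod_cast a2⟩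
  have h2 : S.filter (fun n => Nat.log 2 n = j) ⊆
      S.filter fun n : ℕ => (2 : ℝ) ^ j ≤ n ∧ (n : ℝ) < 2 * 2 ^ j := fun n hn =>
    mem_filter.2 ⟨(mem_filter.1 hn).1, h1 n hn⟩
  have h3 : ((S.filter (fun n => Nat.log 2 n = j)).card : ℝ) ≤ σ * 2 ^ j :=
    (Nat.cast_le.2 (card_le_card h2)).trans (h _ (by positivity))
  calc ∑ n ∈ S.filter (fun n => Nat.log 2 n = j), f n
      ≤ ∑ n ∈ S.filter (fun n => Nat.log 2 n = j), g j :=
        sum_le_sum fun n hn => hfg n j (h1 n hn).1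
    _ = ((S.filter (fun n => Nat.log 2 n = j)).card : ℝ) * g j := by
        rw [sum_const, nsmul_eq_mul]
    _ ≤ _ := mul_le_mul_of_nonneg_right h3 (hg0 j)

theorem Thin_top {S : Finset ℕ} {Y : ℝ} (hY : 1 ≤ Y) (hS : ∀ n ∈ S, 0 < n ∧ (n : ℝ) ≤ Y) :
    ∃ N : ℕ, (2 : ℝ) ^ N ≤ Y ∧ ∀ n ∈ S, Nat.log 2 n ∈ range (N + 1) := by
  have h0 : ⌊Y⌋₊ ≠ 0 := (Nat.floor_pos.2 hY).ne'
  refine ⟨Nat.log 2 ⌊Y⌋₊, ?_, fun n hn => ?_⟩
  · have a1 : ((2 ^ Nat.log 2 ⌊Y⌋₊ : ℕ) : ℝ) ≤ ⌊Y⌋₊ :=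
      Nat.cast_le.2 (Nat.pow_log_le_self 2 h0)
    rw [Nat.cast_pow, Nat.cast_ofNat] at a1
    exact a1.trans (Nat.floor_le (by linarith))
  · exact mem_range.2 (Nat.lt_succ_of_le (Nat.log_mono_right (Nat.le_floor (hS n hn).2)))

theorem Thin_geom (N : ℕ) : ∑ j ∈ range (N + 1), √((2 : ℝ) ^ j) ≤ 4 * √((2 : ℝ) ^ N) := by
  induction N with
  | zero => simp
  | succ N ih =>
    rw [sum_range_succ]
    have h1 : √((2 : ℝ) ^ (N + 1)) = √((2 : ℝ) ^ N) * √2 := by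
      rw [pow_succ, sqrt_mul (by positivity)]
    have h2 : (4 / 3 : ℝ) ≤ √2 := le_sqrt_of_sq_le (by norm_num)
    have h3 : 0 ≤ √((2 : ℝ) ^ N) := sqrt_nonneg _
    rw [h1]
    nlinarith

theorem Thin_aux {ι : Type} (I : Finset ι) (S : Finset ℕ) (P : ι → ℕ → Prop) (c σ : ι → ℝ)
    (hc : ∀ i ∈ I, 0 ≤ c i) (h1 : ∀ n ∈ S, ∃ I' ⊆ I, (∀ i ∈ I', P i n) ∧ 1 ≤ ∑ i ∈ I', c i)
    (h2 : ∀ i ∈ I, ∀ S' ⊆ S, (∀ n ∈ S', P i n) → Thin S' (σ i)) :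
    Thin S (∑ i ∈ I, c i * σ i) := by
  classical
  intro Y hY
  obtain ⟨T, hT⟩ : ∃ T, T = S.filter fun n : ℕ => Y ≤ n ∧ (n : ℝ) < 2 * Y := ⟨_, rfl⟩
  rw [← hT]
  have hTS : T ⊆ S := hT ▸ filter_subset _ _
  have h3 : ∀ n ∈ T, (1 : ℝ) ≤ ∑ i ∈ I, if P i n then c i else 0 := by
    intro n hn
    obtain ⟨I', hI, hP, hs⟩ := h1 n (hTS hn)
    rw [← sum_filter]
    exact hs.trans (sum_le_sum_of_subset_of_nonneg
      (fun i hi => mem_filter.2 ⟨hI hi, hP i hi⟩) fun i hi _ => hc i (mem_filter.1 hi).1)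
  have h4 : ∀ i ∈ I, ∑ n ∈ T, (if P i n then c i else 0) ≤ c i * σ i * Y := by
    intro i hi
    rw [← sum_filter, sum_const, nsmul_eq_mul, mul_comm, mul_assoc]
    refine mul_le_mul_of_nonneg_left ?_ (hc i hi)
    have a1 := h2 i hi (S.filter (P i)) (filter_subset _ _) (fun n hn => (mem_filter.1 hn).2) Y hY
    refine le_of_eq_of_le ?_ a1
    rw [hT, filter_comm]
  calc (T.card : ℝ) = ∑ n ∈ T, (1 : ℝ) := by rw [sum_const, nsmul_eq_mul, mul_one]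
    _ ≤ ∑ n ∈ T, ∑ i ∈ I, if P i n then c i else 0 := sum_le_sum h3
    _ = ∑ i ∈ I, ∑ n ∈ T, if P i n then c i else 0 := sum_comm
    _ ≤ ∑ i ∈ I, c i * σ i * Y := sum_le_sum h4
    _ = _ := by rw [sum_mul]

theorem sep_thin {S : Finset ℕ} {H : ℝ} (hH : 0 < H) (hS : Sep S H) : Thin S (3 / H) := by
  intro Y hY
  obtain ⟨T, hT⟩ : ∃ T, T = S.filter fun n : ℕ => Y ≤ n ∧ (n : ℝ) < 2 * Y := ⟨_, rfl⟩
  rw [← hT]
  have hm : ∀ n ∈ T, n ∈ S ∧ Y ≤ n ∧ (n : ℝ) < 2 * Y := fun n hn => mem_filter.1 (hT ▸ hn)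
  rcases T.eq_empty_or_nonempty with h0 | ⟨n0, hn0⟩
  · rw [h0, card_empty, Nat.cast_zero]
    positivity
  have hHY : H ≤ 2 * Y := (hS.1 n0 (hm n0 hn0).1).trans (hm n0 hn0).2.2.le
  have h2 : ∀ n ∈ T, ∀ n' ∈ T, n < n' → ⌊((n : ℝ) - Y) / H⌋ < ⌊((n' : ℝ) - Y) / H⌋ := by
    intro n hn n' hn' hlt
    have h3 : ((n : ℝ) - Y) / H + 1 ≤ (n' - Y) / H := by
      rw [div_add_one hH.ne']
      exact div_le_div_of_nonneg_right
        (by linarith [hS.2 n (hm n hn).1 n' (hm n' hn').1 hlt]) hH.le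
    have h4 := Int.floor_le_floor h3
    rw [Int.floor_add_one] at h4
    omega
  have hinj : Set.InjOn (fun n : ℕ => ⌊((n : ℝ) - Y) / H⌋) T := by
    intro n hn n' hn' h
    rcases lt_trichotomy n n' with hl | hl | hl
    · exact absurd h (h2 n hn n' hn' hl).ne
    · exact hl
    · exact absurd h (h2 n' hn' n hn hl).ne'
  rw [← card_image_of_injOn hinj]
  refine (cnt_int _ (L := Y / H) (by positivity) fun a ha b hb => ?_).trans ?_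
  · obtain ⟨n, hn, rfl⟩ := mem_image.1 ha
    obtain ⟨n', hn', rfl⟩ := mem_image.1 hb
    have a1 : ((⌊((n : ℝ) - Y) / H⌋ : ℤ) : ℝ) ≤ Y / H :=
      (Int.floor_le _).trans
        (div_le_div_of_nonneg_right (by linarith [(hm n hn).2.2]) hH.le)
    have a2 : (0 : ℤ) ≤ ⌊((n' : ℝ) - Y) / H⌋ :=
      Int.floor_nonneg.2 (div_nonneg (by linarith [(hm n' hn').2.1]) hH.le)
    have a3 : (0 : ℝ) ≤ ((⌊((n' : ℝ) - Y) / H⌋ : ℤ) : ℝ) := by exact_mod_cast a2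
    linarith
  · have a1 : 1 ≤ 2 * Y / H := (one_le_div hH).2 hHY
    have a2 : 3 / H * Y = Y / H + 2 * Y / H := by ring
    linarith

theorem slow_thin {S : Finset ℕ} {α β w H : ℝ} (hH : 2 ≤ H) (hw : 0 < w) (hα : |α| ≤ 1 / H)
    (hwH : w ≤ 1 / H) (hS : ∀ n ∈ S, H ≤ n ∧ H * w ≤ |α| * n ∧ Near (α * n - β) w) :
    Thin S (21 / H) := by
  intro Y hY
  have hH0 : 0 < H := by linarith
  obtain ⟨T, hT⟩ : ∃ T, T = S.filter fun n : ℕ => Y ≤ n ∧ (n : ℝ) < 2 * Y := ⟨_, rfl⟩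
  rw [← hT]
  have hm : ∀ n ∈ T, n ∈ S ∧ Y ≤ n ∧ (n : ℝ) < 2 * Y := fun n hn => mem_filter.1 (hT ▸ hn)
  rcases T.eq_empty_or_nonempty with h0 | ⟨n0, hn0⟩
  · rw [h0, card_empty, Nat.cast_zero]
    positivity
  have hHY : H ≤ 2 * Y := (hS n0 (hm n0 hn0).1).1.trans (hm n0 hn0).2.2.le
  have hHw : H * w ≤ |α| * (2 * Y) := (hS n0 (hm n0 hn0).1).2.1.trans
    (mul_le_mul_of_nonneg_left (hm n0 hn0).2.2.le (abs_nonneg _))
  have hα0 : 0 < |α| := by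
    rcases (abs_nonneg α).eq_or_lt with h | h
    · rw [← h, zero_mul] at hHw
      exact absurd hHw (not_le.2 (mul_pos hH0 hw))
    · exact h
  have hw2 : w ≤ 1 / 2 := hwH.trans (one_div_le_one_div_of_le two_pos hH)
  choose! z hz using fun n (hn : n ∈ T) => (hS n (hm n hn).1).2.2
  have h1 : (T.card : ℝ) ≤ (|α| * Y + 2) * (2 * w / |α| + 1) := by
    refine cnt_fib T z (by positivity) (fun k => ?_) ?_
    · have a1 : ((T.filter fun i => z i = k).image fun n : ℕ => (n : ℤ)).card =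
          (T.filter fun i => z i = k).card :=
        card_image_of_injective _ Nat.cast_injective
      rw [← a1]
      refine cnt_int _ (L := 2 * w / |α|) (by positivity) fun a ha b hb => ?_
      obtain ⟨n, hn, rfl⟩ := mem_image.1 ha
      obtain ⟨n', hn', rfl⟩ := mem_image.1 hb
      have h2 := abs_le.1 (hz n (mem_filter.1 hn).1)
      have h3 := abs_le.1 (hz n' (mem_filter.1 hn').1)
      rw [(mem_filter.1 hn).2] at h2
      rw [(mem_filter.1 hn').2] at h3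
      have h4 : |((n : ℝ) - n') * α| ≤ 2 * w :=
        abs_le.2 ⟨by linarith [h2.1, h3.2], by linarith [h2.2, h3.1]⟩
      rw [abs_mul] at h4
      rw [Int.cast_natCast, Int.cast_natCast]
      exact (le_abs_self _).trans ((le_div_iff₀ hα0).2 h4)
    · refine (cnt_int _ (L := |α| * Y + 1) (by positivity) fun a ha b hb => ?_).trans
        (le_of_eq (by ring))
      obtain ⟨n, hn, rfl⟩ := mem_image.1 ha
      obtain ⟨n', hn', rfl⟩ := mem_image.1 hb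
      have h2 := abs_le.1 (hz n hn)
      have h3 := abs_le.1 (hz n' hn')
      have h4 : |(n : ℝ) - n'| ≤ Y :=
        abs_le.2 ⟨by linarith [(hm n hn).2.1, (hm n' hn').2.2],
          by linarith [(hm n' hn').2.1, (hm n hn).2.2]⟩
      have h5 : ((n : ℝ) - n') * α ≤ |α| * Y := by
        refine (le_abs_self _).trans ?_
        rw [abs_mul, mul_comm]
        exact mul_le_mul_of_nonneg_left h4 hα0.le
      linarith [h2.1, h3.2]
  have h2 : (|α| * Y + 2) * (2 * w / |α| + 1) = 2 * (w * Y) + |α| * Y + 4 * (w / |α|) + 2 := by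
    generalize |α| = d at hα0
    field_simp
    ring
  have h3 : w * Y ≤ 1 / H * Y := mul_le_mul_of_nonneg_right hwH hY.le
  have h4 : |α| * Y ≤ 1 / H * Y := mul_le_mul_of_nonneg_right hα hY.le
  have h5 : w / |α| ≤ 2 * (1 / H * Y) := by
    have e : 2 * (1 / H * Y) = 2 * Y / H := by ring
    rw [e, div_le_div_iff₀ hα0 hH0]
    linarith
  have h6 : 1 ≤ 2 * (1 / H * Y) := by
    have e : 2 * (1 / H * Y) = 2 * Y / H := by ring
    rw [e]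
    exact (one_le_div hH0).2 hHY
  have h7 : 21 / H * Y = 21 * (1 / H * Y) := by ring
  rw [h7]
  linarith

theorem thin_sqrt {S : Finset ℕ} {σ Y : ℝ} (hσ : 0 ≤ σ) (h : Thin S σ)
    (hS : ∀ n ∈ S, 0 < n ∧ (n : ℝ) ≤ Y) : ∑ n ∈ S, 1 / √(n : ℝ) ≤ 4 * σ * √Y := by
  rcases S.eq_empty_or_nonempty with rfl | ⟨n0, hn0⟩
  · rw [sum_empty]
    positivity
  have hY : 1 ≤ Y := le_trans (by exact_mod_cast (hS n0 hn0).1) (hS n0 hn0).2
  obtain ⟨N, hN, hJ⟩ := Thin_top hY hS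
  have h1 := Thin_dyadic h (fun n hn => (hS n hn).1) (fun n => 1 / √(n : ℝ))
    (fun j => 1 / √((2 : ℝ) ^ j)) (fun j => by positivity)
    (fun n j hj => one_div_le_one_div_of_le (sqrt_pos.2 (by positivity)) (sqrt_le_sqrt hj)) _ hJ
  refine h1.trans ?_
  have h2 : ∀ j : ℕ, σ * 2 ^ j * (1 / √((2 : ℝ) ^ j)) = σ * √((2 : ℝ) ^ j) := by
    intro j
    rw [mul_assoc, mul_one_div, div_sqrt]
  simp only [h2]
  rw [← mul_sum, mul_comm 4 σ, mul_assoc]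
  refine mul_le_mul_of_nonneg_left ((Thin_geom N).trans ?_) hσ
  exact mul_le_mul_of_nonneg_left (sqrt_le_sqrt hN) (by norm_num)

theorem thin_inv {S : Finset ℕ} {σ Z : ℝ} (hσ : 0 ≤ σ) (hZ : 1 ≤ Z) (h : Thin S σ)
    (hS : ∀ n ∈ S, 0 < n ∧ (n : ℝ) ≤ Z) : ∑ n ∈ S, 1 / (n : ℝ) ≤ σ * (2 * log Z + 1) := by
  obtain ⟨N, hN, hJ⟩ := Thin_top hZ hS
  have h1 := Thin_dyadic h (fun n hn => (hS n hn).1) (fun n => 1 / (n : ℝ))
    (fun j => 1 / (2 : ℝ) ^ j) (fun j => by positivity)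
    (fun n j hj => one_div_le_one_div_of_le (by positivity) hj) _ hJ
  refine h1.trans ?_
  have h2 : ∀ j : ℕ, σ * 2 ^ j * (1 / (2 : ℝ) ^ j) = σ := by
    intro j
    rw [mul_assoc, mul_one_div_cancel (by positivity), mul_one]
  simp only [h2]
  rw [sum_const, card_range, nsmul_eq_mul, mul_comm]
  refine mul_le_mul_of_nonneg_left ?_ hσ
  have h3 := log_le_log (by positivity) hN
  rw [log_pow] at h3
  have h4 : (0 : ℝ) ≤ N := Nat.cast_nonneg N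
  have h5 := log_two_gt_d9
  push_cast
  nlinarith

theorem thin_rpow (ε : ℝ) (hε : 0 < ε) : ∃ ζ : ℝ, 0 < ζ ∧ ∀ (S : Finset ℕ) (σ : ℝ), 0 ≤ σ →
    Thin S σ → (∀ n ∈ S, 0 < n) → ∑ n ∈ S, (n : ℝ) ^ (-(1 + ε)) ≤ ζ * σ := by
  obtain ⟨r, hr⟩ : ∃ r : ℝ, r = (2 : ℝ) ^ (-ε) := ⟨_, rfl⟩
  have hr0 : 0 ≤ r := hr ▸ rpow_nonneg zero_le_two _
  have hr1 : r < 1 := hr ▸ rpow_lt_one_of_one_lt_of_neg one_lt_two (by linarith)
  refine ⟨(1 - r)⁻¹, inv_pos.2 (by linarith), fun S σ hσ h hS => ?_⟩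
  have h1 := Thin_dyadic h hS (fun n => (n : ℝ) ^ (-(1 + ε)))
    (fun j => ((2 : ℝ) ^ j) ^ (-(1 + ε))) (fun j => by positivity)
    (fun n j hj => rpow_le_rpow_of_nonpos (by positivity) hj (by linarith))
    (S.image (Nat.log 2)) (fun n hn => mem_image_of_mem _ hn)
  refine h1.trans ?_
  have h2 : ∀ j : ℕ, σ * 2 ^ j * ((2 : ℝ) ^ j) ^ (-(1 + ε)) = σ * r ^ j := by
    intro j
    have a1 : (0 : ℝ) < 2 ^ j := by positivity
    have a2 : ((2 : ℝ) ^ j) ^ (-ε) = r ^ j := by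
      rw [hr, ← rpow_natCast, ← rpow_mul zero_le_two, mul_comm, rpow_mul zero_le_two, rpow_natCast]
    rw [mul_assoc, ← a2, neg_add, rpow_add a1, rpow_neg_one, ← mul_assoc ((2 : ℝ) ^ j),
      mul_inv_cancel₀ a1.ne', one_mul]
  simp only [h2]
  rw [← mul_sum, mul_comm]
  refine mul_le_mul_of_nonneg_right ?_ hσ
  rw [← tsum_geometric_of_lt_one hr0 hr1]
  exact (summable_geometric_of_lt_one hr0 hr1).sum_le_tsum _ fun j _ => pow_nonneg hr0 j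

theorem thin_union {ι : Type} (I : Finset ι) (S : Finset ℕ) (P : ι → ℕ → Prop) (σ : ι → ℝ)
    (h1 : ∀ n ∈ S, ∃ i ∈ I, P i n)
    (h2 : ∀ i ∈ I, ∀ S' ⊆ S, (∀ n ∈ S', P i n) → Thin S' (σ i)) : Thin S (∑ i ∈ I, σ i) := by
  have h3 := Thin_aux I S P (fun _ => 1) σ (fun _ _ => zero_le_one) (fun n hn => by
    obtain ⟨i, hi, hP⟩ := h1 n hn
    exact ⟨{i}, singleton_subset_iff.2 hi, fun i' hi' => mem_singleton.1 hi' ▸ hP, by simp⟩) h2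
  simpa only [one_mul] using h3

theorem thin_moment {ι : Type} (I : Finset ι) (S : Finset ℕ) (P : ι → ℕ → Prop) (c σ : ι → ℝ)
    (hc : ∀ i ∈ I, 0 ≤ c i) (h1 : ∀ n ∈ S, ∃ I' ⊆ I, (∀ i ∈ I', P i n) ∧ 1 ≤ ∑ i ∈ I', c i)
    (h2 : ∀ i ∈ I, ∀ S' ⊆ S, (∀ n ∈ S', P i n) → Thin S' (σ i)) :
    Thin S (∑ i ∈ I, c i * σ i) := by
  exact Thin_aux I S P c σ hc h1 h2

end Vale.Agent.P028G
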